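import Vale.Agent.P371.Core

/-!
# P371: from moments to traces in the rank one case
-/

open MeasureTheory Set Filter Matrix Polynomial
open scoped Topology ComplexConjugate ComplexOrder

namespace Vale.P371

variable {α : Type*} [Fintype α] [DecidableEq α]

/-- The moments `v* M^i v`. -/
noncomputable def mo (M : Matrix α α ℂ) (v : α → ℂ) (i : ℕ) : ℂ := star v ⬝ᵥ ((M ^ i) *ᵥ v)

theorem mo_real {M : Matrix α α ℂ} (hM : M.IsHermitian) (v : α → ℂ) (i : ℕ) :
    mo M v i = ((mo M v i).re : ℂ) := by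
  have h : conj (mo M v i) = mo M v i := by
    unfold mo
    have hp : (M ^ i)ᴴ = M ^ i := by rw [Matrix.conjTranspose_pow, hM.eq]
    have : conj (star v ⬝ᵥ ((M ^ i) *ᵥ v)) = star (star v ⬝ᵥ ((M ^ i) *ᵥ v)) := rfl
    rw [this, ← Matrix.star_dotProduct_star, star_star, Matrix.star_mulVec, hp,
      ← Matrix.dotProduct_mulVec]
  exact (Complex.conj_eq_iff_re.mp h).symm

omit [DecidableEq α] in
theorem vmv_mul (A : Matrix α α ℂ) (v : α → ℂ) :
    vecMulVec v (star v) * A * vecMulVec v (star v) =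
      (star v ⬝ᵥ (A *ᵥ v)) • vecMulVec v (star v) := by
  rw [Matrix.mul_assoc, Matrix.mul_vecMulVec, Matrix.vecMulVec_mul_vecMulVec]
  ext i j
  simp [Matrix.vecMulVec_apply, Matrix.smul_apply]
  ring

omit [DecidableEq α] in
theorem trace_vmv_mul (A : Matrix α α ℂ) (v : α → ℂ) :
    (vecMulVec v (star v) * A).trace = star v ⬝ᵥ (A *ᵥ v) := by
  rw [Matrix.trace_mul_comm, Matrix.mul_vecMulVec, Matrix.trace_vecMulVec, dotProduct_comm]


/-- The vector `∑ c_{il} a_l M^i v`. -/
noncomputable def Sv (p : ℝ[X]) (N : ℕ) (M : Matrix α α ℂ) (v : α → ℂ) : α → ℂ :=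
  ∑ i ∈ Finset.range (N + 1), ∑ l ∈ Finset.range (N + 1),
    ((cf p i l * (mo M v l).re : ℝ) : ℂ) • ((M ^ i) *ᵥ v)

theorem cube_vmv (v : α → ℂ) : ((vecMulVec v (star v)) ^ 3).trace = (mo (1 : Matrix α α ℂ) v 0) ^ 3 := by
  have h1 := vmv_mul (1 : Matrix α α ℂ) v
  rw [Matrix.mul_one] at h1
  have h2 := trace_vmv_mul (1 : Matrix α α ℂ) v
  rw [Matrix.mul_one] at h2
  rw [pow_succ, pow_two, h1, Matrix.smul_mul, h1, Matrix.trace_smul, Matrix.trace_smul, h2,
    mo, pow_zero, smul_eq_mul, smul_eq_mul]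
  ring

theorem RF_vmv (p : ℝ[X]) (N : ℕ) {M : Matrix α α ℂ} (hM : M.IsHermitian) (v : α → ℂ) :
    (RF p N M (vecMulVec v (star v))).re = ∑ i ∈ Finset.range (N + 1),
      ∑ l ∈ Finset.range (N + 1), cf p i l * ((mo M v l).re * ∑ s ∈ Finset.range i,
        (mo M v s).re * (mo M v (i - 1 - s)).re) := by
  have e : RF p N M (vecMulVec v (star v)) = ((∑ i ∈ Finset.range (N + 1),
      ∑ l ∈ Finset.range (N + 1), cf p i l * ((mo M v l).re * ∑ s ∈ Finset.range i,
        (mo M v s).re * (mo M v (i - 1 - s)).re) : ℝ) : ℂ) := by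
    unfold RF
    push_cast
    apply Finset.sum_congr rfl; intro i _
    apply Finset.sum_congr rfl; intro l _
    congr 1
    rw [Finset.mul_sum]
    apply Finset.sum_congr rfl; intro s _
    rw [← mo_real hM, ← mo_real hM, ← mo_real hM]
    have h1 : vecMulVec v (star v) * M ^ l * (vecMulVec v (star v) * M ^ s *
        (vecMulVec v (star v) * M ^ (i - 1 - s))) =
        (vecMulVec v (star v) * M ^ l * vecMulVec v (star v)) * M ^ s *
          vecMulVec v (star v) * M ^ (i - 1 - s) := by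
      simp only [Matrix.mul_assoc]
    rw [h1, vmv_mul, Matrix.smul_mul, Matrix.smul_mul, vmv_mul, Matrix.smul_mul, Matrix.smul_mul,
      Matrix.trace_smul, Matrix.trace_smul, trace_vmv_mul]
    simp only [smul_eq_mul, mo]
    
  rw [e, Complex.ofReal_re]

theorem WF_mulVec (p : ℝ[X]) (N : ℕ) {M : Matrix α α ℂ} (hM : M.IsHermitian) (v : α → ℂ) :
    WF p N M (vecMulVec v (star v)) *ᵥ v = Sv p N M v := by
  unfold WF Sv
  rw [Finset.sum_comm, Matrix.sum_mulVec]
  apply Finset.sum_congr rfl; intro i _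
  rw [Matrix.sum_mulVec]
  apply Finset.sum_congr rfl; intro l _
  rw [Matrix.smul_mulVec, ← Matrix.mulVec_mulVec, ← Matrix.mulVec_mulVec, cf_comm p l i]
  have : vecMulVec v (star v) *ᵥ (M ^ l *ᵥ v) = mo M v l • v := by
    ext a
    simp [Matrix.mulVec, Matrix.vecMulVec_apply, dotProduct, mo, Finset.mul_sum,
      mul_comm, mul_left_comm]
  rw [this, Matrix.mulVec_smul, smul_smul, mo_real hM v l]
  push_cast
  rfl

theorem WWX_vmv (p : ℝ[X]) (N : ℕ) {M : Matrix α α ℂ} (hM : M.IsHermitian) (v : α → ℂ) :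
    (WF p N M (vecMulVec v (star v)) * WF p N M (vecMulVec v (star v)) *
      vecMulVec v (star v)).trace = star (Sv p N M v) ⬝ᵥ Sv p N M v := by
  have hX : (vecMulVec v (star v)).IsHermitian := (Matrix.posSemidef_vecMulVec_self_star v).1
  have hW := WF_isHermitian p N hM hX
  rw [Matrix.trace_mul_comm, trace_vmv_mul, ← Matrix.mulVec_mulVec, ← WF_mulVec p N hM v,
    Matrix.star_mulVec, hW.eq, ← Matrix.dotProduct_mulVec]

/-- The finite dimensional inequality in moment form implies the trace form in rank one. -/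
theorem bridge (p : ℝ[X]) (N : ℕ) (K : ℝ) {M : Matrix α α ℂ} (hM : M.IsHermitian) (v : α → ℂ)
    (h : K * (mo M v 0).re ^ 3 ≤ -(∑ i ∈ Finset.range (N + 1),
      ∑ l ∈ Finset.range (N + 1), cf p i l * ((mo M v l).re * ∑ s ∈ Finset.range i,
        (mo M v s).re * (mo M v (i - 1 - s)).re)) - (star (Sv p N M v) ⬝ᵥ Sv p N M v).re) :
    K * (((vecMulVec v (star v)) ^ 3).trace).re ≤ -(RF p N M (vecMulVec v (star v))).re -
      ((WF p N M (vecMulVec v (star v)) * WF p N M (vecMulVec v (star v)) *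
        (vecMulVec v (star v))).trace).re := by
  rw [RF_vmv p N hM, WWX_vmv p N hM, cube_vmv]
  have e : mo (1 : Matrix α α ℂ) v 0 = ((mo M v 0).re : ℂ) := by
    rw [← mo_real hM]; simp [mo]
  rw [e, ← Complex.ofReal_pow, Complex.ofReal_re]
  exact h

end Vale.P371
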