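import Mathlib

/-!
# P371: the cotangent kernel inequality and its polynomial approximation
-/

open Set Filter Polynomial
open scoped Topology

namespace Vale.P371

/-- Every real polynomial has a primitive with prescribed value at zero. -/
theorem exists_poly_primitive (q : ℝ[X]) (c : ℝ) :
    ∃ p : ℝ[X], derivative p = q ∧ p.eval 0 = c := by
  have key : ∃ p : ℝ[X], derivative p = q := by
    induction q using Polynomial.induction_on' with
    | add p q hp hq =>
      obtain ⟨a, ha⟩ := hp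
      obtain ⟨b, hb⟩ := hq
      exact ⟨a + b, by rw [derivative_add, ha, hb]⟩
    | monomial n a =>
      refine ⟨monomial (n + 1) (a / (n + 1)), ?_⟩
      rw [derivative_monomial]
      have : ((n : ℝ) + 1) ≠ 0 := by positivity
      congr 1
      push_cast
      field_simp
  obtain ⟨p, hp⟩ := key
  refine ⟨p + C (c - p.eval 0), ?_, ?_⟩
  · rw [derivative_add, derivative_C, add_zero, hp]
  · simp

/-- `u cos u ≤ sin u` on `[0, π]`. -/
theorem mul_cos_le_sin {u : ℝ} (h0 : 0 ≤ u) (h1 : u ≤ Real.pi) : u * Real.cos u ≤ Real.sin u := by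
  rcases lt_or_ge u (Real.pi / 2) with h | h
  · have hc : 0 < Real.cos u := Real.cos_pos_of_mem_Ioo ⟨by linarith [Real.pi_pos], h⟩
    have ht : u ≤ Real.tan u := Real.le_tan h0 h
    rw [Real.tan_eq_sin_div_cos, le_div_iff₀ hc] at ht
    exact ht
  · have hc : Real.cos u ≤ 0 := Real.cos_nonpos_of_pi_div_two_le_of_le h (by linarith)
    have hs : 0 ≤ Real.sin u := Real.sin_nonneg_of_nonneg_of_le_pi h0 h1
    nlinarith

/-- `cos u ≤ sin u / u` for `0 < |u| ≤ π`. -/
theorem cos_le_sin_div {u : ℝ} (h0 : u ≠ 0) (h1 : |u| ≤ Real.pi) :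
    Real.cos u ≤ Real.sin u / u := by
  rcases lt_or_gt_of_ne h0 with h | h
  · have hu : |u| = -u := abs_of_neg h
    have := mul_cos_le_sin (u := -u) (by linarith) (by rw [← hu]; exact h1)
    rw [Real.cos_neg, Real.sin_neg] at this
    rw [le_div_iff_of_neg h]
    linarith
  · rw [abs_of_pos h] at h1
    rw [le_div_iff₀ h]
    linarith [mul_cos_le_sin h.le h1]

/-- The cotangent kernel. -/
noncomputable def ck (lam ep s : ℝ) : ℝ :=
  lam * (Real.cos (lam * s + ep) / Real.sin (lam * s + ep))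

theorem arg_mem {lam ep s : ℝ} (_hep : 0 < ep) (hlam : 0 < lam) (h : 2 * lam + 2 * ep = Real.pi)
    (hs : s ∈ Icc (0:ℝ) 2) : lam * s + ep ∈ Icc ep (Real.pi - ep) := by
  obtain ⟨h0, h2⟩ := hs
  constructor
  · nlinarith
  · nlinarith

theorem sin_arg_pos {lam ep s : ℝ} (hep : 0 < ep) (hlam : 0 < lam)
    (h : 2 * lam + 2 * ep = Real.pi)
    (hs : s ∈ Icc (0:ℝ) 2) : 0 < Real.sin (lam * s + ep) := by
  obtain ⟨h0, h2⟩ := arg_mem hep hlam h hs
  exact Real.sin_pos_of_pos_of_lt_pi (by linarith) (by linarith)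

theorem ck_ineq {lam ep s t : ℝ} (hep : 0 < ep) (hlam : 0 < lam) (h : 2 * lam + 2 * ep = Real.pi)
    (hs : s ∈ Icc (0:ℝ) 2) (ht : t ∈ Icc (0:ℝ) 2) (hst : s ≠ t) :
    lam ^ 2 ≤ -((ck lam ep s - ck lam ep t) / (s - t)) - ck lam ep s * ck lam ep t := by
  have hA := arg_mem hep hlam h hs
  have hB := arg_mem hep hlam h ht
  have sA := sin_arg_pos hep hlam h hs
  have sB := sin_arg_pos hep hlam h ht
  set A := lam * s + ep with hAdef
  set B := lam * t + ep with hBdef
  have hAB : A - B = lam * (s - t) := by rw [hAdef, hBdef]; ring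
  have hst' : s - t ≠ 0 := sub_ne_zero.mpr hst
  have hne : A - B ≠ 0 := by
    rw [hAB]; exact mul_ne_zero hlam.ne' hst'
  have habs : |A - B| ≤ Real.pi := by
    rw [abs_le]
    constructor <;> linarith [hA.1, hA.2, hB.1, hB.2]
  have key := cos_le_sin_div hne habs
  have e1 : ck lam ep s - ck lam ep t = - lam * Real.sin (A - B) / (Real.sin A * Real.sin B) := by
    rw [ck, ck, ← hAdef, ← hBdef, Real.sin_sub]
    field_simp
    ring
  have e2 : -((ck lam ep s - ck lam ep t) / (s - t)) =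
      lam ^ 2 * (Real.sin (A - B) / (A - B)) / (Real.sin A * Real.sin B) := by
    rw [e1, hAB]
    field_simp
  have e3 : ck lam ep s * ck lam ep t =
      lam ^ 2 * (Real.cos A * Real.cos B) / (Real.sin A * Real.sin B) := by
    rw [ck, ck, ← hAdef, ← hBdef]
    field_simp
  rw [e2, e3, ← sub_div, le_div_iff₀ (mul_pos sA sB)]
  have hcos : Real.cos (A - B) = Real.cos A * Real.cos B + Real.sin A * Real.sin B :=
    Real.cos_sub A B
  have hl2 : 0 ≤ lam ^ 2 := sq_nonneg _
  nlinarith [mul_le_mul_of_nonneg_left key hl2]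

/-- derivative of the kernel -/
noncomputable def ckd (lam ep s : ℝ) : ℝ :=
  - lam ^ 2 / Real.sin (lam * s + ep) ^ 2

theorem ck_hasDerivAt {lam ep s : ℝ} (hs : Real.sin (lam * s + ep) ≠ 0) :
    HasDerivAt (ck lam ep) (ckd lam ep s) s := by
  have h1 : HasDerivAt (fun s : ℝ => lam * s + ep) lam s := by
    simpa using ((hasDerivAt_id s).const_mul lam).add_const ep
  have h2 := (Real.hasDerivAt_cos (lam * s + ep)).comp s h1
  have h3 := (Real.hasDerivAt_sin (lam * s + ep)).comp s h1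
  have h4 := (h2.div h3 hs).const_mul lam
  have e : ckd lam ep s = lam * ((-Real.sin (lam * s + ep) * lam * Real.sin (lam * s + ep) -
      Real.cos (lam * s + ep) * (Real.cos (lam * s + ep) * lam)) /
        Real.sin (lam * s + ep) ^ 2) := by
    have := Real.sin_sq_add_cos_sq (lam * s + ep)
    unfold ckd
    field_simp
    linear_combination (lam ^ 2) * this
  rw [e]
  exact h4

theorem ckd_continuousOn {lam ep : ℝ} (hep : 0 < ep) (hlam : 0 < lam)
    (h : 2 * lam + 2 * ep = Real.pi) : ContinuousOn (ckd lam ep) (Icc 0 2) := by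
  unfold ckd
  apply ContinuousOn.div
  · exact continuousOn_const
  · fun_prop
  · intro s hs
    exact pow_ne_zero _ (sin_arg_pos hep hlam h hs).ne'

theorem ck_continuousOn {lam ep : ℝ} (hep : 0 < ep) (hlam : 0 < lam)
    (h : 2 * lam + 2 * ep = Real.pi) : ContinuousOn (ck lam ep) (Icc 0 2) := fun _ hs =>
  (ck_hasDerivAt (sin_arg_pos hep hlam h hs).ne').continuousAt.continuousWithinAt

/-- `C¹` approximation of the kernel: values and divided differences. -/
theorem exists_poly_near {lam ep : ℝ} (hep : 0 < ep) (hlam : 0 < lam)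
    (h : 2 * lam + 2 * ep = Real.pi) {eta : ℝ} (heta : 0 < eta) :
    ∃ p : ℝ[X], (∀ s ∈ Icc (0:ℝ) 2, |p.eval s - ck lam ep s| ≤ eta) ∧
      ∀ s ∈ Icc (0:ℝ) 2, ∀ t ∈ Icc (0:ℝ) 2, s ≠ t →
        |(p.eval s - p.eval t) / (s - t) - (ck lam ep s - ck lam ep t) / (s - t)| ≤ eta := by
  obtain ⟨q, hq⟩ := exists_polynomial_near_of_continuousOn 0 2 (ckd lam ep)
    (ckd_continuousOn hep hlam h) (eta / 2) (by positivity)
  obtain ⟨p, hp, hp0⟩ := exists_poly_primitive q (ck lam ep 0)
  have hd : ∀ s ∈ Icc (0:ℝ) 2, HasDerivWithinAt (fun s => p.eval s - ck lam ep s)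
      (q.eval s - ckd lam ep s) (Icc 0 2) s := by
    intro s hs
    have h1 : HasDerivAt (fun s => p.eval s) (q.eval s) s := by
      rw [← hp]; exact p.hasDerivAt s
    exact (h1.sub (ck_hasDerivAt (sin_arg_pos hep hlam h hs).ne')).hasDerivWithinAt
  have hlip : ∀ s ∈ Icc (0:ℝ) 2, ∀ t ∈ Icc (0:ℝ) 2,
      |(p.eval s - ck lam ep s) - (p.eval t - ck lam ep t)| ≤ eta / 2 * |s - t| := by
    intro s hs t ht
    have := (convex_Icc (0:ℝ) 2).norm_image_sub_le_of_norm_hasDerivWithin_le
      (f := fun s => p.eval s - ck lam ep s) (C := eta / 2)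
      hd (fun x hx => (hq x hx).le) ht hs
    simpa [Real.norm_eq_abs] using this
  refine ⟨p, ?_, ?_⟩
  · intro s hs
    have := hlip s hs 0 (by constructor <;> norm_num)
    rw [hp0, sub_self, sub_zero, sub_zero, abs_of_nonneg hs.1] at this
    nlinarith [hs.2]
  · intro s hs t ht hst
    have hst' : s - t ≠ 0 := sub_ne_zero.mpr hst
    rw [← sub_div, abs_div, div_le_iff₀ (abs_pos.mpr hst')]
    have := hlip s hs t ht
    have e : p.eval s - p.eval t - (ck lam ep s - ck lam ep t) =
      (p.eval s - ck lam ep s) - (p.eval t - ck lam ep t) := by ring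
    rw [e]
    have h0 : 0 ≤ |s - t| := abs_nonneg _
    nlinarith

/-- The coefficients of `p (x + y)`. -/
noncomputable def cf (p : ℝ[X]) (i l : ℕ) : ℝ := p.coeff (i + l) * ((i + l).choose i : ℝ)

theorem cf_comm (p : ℝ[X]) (i l : ℕ) : cf p i l = cf p l i := by
  unfold cf
  rw [add_comm i l]
  congr 2
  rw [Nat.choose_symm_add]

theorem cf_eq_zero {p : ℝ[X]} {N : ℕ} (hN : p.natDegree ≤ N) {i l : ℕ} (h : N < i + l) :
    cf p i l = 0 := by
  unfold cf
  rw [Polynomial.coeff_eq_zero_of_natDegree_lt (by omega), zero_mul]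

theorem eval_add_eq {p : ℝ[X]} {N : ℕ} (hN : p.natDegree ≤ N) (x y : ℝ) :
    p.eval (x + y) = ∑ i ∈ Finset.range (N + 1), ∑ l ∈ Finset.range (N + 1),
      cf p i l * (x ^ i * y ^ l) := by
  rw [Polynomial.eval_eq_sum_range' (n := 2 * N + 1) (by omega)]
  have e1 : ∀ n ∈ Finset.range (2 * N + 1), p.coeff n * (x + y) ^ n =
      ∑ m ∈ Finset.range (N + 1) ×ˢ Finset.range (N + 1) with m.1 + m.2 = n,
        cf p m.1 m.2 * (x ^ m.1 * y ^ m.2) := by
    intro n hn
    rcases le_or_gt n N with hnN | hnN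
    · rw [(Commute.all x y).add_pow', Finset.mul_sum]
      have hset : (Finset.range (N + 1) ×ˢ Finset.range (N + 1)).filter
          (fun m => m.1 + m.2 = n) = Finset.HasAntidiagonal.antidiagonal n := by
        ext ⟨a, b⟩
        simp only [Finset.mem_filter, Finset.mem_product, Finset.mem_range,
          Finset.HasAntidiagonal.mem_antidiagonal]
        omega
      rw [hset]
      apply Finset.sum_congr rfl
      intro m hm
      rw [Finset.HasAntidiagonal.mem_antidiagonal] at hm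
      rw [cf, hm, nsmul_eq_mul]
      ring
    · rw [Polynomial.coeff_eq_zero_of_natDegree_lt (by omega), zero_mul]
      symm
      apply Finset.sum_eq_zero
      intro m hm
      rw [Finset.mem_filter] at hm
      rw [cf_eq_zero hN (by omega), zero_mul]
  rw [Finset.sum_congr rfl e1, ← Finset.sum_product']
  apply Finset.sum_fiberwise_of_maps_to
  intro m hm
  simp only [Finset.mem_product, Finset.mem_range] at hm ⊢
  omega

/-- The divided difference of `p` at `x + y`, `z + y` as a polynomial in `x, y, z`. -/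
noncomputable def dd (p : ℝ[X]) (N : ℕ) (x y z : ℝ) : ℝ :=
  ∑ i ∈ Finset.range (N + 1), ∑ l ∈ Finset.range (N + 1),
    cf p i l * (y ^ l * ∑ k ∈ Finset.range i, x ^ k * z ^ (i - 1 - k))

theorem dd_mul {p : ℝ[X]} {N : ℕ} (hN : p.natDegree ≤ N) (x y z : ℝ) :
    dd p N x y z * (x - z) = p.eval (x + y) - p.eval (z + y) := by
  rw [eval_add_eq hN, eval_add_eq hN, dd, Finset.sum_mul, ← Finset.sum_sub_distrib]
  apply Finset.sum_congr rfl
  intro i _
  rw [Finset.sum_mul, ← Finset.sum_sub_distrib]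
  apply Finset.sum_congr rfl
  intro l _
  have := geom_sum₂_mul x z i
  linear_combination (cf p i l * y ^ l) * this

theorem dd_continuous (p : ℝ[X]) (N : ℕ) (y z : ℝ) : Continuous (fun x => dd p N x y z) := by
  unfold dd
  fun_prop

/-- The polynomial kernel inequality. -/
theorem exists_poly_kernel {d : ℝ} (hd : 0 < d) : ∃ p : ℝ[X],
    ∀ N : ℕ, p.natDegree ≤ N → ∀ x ∈ Icc (0:ℝ) 1, ∀ y ∈ Icc (0:ℝ) 1, ∀ z ∈ Icc (0:ℝ) 1,
      (Real.pi / 2) ^ 2 - d ≤ - dd p N x y z - p.eval (x + y) * p.eval (z + y) := by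
  have hpi := Real.pi_pos
  -- choice of the parameter
  obtain ⟨ep, hep, hep1, hep2⟩ : ∃ ep : ℝ, 0 < ep ∧ ep < Real.pi / 2 ∧
      Real.pi * ep ≤ d / 2 := by
    refine ⟨min (Real.pi / 4) (d / (2 * Real.pi)), ?_, ?_, ?_⟩
    · positivity
    · exact lt_of_le_of_lt (min_le_left _ _) (by linarith)
    · calc Real.pi * min (Real.pi / 4) (d / (2 * Real.pi)) ≤ Real.pi * (d / (2 * Real.pi)) :=
          mul_le_mul_of_nonneg_left (min_le_right _ _) hpi.le
        _ = d / 2 := by field_simp
  set lam : ℝ := Real.pi / 2 - ep with hlamdef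
  have hlam : 0 < lam := by linarith
  have h : 2 * lam + 2 * ep = Real.pi := by rw [hlamdef]; ring
  -- bound of the kernel
  obtain ⟨F, hF⟩ := isCompact_Icc.exists_bound_of_continuousOn (ck_continuousOn hep hlam h)
  have hF0 : 0 ≤ F := le_trans (norm_nonneg _) (hF 0 (by constructor <;> norm_num))
  obtain ⟨eta, heta, heta1, heta2⟩ : ∃ eta : ℝ, 0 < eta ∧ eta ≤ 1 ∧
      eta * (2 + 2 * F) ≤ d / 2 := by
    refine ⟨min 1 (d / (2 * (2 + 2 * F))), ?_, min_le_left _ _, ?_⟩
    · have : 0 < 2 + 2 * F := by linarith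
      positivity
    · have h3 : 0 < 2 + 2 * F := by linarith
      calc min 1 (d / (2 * (2 + 2 * F))) * (2 + 2 * F) ≤ d / (2 * (2 + 2 * F)) * (2 + 2 * F) :=
          mul_le_mul_of_nonneg_right (min_le_right _ _) h3.le
        _ = d / 2 := by field_simp
  obtain ⟨p, hp1, hp2⟩ := exists_poly_near hep hlam h heta
  refine ⟨p, fun N hN => ?_⟩
  -- the inequality off the diagonal
  have off : ∀ x ∈ Icc (0:ℝ) 1, ∀ y ∈ Icc (0:ℝ) 1, ∀ z ∈ Icc (0:ℝ) 1, x ≠ z →
      (Real.pi / 2) ^ 2 - d ≤ - dd p N x y z - p.eval (x + y) * p.eval (z + y) := by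
    intro x hx y hy z hz hxz
    have hs : x + y ∈ Icc (0:ℝ) 2 := ⟨by linarith [hx.1, hy.1], by linarith [hx.2, hy.2]⟩
    have ht : z + y ∈ Icc (0:ℝ) 2 := ⟨by linarith [hz.1, hy.1], by linarith [hz.2, hy.2]⟩
    have hst : x + y ≠ z + y := fun hh => hxz (add_right_cancel hh)
    have hdd : dd p N x y z = (p.eval (x + y) - p.eval (z + y)) / ((x + y) - (z + y)) := by
      rw [eq_div_iff (sub_ne_zero.mpr hst), ← dd_mul hN]
      ring
    have k1 := ck_ineq hep hlam h hs ht hst
    have k2 := hp2 _ hs _ ht hst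
    have k3 := hp1 _ hs
    have k4 := hp1 _ ht
    have k5 := hF _ hs
    have k6 := hF _ ht
    rw [Real.norm_eq_abs] at k5 k6
    rw [← hdd] at k2
    set P := p.eval (x + y)
    set Q := p.eval (z + y)
    set f := ck lam ep (x + y)
    set g := ck lam ep (z + y)
    set D := (f - g) / ((x + y) - (z + y))
    have k7 : P * Q - f * g ≤ eta * (1 + 2 * F) := by
      have e : P * Q - f * g = (P - f) * (Q - g) + (P - f) * g + f * (Q - g) := by ring
      have b1 : (P - f) * (Q - g) ≤ eta * 1 := by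
        calc (P - f) * (Q - g) ≤ |(P - f) * (Q - g)| := le_abs_self _
          _ = |P - f| * |Q - g| := abs_mul _ _
          _ ≤ eta * 1 := mul_le_mul k3 (k4.trans heta1) (abs_nonneg _) heta.le
      have b2 : (P - f) * g ≤ eta * F := by
        calc (P - f) * g ≤ |(P - f) * g| := le_abs_self _
          _ = |P - f| * |g| := abs_mul _ _
          _ ≤ eta * F := mul_le_mul k3 k6 (abs_nonneg _) heta.le
      have b3 : f * (Q - g) ≤ F * eta := by
        calc f * (Q - g) ≤ |f * (Q - g)| := le_abs_self _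
          _ = |f| * |Q - g| := abs_mul _ _
          _ ≤ F * eta := mul_le_mul k5 k4 (abs_nonneg _) hF0
      rw [e]; nlinarith
    have k8 : dd p N x y z - D ≤ eta := (le_abs_self _).trans k2
    have k9 : (Real.pi / 2) ^ 2 - d / 2 ≤ lam ^ 2 := by
      rw [hlamdef]; nlinarith [sq_nonneg ep]
    nlinarith
  intro x hx y hy z hz
  rcases ne_or_eq x z with hxz | rfl
  · exact off x hx y hy z hz hxz
  · -- approach the diagonal
    have hcont : Continuous (fun w => - dd p N w y x - p.eval (w + y) * p.eval (x + y)) :=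
      (dd_continuous p N y x).neg.sub
        ((p.continuous.comp (continuous_id.add continuous_const)).mul continuous_const)
    have hmem : x ∈ closure (Icc (0:ℝ) 1 ∩ {x}ᶜ) := by
      have : x ∈ closure (Ioo (0:ℝ) 1 ∩ {x}ᶜ) := by
        have hd1 : Dense ({x}ᶜ : Set ℝ) := dense_compl_singleton x
        have h2 : x ∈ closure (Ioo (0:ℝ) 1) := by
          rw [closure_Ioo (by norm_num)]; exact hx
        rw [mem_closure_iff_nhds] at h2 ⊢
        intro t ht
        obtain ⟨o, hot, ho, hxo⟩ := mem_nhds_iff.mp ht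
        obtain ⟨w, hw1, hw2⟩ := h2 o (ho.mem_nhds hxo)
        obtain ⟨v, hv1, hv2⟩ := hd1.inter_open_nonempty (o ∩ Ioo 0 1) (ho.inter isOpen_Ioo)
          ⟨w, hw1, hw2⟩
        exact ⟨v, hot hv1.1, hv1.2, hv2⟩
      exact closure_mono (inter_subset_inter_left _ Ioo_subset_Icc_self) this
    have hclosed : IsClosed {w : ℝ | (Real.pi / 2) ^ 2 - d ≤
        - dd p N w y x - p.eval (w + y) * p.eval (x + y)} :=
      isClosed_le continuous_const hcont
    exact hclosed.closure_subset_iff.mpr (fun w hw => off w hw.1 y hy x hx hw.2) hmem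

end Vale.P371
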