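import Vale.Agent.P371.Prim
import Vale.Agent.P371.Kernel

/-!
# P371: matrix valued absolutely continuous calculus and the basic differential inequality
-/

open MeasureTheory Set Filter Matrix Polynomial
open scoped Topology ComplexConjugate

namespace Vale.P371

variable {α β γ : Type*}

/-- Entrywise primitive of a matrix valued function. -/
def PrimM (F f : ℝ → Matrix α β ℂ) : Prop :=
  ∀ i j, Prim (fun x => F x i j) (fun x => f x i j)

namespace PrimM

theorem mul [Fintype β] {F f : ℝ → Matrix α β ℂ} {G g : ℝ → Matrix β γ ℂ} (h : PrimM F f) (h' : PrimM G g) :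
    PrimM (fun x => F x * G x) (fun x => f x * G x + F x * g x) := by
  intro i j
  have := Prim.sum Finset.univ (F := fun k x => F x i k * G x k j)
    (f := fun k x => f x i k * G x k j + F x i k * g x k j)
    (fun k _ => (h i k).mulC (h' k j))
  simpa only [Matrix.mul_apply, Matrix.add_apply, Finset.sum_add_distrib] using this

theorem add {F f G g : ℝ → Matrix α β ℂ} (h : PrimM F f) (h' : PrimM G g) :
    PrimM (fun x => F x + G x) (fun x => f x + g x) :=
  fun i j => (h i j).add (h' i j)

theorem const (A : Matrix α β ℂ) : PrimM (fun _ => A) (fun _ => 0) :=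
  fun i j => Prim.const (A i j)

theorem conjTranspose {F f : ℝ → Matrix α β ℂ} (h : PrimM F f) :
    PrimM (fun x => (F x)ᴴ) (fun x => (f x)ᴴ) :=
  fun i j => (h j i).conj

theorem pow [Fintype α] [DecidableEq α] {F f : ℝ → Matrix α α ℂ} (h : PrimM F f) (n : ℕ) :
    PrimM (fun x => F x ^ n)
      (fun x => ∑ k ∈ Finset.range n, F x ^ k * f x * F x ^ (n - 1 - k)) := by
  induction n with
  | zero => simpa using const (1 : Matrix α α ℂ)
  | succ n ih =>
    have h1 := ih.mul h
    have e1 : (fun x => F x ^ (n + 1)) = fun x => F x ^ n * F x := by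
      funext x; rw [pow_succ]
    have e2 : (fun x => ∑ k ∈ Finset.range (n + 1), F x ^ k * f x * F x ^ (n + 1 - 1 - k)) =
        fun x => (∑ k ∈ Finset.range n, F x ^ k * f x * F x ^ (n - 1 - k)) * F x +
          F x ^ n * f x := by
      funext x
      rw [Finset.sum_range_succ, Finset.sum_mul]
      congr 1
      · apply Finset.sum_congr rfl
        intro k hk
        rw [Finset.mem_range] at hk
        rw [mul_assoc (F x ^ k * f x), ← pow_succ]
        congr 2
        omega
      · simp
    rw [e1, e2]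
    exact h1

theorem trace [Fintype α] {F f : ℝ → Matrix α α ℂ} (h : PrimM F f) :
    Prim (fun x => (F x).trace) (fun x => (f x).trace) :=
  Prim.sum Finset.univ (fun i _ => h i i)

theorem continuous {F f : ℝ → Matrix α β ℂ} (h : PrimM F f) : Continuous F :=
  continuous_matrix (fun i j => (h i j).continuous)

end PrimM

variable [Fintype α] [Fintype β]

/-- The functional `½ ∑ c_{il} tr (X M^l X M^i)`. -/
noncomputable def PsiF [DecidableEq α] (p : ℝ[X]) (N : ℕ) (M X : Matrix α α ℂ) : ℂ :=
  ∑ i ∈ Finset.range (N + 1), ∑ l ∈ Finset.range (N + 1),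
    ((cf p i l / 2 : ℝ) : ℂ) * (X * M ^ l * (X * M ^ i)).trace

/-- `W = ∑ c_{il} M^l X M^i`. -/
noncomputable def WF [DecidableEq α] (p : ℝ[X]) (N : ℕ) (M X : Matrix α α ℂ) : Matrix α α ℂ :=
  ∑ i ∈ Finset.range (N + 1), ∑ l ∈ Finset.range (N + 1),
    ((cf p i l : ℝ) : ℂ) • (M ^ l * X * M ^ i)

/-- `∑ c_{il} ∑_{s<i} tr (X M^l X M^s X M^{i-1-s})`. -/
noncomputable def RF [DecidableEq α] (p : ℝ[X]) (N : ℕ) (M X : Matrix α α ℂ) : ℂ :=
  ∑ i ∈ Finset.range (N + 1), ∑ l ∈ Finset.range (N + 1),
    ((cf p i l : ℝ) : ℂ) * ∑ s ∈ Finset.range i,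
      (X * M ^ l * (X * M ^ s * (X * M ^ (i - 1 - s)))).trace

/-- Derivative of `PsiF` along `M' = X`. -/
theorem psi_prim [DecidableEq α] (p : ℝ[X]) (N : ℕ) {M X x' : ℝ → Matrix α α ℂ}
    (hM : PrimM M X) (hX : PrimM X x') :
    Prim (fun t => PsiF p N (M t) (X t))
      (fun t => (x' t * WF p N (M t) (X t)).trace + RF p N (M t) (X t)) := by
  -- derivative of each summand
  have key : ∀ i l : ℕ, Prim (fun t => (X t * M t ^ l * (X t * M t ^ i)).trace)
      (fun t => (x' t * (M t ^ l * X t * M t ^ i)).trace +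
        (x' t * (M t ^ i * X t * M t ^ l)).trace +
        ∑ s ∈ Finset.range i, (X t * M t ^ l * (X t * M t ^ s * (X t * M t ^ (i - 1 - s)))).trace +
        ∑ s ∈ Finset.range l,
          (X t * M t ^ i * (X t * M t ^ s * (X t * M t ^ (l - 1 - s)))).trace) := by
    intro i l
    have h1 := ((hX.mul (hM.pow l)).mul (hX.mul (hM.pow i))).trace
    convert h1 using 1
    funext t
    rw [Matrix.trace_add, add_mul, Matrix.trace_add, mul_add, Matrix.trace_add]
    have a1 : (x' t * (M t ^ l * X t * M t ^ i)).trace =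
        (x' t * M t ^ l * (X t * M t ^ i)).trace := by
      congr 1; simp only [Matrix.mul_assoc]
    have a2 : (x' t * (M t ^ i * X t * M t ^ l)).trace =
        (X t * M t ^ l * (x' t * M t ^ i)).trace := by
      rw [Matrix.trace_mul_comm (X t * M t ^ l)]
      congr 1; simp only [Matrix.mul_assoc]
    have a3 : ∑ s ∈ Finset.range i,
        (X t * M t ^ l * (X t * M t ^ s * (X t * M t ^ (i - 1 - s)))).trace =
        (X t * M t ^ l * (X t * ∑ k ∈ Finset.range i,
          M t ^ k * X t * M t ^ (i - 1 - k))).trace := by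
      rw [Finset.mul_sum, Finset.mul_sum, Matrix.trace_sum]
      apply Finset.sum_congr rfl
      intro s _
      congr 1; simp only [Matrix.mul_assoc]
    have a4 : ∑ s ∈ Finset.range l,
        (X t * M t ^ i * (X t * M t ^ s * (X t * M t ^ (l - 1 - s)))).trace =
        ((X t * ∑ k ∈ Finset.range l,
          M t ^ k * X t * M t ^ (l - 1 - k)) * (X t * M t ^ i)).trace := by
      rw [Matrix.trace_mul_comm, Finset.mul_sum, Finset.mul_sum, Matrix.trace_sum]
      apply Finset.sum_congr rfl
      intro s _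
      congr 1; simp only [Matrix.mul_assoc]
    rw [a1, a2, a3, a4]
    ring
  have h2 : Prim (fun t => PsiF p N (M t) (X t)) _ :=
    Prim.sum (Finset.range (N + 1)) (fun i _ =>
    Prim.sum (Finset.range (N + 1)) (fun l _ => (key i l).ofReal_mul ((cf p i l / 2 : ℝ) : ℂ)))
  convert h2 using 1
  funext t
  -- symmetrisation
  have sym : ∀ f : ℕ → ℕ → ℂ,
      ∑ i ∈ Finset.range (N + 1), ∑ l ∈ Finset.range (N + 1),
        ((cf p i l / 2 : ℝ) : ℂ) * (f i l + f l i) =
      ∑ i ∈ Finset.range (N + 1), ∑ l ∈ Finset.range (N + 1), ((cf p i l : ℝ) : ℂ) * f i l := by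
    intro f
    simp only [mul_add, Finset.sum_add_distrib]
    have : ∑ i ∈ Finset.range (N + 1), ∑ l ∈ Finset.range (N + 1),
        ((cf p i l / 2 : ℝ) : ℂ) * f l i =
        ∑ i ∈ Finset.range (N + 1), ∑ l ∈ Finset.range (N + 1),
        ((cf p i l / 2 : ℝ) : ℂ) * f i l := by
      rw [Finset.sum_comm]
      apply Finset.sum_congr rfl; intro i _
      apply Finset.sum_congr rfl; intro l _
      rw [cf_comm]
    rw [this, ← Finset.sum_add_distrib]
    apply Finset.sum_congr rfl; intro i _
    rw [← Finset.sum_add_distrib]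
    apply Finset.sum_congr rfl; intro l _
    push_cast; ring
  have e1 : (x' t * WF p N (M t) (X t)).trace =
      ∑ i ∈ Finset.range (N + 1), ∑ l ∈ Finset.range (N + 1), ((cf p i l : ℝ) : ℂ) *
        (x' t * (M t ^ l * X t * M t ^ i)).trace := by
    unfold WF
    simp only [Finset.mul_sum, Matrix.trace_sum, Matrix.mul_smul, Matrix.trace_smul, smul_eq_mul]
  rw [e1, ← sym, RF, ← sym, ← Finset.sum_add_distrib]
  apply Finset.sum_congr rfl; intro i _
  rw [← Finset.sum_add_distrib]
  apply Finset.sum_congr rfl; intro l _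
  ring

end Vale.P371
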