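import Vale.Agent.P371.Calc

/-!
# P371: integration of the basic differential inequality
-/

open MeasureTheory Set Filter Matrix Polynomial
open scoped Topology ComplexConjugate ComplexOrder

namespace Vale.P371

variable {α β : Type*} [Fintype α] [Fintype β] [DecidableEq α]

theorem WF_isHermitian (p : ℝ[X]) (N : ℕ) {M X : Matrix α α ℂ} (hM : M.IsHermitian)
    (hX : X.IsHermitian) : (WF p N M X).IsHermitian := by
  unfold WF Matrix.IsHermitian
  simp only [Matrix.conjTranspose_sum, Matrix.conjTranspose_smul, Matrix.conjTranspose_mul,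
    Matrix.conjTranspose_pow, hM.eq, hX.eq]
  rw [Finset.sum_comm]
  apply Finset.sum_congr rfl; intro i _
  apply Finset.sum_congr rfl; intro l _
  rw [cf_comm, Matrix.mul_assoc]
  congr 1
  exact Complex.conj_ofReal _

/-- The pointwise inequality. -/
theorem pointwise (p : ℝ[X]) (N : ℕ) {K : ℝ} {M : Matrix α α ℂ} (U G : Matrix α β ℂ)
    (hM : M.IsHermitian)
    (H : K * (((U * Uᴴ) ^ 3).trace).re ≤ -(RF p N M (U * Uᴴ)).re -
      ((WF p N M (U * Uᴴ) * WF p N M (U * Uᴴ) * (U * Uᴴ)).trace).re) :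
    (((G * Uᴴ + U * Gᴴ) * WF p N M (U * Uᴴ)).trace + RF p N M (U * Uᴴ)).re +
      K * (((U * Uᴴ) ^ 3).trace).re ≤ ((Gᴴ * G).trace).re := by
  have hX : (U * Uᴴ).IsHermitian := Matrix.isHermitian_mul_conjTranspose_self U
  have hW := WF_isHermitian p N hM hX
  set W := WF p N M (U * Uᴴ) with hWdef
  have h0 : 0 ≤ (((G - W * U)ᴴ * (G - W * U)).trace).re := by
    have := (Matrix.posSemidef_conjTranspose_mul_self (G - W * U)).trace_nonneg
    exact (Complex.le_def.mp this).1
  have e0 : ((G - W * U)ᴴ * (G - W * U)).trace = (Gᴴ * G).trace -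
      ((G * Uᴴ + U * Gᴴ) * W).trace + (W * W * (U * Uᴴ)).trace := by
    rw [Matrix.conjTranspose_sub, Matrix.conjTranspose_mul, hW.eq]
    have a1 : (Uᴴ * W * G).trace = (G * Uᴴ * W).trace := by
      rw [Matrix.trace_mul_comm, ← Matrix.mul_assoc]
    have a2 : (Gᴴ * (W * U)).trace = (U * Gᴴ * W).trace := by
      rw [← Matrix.mul_assoc, Matrix.trace_mul_comm, ← Matrix.mul_assoc]
    have a3 : (Uᴴ * W * (W * U)).trace = (W * W * (U * Uᴴ)).trace := by
      rw [Matrix.mul_assoc, Matrix.trace_mul_comm]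
      simp only [Matrix.mul_assoc]
    rw [Matrix.sub_mul, Matrix.mul_sub, Matrix.mul_sub, Matrix.trace_sub, Matrix.trace_sub,
      Matrix.trace_sub, a1, a2, a3, Matrix.add_mul, Matrix.trace_add]
    ring
  rw [e0] at h0
  simp only [Complex.add_re, Complex.sub_re] at h0 ⊢
  linarith


/-- The matrix of the values of a family. -/
def Um (u : α → β → ℝ → ℂ) (x : ℝ) : Matrix α β ℂ := fun i c => u i c x

/-- `X = U U*`. -/
def Xm (u : α → β → ℝ → ℂ) (x : ℝ) : Matrix α α ℂ := Um u x * (Um u x)ᴴ

/-- `∫_S U U*`. -/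
noncomputable def MS (u : α → β → ℝ → ℂ) (S : Set ℝ) : Matrix α α ℂ :=
  fun i j => ∫ t in S, Xm u t i j

/-- `X'`. -/
def Xd (u g : α → β → ℝ → ℂ) (x : ℝ) : Matrix α α ℂ :=
  Um g x * (Um u x)ᴴ + Um u x * (Um g x)ᴴ

omit [DecidableEq α] in
theorem psd_integral {μ : Measure ℝ} {X : ℝ → Matrix α α ℂ}
    (hX : ∀ i j, Integrable (fun t => X t i j) μ) (hp : ∀ t, (X t).PosSemidef) :
    Matrix.PosSemidef (fun i j => ∫ t, X t i j ∂μ : Matrix α α ℂ) := by
  refine Matrix.PosSemidef.of_dotProduct_mulVec_nonneg ?_ ?_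
  · ext i j
    change conj (∫ t, X t j i ∂μ) = ∫ t, X t i j ∂μ
    rw [← integral_conj]
    congr 1
    funext t
    have := congrFun (congrFun (hp t).isHermitian.eq i) j
    rw [Matrix.conjTranspose_apply] at this
    exact this
  · intro v
    have e : star v ⬝ᵥ ((fun i j => ∫ t, X t i j ∂μ : Matrix α α ℂ) *ᵥ v) =
        ∫ t, star v ⬝ᵥ (X t *ᵥ v) ∂μ := by
      simp only [dotProduct, Matrix.mulVec]
      rw [integral_finsetSum]
      · apply Finset.sum_congr rfl; intro i _
        rw [integral_const_mul, integral_finsetSum]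
        · congr 1
          apply Finset.sum_congr rfl; intro j _
          rw [integral_mul_const]
        · intro j _
          exact (hX i j).mul_const _
      · intro i _
        exact (integrable_finsetSum _ (fun j _ => (hX i j).mul_const _)).const_mul _
    rw [e]
    have e2 : (fun t => star v ⬝ᵥ (X t *ᵥ v)) =
        fun t => ((star v ⬝ᵥ (X t *ᵥ v)).re : ℂ) := by
      funext t
      have := Complex.le_def.mp ((hp t).dotProduct_mulVec_nonneg v)
      apply Complex.ext
      · simp
      · simpa using this.2.symm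
    rw [e2, integral_complex_ofReal]
    rw [Complex.zero_le_real]
    apply integral_nonneg
    intro t
    exact (Complex.le_def.mp ((hp t).dotProduct_mulVec_nonneg v)).1


omit [Fintype α] [Fintype β] [DecidableEq α] in
theorem tendsto_mat {F : ℝ → Matrix α β ℂ} {l : Filter ℝ} {A : Matrix α β ℂ}
    (h : ∀ i j, Tendsto (fun x => F x i j) l (𝓝 (A i j))) : Tendsto F l (𝓝 A) :=
  tendsto_pi_nhds.mpr (fun i => tendsto_pi_nhds.mpr (fun j => h i j))

/-- Hypotheses: the family consists of `H¹` functions with derivatives `g`. -/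
structure Fam (u g : α → β → ℝ → ℂ) : Prop where
  hu : ∀ i c, MemLp (u i c) 2 volume
  hg : ∀ i c, MemLp (g i c) 2 volume
  ftc : ∀ i c x y, u i c y - u i c x = ∫ t in x..y, g i c t

theorem integrable_mul_conj {f g : ℝ → ℂ} (hf : MemLp f 2 volume) (hg : MemLp g 2 volume) :
    Integrable (fun x => f x * conj (g x)) := by
  have hg' : MemLp (fun x => conj (g x)) 2 volume := hg.star
  exact hf.integrable_mul hg'

namespace Fam

variable {u g : α → β → ℝ → ℂ}

omit [Fintype α] [Fintype β] [DecidableEq α] in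
theorem prim (h : Fam u g) (i : α) (c : β) : Prim (u i c) (g i c) := by
  intro a b
  refine ⟨?_, h.ftc i c a b⟩
  have h1 : LocallyIntegrable (g i c) volume :=
    (h.hg i c).locallyIntegrable (by norm_num)
  rw [intervalIntegrable_iff']
  exact h1.integrableOn_isCompact isCompact_uIcc

omit [Fintype α] [Fintype β] [DecidableEq α] in
theorem primU (h : Fam u g) : PrimM (Um u) (Um g) := fun i c => h.prim i c

omit [Fintype α] [DecidableEq α] in
theorem primX (h : Fam u g) : PrimM (Xm u) (Xd u g) := by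
  have := h.primU.mul h.primU.conjTranspose
  exact this

omit [Fintype α] [DecidableEq α] in
theorem intX (h : Fam u g) (i j : α) : Integrable (fun x => Xm u x i j) := by
  have : (fun x => Xm u x i j) = fun x => ∑ c, u i c x * conj (u j c x) := by
    funext x
    simp [Xm, Um, Matrix.mul_apply, Matrix.conjTranspose_apply]
  rw [this]
  exact integrable_finsetSum _ (fun c _ => integrable_mul_conj (h.hu i c) (h.hu j c))

omit [Fintype α] [DecidableEq α] in
theorem intXd (h : Fam u g) (i j : α) : Integrable (fun x => Xd u g x i j) := by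
  have : (fun x => Xd u g x i j) = fun x => ∑ c, g i c x * conj (u j c x) +
      ∑ c, u i c x * conj (g j c x) := by
    funext x
    simp [Xd, Um, Matrix.mul_apply, Matrix.conjTranspose_apply]
  rw [this]
  exact (integrable_finsetSum _ (fun c _ => integrable_mul_conj (h.hg i c) (h.hu j c))).add
    (integrable_finsetSum _ (fun c _ => integrable_mul_conj (h.hu i c) (h.hg j c)))

omit [Fintype α] [DecidableEq α] in
theorem tendsto_Xm_atTop (h : Fam u g) : Tendsto (Xm u) atTop (𝓝 0) := by
  refine tendsto_mat (fun i j => ?_)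
  exact (h.primX i j).tendsto_atTop_zero (h.intXd i j) (h.intX i j)

omit [Fintype α] [DecidableEq α] in
theorem tendsto_Xm_atBot (h : Fam u g) : Tendsto (Xm u) atBot (𝓝 0) := by
  refine tendsto_mat (fun i j => ?_)
  exact (h.primX i j).tendsto_atBot_zero (h.intXd i j) (h.intX i j)

omit [Fintype α] [DecidableEq α] in
theorem primMS (h : Fam u g) : PrimM (fun x => MS u (Iic x)) (Xm u) :=
  fun i j => Prim.iic (h.intX i j)

omit [DecidableEq α] in
theorem psd (h : Fam u g) (S : Set ℝ) : (MS u S).PosSemidef :=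
  psd_integral (fun i j => (h.intX i j).integrableOn)
    (fun t => Matrix.posSemidef_self_mul_conjTranspose (Um u t))

omit [Fintype α] [DecidableEq α] in
theorem tendsto_MS_atTop (h : Fam u g) :
    Tendsto (fun x => MS u (Iic x)) atTop (𝓝 (MS u univ)) := by
  refine tendsto_mat (fun i j => ?_)
  have := Prim.iic_atTop (h.intX i j)
  simpa [MS] using this

omit [Fintype α] [DecidableEq α] in
theorem tendsto_MS_atBot (h : Fam u g) :
    Tendsto (fun x => MS u (Iic x)) atBot (𝓝 0) := by
  refine tendsto_mat (fun i j => ?_)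
  exact Prim.iic_atBot (h.intX i j)

theorem psd_one_sub (h : Fam u g)
    (ho : ∀ i j, ∫ t, Xm u t i j = if i = j then 1 else 0) (x : ℝ) :
    (1 - MS u (Iic x)).PosSemidef := by
  have e : 1 - MS u (Iic x) = MS u (Ioi x) := by
    ext i j
    change (1 : Matrix α α ℂ) i j - ∫ t in Iic x, Xm u t i j = ∫ t in Ioi x, Xm u t i j
    rw [Matrix.one_apply, ← ho i j, sub_eq_iff_eq_add, add_comm,
      intervalIntegral.integral_Iic_add_Ioi (h.intX i j).integrableOn (h.intX i j).integrableOn]
  rw [e]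
  exact h.psd _

omit [DecidableEq α] in
theorem int_cube (h : Fam u g) : Integrable (fun x => ((Xm u x * Xm u x * Xm u x).trace).re) := by
  classical
  have hb : ∀ i j, ∃ C, ∀ x, ‖Xm u x i j‖ ≤ C := fun i j =>
    ⟨_, fun x => (h.primX i j).norm_le (h.intXd i j) x⟩
  have e : (fun x => (Xm u x * Xm u x * Xm u x).trace) = fun x =>
      ∑ i, ∑ k, (∑ j, Xm u x i j * Xm u x j k) * Xm u x k i := by
    funext x
    simp [Matrix.trace, Matrix.diag, Matrix.mul_apply]
  have h1 : Integrable (fun x => (Xm u x * Xm u x * Xm u x).trace) := by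
    rw [e]
    refine integrable_finsetSum _ (fun i _ => integrable_finsetSum _ (fun k _ => ?_))
    simp only [Finset.sum_mul]
    refine integrable_finsetSum _ (fun j _ => ?_)
    obtain ⟨C1, hC1⟩ := hb i j
    obtain ⟨C2, hC2⟩ := hb j k
    refine Integrable.bdd_mul (c := C1 * C2) (h.intX k i) ?_ ?_
    · exact ((h.primX i j).continuous.mul (h.primX j k).continuous).aestronglyMeasurable
    · refine Eventually.of_forall (fun x => ?_)
      rw [norm_mul]
      exact mul_le_mul (hC1 x) (hC2 x) (norm_nonneg _) ((norm_nonneg _).trans (hC1 x))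
  exact h1.re

theorem psi_continuous (p : ℝ[X]) (N : ℕ) :
    Continuous (fun q : Matrix α α ℂ × Matrix α α ℂ => PsiF p N q.1 q.2) := by
  unfold PsiF
  refine continuous_finsetSum _ (fun i _ => continuous_finsetSum _ (fun l _ => ?_))
  refine continuous_const.mul ?_
  refine Continuous.matrix_trace ?_
  exact (continuous_snd.matrix_mul (continuous_fst.pow l)).matrix_mul
    (continuous_snd.matrix_mul (continuous_fst.pow i))

theorem psi_zero (p : ℝ[X]) (N : ℕ) (M : Matrix α α ℂ) : PsiF p N M 0 = 0 := by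
  simp [PsiF]

theorem tendsto_psi_atTop (h : Fam u g) (p : ℝ[X]) (N : ℕ) :
    Tendsto (fun x => PsiF p N (MS u (Iic x)) (Xm u x)) atTop (𝓝 0) := by
  have h1 := ((psi_continuous (α := α) p N).tendsto (MS u univ, 0)).comp
    (h.tendsto_MS_atTop.prodMk_nhds h.tendsto_Xm_atTop)
  rw [psi_zero] at h1
  exact h1

theorem tendsto_psi_atBot (h : Fam u g) (p : ℝ[X]) (N : ℕ) :
    Tendsto (fun x => PsiF p N (MS u (Iic x)) (Xm u x)) atBot (𝓝 0) := by
  have h1 := ((psi_continuous (α := α) p N).tendsto (0, 0)).comp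
    (h.tendsto_MS_atBot.prodMk_nhds h.tendsto_Xm_atBot)
  rw [psi_zero] at h1
  exact h1

omit [DecidableEq α] in
/-- The kinetic energy density. -/
theorem kin_eq (g : α → β → ℝ → ℂ) (x : ℝ) :
    (((Um g x)ᴴ * Um g x).trace).re = ∑ c, ∑ i, ‖g i c x‖ ^ 2 := by
  simp only [Matrix.trace, Matrix.diag, Matrix.mul_apply, Matrix.conjTranspose_apply, Um,
    Complex.re_sum]
  refine Finset.sum_congr rfl (fun c _ => Finset.sum_congr rfl (fun i _ => ?_))
  rw [Complex.star_def, ← Complex.normSq_eq_conj_mul_self, Complex.ofReal_re,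
    Complex.normSq_eq_norm_sq]

omit [Fintype α] [Fintype β] [DecidableEq α] in
theorem int_sq (h : Fam u g) (i : α) (c : β) : Integrable (fun x => ‖g i c x‖ ^ 2) :=
  (h.hg i c).integrable_norm_pow (by norm_num)

/-- Integration of the pointwise inequality. -/
theorem kinetic_core (h : Fam u g)
    (ho : ∀ i j, ∫ t, Xm u t i j = if i = j then 1 else 0) (p : ℝ[X]) (N : ℕ) (K : ℝ)
    (H : ∀ M : Matrix α α ℂ, M.PosSemidef → (1 - M).PosSemidef → ∀ U : Matrix α β ℂ,
      K * (((U * Uᴴ) ^ 3).trace).re ≤ -(RF p N M (U * Uᴴ)).re -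
        ((WF p N M (U * Uᴴ) * WF p N M (U * Uᴴ) * (U * Uᴴ)).trace).re) :
    K * ∫ x, ((Xm u x * Xm u x * Xm u x).trace).re ≤ ∑ c, ∑ i, ∫ x, ‖g i c x‖ ^ 2 := by
  -- primitive of the functional
  have hpsi := (psi_prim p N h.primMS h.primX).clm Complex.reCLM
  have hkin : Integrable (fun x => ∑ c, ∑ i, ‖g i c x‖ ^ 2) :=
    integrable_finsetSum _ (fun c _ => integrable_finsetSum _ (fun i _ => h.int_sq i c))
  have hpt : ∀ x, Complex.reCLM (((Xd u g x) * WF p N (MS u (Iic x)) (Xm u x)).trace +
      RF p N (MS u (Iic x)) (Xm u x)) + K * ((Xm u x * Xm u x * Xm u x).trace).re ≤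
      ∑ c, ∑ i, ‖g i c x‖ ^ 2 := by
    intro x
    have := pointwise p N (K := K) (Um u x) (Um g x) (h.psd (Iic x)).isHermitian
      (H _ (h.psd (Iic x)) (h.psd_one_sub ho x) (Um u x))
    rw [kin_eq] at this
    have e3 : (Um u x * (Um u x)ᴴ) ^ 3 = Xm u x * Xm u x * Xm u x := by
      rw [Xm, pow_succ, pow_two]
    rw [e3] at this
    exact this
  -- inequality on `[-R, R]`
  have hR : ∀ R : ℝ, 0 ≤ R → Complex.reCLM (PsiF p N (MS u (Iic R)) (Xm u R)) -
      Complex.reCLM (PsiF p N (MS u (Iic (-R))) (Xm u (-R))) +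
      K * ∫ x in (-R)..R, ((Xm u x * Xm u x * Xm u x).trace).re ≤
      ∫ x in (-R)..R, ∑ c, ∑ i, ‖g i c x‖ ^ 2 := by
    intro R hR
    rw [hpsi.sub_eq, ← intervalIntegral.integral_const_mul,
      ← intervalIntegral.integral_add (hpsi.intervalIntegrable _ _)
        ((h.int_cube.intervalIntegrable).const_mul K)]
    apply intervalIntegral.integral_mono_on (by linarith)
    · exact (hpsi.intervalIntegrable _ _).add ((h.int_cube.intervalIntegrable).const_mul K)
    · exact hkin.intervalIntegrable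
    · intro x _
      exact hpt x
  -- the limit
  have t1 : Tendsto (fun R : ℝ => Complex.reCLM (PsiF p N (MS u (Iic R)) (Xm u R)) -
      Complex.reCLM (PsiF p N (MS u (Iic (-R))) (Xm u (-R))) +
      K * ∫ x in (-R)..R, ((Xm u x * Xm u x * Xm u x).trace).re) atTop
      (𝓝 (Complex.reCLM 0 - Complex.reCLM 0 +
        K * ∫ x, ((Xm u x * Xm u x * Xm u x).trace).re)) := by
    refine Tendsto.add (Tendsto.sub ?_ ?_) ?_
    · exact (Complex.reCLM.continuous.tendsto 0).comp (h.tendsto_psi_atTop p N)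
    · exact (Complex.reCLM.continuous.tendsto 0).comp
        ((h.tendsto_psi_atBot p N).comp tendsto_neg_atTop_atBot)
    · exact (intervalIntegral_tendsto_integral h.int_cube tendsto_neg_atTop_atBot
        tendsto_id).const_mul K
  have t2 : Tendsto (fun R : ℝ => ∫ x in (-R)..R, ∑ c, ∑ i, ‖g i c x‖ ^ 2) atTop
      (𝓝 (∫ x, ∑ c, ∑ i, ‖g i c x‖ ^ 2)) :=
    intervalIntegral_tendsto_integral hkin tendsto_neg_atTop_atBot tendsto_id
  have key := le_of_tendsto_of_tendsto t1 t2 (eventually_atTop.mpr ⟨0, fun R hR' => hR R hR'⟩)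
  rw [map_zero, sub_zero, zero_add] at key
  rw [integral_finsetSum _ (fun c _ => integrable_finsetSum _ (fun i _ => h.int_sq i c))] at key
  refine key.trans (le_of_eq ?_)
  refine Finset.sum_congr rfl (fun c _ => ?_)
  exact integral_finsetSum _ (fun i _ => h.int_sq i c)

end Fam

end Vale.P371
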