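import Mathlib

/-!
# P371: positive semidefinite kernels (matrix case)
-/

open Set Filter Matrix MeasureTheory
open scoped Topology

namespace Vale.P371

variable {ι : Type*} [Fintype ι]

/-- Build a real positive semidefinite matrix from its quadratic form. -/
theorem psd_of {K : ι → ι → ℝ} (hs : ∀ a c, K a c = K c a)
    (h : ∀ v : ι → ℝ, 0 ≤ ∑ a, ∑ c, v a * v c * K a c) : (Matrix.of K).PosSemidef := by
  refine Matrix.PosSemidef.of_dotProduct_mulVec_nonneg ?_ ?_
  · ext a c
    simp [Matrix.conjTranspose_apply, hs a c]
  · intro v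
    have := h v
    simp only [dotProduct, mulVec, Pi.star_apply, star_trivial, Matrix.of_apply, Finset.mul_sum]
    calc (0:ℝ) ≤ ∑ a, ∑ c, v a * v c * K a c := this
      _ = ∑ a, ∑ c, v a * (K a c * v c) := by
        apply Finset.sum_congr rfl; intro a _
        apply Finset.sum_congr rfl; intro c _
        ring

/-- The quadratic form of a real positive semidefinite matrix. -/
theorem psd_quad {K : ι → ι → ℝ} (h : (Matrix.of K).PosSemidef) (v : ι → ℝ) :
    0 ≤ ∑ a, ∑ c, v a * v c * K a c := by
  have := h.dotProduct_mulVec_nonneg v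
  simp only [dotProduct, mulVec, Pi.star_apply, star_trivial, Matrix.of_apply,
    Finset.mul_sum] at this
  calc (0:ℝ) ≤ ∑ a, ∑ c, v a * (K a c * v c) := this
    _ = ∑ a, ∑ c, v a * v c * K a c := by
        apply Finset.sum_congr rfl; intro a _
        apply Finset.sum_congr rfl; intro c _
        ring

omit [Fintype ι] in
theorem psd_symm {K : ι → ι → ℝ} (h : (Matrix.of K).PosSemidef) (a c : ι) : K a c = K c a := by
  have := h.isHermitian.apply a c
  simpa using this.symm

omit [Fintype ι] in
theorem psd_mul {K L : ι → ι → ℝ} (h : (Matrix.of K).PosSemidef) (h' : (Matrix.of L).PosSemidef) :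
    (Matrix.of fun a c => K a c * L a c).PosSemidef :=
  h.hadamard h'

omit [Fintype ι] in
theorem psd_add {K L : ι → ι → ℝ} (h : (Matrix.of K).PosSemidef) (h' : (Matrix.of L).PosSemidef) :
    (Matrix.of fun a c => K a c + L a c).PosSemidef :=
  h.add h'

theorem psd_const_mul {K : ι → ι → ℝ} (h : (Matrix.of K).PosSemidef) {t : ℝ} (ht : 0 ≤ t) :
    (Matrix.of fun a c => t * K a c).PosSemidef := by
  apply psd_of
  · intro a c; rw [psd_symm h a c]
  · intro v
    have h0 := mul_nonneg ht (psd_quad h v)
    have e : ∑ a, ∑ c, v a * v c * (t * K a c) = t * ∑ a, ∑ c, v a * v c * K a c := by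
      rw [Finset.mul_sum]
      apply Finset.sum_congr rfl; intro a _
      rw [Finset.mul_sum]
      apply Finset.sum_congr rfl; intro c _
      ring
    rw [e]; exact h0

theorem psd_rank_one (w : ι → ℝ) : (Matrix.of fun a c => w a * w c).PosSemidef := by
  apply psd_of
  · intro a c; ring
  · intro v
    have : ∑ a, ∑ c, v a * v c * (w a * w c) = (∑ a, v a * w a) ^ 2 := by
      rw [sq, Finset.sum_mul_sum]
      apply Finset.sum_congr rfl; intro a _
      apply Finset.sum_congr rfl; intro c _
      ring
    rw [this]; positivity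

theorem psd_const {t : ℝ} (ht : 0 ≤ t) : (Matrix.of fun (_ _ : ι) => t).PosSemidef := by
  have := psd_const_mul (psd_rank_one (fun _ : ι => (1:ℝ))) ht
  simpa using this

/-- Pointwise limits of positive semidefinite kernels. -/
theorem psd_lim {K : ℕ → ι → ι → ℝ} {L : ι → ι → ℝ} (h : ∀ n, (Matrix.of (K n)).PosSemidef)
    (hl : ∀ a c, Tendsto (fun n => K n a c) atTop (𝓝 (L a c))) : (Matrix.of L).PosSemidef := by
  apply psd_of
  · intro a c
    exact tendsto_nhds_unique (hl a c) ((hl c a).congr (fun n => (psd_symm (h n) a c).symm))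
  · intro v
    have : Tendsto (fun n => ∑ a, ∑ c, v a * v c * K n a c) atTop
        (𝓝 (∑ a, ∑ c, v a * v c * L a c)) :=
      tendsto_finsetSum _ fun a _ => tendsto_finsetSum _ fun c _ => (hl a c).const_mul _
    exact ge_of_tendsto' this (fun n => psd_quad (h n) v)

/-- Integrals of positive semidefinite kernels. -/
theorem rpsd_integral {K : ℝ → ι → ι → ℝ} {u w : ℝ} (huw : u ≤ w)
    (h : ∀ r ∈ Ioo u w, (Matrix.of (K r)).PosSemidef)
    (hi : ∀ a c, IntervalIntegrable (fun r => K r a c) volume u w) :
    (Matrix.of fun a c => ∫ r in u..w, K r a c).PosSemidef := by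
  have hIoo : ∀ {f g : ℝ → ℝ}, (∀ r ∈ Ioo u w, f r = g r) →
      ∫ r in u..w, f r = ∫ r in u..w, g r := by
    intro f g hfg
    rw [intervalIntegral.integral_of_le huw, intervalIntegral.integral_of_le huw,
      integral_Ioc_eq_integral_Ioo, integral_Ioc_eq_integral_Ioo]
    exact setIntegral_congr_fun measurableSet_Ioo hfg
  apply psd_of
  · intro a c
    exact hIoo (fun r hr => psd_symm (h r hr) a c)
  · intro v
    have e : ∑ a, ∑ c, v a * v c * ∫ r in u..w, K r a c =
        ∫ r in u..w, ∑ a, ∑ c, v a * v c * K r a c := by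
      rw [intervalIntegral.integral_finsetSum]
      · apply Finset.sum_congr rfl; intro a _
        rw [intervalIntegral.integral_finsetSum]
        · apply Finset.sum_congr rfl; intro c _
          rw [intervalIntegral.integral_const_mul]
        · intro c _
          exact (hi a c).const_mul _
      · intro a _
        have := IntervalIntegrable.sum Finset.univ
          (fun c _ => (hi a c).const_mul (v a * v c)) (f := fun c r => v a * v c * K r a c)
        simpa [Finset.sum_fn] using this
    rw [e, intervalIntegral.integral_of_le huw, integral_Ioc_eq_integral_Ioo]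
    exact setIntegral_nonneg measurableSet_Ioo (fun r hr => psd_quad (h r hr) v)

/-! ### The sinc kernel -/

theorem sinc_eq_integral (u : ℝ) : Real.sinc u = ∫ d in (0:ℝ)..1, Real.cos (d * u) := by
  rcases eq_or_ne u 0 with rfl | hu
  · simp
  · rw [Real.sinc_of_ne_zero hu, intervalIntegral.integral_comp_mul_right (fun x => Real.cos x) hu]
    simp [integral_cos]
    field_simp

theorem psd_cos (t : ℝ) (x : ι → ℝ) :
    (Matrix.of fun a c => Real.cos (t * (x a - x c))).PosSemidef := by
  have h := psd_add (psd_rank_one (fun a => Real.cos (t * x a)))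
    (psd_rank_one (fun a => Real.sin (t * x a)))
  convert h using 4 with a c
  rw [mul_sub, Real.cos_sub]

theorem psd_sinc (t : ℝ) (x : ι → ℝ) :
    (Matrix.of fun a c => Real.sinc (t * (x a - x c))).PosSemidef := by
  have h := rpsd_integral (ι := ι) (K := fun d a c => Real.cos (d * (t * (x a - x c))))
    (zero_le_one) (fun d _ => by
      have := psd_cos (d * t) x
      convert this using 5 with a c
      ring) (fun a c => by
      apply Continuous.intervalIntegrable
      fun_prop)
  convert h using 4 with a c
  exact sinc_eq_integral _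

/-! ### The third divided difference -/

/-- The divided difference of `-cos`. -/
noncomputable def Lf (x y : ℝ) : ℝ := Real.sinc ((x - y) / 2) * Real.sin ((x + y) / 2)

theorem Lf_comm (x y : ℝ) : Lf x y = Lf y x := by
  unfold Lf
  rw [← Real.sinc_neg, add_comm x y]
  congr 2
  ring

theorem Lf_self (x : ℝ) : Lf x x = Real.sin x := by
  unfold Lf
  simp

theorem sub_mul_Lf (x y : ℝ) : (x - y) * Lf x y = Real.cos y - Real.cos x := by
  rcases eq_or_ne x y with rfl | h
  · simp
  · have h' : (x - y) / 2 ≠ 0 := by
      intro h0; apply h; linarith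
    unfold Lf
    rw [Real.sinc_of_ne_zero h', Real.cos_sub_cos]
    have : x - y ≠ 0 := sub_ne_zero.mpr h
    have e1 : (y + x) / 2 = (x + y) / 2 := by ring
    have e2 : (y - x) / 2 = -((x - y) / 2) := by ring
    rw [e1, e2, Real.sin_neg]
    field_simp

theorem Lf_continuous : Continuous (fun q : ℝ × ℝ => Lf q.1 q.2) := by
  unfold Lf
  have := Real.continuous_sinc
  fun_prop

theorem integral_one_sub_mul_cos {b u : ℝ} (hu : u ≠ 0) :
    ∫ r in (0:ℝ)..1, (1 - r) * Real.cos (b + r * u) =
      - Real.sin b / u + (Real.cos b - Real.cos (b + u)) / u ^ 2 := by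
  have hd : ∀ r ∈ uIcc (0:ℝ) 1, HasDerivAt
      (fun r => (1 - r) * Real.sin (b + r * u) / u - Real.cos (b + r * u) / u ^ 2)
      ((1 - r) * Real.cos (b + r * u)) r := by
    intro r _
    have h1 : HasDerivAt (fun r : ℝ => b + r * u) u r := by
      simpa using ((hasDerivAt_id r).mul_const u).const_add b
    have h2 : HasDerivAt (fun r : ℝ => 1 - r) (-1) r := by
      simpa using (hasDerivAt_id r).const_sub 1
    have h3 := (h2.mul h1.sin).div_const u
    have h4 := (h1.cos).div_const (u ^ 2)
    have e : (1 - r) * Real.cos (b + r * u) =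
        ((-1) * Real.sin (b + r * u) + (1 - r) * (Real.cos (b + r * u) * u)) / u -
          (-Real.sin (b + r * u) * u) / u ^ 2 := by
      field_simp
      ring
    rw [e]
    exact h3.sub h4
  rw [intervalIntegral.integral_eq_sub_of_hasDerivAt hd (by
    apply Continuous.intervalIntegrable; fun_prop)]
  simp
  field_simp
  ring

/-- The kernel of the third divided difference. -/
theorem divided_identity (a b c : ℝ) :
    Lf a b + Lf b c - Lf a c - Real.sin b =
      (a - b) * (c - b) *
        ∫ r in (0:ℝ)..1, (1 - r) * (r * Lf (b + r * (a - b)) (b + r * (c - b))) := by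
  rcases eq_or_ne a b with rfl | hab
  · simp [Lf_self]
  -- continuity in c
  have hL : Continuous (fun c => Lf a b + Lf b c - Lf a c - Real.sin b) := by
    have h1 : Continuous (fun c => Lf b c) :=
      Lf_continuous.comp (continuous_const.prodMk continuous_id)
    have h2 : Continuous (fun c => Lf a c) :=
      Lf_continuous.comp (continuous_const.prodMk continuous_id)
    fun_prop
  have hR : Continuous (fun c => (a - b) * (c - b) *
        ∫ r in (0:ℝ)..1, (1 - r) * (r * Lf (b + r * (a - b)) (b + r * (c - b)))) := by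
    have h1 : Continuous (fun c => ∫ r in (0:ℝ)..1,
        (1 - r) * (r * Lf (b + r * (a - b)) (b + r * (c - b)))) := by
      apply intervalIntegral.continuous_parametric_intervalIntegral_of_continuous'
      have : Continuous (fun q : ℝ × ℝ => Lf (b + q.2 * (a - b)) (b + q.2 * (q.1 - b))) :=
        Lf_continuous.comp (by fun_prop :
          Continuous (fun q : ℝ × ℝ => (b + q.2 * (a - b), b + q.2 * (q.1 - b))))
      show Continuous (fun q : ℝ × ℝ =>
        (1 - q.2) * (q.2 * Lf (b + q.2 * (a - b)) (b + q.2 * (q.1 - b))))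
      fun_prop
    fun_prop
  have hdense : Dense ({a, b}ᶜ : Set ℝ) := by
    exact (Set.countable_insert.mpr (Set.countable_singleton b)).dense_compl ℝ
  have key : Set.EqOn (fun c => Lf a b + Lf b c - Lf a c - Real.sin b)
      (fun c => (a - b) * (c - b) *
        ∫ r in (0:ℝ)..1, (1 - r) * (r * Lf (b + r * (a - b)) (b + r * (c - b)))) ({a, b}ᶜ) := by
    intro c hc
    simp only [mem_compl_iff, mem_insert_iff, mem_singleton_iff, not_or] at hc
    obtain ⟨hca, hcb⟩ := hc
    have hac : a - c ≠ 0 := sub_ne_zero.mpr (Ne.symm hca)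
    have hab' : a - b ≠ 0 := sub_ne_zero.mpr hab
    have hcb' : c - b ≠ 0 := sub_ne_zero.mpr hcb
    have hint : ∫ r in (0:ℝ)..1, (1 - r) * (r * Lf (b + r * (a - b)) (b + r * (c - b))) =
        ((∫ r in (0:ℝ)..1, (1 - r) * Real.cos (b + r * (c - b))) -
          ∫ r in (0:ℝ)..1, (1 - r) * Real.cos (b + r * (a - b))) / (a - c) := by
      rw [← intervalIntegral.integral_sub (by apply Continuous.intervalIntegrable; fun_prop)
        (by apply Continuous.intervalIntegrable; fun_prop), ← intervalIntegral.integral_div]
      apply intervalIntegral.integral_congr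
      intro r _
      simp only
      have e := sub_mul_Lf (b + r * (a - b)) (b + r * (c - b))
      have e2 : (b + r * (a - b)) - (b + r * (c - b)) = r * (a - c) := by ring
      rw [e2] at e
      rw [eq_div_iff hac]
      linear_combination (1 - r) * e
    simp only
    rw [hint, integral_one_sub_mul_cos hcb', integral_one_sub_mul_cos hab']
    have e1 := sub_mul_Lf a b
    have e2 := sub_mul_Lf c b
    have e3 := sub_mul_Lf a c
    have f1 : Lf a b = (Real.cos b - Real.cos a) / (a - b) := by
      rw [eq_div_iff hab', ← e1]; ring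
    have f2 : Lf b c = (Real.cos b - Real.cos c) / (c - b) := by
      rw [Lf_comm, eq_div_iff hcb', ← e2]; ring
    have f3 : Lf a c = (Real.cos c - Real.cos a) / (a - c) := by
      rw [eq_div_iff hac, ← e3]; ring
    rw [f1, f2, f3]
    have g1 : b + (c - b) = c := by ring
    have g2 : b + (a - b) = a := by ring
    rw [g1, g2]
    field_simp
    ring
  have := hL.ext_on hdense hR key
  exact congrFun this c

/-- The kernel `N_b` is positive semidefinite, given the one-parameter kernels `H_r`. -/
theorem Nb_psd_of {φ : ι → ℝ} {b : ℝ}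
    (hH : ∀ r ∈ Ioo (0:ℝ) 1, (Matrix.of fun a c =>
      Real.sin ((1 - r) * b + r * ((φ a + φ c) / 2)) / Real.sin ((φ a + φ c) / 2)).PosSemidef) :
    (Matrix.of fun a c => (Lf (φ a) b + Lf b (φ c) - Lf (φ a) (φ c) - Real.sin b) /
      Real.sin ((φ a + φ c) / 2)).PosSemidef := by
  have hcont := Real.continuous_sinc
  have h := rpsd_integral (ι := ι) (u := 0) (w := 1)
    (K := fun r a c => ((φ a - b) * (φ c - b)) * (((1 - r) * r) *
      (Real.sinc (r / 2 * (φ a - φ c)) *
        (Real.sin ((1 - r) * b + r * ((φ a + φ c) / 2)) / Real.sin ((φ a + φ c) / 2)))))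
    zero_le_one (fun r hr => psd_mul (psd_rank_one (fun a => φ a - b))
      (psd_const_mul (psd_mul (psd_sinc (r / 2) φ) (hH r hr))
        (mul_nonneg (by linarith [hr.2]) hr.1.le))) (fun a c => by
      apply Continuous.intervalIntegrable
      have h1 : Continuous (fun r : ℝ => Real.sinc (r / 2 * (φ a - φ c))) :=
        hcont.comp (by fun_prop)
      fun_prop)
  convert h using 4 with a c
  rw [divided_identity, ← intervalIntegral.integral_const_mul, ← intervalIntegral.integral_div]
  apply intervalIntegral.integral_congr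
  intro r _
  simp only
  have e : Lf (b + r * (φ a - b)) (b + r * (φ c - b)) =
      Real.sinc (r / 2 * (φ a - φ c)) * Real.sin ((1 - r) * b + r * ((φ a + φ c) / 2)) := by
    unfold Lf
    congr 2
    · ring
    · ring
  rw [e]
  ring

end Vale.P371
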