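import Mathlib
import Vale.Agent.P371.KernelPSD

/-!
# P371: the kernels `sin (r σ) / sin σ` and `N_b` are positive semidefinite
-/

open Set Filter Matrix MeasureTheory
open scoped Topology

namespace Vale.P371

variable {ι : Type*} [Fintype ι]

/-- The Cauchy kernel. -/
theorem psd_cauchy (x : ι → ℝ) (hx : ∀ a, 0 < x a) :
    (Matrix.of fun a c => 1 / (x a + x c)).PosSemidef := by
  have h := rpsd_integral (ι := ι) (u := 0) (w := 1)
    (K := fun s a c => s ^ (x a + x c - 1)) zero_le_one (fun s hs => by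
      have := psd_rank_one (fun a => s ^ (x a - 1 / 2))
      convert this using 4 with a c
      rw [← Real.rpow_add hs.1]
      congr 1; ring) (fun a c => by
      apply intervalIntegral.intervalIntegrable_rpow'
      linarith [hx a, hx c])
  convert h using 4 with a c
  rw [integral_rpow (Or.inl (by linarith [hx a, hx c]))]
  have : x a + x c - 1 + 1 = x a + x c := by ring
  rw [this, Real.one_rpow, Real.zero_rpow (by linarith [hx a, hx c])]
  simp

theorem psd_euler_factor {φ : ι → ℝ} (hφ : ∀ a, φ a ∈ Ioo 0 Real.pi) {r m : ℝ}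
    (hr : r ∈ Ioo (0:ℝ) 1) (hm : 1 ≤ m) :
    (Matrix.of fun a c => (1 - (r * ((φ a + φ c) / 2 / Real.pi)) ^ 2 / m ^ 2) /
      (1 - ((φ a + φ c) / 2 / Real.pi) ^ 2 / m ^ 2)).PosSemidef := by
  have hpi := Real.pi_pos
  have hm0 : 0 < m := by linarith
  have hx1 : ∀ a, 0 < m / 2 - φ a / (2 * Real.pi) := by
    intro a
    have : φ a / (2 * Real.pi) < 1 / 2 := by
      rw [div_lt_iff₀ (by positivity)]; linarith [(hφ a).2]
    linarith
  have hx2 : ∀ a, 0 < m / 2 + φ a / (2 * Real.pi) := by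
    intro a
    have := (hφ a).1
    positivity
  have h1 := psd_cauchy (fun a => m / 2 - φ a / (2 * Real.pi)) hx1
  have h2 := psd_cauchy (fun a => m / 2 + φ a / (2 * Real.pi)) hx2
  have hr2 : 0 ≤ 1 - r ^ 2 := by nlinarith [hr.1, hr.2]
  have h := psd_add (psd_const (ι := ι) (sq_nonneg r))
    (psd_const_mul (psd_add h1 h2) (mul_nonneg hr2 (by positivity : 0 ≤ m / 2)))
  convert h using 4 with a c
  set z : ℝ := (φ a + φ c) / 2 / Real.pi with hz
  have e1 : m / 2 - φ a / (2 * Real.pi) + (m / 2 - φ c / (2 * Real.pi)) = m - z := by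
    rw [hz]; field_simp; ring
  have e2 : m / 2 + φ a / (2 * Real.pi) + (m / 2 + φ c / (2 * Real.pi)) = m + z := by
    rw [hz]; field_simp; ring
  rw [e1, e2]
  have p1 : 0 < m - z := by rw [← e1]; linarith [hx1 a, hx1 c]
  have p2 : 0 < m + z := by rw [← e2]; linarith [hx2 a, hx2 c]
  have p3 : 1 - z ^ 2 / m ^ 2 = (m - z) * (m + z) / m ^ 2 := by field_simp; ring
  rw [p3]
  field_simp
  ring

theorem psd_prod {κ : Type*} (s : Finset κ) {K : κ → ι → ι → ℝ}
    (h : ∀ j ∈ s, (Matrix.of (K j)).PosSemidef) :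
    (Matrix.of fun a c => ∏ j ∈ s, K j a c).PosSemidef := by
  classical
  induction s using Finset.induction_on with
  | empty => simpa using psd_const (ι := ι) (zero_le_one)
  | insert j s hj ih =>
    simp only [Finset.prod_insert hj]
    exact psd_mul (h j (Finset.mem_insert_self j s))
      (ih (fun i hi => h i (Finset.mem_insert_of_mem hi)))

/-- The kernel `sin (r σ) / sin σ`. -/
theorem psd_sin_ratio {φ : ι → ℝ} (hφ : ∀ a, φ a ∈ Ioo 0 Real.pi) {r : ℝ}
    (hr : r ∈ Ioo (0:ℝ) 1) :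
    (Matrix.of fun a c => Real.sin (r * ((φ a + φ c) / 2)) /
      Real.sin ((φ a + φ c) / 2)).PosSemidef := by
  have hpi := Real.pi_pos
  apply psd_lim (K := fun n a c => r * ∏ j ∈ Finset.range n,
    ((1 - (r * ((φ a + φ c) / 2 / Real.pi)) ^ 2 / ((j:ℝ) + 1) ^ 2) /
      (1 - ((φ a + φ c) / 2 / Real.pi) ^ 2 / ((j:ℝ) + 1) ^ 2)))
  · intro n
    refine psd_const_mul (psd_prod _ (fun j _ => psd_euler_factor hφ hr ?_)) hr.1.le
    have : (0:ℝ) ≤ j := Nat.cast_nonneg j
    linarith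
  · intro a c
    set z : ℝ := (φ a + φ c) / 2 / Real.pi with hz
    have hz0 : 0 < z := by
      rw [hz]; have := (hφ a).1; have := (hφ c).1; positivity
    have hz1 : z < 1 := by
      rw [hz, div_lt_one hpi]; linarith [(hφ a).2, (hφ c).2]
    have e1 : r * ((φ a + φ c) / 2) = Real.pi * (r * z) := by
      rw [hz]; field_simp
    have e2 : (φ a + φ c) / 2 = Real.pi * z := by
      rw [hz]; field_simp
    rw [e1, e2]
    have hs : Real.sin (Real.pi * z) ≠ 0 :=
      (Real.sin_pos_of_pos_of_lt_pi (by positivity) (by nlinarith)).ne'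
    have h1 := Real.tendsto_euler_sin_prod (r * z)
    have h2 := Real.tendsto_euler_sin_prod z
    refine (h1.div h2 hs).congr (fun n => ?_)
    simp only [Pi.div_apply]
    rw [Finset.prod_div_distrib]
    have hpos : ∏ j ∈ Finset.range n, (1 - z ^ 2 / ((j:ℝ) + 1) ^ 2) ≠ 0 := by
      apply Finset.prod_ne_zero_iff.mpr
      intro j _
      have hj : (0:ℝ) ≤ j := Nat.cast_nonneg j
      have : z ^ 2 / ((j:ℝ) + 1) ^ 2 < 1 := by
        rw [div_lt_one (by positivity)]
        nlinarith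
      linarith
    field_simp

theorem psd_H {φ : ι → ℝ} (hφ : ∀ a, φ a ∈ Ioo 0 Real.pi) {b : ℝ} (hb : b ∈ Ioo 0 Real.pi)
    {r : ℝ} (hr : r ∈ Ioo (0:ℝ) 1) :
    (Matrix.of fun a c => Real.sin ((1 - r) * b + r * ((φ a + φ c) / 2)) /
      Real.sin ((φ a + φ c) / 2)).PosSemidef := by
  have hpi := Real.pi_pos
  obtain ⟨hr0, hr1⟩ := hr
  obtain ⟨hb0, hb1⟩ := hb
  have hr' : r ∈ Ioo (0:ℝ) 1 := ⟨hr0, hr1⟩
  have h1 := psd_sin_ratio hφ hr'
  have h2 := psd_sin_ratio (φ := fun a => Real.pi - φ a)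
    (fun a => ⟨by linarith [(hφ a).2], by linarith [(hφ a).1]⟩) hr'
  have hr3 : 0 < 1 - r := by linarith
  have sA : 0 < Real.sin ((1 - r) * Real.pi) :=
    Real.sin_pos_of_pos_of_lt_pi (by positivity) (by nlinarith)
  have sAb : 0 ≤ Real.sin ((1 - r) * Real.pi - (1 - r) * b) := by
    apply Real.sin_nonneg_of_nonneg_of_le_pi
    · nlinarith
    · nlinarith
  have sb : 0 ≤ Real.sin ((1 - r) * b) := by
    apply Real.sin_nonneg_of_nonneg_of_le_pi
    · positivity
    · nlinarith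
  have h := psd_add (psd_const_mul h1 (div_nonneg sAb sA.le))
    (psd_const_mul h2 (div_nonneg sb sA.le))
  convert h using 4 with a c
  have hs : Real.sin ((φ a + φ c) / 2) ≠ 0 :=
    (Real.sin_pos_of_pos_of_lt_pi (by linarith [(hφ a).1, (hφ c).1])
      (by linarith [(hφ a).2, (hφ c).2])).ne'
  have e1 : Real.sin ((Real.pi - φ a + (Real.pi - φ c)) / 2) = Real.sin ((φ a + φ c) / 2) := by
    rw [← Real.sin_pi_sub]; congr 1; ring
  have e2 : Real.sin (r * ((Real.pi - φ a + (Real.pi - φ c)) / 2)) =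
      Real.sin ((1 - r) * Real.pi + r * ((φ a + φ c) / 2)) := by
    rw [← Real.sin_pi_sub]; congr 1; ring
  rw [e1, e2]
  have key : Real.sin ((1 - r) * Real.pi) * Real.sin ((1 - r) * b + r * ((φ a + φ c) / 2)) =
      Real.sin ((1 - r) * Real.pi - (1 - r) * b) * Real.sin (r * ((φ a + φ c) / 2)) +
      Real.sin ((1 - r) * b) * Real.sin ((1 - r) * Real.pi + r * ((φ a + φ c) / 2)) := by
    rw [Real.sin_add ((1 - r) * b), Real.sin_add ((1 - r) * Real.pi), Real.sin_sub]
    ring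
  have sA' := sA.ne'
  generalize Real.sin ((1 - r) * Real.pi) = A at *
  generalize Real.sin ((φ a + φ c) / 2) = S at *
  generalize Real.sin ((1 - r) * b + r * ((φ a + φ c) / 2)) = X at *
  generalize Real.sin ((1 - r) * Real.pi - (1 - r) * b) = Y at *
  generalize Real.sin (r * ((φ a + φ c) / 2)) = Z at *
  generalize Real.sin ((1 - r) * b) = W at *
  generalize Real.sin ((1 - r) * Real.pi + r * ((φ a + φ c) / 2)) = V at *
  rw [div_mul_div_comm, div_mul_div_comm, ← add_div, div_eq_div_iff hs (mul_ne_zero sA' hs)]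
  linear_combination S * key

/-- The kernel `N_b` is positive semidefinite. -/
theorem Nb_psd {φ : ι → ℝ} (hφ : ∀ a, φ a ∈ Ioo 0 Real.pi) {b : ℝ} (hb : b ∈ Ioo 0 Real.pi) :
    (Matrix.of fun a c => (Lf (φ a) b + Lf b (φ c) - Lf (φ a) (φ c) - Real.sin b) /
      Real.sin ((φ a + φ c) / 2)).PosSemidef :=
  Nb_psd_of (fun _ hr => psd_H hφ hb hr)

end Vale.P371
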