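import Mathlib
import Vale.Agent.P371.EulerKernel

/-!
# P371: the cubic trace inequality for the cotangent kernel
-/

open Set Filter Matrix MeasureTheory
open scoped Topology ComplexOrder

namespace Vale.P371

variable {ι : Type*} [Fintype ι]

/-- A real positive semidefinite matrix is positive semidefinite as a complex matrix. -/
theorem psd_ofReal {K : ι → ι → ℝ} (h : (Matrix.of K).PosSemidef) :
    (Matrix.of fun a c => ((K a c : ℝ) : ℂ)).PosSemidef := by
  refine Matrix.PosSemidef.of_dotProduct_mulVec_nonneg ?_ ?_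
  · ext a c
    simp [Matrix.conjTranspose_apply, psd_symm h a c]
  · intro z
    have e : star z ⬝ᵥ ((Matrix.of fun a c => ((K a c : ℝ) : ℂ)) *ᵥ z) =
        ∑ a, ∑ c, (starRingEnd ℂ) (z a) * z c * ((K a c : ℝ) : ℂ) := by
      simp only [dotProduct, mulVec, Pi.star_apply, Matrix.of_apply, Finset.mul_sum]
      apply Finset.sum_congr rfl; intro a _
      apply Finset.sum_congr rfl; intro c _
      simp only [RCLike.star_def]
      ring
    rw [e, Complex.nonneg_iff]
    constructor
    · have h1 := psd_quad h (fun a => (z a).re)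
      have h2 := psd_quad h (fun a => (z a).im)
      have : (∑ a, ∑ c, (starRingEnd ℂ) (z a) * z c * ((K a c : ℝ) : ℂ)).re =
          (∑ a, ∑ c, (z a).re * (z c).re * K a c) + ∑ a, ∑ c, (z a).im * (z c).im * K a c := by
        rw [← Finset.sum_add_distrib, Complex.re_sum]
        apply Finset.sum_congr rfl; intro a _
        rw [← Finset.sum_add_distrib, Complex.re_sum]
        apply Finset.sum_congr rfl; intro c _
        rw [Complex.re_mul_ofReal, Complex.mul_re, Complex.conj_re, Complex.conj_im]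
        ring
      rw [this]
      exact add_nonneg h1 h2
    · have : (∑ a, ∑ c, (starRingEnd ℂ) (z a) * z c * ((K a c : ℝ) : ℂ)).im =
          (∑ a, ∑ c, (z a).re * (z c).im * K a c) - ∑ a, ∑ c, (z a).im * (z c).re * K a c := by
        rw [← Finset.sum_sub_distrib, Complex.im_sum]
        apply Finset.sum_congr rfl; intro a _
        rw [← Finset.sum_sub_distrib, Complex.im_sum]
        apply Finset.sum_congr rfl; intro c _
        rw [Complex.im_mul_ofReal, Complex.mul_im, Complex.conj_re, Complex.conj_im]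
        ring
      rw [this]
      have e2 : ∑ a, ∑ c, (z a).im * (z c).re * K a c = ∑ a, ∑ c, (z a).re * (z c).im * K a c := by
        rw [Finset.sum_comm]
        apply Finset.sum_congr rfl; intro a _
        apply Finset.sum_congr rfl; intro c _
        rw [psd_symm h c a]
        ring
      rw [e2]; ring

/-- For fixed `b`, the quadratic form. -/
theorem quad_b_nonneg {X : Matrix ι ι ℂ} (hX : X.PosSemidef) {K : ι → ι → ℝ}
    (hK : (Matrix.of K).PosSemidef) (b : ι) (w : ι → ℝ) :
    0 ≤ ∑ a, ∑ c, (X a b * X b c * X c a).re * (w a * w c * K a c) := by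
  have h := hX.hadamard (psd_ofReal hK)
  have h2 := h.re_dotProduct_nonneg (fun a => X a b * ((w a : ℝ) : ℂ))
  have hher : ∀ a c, star (X a c) = X c a := fun a c => hX.isHermitian.apply c a
  have e : RCLike.re (star (fun a => X a b * ((w a : ℝ) : ℂ)) ⬝ᵥ
      ((X ⊙ (Matrix.of fun a c => ((K a c : ℝ) : ℂ))) *ᵥ (fun a => X a b * ((w a : ℝ) : ℂ)))) =
      ∑ a, ∑ c, (X a b * X b c * X c a).re * (w a * w c * K a c) := by
    simp only [dotProduct, mulVec, Pi.star_apply, Matrix.hadamard_apply, Matrix.of_apply,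
      Finset.mul_sum, star_mul', hher]
    rw [Finset.sum_comm]
    simp only [RCLike.re_to_complex, Complex.re_sum]
    apply Finset.sum_congr rfl; intro a _
    apply Finset.sum_congr rfl; intro c _
    have hs : K c a = K a c := psd_symm hK c a
    have : X b c * star ((w c : ℝ) : ℂ) * (X c a * ((K c a : ℝ) : ℂ) * (X a b * ((w a : ℝ) : ℂ))) =
        (X a b * X b c * X c a) * ((w a * w c * K a c : ℝ) : ℂ) := by
      rw [hs]
      simp only [RCLike.star_def, Complex.conj_ofReal]
      push_cast
      ring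
    rw [this, Complex.re_mul_ofReal]
  rw [← e]
  exact h2

/-- The cubic inequality. -/
theorem cubic_nonneg {X : Matrix ι ι ℂ} (hX : X.PosSemidef) {φ : ι → ℝ}
    (hφ : ∀ a, φ a ∈ Ioo 0 Real.pi) :
    0 ≤ ∑ a, ∑ b, ∑ c, (X a b * X b c * X c a).re *
      ((Real.sinc ((φ a - φ c) / 2) - Real.cos ((φ a - φ c) / 2)) /
        (Real.sin ((φ a + φ b) / 2) * Real.sin ((φ b + φ c) / 2))) := by
  -- notation
  let s : ι → ι → ℝ := fun a c => Real.sin ((φ a + φ c) / 2)
  let κ : ι → ι → ℝ := fun a c => Lf (φ a) (φ c) - (Real.sin (φ a) + Real.sin (φ c)) / 2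
  have hs : ∀ a c, s a c ≠ 0 := fun a c =>
    (Real.sin_pos_of_pos_of_lt_pi (by linarith [(hφ a).1, (hφ c).1])
      (by linarith [(hφ a).2, (hφ c).2])).ne'
  have hss : ∀ a c, s a c = s c a := fun a c => by
    simp only [s]; rw [add_comm]
  have hκs : ∀ a c, κ a c = κ c a := fun a c => by
    simp only [κ]; rw [Lf_comm, add_comm]
  have hκ : ∀ a c, s a c * (Real.sinc ((φ a - φ c) / 2) - Real.cos ((φ a - φ c) / 2)) = κ a c := by
    intro a c
    simp only [s, κ, Lf]
    have : Real.sin ((φ a + φ c) / 2) * Real.cos ((φ a - φ c) / 2) =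
        (Real.sin (φ a) + Real.sin (φ c)) / 2 := by
      have h1 := Real.sin_add ((φ a + φ c) / 2) ((φ a - φ c) / 2)
      have h2 := Real.sin_sub ((φ a + φ c) / 2) ((φ a - φ c) / 2)
      have e1 : (φ a + φ c) / 2 + (φ a - φ c) / 2 = φ a := by ring
      have e2 : (φ a + φ c) / 2 - (φ a - φ c) / 2 = φ c := by ring
      rw [e1] at h1; rw [e2] at h2
      linarith
    linear_combination -this
  let P : ι → ι → ι → ℝ := fun a b c => (X a b * X b c * X c a).re / (s a b * s b c * s a c)
  have hP : ∀ a b c, P a b c = P b c a := by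
    intro a b c
    simp only [P]
    rw [hss c a, hss b a]
    have : X b c * X c a * X a b = X a b * X b c * X c a := by ring
    rw [this]
    congr 1; ring
  have e0 : (∑ a, ∑ b, ∑ c, (X a b * X b c * X c a).re *
      ((Real.sinc ((φ a - φ c) / 2) - Real.cos ((φ a - φ c) / 2)) /
        (Real.sin ((φ a + φ b) / 2) * Real.sin ((φ b + φ c) / 2)))) =
      ∑ a, ∑ b, ∑ c, P a b c * κ a c := by
    apply Finset.sum_congr rfl; intro a _
    apply Finset.sum_congr rfl; intro b _
    apply Finset.sum_congr rfl; intro c _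
    rw [← hκ a c]
    simp only [P]
    have h1 := hs a b
    have h2 := hs b c
    have h3 := hs a c
    change (X a b * X b c * X c a).re * ((Real.sinc ((φ a - φ c) / 2) -
      Real.cos ((φ a - φ c) / 2)) / (s a b * s b c)) = _
    field_simp
  -- cyclic relabelling
  have rel : ∀ f : ι → ι → ι → ℝ, (∑ a, ∑ b, ∑ c, f a b c) = ∑ a, ∑ b, ∑ c, f b c a := by
    intro f
    rw [Finset.sum_comm]
    calc (∑ b, ∑ a, ∑ c, f a b c) = ∑ b, ∑ c, ∑ a, f a b c := by
          apply Finset.sum_congr rfl; intro b _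
          rw [Finset.sum_comm]
      _ = ∑ a, ∑ b, ∑ c, f c a b := rfl
      _ = ∑ b, ∑ a, ∑ c, f c a b := by rw [Finset.sum_comm]
      _ = ∑ a, ∑ b, ∑ c, f c b a := rfl
      _ = ∑ a, ∑ c, ∑ b, f c b a := by
          apply Finset.sum_congr rfl; intro a _
          rw [Finset.sum_comm]
      _ = ∑ a, ∑ b, ∑ c, f b c a := rfl
  have r1 : (∑ a, ∑ b, ∑ c, P a b c * κ a c) = ∑ a, ∑ b, ∑ c, P a b c * κ a b := by
    rw [rel]
    apply Finset.sum_congr rfl; intro a _
    apply Finset.sum_congr rfl; intro b _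
    apply Finset.sum_congr rfl; intro c _
    rw [← hP a b c, hκs b a]
  have r2 : (∑ a, ∑ b, ∑ c, P a b c * κ a c) = ∑ a, ∑ b, ∑ c, P a b c * κ b c := by
    rw [r1, rel]
    apply Finset.sum_congr rfl; intro a _
    apply Finset.sum_congr rfl; intro b _
    apply Finset.sum_congr rfl; intro c _
    rw [← hP a b c]
  have key : (∑ a, ∑ b, ∑ c, P a b c * κ a c) =
      ∑ b, ∑ a, ∑ c, (X a b * X b c * X c a).re * ((1 / s a b) * (1 / s c b) *
        ((Lf (φ a) (φ b) + Lf (φ b) (φ c) - Lf (φ a) (φ c) - Real.sin (φ b)) /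
          Real.sin ((φ a + φ c) / 2))) := by
    have : (∑ a, ∑ b, ∑ c, P a b c * κ a c) =
        (∑ a, ∑ b, ∑ c, P a b c * κ a b) + (∑ a, ∑ b, ∑ c, P a b c * κ b c) -
          ∑ a, ∑ b, ∑ c, P a b c * κ a c := by
      rw [← r1, ← r2]; ring
    rw [this, ← Finset.sum_add_distrib, ← Finset.sum_sub_distrib]
    rw [Finset.sum_congr rfl (fun a _ => by
      rw [← Finset.sum_add_distrib, ← Finset.sum_sub_distrib])]
    rw [Finset.sum_comm]
    apply Finset.sum_congr rfl; intro b _
    apply Finset.sum_congr rfl; intro a _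
    rw [← Finset.sum_add_distrib, ← Finset.sum_sub_distrib]
    apply Finset.sum_congr rfl; intro c _
    have hk : κ a b + κ b c - κ a c =
        Lf (φ a) (φ b) + Lf (φ b) (φ c) - Lf (φ a) (φ c) - Real.sin (φ b) := by
      simp only [κ]; ring
    rw [← hk, hss c b]
    simp only [P]
    have h1 := hs a b
    have h2 := hs b c
    have h3 := hs a c
    change _ = (X a b * X b c * X c a).re * (1 / s a b * (1 / s b c) *
      ((κ a b + κ b c - κ a c) / s a c))
    field_simp
  rw [e0, key]
  apply Finset.sum_nonneg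
  intro b _
  have := quad_b_nonneg hX (Nb_psd hφ (hφ b)) b (fun a => 1 / s a b)
  exact this

end Vale.P371
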