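import Mathlib

/-!
# P371: the scalar one-dimensional Lieb-Thirring constants, definitions

* `IsH1 u g`: the function `u` belongs to `H¹(ℝ; ℂ)` (continuous representative) and `g` is its
  weak derivative.
* `IsPotential γ W`: `W ≥ 0` measurable with `0 < ∫ W ^ (γ + 1/2) < ∞`.
* `IsBoundState W lam u g`: `u ∈ H¹` is an eigenfunction of `-d²/dx² - W` with eigenvalue `lam`,
  in the sense of the quadratic form.
* `traceNeg γ W`: the sum of `|lam_j| ^ γ` over the negative eigenvalues of `-d²/dx² - W`, with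
  multiplicity: the supremum of `∑ |lam_j| ^ γ` over finite orthonormal families of bound states.
* `LT γ`: the Lieb-Thirring constant `L_γ(1)`, `LT1 γ`: the one-bound-state constant.
-/

namespace LT1

open MeasureTheory Set Filter
open scoped ComplexConjugate ENNReal

/-- `u ∈ H¹(ℝ; ℂ)` with weak derivative `g`: both are square integrable and `u` is the primitive
of `g` (so `u` is the continuous representative of its class). -/
structure IsH1 (u g : ℝ → ℂ) : Prop where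
  memLp : MemLp u 2 volume
  memLp' : MemLp g 2 volume
  ftc : ∀ x y, u y - u x = ∫ t in x..y, g t

/-- Scalar potentials `W ≥ 0` with `W ≠ 0` in `L^(γ + 1/2)(ℝ)`. -/
structure IsPotential (γ : ℝ) (W : ℝ → ℝ) : Prop where
  measurable : Measurable W
  nonneg : ∀ x, 0 ≤ W x
  integrable : Integrable (fun x => W x ^ (γ + 1 / 2)) volume
  pos : 0 < ∫ x, W x ^ (γ + 1 / 2)

/-- `u ∈ H¹` (with weak derivative `g`) satisfies `-u'' - W u = lam u` in the sense of the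
quadratic form `∫ |ψ'|² - ∫ W |ψ|²` with form domain `H¹(ℝ; ℂ)`. -/
structure IsBoundState (W : ℝ → ℝ) (lam : ℝ) (u g : ℝ → ℂ) : Prop where
  isH1 : IsH1 u g
  eqn : ∀ v h : ℝ → ℂ, IsH1 v h →
    (∫ x, g x * conj (h x)) - ∫ x, (W x : ℂ) * u x * conj (v x)
      = (lam : ℂ) * ∫ x, u x * conj (v x)

/-- The family `u` is orthonormal in `L²(ℝ; ℂ)`. -/
def IsOrthonormal {n : ℕ} (u : Fin n → ℝ → ℂ) : Prop :=
  ∀ i j, ∫ x, u i x * conj (u j x) = if i = j then 1 else 0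

/-- `∑_j |lam_j| ^ γ` over the negative eigenvalues of `-d²/dx² - W`, with multiplicity. -/
noncomputable def traceNeg (γ : ℝ) (W : ℝ → ℝ) : ℝ≥0∞ :=
  ⨆ (n : ℕ) (lam : Fin n → ℝ) (u : Fin n → ℝ → ℂ) (g : Fin n → ℝ → ℂ)
    (_ : (∀ j, lam j < 0) ∧ (∀ j, IsBoundState W (lam j) (u j) (g j)) ∧ IsOrthonormal u),
    ENNReal.ofReal (∑ j, |lam j| ^ γ)

/-- `|lam_1| ^ γ` for the lowest eigenvalue `lam_1` of `-d²/dx² - W` (`0` if there is no negative
eigenvalue). -/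
noncomputable def lowestNeg (γ : ℝ) (W : ℝ → ℝ) : ℝ≥0∞ :=
  ⨆ (lam : ℝ) (u : ℝ → ℂ) (g : ℝ → ℂ)
    (_ : lam < 0 ∧ IsBoundState W lam u g ∧ ∫ x, u x * conj (u x) = 1),
    ENNReal.ofReal (|lam| ^ γ)

/-- The scalar one-dimensional Lieb-Thirring constant `L_γ(1)`. -/
noncomputable def LT (γ : ℝ) : ℝ≥0∞ :=
  ⨆ (W : ℝ → ℝ) (_ : IsPotential γ W),
    traceNeg γ W / ENNReal.ofReal (∫ x, W x ^ (γ + 1 / 2))

/-- The one-bound-state constant `L^{(1)}_γ`. -/
noncomputable def LTone (γ : ℝ) : ℝ≥0∞ :=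
  ⨆ (W : ℝ → ℝ) (_ : IsPotential γ W),
    lowestNeg γ W / ENNReal.ofReal (∫ x, W x ^ (γ + 1 / 2))

/-- The semiclassical constant `L^cl_γ = (2π)⁻¹ ∫ (1 - ξ²)_+ ^ γ dξ`. -/
noncomputable def Lcl (γ : ℝ) : ℝ :=
  1 / (2 * Real.pi) * ∫ ξ : ℝ, (max (1 - ξ ^ 2) 0) ^ γ

end LT1
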