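import Mathlib
import Vale.Agent.P371.Defs

/-! # P371: the potential `(3/4) sech^2` and its bound state `sech^(1/2)` -/

namespace LT1

open MeasureTheory Set Filter
open scoped ComplexConjugate ENNReal Topology

/-- Product rule for real primitives. -/
lemma real_prod_ftc {F G f g : ℝ → ℝ} (hf : LocallyIntegrable f) (hg : LocallyIntegrable g)
    (hF : ∀ x y, F y - F x = ∫ t in x..y, f t) (hG : ∀ x y, G y - G x = ∫ t in x..y, g t)
    (a b : ℝ) : ∫ x in a..b, (f x * G x + F x * g x) = F b * G b - F a * G a := by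
  have key : ∀ {F f : ℝ → ℝ}, LocallyIntegrable f → (∀ x y, F y - F x = ∫ t in x..y, f t) →
      (∀ᵐ x, HasDerivAt F (f x) x) ∧ AbsolutelyContinuousOnInterval F a b := by
    intro F f hf hF
    have hFe : F = fun x => F a + ∫ t in a..x, f t := by
      funext x; rw [← hF a x]; ring
    constructor
    · filter_upwards [_root_.LocallyIntegrable.ae_hasDerivAt_integral hf] with x hx
      rw [hFe]
      simpa using (hx a).const_add (F a)
    · rw [hFe]
      have h1 : IntervalIntegrable f volume a b :=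
        intervalIntegrable_iff.mpr <|
          (hf.integrableOn_isCompact isCompact_uIcc).mono_set uIoc_subset_uIcc
      have h2 := h1.absolutelyContinuousOnInterval_intervalIntegral (c := a) (by simp)
      have h3 : AbsolutelyContinuousOnInterval (fun _ : ℝ => F a) a b :=
        (LipschitzWith.const (F a)).lipschitzOnWith.absolutelyContinuousOnInterval
      exact h3.add h2
  obtain ⟨hF1, hF2⟩ := key hf hF
  obtain ⟨hG1, hG2⟩ := key hg hG
  rw [← hF2.integral_deriv_mul_eq_sub hG2]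
  apply intervalIntegral.integral_congr_ae
  filter_upwards [hF1, hG1] with x hx1 hx2 _
  rw [hx1.deriv, hx2.deriv]

lemma tendsto_zero_of_integrable {F : ℝ → ℝ} (hF : Integrable F) {c : ℝ}
    (h : Tendsto F atTop (𝓝 c)) : c = 0 := by
  by_contra hc
  have hc' : 0 < |c| / 2 := by positivity
  have hfin := hF.measure_norm_ge_lt_top hc'
  have hev : ∀ᶠ x in atTop, |c| / 2 ≤ ‖F x‖ := by
    have := h.norm
    refine this.eventually_const_le ?_
    rw [Real.norm_eq_abs]; linarith [abs_pos.mpr hc]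
  obtain ⟨N, hN⟩ := eventually_atTop.mp hev
  have hsub : Ioi N ⊆ {x | |c| / 2 ≤ ‖F x‖} := fun x hx => hN x (le_of_lt hx)
  have := (measure_mono hsub).trans_lt hfin
  simp at this

lemma tendsto_zero_of_integrable' {F : ℝ → ℝ} (hF : Integrable F) {c : ℝ}
    (h : Tendsto F atBot (𝓝 c)) : c = 0 := by
  refine tendsto_zero_of_integrable (F := fun x => F (-x)) hF.comp_neg ?_
  exact h.comp tendsto_neg_atTop_atBot

lemma integral_eq_zero_of_prim {F f : ℝ → ℝ} (hF : Integrable F) (hf : Integrable f)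
    (hP : ∀ x y, F y - F x = ∫ t in x..y, f t) : ∫ x, f x = 0 := by
  have h1 : Tendsto (fun x => F 0 + ∫ t in (0 : ℝ)..x, f t) atTop
      (𝓝 (F 0 + ∫ t in Ioi (0 : ℝ), f t)) :=
    (intervalIntegral_tendsto_integral_Ioi 0 hf.integrableOn tendsto_id).const_add _
  have h1' : Tendsto F atTop (𝓝 (F 0 + ∫ t in Ioi (0 : ℝ), f t)) := by
    refine h1.congr fun x => ?_
    rw [← hP 0 x]; ring
  have h2 : Tendsto (fun x => F 0 - ∫ t in x..(0 : ℝ), f t) atBot
      (𝓝 (F 0 - ∫ t in Iic (0 : ℝ), f t)) :=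
    (intervalIntegral_tendsto_integral_Iic 0 hf.integrableOn tendsto_id).const_sub _
  have h2' : Tendsto F atBot (𝓝 (F 0 - ∫ t in Iic (0 : ℝ), f t)) := by
    refine h2.congr fun x => ?_
    rw [← hP x 0]; ring
  have e1 := tendsto_zero_of_integrable hF h1'
  have e2 := tendsto_zero_of_integrable' hF h2'
  rw [← intervalIntegral.integral_Iic_add_Ioi (b := (0 : ℝ)) hf.integrableOn hf.integrableOn]
  linarith


open Real

namespace Sharp

/-- The extremal potential. -/
noncomputable def W (x : ℝ) : ℝ := 3 / 4 * (cosh x)⁻¹ ^ 2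

/-- The (unnormalised) bound state. -/
noncomputable def u (x : ℝ) : ℝ := √((cosh x)⁻¹)

/-- Its derivative. -/
noncomputable def u' (x : ℝ) : ℝ := -(1 / 2) * (sinh x * (cosh x)⁻¹) * u x

lemma sech_pos (x : ℝ) : 0 < (cosh x)⁻¹ := inv_pos.mpr (cosh_pos x)

lemma sech_le_one (x : ℝ) : (cosh x)⁻¹ ≤ 1 := inv_le_one_of_one_le₀ (one_le_cosh x)

lemma u_pos (x : ℝ) : 0 < u x := Real.sqrt_pos.mpr (sech_pos x)

lemma u_sq (x : ℝ) : u x ^ 2 = (cosh x)⁻¹ := Real.sq_sqrt (sech_pos x).le

lemma W_nonneg (x : ℝ) : 0 ≤ W x := by unfold W; positivity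

lemma W_pos (x : ℝ) : 0 < W x := by
  have := sech_pos x
  unfold W; positivity

lemma hasDerivAt_sech (x : ℝ) :
    HasDerivAt (fun y => (cosh y)⁻¹) (-(sinh x * (cosh x)⁻¹ ^ 2)) x := by
  have h := (Real.hasDerivAt_cosh x).inv (cosh_pos x).ne'
  convert! h using 1
  field_simp

lemma hasDerivAt_u (x : ℝ) : HasDerivAt u (u' x) x := by
  have h := (hasDerivAt_sech x).sqrt (sech_pos x).ne'
  unfold u u'
  convert! h using 1
  have hs : √((cosh x)⁻¹) ^ 2 = (cosh x)⁻¹ := Real.sq_sqrt (sech_pos x).le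
  have hp : 0 < √((cosh x)⁻¹) := Real.sqrt_pos.mpr (sech_pos x)
  unfold u
  rw [eq_div_iff (by positivity)]
  have : -(1 / 2) * (sinh x * (cosh x)⁻¹) * √((cosh x)⁻¹) * (2 * √((cosh x)⁻¹))
      = -(sinh x * (cosh x)⁻¹) * √((cosh x)⁻¹) ^ 2 := by ring
  rw [this, hs]; ring

lemma tanh_sq (x : ℝ) : (sinh x * (cosh x)⁻¹) ^ 2 = 1 - (cosh x)⁻¹ ^ 2 := by
  have h := cosh_sq x
  have hp := cosh_pos x
  field_simp
  linarith

lemma hasDerivAt_tanh' (x : ℝ) :
    HasDerivAt (fun y => sinh y * (cosh y)⁻¹) ((cosh x)⁻¹ ^ 2) x := by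
  have h := (Real.hasDerivAt_sinh x).mul (hasDerivAt_sech x)
  convert! h using 1
  have h2 := tanh_sq x
  have hp := cosh_pos x
  have : cosh x * (cosh x)⁻¹ = 1 := mul_inv_cancel₀ hp.ne'
  nlinarith

lemma hasDerivAt_u' (x : ℝ) : HasDerivAt u' (1 / 4 * u x - W x * u x) x := by
  have h := ((hasDerivAt_tanh' x).const_mul (-(1 / 2) : ℝ)).mul (hasDerivAt_u x)
  convert! h using 1
  unfold u' W
  have h2 := tanh_sq x
  linear_combination (-(1 / 4) * u x) * h2

lemma continuous_u : Continuous u := by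
  rw [continuous_iff_continuousAt]; exact fun x => (hasDerivAt_u x).continuousAt

lemma continuous_u' : Continuous u' := by
  rw [continuous_iff_continuousAt]; exact fun x => (hasDerivAt_u' x).continuousAt

lemma continuous_W : Continuous W := by
  unfold W
  have : Continuous fun x : ℝ => (cosh x)⁻¹ := continuous_cosh.inv₀ fun x => (cosh_pos x).ne'
  fun_prop

lemma tendsto_sinh_atTop : Tendsto sinh atTop atTop := Real.sinhOrderIso.tendsto_atTop

lemma tendsto_sinh_atBot : Tendsto sinh atBot atBot := Real.sinhOrderIso.tendsto_atBot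

/-- A nonnegative continuous derivative of a function with limits at both ends is integrable. -/
lemma integral_of_nonneg_deriv {F f : ℝ → ℝ} {m n : ℝ} (hF : ∀ x, HasDerivAt F (f x) x)
    (hf : Continuous f) (h0 : ∀ x, 0 ≤ f x) (hm : Tendsto F atBot (𝓝 m))
    (hn : Tendsto F atTop (𝓝 n)) : Integrable f ∧ ∫ x, f x = n - m := by
  have hint : Integrable f := by
    have hb : Tendsto (fun i : ℕ => (i : ℝ)) atTop atTop := tendsto_natCast_atTop_atTop
    have ha : Tendsto (fun i : ℕ => -(i : ℝ)) atTop atBot := tendsto_neg_atTop_atBot.comp hb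
    refine integrable_of_intervalIntegral_norm_tendsto (n - m)
      (fun i => (hf.integrableOn_Icc).mono_set Ioc_subset_Icc_self) ha hb ?_
    have h1 : ∀ i : ℕ, ∫ x in (-(i : ℝ))..(i : ℝ), ‖f x‖ = F i - F (-(i : ℝ)) := by
      intro i
      have : ∀ x, ‖f x‖ = f x := fun x => Real.norm_of_nonneg (h0 x)
      simp only [this]
      exact intervalIntegral.integral_eq_sub_of_hasDerivAt (fun x _ => hF x)
        (hf.intervalIntegrable _ _)
    simp only [h1]
    exact (hn.comp hb).sub (hm.comp ha)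
  exact ⟨hint, integral_of_hasDerivAt_of_tendsto hF hint hm hn⟩

lemma hasDerivAt_arctan_sinh (x : ℝ) :
    HasDerivAt (fun y => arctan (sinh y)) ((cosh x)⁻¹) x := by
  have h := (Real.hasDerivAt_sinh x).arctan
  convert! h using 1
  have h2 := cosh_sq x
  have hp := cosh_pos x
  have : 1 + sinh x ^ 2 = cosh x ^ 2 := by linarith
  rw [this]; field_simp

lemma tendsto_arctan_sinh_top : Tendsto (fun y => arctan (sinh y)) atTop (𝓝 (π / 2)) :=
  (tendsto_nhds_of_tendsto_nhdsWithin tendsto_arctan_atTop).comp tendsto_sinh_atTop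

lemma tendsto_arctan_sinh_bot : Tendsto (fun y => arctan (sinh y)) atBot (𝓝 (-(π / 2))) :=
  (tendsto_nhds_of_tendsto_nhdsWithin tendsto_arctan_atBot).comp tendsto_sinh_atBot

lemma continuous_sech : Continuous fun x : ℝ => (cosh x)⁻¹ :=
  continuous_cosh.inv₀ fun x => (cosh_pos x).ne'

lemma integral_sech : Integrable (fun x : ℝ => (cosh x)⁻¹) ∧ ∫ x : ℝ, (cosh x)⁻¹ = π := by
  have h := integral_of_nonneg_deriv hasDerivAt_arctan_sinh continuous_sech
    (fun x => (sech_pos x).le) tendsto_arctan_sinh_bot tendsto_arctan_sinh_top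
  refine ⟨h.1, h.2.trans (by ring)⟩

lemma tendsto_cosh_atTop : Tendsto cosh atTop atTop := by
  refine tendsto_atTop_mono (fun x => ?_) tendsto_sinh_atTop
  exact (Real.sinh_lt_cosh x).le

lemma tendsto_cosh_atBot : Tendsto cosh atBot atTop := by
  have := tendsto_cosh_atTop.comp tendsto_neg_atBot_atTop
  refine this.congr fun x => ?_
  simp

lemma tendsto_sech_atTop : Tendsto (fun x : ℝ => (cosh x)⁻¹) atTop (𝓝 0) :=
  tendsto_cosh_atTop.inv_tendsto_atTop

lemma tendsto_sech_atBot : Tendsto (fun x : ℝ => (cosh x)⁻¹) atBot (𝓝 0) :=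
  tendsto_cosh_atBot.inv_tendsto_atTop

lemma abs_tanh_le (x : ℝ) : |sinh x * (cosh x)⁻¹| ≤ 1 := by
  rw [← sq_le_one_iff_abs_le_one, tanh_sq]
  nlinarith [sq_nonneg (cosh x)⁻¹]

lemma hasDerivAt_sech3 (x : ℝ) :
    HasDerivAt (fun y => 1 / 2 * ((cosh y)⁻¹ * (sinh y * (cosh y)⁻¹) + arctan (sinh y)))
      ((cosh x)⁻¹ ^ 3) x := by
  have h := (((hasDerivAt_sech x).mul (hasDerivAt_tanh' x)).add
    (hasDerivAt_arctan_sinh x)).const_mul (1 / 2 : ℝ)
  convert! h using 1
  have h2 := tanh_sq x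
  linear_combination (1 / 2 * (cosh x)⁻¹) * h2

lemma tendsto_mul_bdd {l : Filter ℝ} {f g : ℝ → ℝ} (hf : Tendsto f l (𝓝 0))
    (hg : ∀ x, |g x| ≤ 1) : Tendsto (fun x => f x * g x) l (𝓝 0) := by
  refine squeeze_zero_norm (a := fun x => |f x|) (fun x => ?_) ?_
  · rw [Real.norm_eq_abs, abs_mul]
    exact mul_le_of_le_one_right (abs_nonneg _) (hg x)
  · simpa using hf.abs

lemma integral_sech3 :
    Integrable (fun x : ℝ => (cosh x)⁻¹ ^ 3) ∧ ∫ x : ℝ, (cosh x)⁻¹ ^ 3 = π / 2 := by
  have ht : Tendsto (fun y : ℝ => 1 / 2 * ((cosh y)⁻¹ * (sinh y * (cosh y)⁻¹)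
      + arctan (sinh y))) atTop (𝓝 (1 / 2 * (0 + π / 2))) :=
    ((tendsto_mul_bdd tendsto_sech_atTop abs_tanh_le).add tendsto_arctan_sinh_top).const_mul _
  have hb : Tendsto (fun y : ℝ => 1 / 2 * ((cosh y)⁻¹ * (sinh y * (cosh y)⁻¹)
      + arctan (sinh y))) atBot (𝓝 (1 / 2 * (0 + -(π / 2)))) :=
    ((tendsto_mul_bdd tendsto_sech_atBot abs_tanh_le).add tendsto_arctan_sinh_bot).const_mul _
  have h := integral_of_nonneg_deriv hasDerivAt_sech3 (continuous_sech.pow 3)
    (fun x => by have := sech_pos x; positivity) hb ht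
  refine ⟨h.1, h.2.trans (by ring)⟩

lemma memLp_u : MemLp u 2 volume := by
  rw [memLp_two_iff_integrable_sq continuous_u.aestronglyMeasurable]
  simpa only [u_sq] using integral_sech.1

lemma abs_u'_le (x : ℝ) : |u' x| ≤ |u x| := by
  unfold u'
  rw [abs_mul, abs_mul]
  have h := abs_tanh_le x
  have h1 : |(-(1 / 2) : ℝ)| = 1 / 2 := by norm_num
  rw [h1]
  have := abs_nonneg (u x)
  nlinarith [abs_nonneg (sinh x * (cosh x)⁻¹)]

lemma memLp_u' : MemLp u' 2 volume :=
  memLp_u.mono continuous_u'.aestronglyMeasurable (Eventually.of_forall fun x => abs_u'_le x)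

lemma W_le (x : ℝ) : W x ≤ 3 / 4 := by
  unfold W
  have h1 := sech_le_one x
  have h2 := sech_pos x
  nlinarith

lemma memLp_Wu : MemLp (fun x => W x * u x) 2 volume := by
  refine memLp_u.mono (continuous_W.mul continuous_u).aestronglyMeasurable
    (Eventually.of_forall fun x => ?_)
  rw [Real.norm_eq_abs, Real.norm_eq_abs, abs_mul, abs_of_nonneg (W_nonneg x)]
  have := W_le x
  nlinarith [abs_nonneg (u x)]

lemma hasDerivAt_ftc {F f : ℝ → ℝ} (hF : ∀ x, HasDerivAt F (f x) x) (hf : Continuous f)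
    (x y : ℝ) : F y - F x = ∫ t in x..y, f t :=
  (intervalIntegral.integral_eq_sub_of_hasDerivAt (fun z _ => hF z)
    (hf.intervalIntegrable _ _)).symm

/-- The eigenvalue equation tested against a real function of `H¹`. -/
lemma weak_real {v h : ℝ → ℝ} (hv : MemLp v 2 volume) (hh : MemLp h 2 volume)
    (hP : ∀ x y, v y - v x = ∫ t in x..y, h t) :
    (∫ x, u' x * h x) - ∫ x, W x * u x * v x = -(1 / 4) * ∫ x, u x * v x := by
  have c2 : Continuous fun x => 1 / 4 * u x - W x * u x := by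
    have := continuous_u; have := continuous_W; fun_prop
  have i1 : Integrable fun x => u' x * h x := memLp_u'.integrable_mul hh
  have i2 : Integrable fun x => W x * u x * v x := memLp_Wu.integrable_mul hv
  have i3 : Integrable fun x => u x * v x := memLp_u.integrable_mul hv
  have i4 : Integrable fun x => (1 / 4 * u x - W x * u x) * v x := by
    refine ((i3.const_mul (1 / 4)).sub i2).congr (Eventually.of_forall fun x => ?_)
    simp only [Pi.sub_apply]; ring
  have hloc : LocallyIntegrable h := hh.locallyIntegrable (by norm_num)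
  have hprod : ∀ a b : ℝ, u' b * v b - u' a * v a
      = ∫ x in a..b, ((1 / 4 * u x - W x * u x) * v x + u' x * h x) := fun a b =>
    (real_prod_ftc c2.locallyIntegrable hloc (hasDerivAt_ftc hasDerivAt_u' c2) hP a b).symm
  have i5 : Integrable fun x => u' x * v x := memLp_u'.integrable_mul hv
  have h0 := integral_eq_zero_of_prim i5 (i4.add i1) hprod
  have h1 : (∫ x, (((1 / 4 * u x - W x * u x) * v x) + u' x * h x))
      = (∫ x, (1 / 4 * u x - W x * u x) * v x) + ∫ x, u' x * h x := integral_add i4 i1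
  have h2 : (∫ x, (1 / 4 * u x - W x * u x) * v x)
      = 1 / 4 * (∫ x, u x * v x) - ∫ x, W x * u x * v x := by
    rw [← integral_const_mul, ← integral_sub (i3.const_mul _) i2]
    congr 1; funext x; ring
  simp only [Pi.add_apply] at h0
  linarith

/-- The normalised bound state. -/
noncomputable def psi (x : ℝ) : ℂ := ((√π)⁻¹ * u x : ℝ)

/-- Its derivative. -/
noncomputable def psi' (x : ℝ) : ℂ := ((√π)⁻¹ * u' x : ℝ)

lemma isH1_psi : IsH1 psi psi' where
  memLp := (memLp_u.const_mul (√π)⁻¹).ofReal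
  memLp' := (memLp_u'.const_mul (√π)⁻¹).ofReal
  ftc x y := by
    have h : ∀ z, HasDerivAt (fun x => (√π)⁻¹ * u x) ((√π)⁻¹ * u' z) z := fun z =>
      (hasDerivAt_u z).const_mul _
    have h2 := hasDerivAt_ftc h (continuous_const.mul continuous_u') x y
    unfold psi psi'
    rw [intervalIntegral.integral_ofReal, ← h2]
    push_cast; ring

/-- Splitting of the integral of a real function against the conjugate of a complex one. -/
lemma integral_ofReal_mul_conj {f : ℝ → ℝ} {z : ℝ → ℂ} (hf : MemLp f 2 volume)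
    (hz : MemLp z 2 volume) : ∫ x, (f x : ℂ) * conj (z x)
      = ((∫ x, f x * (z x).re : ℝ) : ℂ) - Complex.I * ((∫ x, f x * (z x).im : ℝ) : ℂ) := by
  have i1 : Integrable fun x => f x * (z x).re := hf.integrable_mul hz.re
  have i2 : Integrable fun x => f x * (z x).im := hf.integrable_mul hz.im
  rw [← integral_complex_ofReal, ← integral_complex_ofReal, ← integral_const_mul,
    ← integral_sub i1.ofReal (i2.ofReal.const_mul _)]
  congr 1
  funext x
  apply Complex.ext <;> simp

lemma isH1_re {v h : ℝ → ℂ} (H : IsH1 v h) : ∀ x y, (v y).re - (v x).re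
    = ∫ t in x..y, (h t).re := by
  intro x y
  have hint : IntervalIntegrable h volume x y :=
    intervalIntegrable_iff.mpr (((H.memLp'.locallyIntegrable
      (by norm_num)).integrableOn_isCompact isCompact_uIcc).mono_set uIoc_subset_uIcc)
  have := Complex.reCLM.intervalIntegral_comp_comm hint
  simp only [Complex.reCLM_apply] at this
  rw [this, ← H.ftc x y, Complex.sub_re]

lemma isH1_im {v h : ℝ → ℂ} (H : IsH1 v h) : ∀ x y, (v y).im - (v x).im
    = ∫ t in x..y, (h t).im := by
  intro x y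
  have hint : IntervalIntegrable h volume x y :=
    intervalIntegrable_iff.mpr (((H.memLp'.locallyIntegrable
      (by norm_num)).integrableOn_isCompact isCompact_uIcc).mono_set uIoc_subset_uIcc)
  have := Complex.imCLM.intervalIntegral_comp_comm hint
  simp only [Complex.imCLM_apply] at this
  rw [this, ← H.ftc x y, Complex.sub_im]

lemma isBoundState_psi : IsBoundState W (-(1 / 4)) psi psi' where
  isH1 := isH1_psi
  eqn v h H := by
    have hr := weak_real H.memLp.re H.memLp'.re (isH1_re H)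
    have hi := weak_real H.memLp.im H.memLp'.im (isH1_im H)
    have e1 : (∫ x, psi' x * conj (h x)) = ((√π)⁻¹ : ℂ) * ∫ x, (u' x : ℂ) * conj (h x) := by
      rw [← integral_const_mul]
      congr 1; funext x; unfold psi'; push_cast; ring
    have e2 : (∫ x, (W x : ℂ) * psi x * conj (v x))
        = ((√π)⁻¹ : ℂ) * ∫ x, ((W x * u x : ℝ) : ℂ) * conj (v x) := by
      rw [← integral_const_mul]
      congr 1; funext x; unfold psi; push_cast; ring
    have e3 : (∫ x, psi x * conj (v x)) = ((√π)⁻¹ : ℂ) * ∫ x, (u x : ℂ) * conj (v x) := by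
      rw [← integral_const_mul]
      congr 1; funext x; unfold psi; push_cast; ring
    rw [e1, e2, e3, integral_ofReal_mul_conj memLp_u' H.memLp',
      integral_ofReal_mul_conj memLp_Wu H.memLp, integral_ofReal_mul_conj memLp_u H.memLp]
    have hr' : ((∫ x, u' x * (h x).re : ℝ) : ℂ) - ((∫ x, W x * u x * (v x).re : ℝ) : ℂ)
        = -(1 / 4) * ((∫ x, u x * (v x).re : ℝ) : ℂ) := by
      have := congrArg (fun r : ℝ => (r : ℂ)) hr
      push_cast at this ⊢
      exact this
    have hi' : ((∫ x, u' x * (h x).im : ℝ) : ℂ) - ((∫ x, W x * u x * (v x).im : ℝ) : ℂ)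
        = -(1 / 4) * ((∫ x, u x * (v x).im : ℝ) : ℂ) := by
      have := congrArg (fun r : ℝ => (r : ℂ)) hi
      push_cast at this ⊢
      exact this
    push_cast
    linear_combination ((√π : ℂ)⁻¹) * hr' - ((√π : ℂ)⁻¹) * Complex.I * hi'

lemma integral_psi_sq : ∫ x, psi x * conj (psi x) = 1 := by
  have h : ∀ x, psi x * conj (psi x) = ((π⁻¹ * (cosh x)⁻¹ : ℝ) : ℂ) := by
    intro x
    unfold psi
    rw [Complex.conj_ofReal, ← Complex.ofReal_mul]
    congr 1
    have h1 := u_sq x
    have h2 : (√π)⁻¹ ^ 2 = π⁻¹ := by rw [inv_pow, Real.sq_sqrt pi_pos.le]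
    calc (√π)⁻¹ * u x * ((√π)⁻¹ * u x) = (√π)⁻¹ ^ 2 * u x ^ 2 := by ring
      _ = _ := by rw [h1, h2]
  simp only [h]
  rw [integral_complex_ofReal, integral_const_mul, integral_sech.2, inv_mul_cancel₀ pi_ne_zero]
  simp

lemma psi_ne_zero (x : ℝ) : psi x ≠ 0 := by
  unfold psi
  have := u_pos x
  have := pi_pos
  exact_mod_cast (by positivity : (0 : ℝ) < (√π)⁻¹ * u x).ne'

lemma W_rpow (x : ℝ) : W x ^ ((1 : ℝ) + 1 / 2) = 3 * √3 / 8 * (cosh x)⁻¹ ^ 3 := by
  have hs := sech_pos x
  have hW : W x = (√3 / 2 * (cosh x)⁻¹) ^ 2 := by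
    unfold W
    rw [mul_pow, div_pow, Real.sq_sqrt (by norm_num)]; norm_num
  have h3 : 0 ≤ √3 / 2 * (cosh x)⁻¹ := by positivity
  rw [hW, ← Real.rpow_natCast, ← Real.rpow_mul h3]
  have : ((2 : ℕ) : ℝ) * (1 + 1 / 2) = ((3 : ℕ) : ℝ) := by norm_num
  rw [this, Real.rpow_natCast, mul_pow, div_pow]
  have h4 : √3 ^ 3 = 3 * √3 := by
    rw [pow_succ, Real.sq_sqrt (by norm_num)]
  rw [h4]; norm_num

lemma isPotential_W : IsPotential 1 W where
  measurable := continuous_W.measurable
  nonneg := W_nonneg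
  integrable := by
    simp only [W_rpow]
    exact integral_sech3.1.const_mul _
  pos := by
    simp only [W_rpow]
    rw [integral_const_mul, integral_sech3.2]
    have := pi_pos
    positivity

lemma integral_W : ∫ x, W x ^ ((1 : ℝ) + 1 / 2) = 3 * √3 * π / 16 := by
  simp only [W_rpow]
  rw [integral_const_mul, integral_sech3.2]; ring

end Sharp

end LT1
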