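import Mathlib
import Vale.Agent.P371.Defs
import Vale.Agent.P371.Sharp

/-! # P371: from the kinetic inequality to the Lieb-Thirring constant at `γ = 1` -/

namespace LT1

open MeasureTheory Set Filter
open scoped ComplexConjugate ENNReal Topology

/-- The sharp kinetic inequality (proved in Core). -/
def Kinetic : Prop := ∀ (n : ℕ) (u g : Fin n → ℝ → ℂ), (∀ j, IsH1 (u j) (g j)) →
  IsOrthonormal u →
    (Real.pi ^ 2 / 4) * ∫ x, (∑ j, ‖u j x‖ ^ 2) ^ 3 ≤ ∑ j, ∫ x, ‖g j x‖ ^ 2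

lemma real_bdd {v h : ℝ → ℝ} (hv : MemLp v 2 volume) (hh : MemLp h 2 volume)
    (hP : ∀ x y, v y - v x = ∫ t in x..y, h t) : ∃ C : ℝ, ∀ x, v x ^ 2 ≤ C := by
  have hloc : LocallyIntegrable h := hh.locallyIntegrable (by norm_num)
  have i1 : Integrable fun x => h x * v x := hh.integrable_mul hv
  have i2 : Integrable fun x => v x * h x := hv.integrable_mul hh
  have hi := i1.add i2
  refine ⟨v 0 ^ 2 + ∫ x, ‖h x * v x + v x * h x‖, fun x => ?_⟩
  have h1 := real_prod_ftc hloc hloc hP hP 0 x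
  have h2 : |∫ t in (0 : ℝ)..x, (h t * v t + v t * h t)|
      ≤ ∫ x, ‖h x * v x + v x * h x‖ := by
    rw [← Real.norm_eq_abs]
    refine (intervalIntegral.norm_integral_le_integral_norm_uIoc).trans ?_
    exact setIntegral_le_integral hi.norm (Eventually.of_forall fun _ => norm_nonneg _)
  have h3 := (abs_le.mp h2).2
  nlinarith

lemma IsH1.bdd {v h : ℝ → ℂ} (H : IsH1 v h) : ∃ C : ℝ, ∀ x, ‖v x‖ ^ 2 ≤ C := by
  obtain ⟨C1, h1⟩ := real_bdd H.memLp.re H.memLp'.re (Sharp.isH1_re H)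
  obtain ⟨C2, h2⟩ := real_bdd H.memLp.im H.memLp'.im (Sharp.isH1_im H)
  refine ⟨C1 + C2, fun x => ?_⟩
  have := h1 x
  have := h2 x
  rw [← Complex.normSq_eq_norm_sq, Complex.normSq_apply]
  simp only [RCLike.re_to_complex, RCLike.im_to_complex] at *
  nlinarith

lemma IsH1.integrable_sq {v h : ℝ → ℂ} (H : IsH1 v h) : Integrable fun x => ‖v x‖ ^ 2 :=
  (memLp_two_iff_integrable_sq_norm H.memLp.1).mp H.memLp

lemma IsH1.integrable_sq' {v h : ℝ → ℂ} (H : IsH1 v h) : Integrable fun x => ‖h x‖ ^ 2 :=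
  (memLp_two_iff_integrable_sq_norm H.memLp'.1).mp H.memLp'

/-- The density of a finite family. -/
noncomputable def dens {n : ℕ} (u : Fin n → ℝ → ℂ) (x : ℝ) : ℝ := ∑ j, ‖u j x‖ ^ 2

lemma dens_nonneg {n : ℕ} (u : Fin n → ℝ → ℂ) (x : ℝ) : 0 ≤ dens u x :=
  Finset.sum_nonneg fun _ _ => by positivity

lemma integrable_dens {n : ℕ} {u g : Fin n → ℝ → ℂ} (h : ∀ j, IsH1 (u j) (g j)) :
    Integrable (dens u) := integrable_finsetSum _ fun j _ => (h j).integrable_sq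

lemma integrable_dens_cube {n : ℕ} {u g : Fin n → ℝ → ℂ} (h : ∀ j, IsH1 (u j) (g j)) :
    Integrable fun x => dens u x ^ 3 := by
  choose C hC using fun j => (h j).bdd
  have hb : ∀ x, dens u x ≤ ∑ j, C j := fun x => Finset.sum_le_sum fun j _ => hC j x
  have h1 := integrable_dens h
  refine (h1.const_mul ((∑ j, C j) ^ 2)).mono (h1.aestronglyMeasurable.pow 3)
    (Eventually.of_forall fun x => ?_)
  have h0 := dens_nonneg u x
  rw [Real.norm_of_nonneg (by positivity), Real.norm_of_nonneg (by positivity)]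
  have h2 : dens u x ^ 2 ≤ (∑ j, C j) ^ 2 := pow_le_pow_left₀ h0 (hb x) 2
  calc dens u x ^ 3 = dens u x ^ 2 * dens u x := by ring
    _ ≤ _ := mul_le_mul_of_nonneg_right h2 h0

/-- The value of the constant. -/
noncomputable def K0 : ℝ := 4 / (3 * √3 * Real.pi)

lemma K0_pos : 0 < K0 := by
  unfold K0
  have := Real.pi_pos
  positivity

/-- Pointwise duality. -/
lemma dual_pointwise {w r : ℝ} (hw : 0 ≤ w) (hr : 0 ≤ r) :
    w * r ≤ K0 * w ^ ((1 : ℝ) + 1 / 2) + Real.pi ^ 2 / 4 * r ^ 3 := by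
  obtain ⟨s, hs, rfl⟩ : ∃ s : ℝ, 0 ≤ s ∧ w = 3 * s ^ 2 :=
    ⟨√(w / 3), Real.sqrt_nonneg _, by rw [Real.sq_sqrt (by positivity)]; ring⟩
  have hpow : (3 * s ^ 2) ^ ((1 : ℝ) + 1 / 2) = 3 * √3 * s ^ 3 := by
    have h1 : 3 * s ^ 2 = (√3 * s) ^ 2 := by
      rw [mul_pow, Real.sq_sqrt (by norm_num)]
    rw [h1, ← Real.rpow_natCast, ← Real.rpow_mul (by positivity)]
    have : ((2 : ℕ) : ℝ) * (1 + 1 / 2) = ((3 : ℕ) : ℝ) := by norm_num
    rw [this, Real.rpow_natCast, mul_pow]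
    have h4 : √3 ^ 3 = 3 * √3 := by
      rw [pow_succ, Real.sq_sqrt (by norm_num)]
    rw [h4]
  rw [hpow]
  have hpi := Real.pi_pos
  have hK : K0 * (3 * √3 * s ^ 3) = 4 * s ^ 3 / Real.pi := by
    unfold K0
    have h3 : (0 : ℝ) < √3 := by positivity
    field_simp
  rw [hK]
  -- with `t = π r / 2`: `6 s² t / π ≤ (4 s³ + 2 t³)/π`
  have key : 0 ≤ 2 * s ^ 3 + (Real.pi * r / 2) ^ 3 - 3 * s ^ 2 * (Real.pi * r / 2) := by
    have ht : 0 ≤ Real.pi * r / 2 := by positivity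
    have : 2 * s ^ 3 + (Real.pi * r / 2) ^ 3 - 3 * s ^ 2 * (Real.pi * r / 2)
        = (s - Real.pi * r / 2) ^ 2 * (2 * s + Real.pi * r / 2) := by ring
    rw [this]; positivity
  have e : 4 * s ^ 3 / Real.pi + Real.pi ^ 2 / 4 * r ^ 3 - 3 * s ^ 2 * r
      = 2 / Real.pi * (2 * s ^ 3 + (Real.pi * r / 2) ^ 3 - 3 * s ^ 2 * (Real.pi * r / 2)) := by
    field_simp
    ring
  have : 0 ≤ 4 * s ^ 3 / Real.pi + Real.pi ^ 2 / 4 * r ^ 3 - 3 * s ^ 2 * r := by
    rw [e]; positivity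
  linarith

/-- Integrability of `W ρ`. -/
lemma integrable_W_dens {W : ℝ → ℝ} (hm : Measurable W) (h0 : ∀ x, 0 ≤ W x)
    (hW : Integrable fun x => W x ^ ((1 : ℝ) + 1 / 2)) {n : ℕ} {u g : Fin n → ℝ → ℂ}
    (h : ∀ j, IsH1 (u j) (g j)) : Integrable fun x => W x * dens u x := by
  refine ((hW.const_mul K0).add ((integrable_dens_cube h).const_mul (Real.pi ^ 2 / 4))).mono
    (hm.aestronglyMeasurable.mul (integrable_dens h).aestronglyMeasurable)
    (Eventually.of_forall fun x => ?_)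
  have h1 := h0 x
  have h2 := dens_nonneg u x
  have h3 := dual_pointwise h1 h2
  have h4 := K0_pos
  rw [Real.norm_of_nonneg (by positivity), Real.norm_of_nonneg (by
    simp only [Pi.add_apply]; positivity)]
  simpa only [Pi.add_apply] using h3

/-- The variational form of the Lieb-Thirring inequality at `γ = 1`. -/
lemma variational (K : Kinetic) {W : ℝ → ℝ} (hm : Measurable W) (h0 : ∀ x, 0 ≤ W x)
    (hW : Integrable fun x => W x ^ ((1 : ℝ) + 1 / 2)) {n : ℕ} {u g : Fin n → ℝ → ℂ}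
    (h : ∀ j, IsH1 (u j) (g j)) (ho : IsOrthonormal u) :
    (∫ x, W x * dens u x) - ∑ j, ∫ x, ‖g j x‖ ^ 2
      ≤ K0 * ∫ x, W x ^ ((1 : ℝ) + 1 / 2) := by
  have h1 := K n u g h ho
  have h2 : ∫ x, W x * dens u x
      ≤ ∫ x, (K0 * W x ^ ((1 : ℝ) + 1 / 2) + Real.pi ^ 2 / 4 * dens u x ^ 3) :=
    integral_mono (integrable_W_dens hm h0 hW h)
      ((hW.const_mul K0).add ((integrable_dens_cube h).const_mul (Real.pi ^ 2 / 4)))
      fun x => dual_pointwise (h0 x) (dens_nonneg u x)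
  rw [integral_add (hW.const_mul K0) ((integrable_dens_cube h).const_mul (Real.pi ^ 2 / 4)),
    integral_const_mul, integral_const_mul] at h2
  have h3 : ∫ x, (∑ j, ‖u j x‖ ^ 2) ^ 3 = ∫ x, dens u x ^ 3 := rfl
  rw [h3] at h1
  linarith

/-- The quadratic form at an eigenfunction. -/
lemma IsBoundState.form {W : ℝ → ℝ} {lam : ℝ} {u g : ℝ → ℂ} (h : IsBoundState W lam u g)
    (h1 : ∫ x, u x * conj (u x) = 1) :
    (∫ x, ‖g x‖ ^ 2) - ∫ x, W x * ‖u x‖ ^ 2 = lam := by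
  have e := h.eqn u g h.isH1
  rw [h1] at e
  have e1 : (∫ x, g x * conj (g x)) = ((∫ x, ‖g x‖ ^ 2 : ℝ) : ℂ) := by
    rw [← integral_complex_ofReal]
    congr 1; funext x
    rw [Complex.mul_conj, Complex.normSq_eq_norm_sq]
  have e2 : (∫ x, (W x : ℂ) * u x * conj (u x)) = ((∫ x, W x * ‖u x‖ ^ 2 : ℝ) : ℂ) := by
    rw [← integral_complex_ofReal]
    congr 1; funext x
    rw [mul_assoc, Complex.mul_conj, Complex.normSq_eq_norm_sq]
    push_cast; ring
  rw [e1, e2, mul_one] at e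
  exact_mod_cast e

lemma IsOrthonormal.self {n : ℕ} {u : Fin n → ℝ → ℂ} (ho : IsOrthonormal u) (j : Fin n) :
    ∫ x, u j x * conj (u j x) = 1 := by simpa using ho j j

lemma integrable_W_term {W : ℝ → ℝ} (hm : Measurable W) (h0 : ∀ x, 0 ≤ W x)
    (hW : Integrable fun x => W x ^ ((1 : ℝ) + 1 / 2)) {u g : ℝ → ℂ}
    (h : IsH1 u g) : Integrable fun x => W x * ‖u x‖ ^ 2 := by
  have := integrable_W_dens hm h0 hW (n := 1) (u := fun _ => u) (g := fun _ => g) (fun _ => h)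
  simpa [dens] using this

/-- Upper bound for families of bound states. -/
lemma sum_le (K : Kinetic) {W : ℝ → ℝ} (hm : Measurable W) (h0 : ∀ x, 0 ≤ W x)
    (hW : Integrable fun x => W x ^ ((1 : ℝ) + 1 / 2)) {n : ℕ} {lam : Fin n → ℝ}
    {u g : Fin n → ℝ → ℂ} (hlam : ∀ j, lam j < 0)
    (h : ∀ j, IsBoundState W (lam j) (u j) (g j)) (ho : IsOrthonormal u) :
    ∑ j, |lam j| ^ (1 : ℝ) ≤ K0 * ∫ x, W x ^ ((1 : ℝ) + 1 / 2) := by
  have hH : ∀ j, IsH1 (u j) (g j) := fun j => (h j).isH1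
  have hv := variational K hm h0 hW hH ho
  have e : ∫ x, W x * dens u x = ∑ j, ∫ x, W x * ‖u j x‖ ^ 2 := by
    rw [← integral_finsetSum]
    · congr 1; funext x
      simp only [dens, Finset.mul_sum]
    · exact fun j _ => integrable_W_term hm h0 hW (hH j)
  have e2 : ∀ j, |lam j| ^ (1 : ℝ) = (∫ x, W x * ‖u j x‖ ^ 2) - ∫ x, ‖g j x‖ ^ 2 := by
    intro j
    rw [Real.rpow_one, abs_of_neg (hlam j), ← (h j).form (ho.self j)]
    ring
  simp only [e2, Finset.sum_sub_distrib]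
  rw [← e]
  exact hv

lemma traceNeg_le (K : Kinetic) {W : ℝ → ℝ} (hW : IsPotential 1 W) :
    traceNeg 1 W ≤ ENNReal.ofReal (K0 * ∫ x, W x ^ ((1 : ℝ) + 1 / 2)) := by
  unfold traceNeg
  refine iSup_le fun n => iSup_le fun lam => iSup_le fun u => iSup_le fun g =>
    iSup_le fun h => ENNReal.ofReal_le_ofReal ?_
  exact sum_le K hW.measurable hW.nonneg hW.integrable h.1 h.2.1 h.2.2

lemma lowestNeg_le_traceNeg (γ : ℝ) (W : ℝ → ℝ) : lowestNeg γ W ≤ traceNeg γ W := by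
  unfold lowestNeg traceNeg
  refine iSup_le fun lam => iSup_le fun u => iSup_le fun g => iSup_le fun h => ?_
  refine le_iSup_of_le 1 (le_iSup_of_le (fun _ => lam) (le_iSup_of_le (fun _ => u)
    (le_iSup_of_le (fun _ => g) (le_iSup_of_le ⟨fun _ => h.1, fun _ => h.2.1, ?_⟩ ?_))))
  · intro i j
    rw [h.2.2, if_pos (Subsingleton.elim _ _)]
  · simp

lemma LT_le (K : Kinetic) : LT 1 ≤ ENNReal.ofReal K0 := by
  unfold LT
  refine iSup_le fun W => iSup_le fun hW => ?_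
  refine ENNReal.div_le_of_le_mul ?_
  rw [← ENNReal.ofReal_mul K0_pos.le]
  exact traceNeg_le K hW

lemma LTone_le_LT (γ : ℝ) : LTone γ ≤ LT γ := by
  unfold LTone LT
  refine iSup_mono fun W => iSup_mono fun hW => ?_
  exact ENNReal.div_le_div_right (lowestNeg_le_traceNeg γ W) _

lemma le_LTone : ENNReal.ofReal K0 ≤ LTone 1 := by
  unfold LTone
  refine le_iSup_of_le Sharp.W (le_iSup_of_le Sharp.isPotential_W ?_)
  rw [Sharp.integral_W]
  have h1 : ENNReal.ofReal (1 / 4) ≤ lowestNeg 1 Sharp.W := by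
    unfold lowestNeg
    refine le_iSup_of_le (-(1 / 4)) (le_iSup_of_le Sharp.psi (le_iSup_of_le Sharp.psi'
      (le_iSup_of_le ⟨by norm_num, Sharp.isBoundState_psi, Sharp.integral_psi_sq⟩ ?_)))
    rw [Real.rpow_one, abs_neg, abs_of_pos (by norm_num)]
  refine le_trans ?_ (ENNReal.div_le_div_right h1 _)
  have hpi := Real.pi_pos
  rw [← ENNReal.ofReal_div_of_pos (by positivity)]
  refine ENNReal.ofReal_le_ofReal (le_of_eq ?_)
  unfold K0
  have h3 : (0 : ℝ) < √3 := by positivity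
  have h33 : √3 ^ 2 = 3 := Real.sq_sqrt (by norm_num)
  field_simp
  ring

theorem LT_eq (K : Kinetic) : LT 1 = ENNReal.ofReal K0 :=
  le_antisymm (LT_le K) (le_LTone.trans (LTone_le_LT 1))

theorem LTone_eq (K : Kinetic) : LTone 1 = ENNReal.ofReal K0 :=
  le_antisymm ((LTone_le_LT 1).trans (LT_le K)) le_LTone

end LT1
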