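import Mathlib
import Vale.Agent.P371.Dual

/-! # P371: the Aizenman-Lieb lift from `γ = 1` to `γ > 1` -/

namespace LT1

open MeasureTheory Set Filter
open scoped ComplexConjugate ENNReal Topology

/-- `∫_0^∞ t^(γ-2) (a - t)_+ dt = a^γ / (γ (γ - 1))`. -/
lemma lintegral_lift {γ a : ℝ} (hγ : 1 < γ) (ha : 0 ≤ a) :
    ∫⁻ t in Ioi (0 : ℝ), ENNReal.ofReal (t ^ (γ - 2) * max (a - t) 0)
      = ENNReal.ofReal (a ^ γ / (γ * (γ - 1))) := by
  have hsplit : ∫⁻ t in Ioi (0 : ℝ), ENNReal.ofReal (t ^ (γ - 2) * max (a - t) 0)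
      = ∫⁻ t in Ioc (0 : ℝ) a, ENNReal.ofReal (t ^ (γ - 2) * (a - t)) := by
    rw [← lintegral_indicator measurableSet_Ioi, ← lintegral_indicator measurableSet_Ioc]
    congr 1
    funext t
    by_cases h0 : 0 < t
    · by_cases h1 : t ≤ a
      · rw [indicator_of_mem (show t ∈ Ioi 0 from h0), indicator_of_mem (show t ∈ Ioc 0 a from
          ⟨h0, h1⟩), max_eq_left (by linarith)]
      · rw [indicator_of_mem (show t ∈ Ioi 0 from h0), indicator_of_notMem (fun h => h1 h.2),
          max_eq_right (by linarith)]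
        simp
    · rw [indicator_of_notMem (show t ∉ Ioi (0 : ℝ) from fun h => h0 h),
        indicator_of_notMem (show t ∉ Ioc (0 : ℝ) a from fun h => h0 h.1)]
  rw [hsplit]
  have e1 : ∀ t ∈ Ioc (0 : ℝ) a, t ^ (γ - 2) * (a - t) = a * t ^ (γ - 2) - t ^ (γ - 1) := by
    intro t ht
    have : t ^ (γ - 1) = t ^ (γ - 2) * t := by
      rw [← Real.rpow_add_one ht.1.ne']; congr 1; ring
    rw [this]; ring
  have i1 : IntervalIntegrable (fun t : ℝ => a * t ^ (γ - 2)) volume 0 a :=
    (intervalIntegral.intervalIntegrable_rpow' (by linarith)).const_mul a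
  have i2 : IntervalIntegrable (fun t : ℝ => t ^ (γ - 1)) volume 0 a :=
    intervalIntegral.intervalIntegrable_rpow' (by linarith)
  have i3 : IntegrableOn (fun t : ℝ => a * t ^ (γ - 2) - t ^ (γ - 1)) (Ioc 0 a) :=
    (intervalIntegrable_iff_integrableOn_Ioc_of_le ha).mp (i1.sub i2)
  have i4 : IntegrableOn (fun t : ℝ => t ^ (γ - 2) * (a - t)) (Ioc 0 a) :=
    i3.congr_fun (fun t ht => (e1 t ht).symm) measurableSet_Ioc
  rw [← ofReal_integral_eq_lintegral_ofReal i4
    ((ae_restrict_iff' measurableSet_Ioc).mpr (Eventually.of_forall fun t ht =>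
      mul_nonneg (Real.rpow_nonneg ht.1.le _) (by linarith [ht.2])))]
  congr 1
  rw [setIntegral_congr_fun measurableSet_Ioc e1, ← intervalIntegral.integral_of_le ha,
    intervalIntegral.integral_sub i1 i2, intervalIntegral.integral_const_mul,
    integral_rpow (Or.inl (by linarith)), integral_rpow (Or.inl (by linarith))]
  have h0 : (0 : ℝ) ^ (γ - 2 + 1) = 0 := Real.zero_rpow (by linarith)
  have h0' : (0 : ℝ) ^ (γ - 1 + 1) = 0 := Real.zero_rpow (by linarith)
  rw [h0, h0']
  have h3 : a ^ (γ - 1 + 1) = a ^ γ := by congr 1; ring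
  have h4 : a * (a ^ (γ - 2 + 1)) = a ^ γ := by
    rcases ha.eq_or_lt with rfl | ha'
    · rw [h0, Real.zero_rpow (by linarith)]; simp
    · rw [mul_comm, ← Real.rpow_add_one ha'.ne']; congr 1; ring
  rw [h3]
  have h5 : γ - 1 ≠ 0 := by linarith
  have h6 : γ ≠ 0 := by linarith
  have h7 : γ - 2 + 1 = γ - 1 := by ring
  have h8 : γ - 1 + 1 = γ := by ring
  calc a * ((a ^ (γ - 2 + 1) - 0) / (γ - 2 + 1)) - (a ^ γ - 0) / (γ - 1 + 1)
      = (a * a ^ (γ - 2 + 1)) / (γ - 1) - a ^ γ / γ := by rw [h8, ← h7]; ring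
    _ = a ^ γ / (γ * (γ - 1)) := by rw [h4]; field_simp; ring

lemma integrable_cl {γ w : ℝ} (hγ : 0 < γ) (hw : 0 ≤ w) :
    Integrable fun ξ : ℝ => (max (w - ξ ^ 2) 0) ^ γ := by
  have hc : Continuous fun ξ : ℝ => (max (w - ξ ^ 2) 0) ^ γ :=
    ((continuous_const.sub (continuous_pow 2)).max continuous_const).rpow_const
      fun _ => Or.inr hγ.le
  refine hc.integrable_of_hasCompactSupport ?_
  refine HasCompactSupport.intro (K := Icc (-(w + 1)) (w + 1)) isCompact_Icc fun ξ hξ => ?_
  have h1 : w - ξ ^ 2 ≤ 0 := by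
    have : w + 1 < |ξ| := by
      by_contra hcon
      push Not at hcon
      exact hξ ⟨by linarith [neg_abs_le ξ], by linarith [le_abs_self ξ]⟩
    have h2 : ξ ^ 2 = |ξ| ^ 2 := (sq_abs ξ).symm
    nlinarith [abs_nonneg ξ]
  rw [max_eq_right h1, Real.zero_rpow hγ.ne']

/-- Phase-space form of the semiclassical constant. -/
lemma cl_scaling {γ w : ℝ} (hγ : 0 < γ) (hw : 0 ≤ w) :
    1 / (2 * Real.pi) * ∫ ξ : ℝ, (max (w - ξ ^ 2) 0) ^ γ = Lcl γ * w ^ (γ + 1 / 2) := by
  rcases hw.eq_or_lt with rfl | hw'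
  · have : ∀ ξ : ℝ, (max (0 - ξ ^ 2) 0) ^ γ = 0 := fun ξ => by
      rw [max_eq_right (by nlinarith [sq_nonneg ξ]), Real.zero_rpow hγ.ne']
    simp only [this, integral_zero, mul_zero]
    rw [Real.zero_rpow (by linarith), mul_zero]
  · have hs : 0 < √w := Real.sqrt_pos.mpr hw'
    have h1 := Measure.integral_comp_mul_left (fun ξ : ℝ => (max (w - ξ ^ 2) 0) ^ γ) √w
    have h2 : ∀ ξ : ℝ, (max (w - (√w * ξ) ^ 2) 0) ^ γ = w ^ γ * (max (1 - ξ ^ 2) 0) ^ γ := by
      intro ξ
      rw [mul_pow, Real.sq_sqrt hw, ← Real.mul_rpow hw (le_max_right _ _),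
        mul_max_of_nonneg _ _ hw]
      congr 1
      · ring_nf
    simp only [h2] at h1
    rw [integral_const_mul, abs_of_pos (inv_pos.mpr hs), smul_eq_mul] at h1
    have h3 : ∫ ξ : ℝ, (max (w - ξ ^ 2) 0) ^ γ
        = √w * (w ^ γ * ∫ ξ : ℝ, (max (1 - ξ ^ 2) 0) ^ γ) := by
      rw [h1, ← mul_assoc, mul_inv_cancel₀ hs.ne', one_mul]
    rw [h3, Real.rpow_add hw', ← Real.sqrt_eq_rpow]
    unfold Lcl
    ring

lemma Lcl_one : Lcl 1 = 2 / (3 * Real.pi) := by
  have h1 : ∫ ξ : ℝ, (max (1 - ξ ^ 2) 0) ^ (1 : ℝ) = ∫ ξ in (-1 : ℝ)..1, (1 - ξ ^ 2) := by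
    rw [intervalIntegral.integral_of_le (by norm_num),
      ← integral_indicator measurableSet_Ioc]
    refine integral_congr_ae ?_
    have h2 : ∀ᵐ ξ : ℝ, ξ ≠ -1 := by simp [ae_iff, measure_singleton]
    filter_upwards [h2] with ξ hξ
    rw [Real.rpow_one]
    by_cases h : ξ ∈ Ioc (-1 : ℝ) 1
    · rw [indicator_of_mem h, max_eq_left]
      nlinarith [h.1, h.2]
    · rw [indicator_of_notMem h, max_eq_right]
      by_contra hcon
      push Not at hcon
      have : |ξ| < 1 := by
        rw [← sq_lt_one_iff_abs_lt_one]; linarith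
      exact h ⟨(abs_lt.mp this).1, (abs_lt.mp this).2.le⟩
  unfold Lcl
  rw [h1, intervalIntegral.integral_sub (by simp) (by simp), intervalIntegral.integral_const,
    integral_pow]
  have := Real.pi_pos
  norm_num
  field_simp
  ring

lemma K0_eq : K0 = 2 / √3 * Lcl 1 := by
  rw [Lcl_one]
  unfold K0
  have := Real.pi_pos
  have h3 : (0 : ℝ) < √3 := by positivity
  field_simp
  ring

lemma Lcl_nonneg (γ : ℝ) : 0 ≤ Lcl γ := by
  unfold Lcl
  have := Real.pi_pos
  have : 0 ≤ ∫ ξ : ℝ, (max (1 - ξ ^ 2) 0) ^ γ :=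
    integral_nonneg fun ξ => Real.rpow_nonneg (le_max_right _ _) _
  positivity

/-- Phase-space form with lower integrals. -/
lemma cl_lintegral {γ w : ℝ} (hγ : 0 < γ) (hw : 0 ≤ w) :
    ENNReal.ofReal (Lcl γ * w ^ (γ + 1 / 2))
      = ENNReal.ofReal (1 / (2 * Real.pi)) *
        ∫⁻ ξ : ℝ, ENNReal.ofReal ((max (w - ξ ^ 2) 0) ^ γ) := by
  have := Real.pi_pos
  rw [← cl_scaling hγ hw, ENNReal.ofReal_mul (by positivity),
    ofReal_integral_eq_lintegral_ofReal (integrable_cl hγ hw)
      (Eventually.of_forall fun ξ => Real.rpow_nonneg (le_max_right _ _) _)]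

/-- The variational inequality for families indexed by a finite set. -/
lemma variational_finset (K : Kinetic) {W : ℝ → ℝ} (hm : Measurable W) (h0 : ∀ x, 0 ≤ W x)
    (hW : Integrable fun x => W x ^ ((1 : ℝ) + 1 / 2)) {n : ℕ} {u g : Fin n → ℝ → ℂ}
    (h : ∀ j, IsH1 (u j) (g j)) (ho : IsOrthonormal u) (S : Finset (Fin n)) :
    ∑ j ∈ S, ((∫ x, W x * ‖u j x‖ ^ 2) - ∫ x, ‖g j x‖ ^ 2)
      ≤ K0 * ∫ x, W x ^ ((1 : ℝ) + 1 / 2) := by
  classical
  let e : Fin S.card ≃ S := S.equivFin.symm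
  have ho' : IsOrthonormal (fun i => u (e i)) := by
    intro i j
    rw [ho (e i) (e j)]
    by_cases hij : i = j
    · rw [if_pos hij, if_pos (by rw [hij])]
    · rw [if_neg hij, if_neg (fun hh => hij (e.injective (Subtype.ext hh)))]
  have hv := variational K hm h0 hW (u := fun i => u (e i)) (g := fun i => g (e i))
    (fun i => h (e i)) ho'
  have e1 : ∫ x, W x * dens (fun i => u (e i)) x = ∑ i, ∫ x, W x * ‖u (e i) x‖ ^ 2 := by
    rw [← integral_finsetSum]
    · congr 1; funext x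
      simp only [dens, Finset.mul_sum]
    · exact fun j _ => integrable_W_term hm h0 hW (h (e j))
  rw [e1, ← Finset.sum_sub_distrib] at hv
  rw [← Finset.sum_coe_sort S]
  rw [← e.sum_comp]
  exact hv

lemma cut_le {γ t w : ℝ} (hγ : 1 ≤ γ) (ht : 0 < t) (hw : 0 ≤ w) :
    (max (w - t) 0) ^ ((1 : ℝ) + 1 / 2) ≤ t ^ (1 - γ) * w ^ (γ + 1 / 2) := by
  rcases le_or_gt w t with h | h
  · rw [max_eq_right (by linarith), Real.zero_rpow (by norm_num)]
    positivity
  · have hw' : 0 < w := ht.trans h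
    rw [max_eq_left (by linarith)]
    have h1 : (w - t) ^ ((1 : ℝ) + 1 / 2) ≤ w ^ ((1 : ℝ) + 1 / 2) :=
      Real.rpow_le_rpow (by linarith) (by linarith) (by norm_num)
    have h2 : w ^ ((1 : ℝ) + 1 / 2) = w ^ (1 - γ) * w ^ (γ + 1 / 2) := by
      rw [← Real.rpow_add hw']; congr 1; ring
    have h3 : w ^ (1 - γ) ≤ t ^ (1 - γ) :=
      Real.rpow_le_rpow_of_nonpos ht h.le (by linarith)
    calc _ ≤ w ^ ((1 : ℝ) + 1 / 2) := h1
      _ = w ^ (1 - γ) * w ^ (γ + 1 / 2) := h2
      _ ≤ _ := mul_le_mul_of_nonneg_right h3 (by positivity)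

lemma cut_integrable {γ t : ℝ} (hγ : 1 ≤ γ) (ht : 0 < t) {W : ℝ → ℝ} (hW : IsPotential γ W) :
    Integrable fun x => (max (W x - t) 0) ^ ((1 : ℝ) + 1 / 2) := by
  refine (hW.integrable.const_mul (t ^ (1 - γ))).mono
    (((hW.measurable.sub_const t).max measurable_const).pow_const _).aestronglyMeasurable
    (Eventually.of_forall fun x => ?_)
  have h1 := cut_le hγ ht (hW.nonneg x)
  have h2 : 0 ≤ max (W x - t) 0 := le_max_right _ _
  have h3 := hW.nonneg x
  rw [Real.norm_of_nonneg (by positivity), Real.norm_of_nonneg (by positivity)]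
  exact h1

lemma IsH1.integral_sq {u : ℝ → ℂ} (h1 : ∫ x, u x * conj (u x) = 1) :
    ∫ x, ‖u x‖ ^ 2 = 1 := by
  have e1 : (∫ x, u x * conj (u x)) = ((∫ x, ‖u x‖ ^ 2 : ℝ) : ℂ) := by
    rw [← integral_complex_ofReal]
    congr 1; funext x
    rw [Complex.mul_conj, Complex.normSq_eq_norm_sq]
  rw [e1] at h1
  exact_mod_cast h1

/-- The inequality for the part of the spectrum below `-t`. -/
lemma sum_cut (K : Kinetic) {γ t : ℝ} (hγ : 1 ≤ γ) (ht : 0 < t) {W : ℝ → ℝ}
    (hW : IsPotential γ W) {n : ℕ} {lam : Fin n → ℝ}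
    {u g : Fin n → ℝ → ℂ} (hlam : ∀ j, lam j < 0)
    (h : ∀ j, IsBoundState W (lam j) (u j) (g j)) (ho : IsOrthonormal u) :
    ∑ j, max (|lam j| - t) 0 ≤ K0 * ∫ x, (max (W x - t) 0) ^ ((1 : ℝ) + 1 / 2) := by
  classical
  have hm : Measurable fun x => max (W x - t) 0 :=
    (hW.measurable.sub_const t).max measurable_const
  have h0 : ∀ x, 0 ≤ max (W x - t) 0 := fun x => le_max_right _ _
  have hi := cut_integrable hγ ht hW
  have hv := variational_finset K hm h0 hi (fun j => (h j).isH1) ho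
    (Finset.univ.filter fun j => t < |lam j|)
  refine le_trans ?_ hv
  rw [Finset.sum_filter]
  refine Finset.sum_le_sum fun j _ => ?_
  split_ifs with hj
  · rw [max_eq_left (by linarith), abs_of_neg (hlam j), ← (h j).form (ho.self j)]
    have h1 : ∫ x, W x * ‖u j x‖ ^ 2
        ≤ ∫ x, (max (W x - t) 0 * ‖u j x‖ ^ 2 + t * ‖u j x‖ ^ 2) := by
      refine integral_mono_of_nonneg (Eventually.of_forall fun x =>
        mul_nonneg (hW.nonneg x) (by positivity))
        ((integrable_W_term hm h0 hi (h j).isH1).add ((h j).isH1.integrable_sq.const_mul t))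
        (Eventually.of_forall fun x => ?_)
      have h2 : W x ≤ max (W x - t) 0 + t := by linarith [le_max_left (W x - t) 0]
      have h3 : 0 ≤ ‖u j x‖ ^ 2 := by positivity
      show W x * ‖u j x‖ ^ 2 ≤ _
      nlinarith
    rw [integral_add (integrable_W_term hm h0 hi (h j).isH1)
      ((h j).isH1.integrable_sq.const_mul t), integral_const_mul,
      IsH1.integral_sq (ho.self j)] at h1
    linarith
  · rw [max_eq_right (by linarith)]

/-- Aizenman-Lieb lift. -/
lemma sum_lift (K : Kinetic) {γ : ℝ} (hγ : 1 < γ) {W : ℝ → ℝ}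
    (hW : IsPotential γ W) {n : ℕ} {lam : Fin n → ℝ}
    {u g : Fin n → ℝ → ℂ} (hlam : ∀ j, lam j < 0)
    (h : ∀ j, IsBoundState W (lam j) (u j) (g j)) (ho : IsOrthonormal u) :
    ENNReal.ofReal (∑ j, |lam j| ^ γ)
      ≤ ENNReal.ofReal (2 / √3 * Lcl γ) * ENNReal.ofReal (∫ x, W x ^ (γ + 1 / 2)) := by
  have hpi := Real.pi_pos
  have hγ0 : 0 < γ := by linarith
  have hc : 0 < γ * (γ - 1) := by nlinarith
  -- it is enough to prove the inequality multiplied by `1/(γ (γ - 1))`
  have key : ENNReal.ofReal ((∑ j, |lam j| ^ γ) / (γ * (γ - 1)))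
      ≤ ENNReal.ofReal (2 / √3) * ∫⁻ x, ENNReal.ofReal (Lcl γ * W x ^ (γ + 1 / 2)
        / (γ * (γ - 1))) := by
    calc ENNReal.ofReal ((∑ j, |lam j| ^ γ) / (γ * (γ - 1)))
        = ∑ j, ∫⁻ t in Ioi (0 : ℝ), ENNReal.ofReal (t ^ (γ - 2) * max (|lam j| - t) 0) := by
          rw [Finset.sum_div, ENNReal.ofReal_sum_of_nonneg (fun j _ => by positivity)]
          exact Finset.sum_congr rfl fun j _ => (lintegral_lift hγ (abs_nonneg _)).symm
      _ = ∫⁻ t in Ioi (0 : ℝ), ∑ j, ENNReal.ofReal (t ^ (γ - 2) * max (|lam j| - t) 0) := by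
          rw [lintegral_finsetSum]
          intro j _
          exact ((measurable_id.pow_const _).mul
            ((measurable_const.sub measurable_id).max measurable_const)).ennreal_ofReal
      _ ≤ ∫⁻ t in Ioi (0 : ℝ), ENNReal.ofReal (2 / √3) * ∫⁻ x,
            ENNReal.ofReal (1 / (2 * Real.pi)) * ∫⁻ ξ : ℝ,
              ENNReal.ofReal (t ^ (γ - 2) * max (max (W x - ξ ^ 2) 0 - t) 0) := by
          refine setLIntegral_mono' measurableSet_Ioi fun t ht => ?_
          have ht' : 0 < t := ht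
          have hcut := sum_cut K hγ.le ht' hW hlam h ho
          have htp : 0 ≤ t ^ (γ - 2) := by positivity
          have e1 : ∑ j, ENNReal.ofReal (t ^ (γ - 2) * max (|lam j| - t) 0)
              = ENNReal.ofReal (t ^ (γ - 2) * ∑ j, max (|lam j| - t) 0) := by
            rw [Finset.mul_sum, ENNReal.ofReal_sum_of_nonneg]
            exact fun j _ => mul_nonneg htp (le_max_right _ _)
          rw [e1]
          calc ENNReal.ofReal (t ^ (γ - 2) * ∑ j, max (|lam j| - t) 0)
              ≤ ENNReal.ofReal (t ^ (γ - 2)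
                * (K0 * ∫ x, (max (W x - t) 0) ^ ((1 : ℝ) + 1 / 2))) :=
                ENNReal.ofReal_le_ofReal (mul_le_mul_of_nonneg_left hcut htp)
            _ = ENNReal.ofReal (t ^ (γ - 2)) * (ENNReal.ofReal (2 / √3) * ∫⁻ x,
                  ENNReal.ofReal (Lcl 1 * (max (W x - t) 0) ^ ((1 : ℝ) + 1 / 2))) := by
                rw [ENNReal.ofReal_mul htp, K0_eq, mul_assoc, ← integral_const_mul,
                  ENNReal.ofReal_mul (by positivity), ofReal_integral_eq_lintegral_ofReal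
                    ((cut_integrable hγ.le ht' hW).const_mul _)
                    (Eventually.of_forall fun x => mul_nonneg (Lcl_nonneg 1)
                      (Real.rpow_nonneg (le_max_right _ _) _))]
            _ = ENNReal.ofReal (2 / √3) * ∫⁻ x, ENNReal.ofReal (1 / (2 * Real.pi)) *
                  ∫⁻ ξ : ℝ, ENNReal.ofReal (t ^ (γ - 2)
                    * max (max (W x - ξ ^ 2) 0 - t) 0) := by
                rw [← mul_assoc, mul_comm (ENNReal.ofReal (t ^ (γ - 2))), mul_assoc]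
                congr 1
                rw [← lintegral_const_mul' _ _ ENNReal.ofReal_ne_top]
                refine lintegral_congr fun x => ?_
                rw [cl_lintegral one_pos (le_max_right _ _), ← mul_assoc,
                  mul_comm (ENNReal.ofReal (t ^ (γ - 2))), mul_assoc]
                congr 1
                rw [← lintegral_const_mul' _ _ ENNReal.ofReal_ne_top]
                refine lintegral_congr fun ξ => ?_
                rw [← ENNReal.ofReal_mul htp, Real.rpow_one]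
                congr 2
                have hξ := sq_nonneg ξ
                rcases le_total (W x - t) 0 with h1 | h1
                · rw [max_eq_right h1, max_eq_right (by linarith : (0 : ℝ) - ξ ^ 2 ≤ 0)]
                  symm
                  apply max_eq_right
                  rcases le_total (W x - ξ ^ 2) 0 with h2 | h2
                  · rw [max_eq_right h2]; linarith
                  · rw [max_eq_left h2]; linarith
                · rw [max_eq_left h1]
                  rcases le_total (W x - ξ ^ 2) 0 with h2 | h2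
                  · rw [max_eq_right h2, max_eq_right (by linarith), max_eq_right (by linarith)]
                  · rw [max_eq_left h2]; congr 1; ring
      _ = ENNReal.ofReal (2 / √3) * ∫⁻ x, ENNReal.ofReal (1 / (2 * Real.pi)) *
            ∫⁻ ξ : ℝ, ∫⁻ t in Ioi (0 : ℝ),
              ENNReal.ofReal (t ^ (γ - 2) * max (max (W x - ξ ^ 2) 0 - t) 0) := by
          have hmeas : Measurable fun p : (ℝ × ℝ) × ℝ => ENNReal.ofReal (p.1.1 ^ (γ - 2)
              * max (max (W p.1.2 - p.2 ^ 2) 0 - p.1.1) 0) := by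
            have := hW.measurable
            fun_prop
          rw [lintegral_const_mul' _ _ ENNReal.ofReal_ne_top]
          congr 1
          rw [lintegral_lintegral_swap]
          · refine lintegral_congr fun x => ?_
            rw [lintegral_const_mul' _ _ ENNReal.ofReal_ne_top]
            congr 1
            rw [lintegral_lintegral_swap]
            have h2 : Measurable fun p : ℝ × ℝ => ENNReal.ofReal (p.1 ^ (γ - 2)
              * max (max (W x - p.2 ^ 2) 0 - p.1) 0) := by fun_prop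
            exact h2.aemeasurable
          · have h3 : Measurable fun p : ℝ × ℝ => ∫⁻ ξ : ℝ, ENNReal.ofReal (p.1 ^ (γ - 2)
              * max (max (W p.2 - ξ ^ 2) 0 - p.1) 0) := hmeas.lintegral_prod_right'
            exact (h3.const_mul _).aemeasurable
      _ = ENNReal.ofReal (2 / √3) * ∫⁻ x, ENNReal.ofReal (Lcl γ * W x ^ (γ + 1 / 2)
        / (γ * (γ - 1))) := by
          congr 1
          refine lintegral_congr fun x => ?_
          have e2 : ∀ ξ : ℝ, ∫⁻ t in Ioi (0 : ℝ),
              ENNReal.ofReal (t ^ (γ - 2) * max (max (W x - ξ ^ 2) 0 - t) 0)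
              = ENNReal.ofReal ((max (W x - ξ ^ 2) 0) ^ γ)
                * ENNReal.ofReal (1 / (γ * (γ - 1))) := by
            intro ξ
            rw [lintegral_lift hγ (le_max_right _ _), ← ENNReal.ofReal_mul
              (Real.rpow_nonneg (le_max_right _ _) _)]
            congr 1; ring
          simp only [e2]
          rw [lintegral_mul_const' _ _ ENNReal.ofReal_ne_top, ← mul_assoc,
            ← cl_lintegral hγ0 (hW.nonneg x), ← ENNReal.ofReal_mul
              (mul_nonneg (Lcl_nonneg γ) (Real.rpow_nonneg (hW.nonneg x) _))]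
          congr 1; ring
  have e3 : ∫⁻ x, ENNReal.ofReal (Lcl γ * W x ^ (γ + 1 / 2) / (γ * (γ - 1)))
      = ENNReal.ofReal (Lcl γ * (∫ x, W x ^ (γ + 1 / 2)) / (γ * (γ - 1))) := by
    rw [← ofReal_integral_eq_lintegral_ofReal ((hW.integrable.const_mul _).div_const _)
      (Eventually.of_forall fun x => div_nonneg (mul_nonneg (Lcl_nonneg γ)
        (Real.rpow_nonneg (hW.nonneg x) _)) hc.le), integral_div, integral_const_mul]
  rw [e3, ← ENNReal.ofReal_mul (by positivity)] at key
  have hp := hW.pos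
  have hL := Lcl_nonneg γ
  rw [ENNReal.ofReal_le_ofReal_iff (by positivity)] at key
  rw [← ENNReal.ofReal_mul (by positivity)]
  refine ENNReal.ofReal_le_ofReal ?_
  rw [div_le_iff₀ hc] at key
  calc ∑ j, |lam j| ^ γ
      ≤ 2 / √3 * (Lcl γ * (∫ x, W x ^ (γ + 1 / 2)) / (γ * (γ - 1))) * (γ * (γ - 1)) := key
    _ = _ := by rw [mul_assoc, div_mul_cancel₀ _ hc.ne', ← mul_assoc]

theorem LT_le_lift (K : Kinetic) {γ : ℝ} (hγ : 1 ≤ γ) :
    LT γ ≤ ENNReal.ofReal (2 / √3 * Lcl γ) := by
  rcases hγ.eq_or_lt with rfl | hγ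
  · rw [← K0_eq]; exact LT_le K
  · unfold LT
    refine iSup_le fun W => iSup_le fun hW => ?_
    refine ENNReal.div_le_of_le_mul ?_
    unfold traceNeg
    refine iSup_le fun n => iSup_le fun lam => iSup_le fun u => iSup_le fun g =>
      iSup_le fun h => ?_
    exact sum_lift K hγ hW h.1 h.2.1 h.2.2

end LT1
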