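import Mathlib

/-!
# P371: the one-dimensional Lieb-Thirring constants for matrix potentials, definitions

Functions with values in `ℂ^m` are functions `ψ : ℝ → Fin m → ℂ`; potentials are functions
`W : ℝ → Matrix (Fin m) (Fin m) ℂ`.
-/

namespace LTM

open MeasureTheory Set Filter
open scoped ComplexConjugate ENNReal ComplexOrder

/-- `ψ ∈ H¹(ℝ; ℂ^m)` with weak derivative `g` (componentwise: both are square integrable and `ψ`
is the primitive of `g`). -/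
structure IsH1 {m : ℕ} (ψ g : ℝ → Fin m → ℂ) : Prop where
  memLp : ∀ c, MemLp (fun x => ψ x c) 2 volume
  memLp' : ∀ c, MemLp (fun x => g x c) 2 volume
  ftc : ∀ c x y, ψ y c - ψ x c = ∫ t in x..y, g t c

/-- The sesquilinear pairing `⟨a, b⟩ = ∑_c a_c conj(b_c)` on `ℂ^m`. -/
def pair {m : ℕ} (a b : Fin m → ℂ) : ℂ := ∑ c, a c * conj (b c)

open Classical in
/-- `tr (A ^ p)` for a Hermitian matrix `A`: the sum of the `p`-th powers of its eigenvalues. -/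
noncomputable def trPow {m : ℕ} (p : ℝ) (A : Matrix (Fin m) (Fin m) ℂ) : ℝ :=
  if h : A.IsHermitian then ∑ i, h.eigenvalues i ^ p else 0

/-- Matrix potentials: `W` measurable with values in the positive semidefinite matrices,
`W ≠ 0` and `∫ tr (W ^ (γ + 1/2)) < ∞`. -/
structure IsPotential {m : ℕ} (γ : ℝ) (W : ℝ → Matrix (Fin m) (Fin m) ℂ) : Prop where
  measurable : ∀ c d, Measurable fun x => W x c d
  posSemidef : ∀ x, (W x).PosSemidef
  integrable : Integrable (fun x => trPow (γ + 1 / 2) (W x)) volume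
  pos : 0 < ∫ x, trPow (γ + 1 / 2) (W x)

/-- `u ∈ H¹(ℝ; ℂ^m)` (with weak derivative `g`) satisfies `-u'' - W u = lam u` in the sense of the
quadratic form `∫ |ψ'|² - ∫ ⟨W ψ, ψ⟩` with form domain `H¹(ℝ; ℂ^m)`. -/
structure IsBoundState {m : ℕ} (W : ℝ → Matrix (Fin m) (Fin m) ℂ) (lam : ℝ)
    (u g : ℝ → Fin m → ℂ) : Prop where
  isH1 : IsH1 u g
  eqn : ∀ v h : ℝ → Fin m → ℂ, IsH1 v h →
    (∫ x, pair (g x) (h x)) - ∫ x, pair ((W x).mulVec (u x)) (v x)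
      = (lam : ℂ) * ∫ x, pair (u x) (v x)

/-- The family `u` is orthonormal in `L²(ℝ; ℂ^m)`. -/
def IsOrthonormal {m n : ℕ} (u : Fin n → ℝ → Fin m → ℂ) : Prop :=
  ∀ i j, ∫ x, pair (u i x) (u j x) = if i = j then 1 else 0

/-- `Tr (H_W)_- ^ γ = ∑_j |lam_j| ^ γ` over the negative eigenvalues of `-d²/dx² - W`, with
multiplicity: the supremum over finite orthonormal families of bound states. -/
noncomputable def traceNeg {m : ℕ} (γ : ℝ) (W : ℝ → Matrix (Fin m) (Fin m) ℂ) : ℝ≥0∞ :=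
  ⨆ (n : ℕ) (lam : Fin n → ℝ) (u : Fin n → ℝ → Fin m → ℂ) (g : Fin n → ℝ → Fin m → ℂ)
    (_ : (∀ j, lam j < 0) ∧ (∀ j, IsBoundState W (lam j) (u j) (g j)) ∧ IsOrthonormal u),
    ENNReal.ofReal (∑ j, |lam j| ^ γ)

/-- `|lam_1| ^ γ` for the lowest eigenvalue `lam_1` of `-d²/dx² - W` (`0` if there is no negative
eigenvalue). -/
noncomputable def lowestNeg {m : ℕ} (γ : ℝ) (W : ℝ → Matrix (Fin m) (Fin m) ℂ) : ℝ≥0∞ :=
  ⨆ (lam : ℝ) (u : ℝ → Fin m → ℂ) (g : ℝ → Fin m → ℂ)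
    (_ : lam < 0 ∧ IsBoundState W lam u g ∧ ∫ x, pair (u x) (u x) = 1),
    ENNReal.ofReal (|lam| ^ γ)

/-- The Lieb-Thirring constant `L_γ(m)`. -/
noncomputable def LT (γ : ℝ) (m : ℕ) : ℝ≥0∞ :=
  ⨆ (W : ℝ → Matrix (Fin m) (Fin m) ℂ) (_ : IsPotential γ W),
    traceNeg γ W / ENNReal.ofReal (∫ x, trPow (γ + 1 / 2) (W x))

/-- The one-bound-state constant `L^{(1)}_γ` (scalar potentials, lowest eigenvalue only). -/
noncomputable def LTone (γ : ℝ) : ℝ≥0∞ :=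
  ⨆ (W : ℝ → Matrix (Fin 1) (Fin 1) ℂ) (_ : IsPotential γ W),
    lowestNeg γ W / ENNReal.ofReal (∫ x, trPow (γ + 1 / 2) (W x))

/-- The semiclassical constant `L^cl_γ = (2π)⁻¹ ∫ (1 - ξ²)_+ ^ γ dξ`. -/
noncomputable def Lcl (γ : ℝ) : ℝ :=
  1 / (2 * Real.pi) * ∫ ξ : ℝ, (max (1 - ξ ^ 2) 0) ^ γ

end LTM
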