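import Mathlib
import Vale.Agent.P371.MDefs
import Vale.Agent.P371.Lift
import Vale.Agent.P371.Core

/-! # P371: matrix potentials, Peierls inequality and duality -/

namespace LTM

open MeasureTheory Set Filter Matrix
open scoped ComplexConjugate ENNReal Topology ComplexOrder

variable {m : ℕ}

/-- Unitary diagonalisation. -/
lemma exists_unitary {A : Matrix (Fin m) (Fin m) ℂ} (hA : A.IsHermitian) :
    ∃ P : Matrix (Fin m) (Fin m) ℂ, Pᴴ * P = 1 ∧ P * Pᴴ = 1 ∧
      A = P * diagonal (fun a => ((hA.eigenvalues a : ℝ) : ℂ)) * Pᴴ := by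
  refine ⟨(hA.eigenvectorUnitary : Matrix (Fin m) (Fin m) ℂ),
    Unitary.coe_star_mul_self hA.eigenvectorUnitary,
    Unitary.coe_mul_star_self hA.eigenvectorUnitary, ?_⟩
  have := hA.spectral_theorem
  rw [Unitary.conjStarAlgAut_apply] at this
  exact this

lemma posSemidef_re_diag {B : Matrix (Fin m) (Fin m) ℂ} (hB : B.PosSemidef) (i : Fin m) :
    0 ≤ (B i i).re ∧ (B i i).im = 0 := by
  have h := hB.diag_nonneg (i := i)
  have := Complex.le_def.mp h
  exact ⟨this.1, this.2.symm⟩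

/-- Jensen: `⟨e, B e⟩³ ≤ ⟨e, B³ e⟩` for a basis vector `e`. -/
lemma diag_cube_le {B : Matrix (Fin m) (Fin m) ℂ} (hB : B.PosSemidef) (i : Fin m) :
    (B i i).re ^ 3 ≤ ((B ^ 3) i i).re := by
  obtain ⟨hr, him⟩ := posSemidef_re_diag hB i
  set r : ℝ := (B i i).re with hrdef
  have hH : (B - (r : ℂ) • (1 : Matrix (Fin m) (Fin m) ℂ)).IsHermitian := by
    refine hB.isHermitian.sub ?_
    rw [Matrix.IsHermitian, conjTranspose_smul, conjTranspose_one]
    congr 1
    exact Complex.conj_ofReal r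
  have h2 : (B + ((2 * r : ℝ) : ℂ) • (1 : Matrix (Fin m) (Fin m) ℂ)).PosSemidef := by
    refine hB.add (Matrix.PosSemidef.one.smul ?_)
    exact_mod_cast (by positivity : (0 : ℝ) ≤ 2 * r)
  have h3 := h2.conjTranspose_mul_mul_same (B - (r : ℂ) • (1 : Matrix (Fin m) (Fin m) ℂ))
  rw [hH.eq] at h3
  have h4 : (B - (r : ℂ) • (1 : Matrix (Fin m) (Fin m) ℂ))
      * (B + ((2 * r : ℝ) : ℂ) • (1 : Matrix (Fin m) (Fin m) ℂ))
      * (B - (r : ℂ) • (1 : Matrix (Fin m) (Fin m) ℂ))
      = B ^ 3 - ((3 * r ^ 2 : ℝ) : ℂ) • B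
        + ((2 * r ^ 3 : ℝ) : ℂ) • (1 : Matrix (Fin m) (Fin m) ℂ) := by
    simp only [sub_mul, mul_sub, add_mul, mul_add, smul_mul_assoc, mul_smul_comm, one_mul,
      mul_one, smul_smul, smul_sub, smul_add, pow_succ, pow_zero]
    push_cast
    module
  rw [h4] at h3
  have h5 := (posSemidef_re_diag h3 i).1
  simp only [Matrix.add_apply, Matrix.sub_apply, Matrix.smul_apply, Matrix.one_apply_eq,
    smul_eq_mul, Complex.add_re,
    Complex.sub_re, Complex.re_ofReal_mul, mul_one, Complex.ofReal_re] at h5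
  rw [← hrdef] at h5
  nlinarith

/-- The diagonal of `R` in an eigenbasis of `W`. -/
lemma exists_occupation {W R : Matrix (Fin m) (Fin m) ℂ} (hW : W.IsHermitian)
    (hR : R.PosSemidef) : ∃ r : Fin m → ℝ, (∀ i, 0 ≤ r i) ∧
      (W * R).trace = ((∑ i, hW.eigenvalues i * r i : ℝ) : ℂ) ∧
      ∑ i, r i = R.trace.re ∧ ∑ i, r i ^ 3 ≤ ((R ^ 3).trace).re := by
  obtain ⟨P, h1, h2, hP⟩ := exists_unitary hW
  set B : Matrix (Fin m) (Fin m) ℂ := Pᴴ * R * P with hB
  have hBp : B.PosSemidef := hR.conjTranspose_mul_mul_same P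
  refine ⟨fun i => (B i i).re, fun i => (posSemidef_re_diag hBp i).1, ?_, ?_, ?_⟩
  · have e : (W * R).trace = (diagonal (fun a => ((hW.eigenvalues a : ℝ) : ℂ)) * B).trace := by
      conv_lhs => rw [hP]
      rw [Matrix.mul_assoc, Matrix.mul_assoc, Matrix.trace_mul_comm, hB]
      simp only [Matrix.mul_assoc]
    rw [e]
    simp only [trace, diag, diagonal_mul]
    push_cast
    refine Finset.sum_congr rfl fun i _ => ?_
    congr 1
    apply Complex.ext
    · simp
    · simpa using (posSemidef_re_diag hBp i).2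
  · have e : B.trace = R.trace := by
      rw [hB, Matrix.trace_mul_comm, ← Matrix.mul_assoc, h2, Matrix.one_mul]
    rw [← e]
    simp [trace, diag]
  · have e : (B ^ 3).trace = (R ^ 3).trace := by
      have : B ^ 3 = Pᴴ * R ^ 3 * P := by
        simp only [hB, pow_succ, pow_zero, Matrix.one_mul]
        calc Pᴴ * R * P * (Pᴴ * R * P) * (Pᴴ * R * P)
            = Pᴴ * R * (P * Pᴴ) * R * (P * Pᴴ) * R * P := by simp only [Matrix.mul_assoc]
          _ = _ := by rw [h2]; simp only [Matrix.mul_one, Matrix.mul_assoc]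
      rw [this, Matrix.trace_mul_comm, ← Matrix.mul_assoc, h2, Matrix.one_mul]
    rw [← e]
    simp only [trace, diag, Complex.re_sum]
    exact Finset.sum_le_sum fun i _ => diag_cube_le hBp i

open Classical in
/-- `tr f(A)` for Hermitian `A`. -/
noncomputable def specSum (f : ℝ → ℝ) (A : Matrix (Fin m) (Fin m) ℂ) : ℝ :=
  if h : A.IsHermitian then ∑ i, f (h.eigenvalues i) else 0

lemma trPow_eq (p : ℝ) (A : Matrix (Fin m) (Fin m) ℂ) :
    trPow p A = specSum (fun t => t ^ p) A := rfl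

lemma specSum_eq {f : ℝ → ℝ} {A : Matrix (Fin m) (Fin m) ℂ} (h : A.IsHermitian) :
    specSum f A = ∑ i, f (h.eigenvalues i) := by rw [specSum, dif_pos h]

/-- Pointwise duality with a cut at height `t`. -/
lemma dual_pointwise {W R : Matrix (Fin m) (Fin m) ℂ} (hW : W.PosSemidef)
    (hR : R.PosSemidef) {t : ℝ} :
    ((W * R).trace).re ≤ t * R.trace.re
      + LT1.K0 * specSum (fun w => (max (w - t) 0) ^ ((1 : ℝ) + 1 / 2)) W
      + Real.pi ^ 2 / 4 * ((R ^ 3).trace).re := by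
  obtain ⟨r, hr, e1, e2, e3⟩ := exists_occupation hW.isHermitian hR
  rw [e1, Complex.ofReal_re, specSum_eq hW.isHermitian, ← e2, Finset.mul_sum, Finset.mul_sum,
    ← Finset.sum_add_distrib]
  have hpi : 0 < Real.pi ^ 2 / 4 := by have := Real.pi_pos; positivity
  have e4 : Real.pi ^ 2 / 4 * ∑ i, r i ^ 3 ≤ Real.pi ^ 2 / 4 * ((R ^ 3).trace).re :=
    mul_le_mul_of_nonneg_left e3 hpi.le
  refine le_trans ?_ (add_le_add_right e4 _)
  rw [Finset.mul_sum, ← Finset.sum_add_distrib]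
  refine Finset.sum_le_sum fun i _ => ?_
  have h1 := LT1.dual_pointwise (le_max_right (hW.isHermitian.eigenvalues i - t) 0) (hr i)
  have h2 : hW.isHermitian.eigenvalues i ≤ max (hW.isHermitian.eigenvalues i - t) 0 + t := by
    linarith [le_max_left (hW.isHermitian.eigenvalues i - t) 0]
  have h3 := hr i
  nlinarith

end LTM
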