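import Mathlib
import Vale.Agent.P371.MDual

/-! # P371: families of vector-valued functions, the variational inequality -/

namespace LTM

open MeasureTheory Set Filter Matrix
open scoped ComplexConjugate ENNReal Topology ComplexOrder

/-- The sharp kinetic inequality for vector-valued families. -/
def KineticM : Prop := ∀ (n m : ℕ) (u g : Fin n → Fin m → ℝ → ℂ), Vale.P371.Fam u g →
  (∀ i j, ∫ t, Vale.P371.Xm u t i j = if i = j then 1 else 0) →
    Real.pi ^ 2 / 4 * ∫ x, ((Vale.P371.Xm u x * Vale.P371.Xm u x * Vale.P371.Xm u x).trace).re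
      ≤ ∑ c, ∑ i, ∫ x, ‖g i c x‖ ^ 2

variable {m n : ℕ}

/-- `Uᵀ`: components times orbitals. -/
def Vm (u : Fin n → ℝ → Fin m → ℂ) (x : ℝ) : Matrix (Fin m) (Fin n) ℂ :=
  Matrix.of fun c j => u j x c

/-- The density matrix `∑_j u_j u_j^*`. -/
def Rm (u : Fin n → ℝ → Fin m → ℂ) (x : ℝ) : Matrix (Fin m) (Fin m) ℂ := Vm u x * (Vm u x)ᴴ

lemma Rm_posSemidef (u : Fin n → ℝ → Fin m → ℂ) (x : ℝ) : (Rm u x).PosSemidef :=
  Matrix.posSemidef_self_mul_conjTranspose _

/-- The same family with the order of arguments used in `Core`. -/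
def swap (u : Fin n → ℝ → Fin m → ℂ) : Fin n → Fin m → ℝ → ℂ := fun i c x => u i x c

lemma fam_swap {u g : Fin n → ℝ → Fin m → ℂ} (h : ∀ j, IsH1 (u j) (g j)) :
    Vale.P371.Fam (swap u) (swap g) :=
  ⟨fun i c => (h i).memLp c, fun i c => (h i).memLp' c, fun i c => (h i).ftc c⟩

lemma Um_swap (u : Fin n → ℝ → Fin m → ℂ) (x : ℝ) :
    Vale.P371.Um (swap u) x = (Vm u x)ᵀ := by
  ext i c; rfl

lemma Xm_swap_apply (u : Fin n → ℝ → Fin m → ℂ) (x : ℝ) (i j : Fin n) :
    Vale.P371.Xm (swap u) x i j = pair (u i x) (u j x) := by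
  simp only [Vale.P371.Xm, Um_swap, Matrix.mul_apply, Matrix.conjTranspose_apply,
    Matrix.transpose_apply, Vm, Matrix.of_apply, pair, RCLike.star_def]

lemma trace_cube_eq (u : Fin n → ℝ → Fin m → ℂ) (x : ℝ) :
    (Vale.P371.Xm (swap u) x * Vale.P371.Xm (swap u) x * Vale.P371.Xm (swap u) x).trace
      = ((Rm u x) ^ 3).trace := by
  have e1 : Vale.P371.Xm (swap u) x = ((Vm u x)ᴴ * Vm u x)ᵀ := by
    rw [Vale.P371.Xm, Um_swap, Matrix.transpose_mul]
    congr 1
  rw [e1, Rm]
  set V := Vm u x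
  have e2 : (Vᴴ * V)ᵀ * (Vᴴ * V)ᵀ * (Vᴴ * V)ᵀ = ((Vᴴ * V) * (Vᴴ * V) * (Vᴴ * V))ᵀ := by
    simp only [Matrix.transpose_mul, Matrix.mul_assoc]
  rw [e2, Matrix.trace_transpose]
  have e3 : Vᴴ * V * (Vᴴ * V) * (Vᴴ * V) = Vᴴ * (V * (Vᴴ * V) * (Vᴴ * V)) := by
    simp only [Matrix.mul_assoc]
  rw [e3, Matrix.trace_mul_comm]
  congr 1
  simp only [pow_succ, pow_zero, Matrix.one_mul, Matrix.mul_assoc]

lemma pair_eq (A : Matrix (Fin m) (Fin m) ℂ) (a : Fin m → ℂ) :
    pair (A.mulVec a) a = ∑ c, ∑ d, A c d * (a d * conj (a c)) := by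
  simp only [pair, mulVec, dotProduct, Finset.sum_mul]
  exact Finset.sum_congr rfl fun c _ => Finset.sum_congr rfl fun d _ => by ring

lemma sum_pair_eq (A : Matrix (Fin m) (Fin m) ℂ) (u : Fin n → ℝ → Fin m → ℂ) (x : ℝ) :
    ∑ j, pair (A.mulVec (u j x)) (u j x) = (A * Rm u x).trace := by
  simp only [pair_eq, trace, diag, Matrix.mul_apply, Rm, Vm, Matrix.conjTranspose_apply,
    Matrix.of_apply, RCLike.star_def, Finset.mul_sum]
  rw [Finset.sum_comm]
  refine Finset.sum_congr rfl fun c _ => ?_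
  rw [Finset.sum_comm]

lemma pair_self (a : Fin m → ℂ) : pair a a = ((∑ c, ‖a c‖ ^ 2 : ℝ) : ℂ) := by
  simp only [pair, Complex.mul_conj, Complex.normSq_eq_norm_sq]
  push_cast; rfl

lemma trace_Rm (u : Fin n → ℝ → Fin m → ℂ) (x : ℝ) :
    (Rm u x).trace.re = ∑ j, ∑ c, ‖u j x c‖ ^ 2 := by
  have h := sum_pair_eq (1 : Matrix (Fin m) (Fin m) ℂ) u x
  rw [Matrix.one_mul] at h
  rw [← h]
  simp only [Matrix.one_mulVec, pair_self, Complex.re_sum, Complex.ofReal_re]

lemma pair_nonneg {A : Matrix (Fin m) (Fin m) ℂ} (hA : A.PosSemidef) (a : Fin m → ℂ) :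
    0 ≤ (pair (A.mulVec a) a).re := by
  have h := hA.dotProduct_mulVec_nonneg a
  have e : star a ⬝ᵥ (A *ᵥ a) = pair (A.mulVec a) a := by
    simp only [pair, dotProduct, Pi.star_apply, RCLike.star_def]
    exact Finset.sum_congr rfl fun c _ => mul_comm _ _
  rw [e] at h
  exact (Complex.le_def.mp h).1

section families

variable {u g : Fin n → ℝ → Fin m → ℂ}

lemma integrable_comp_sq (h : ∀ j, IsH1 (u j) (g j)) (j : Fin n) (c : Fin m) :
    Integrable fun x => ‖u j x c‖ ^ 2 :=
  (memLp_two_iff_integrable_sq_norm ((h j).memLp c).1).mp ((h j).memLp c)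

lemma integrable_trace_Rm (h : ∀ j, IsH1 (u j) (g j)) :
    Integrable fun x => (Rm u x).trace.re := by
  simp only [trace_Rm]
  exact integrable_finsetSum _ fun j _ => integrable_finsetSum _ fun c _ =>
    integrable_comp_sq h j c

lemma integrable_cube (h : ∀ j, IsH1 (u j) (g j)) :
    Integrable fun x => (((Rm u x) ^ 3).trace).re := by
  have := (fam_swap h).int_cube
  refine this.congr (Eventually.of_forall fun x => ?_)
  simp only [trace_cube_eq]

lemma aesm_pair {W : ℝ → Matrix (Fin m) (Fin m) ℂ} (hm : ∀ c d, Measurable fun x => W x c d)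
    (h : ∀ j, IsH1 (u j) (g j)) (j : Fin n) :
    AEStronglyMeasurable (fun x => pair ((W x).mulVec (u j x)) (u j x)) volume := by
  simp only [pair_eq]
  refine Finset.aestronglyMeasurable_fun_sum _ fun c _ =>
    Finset.aestronglyMeasurable_fun_sum _ fun d _ => ?_
  refine (hm c d).aestronglyMeasurable.mul ?_
  exact ((h j).memLp d).1.mul (Complex.continuous_conj.comp_aestronglyMeasurable
    ((h j).memLp c).1)

/-- The kinetic energy of a family. -/
noncomputable def kin (g : Fin n → ℝ → Fin m → ℂ) : ℝ := ∑ j, ∑ c, ∫ x, ‖g j x c‖ ^ 2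

lemma kinetic_ineq (K : KineticM) (h : ∀ j, IsH1 (u j) (g j)) (ho : IsOrthonormal u) :
    Real.pi ^ 2 / 4 * ∫ x, (((Rm u x) ^ 3).trace).re ≤ kin g := by
  have h1 := K n m (swap u) (swap g) (fam_swap h) (by
    intro i j
    simp only [Xm_swap_apply]
    exact ho i j)
  simp only [trace_cube_eq] at h1
  refine h1.trans (le_of_eq ?_)
  rw [Finset.sum_comm]
  rfl

/-- The variational inequality with a cut at height `t`. -/
lemma variational (K : KineticM) {W : ℝ → Matrix (Fin m) (Fin m) ℂ}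
    (hm : ∀ c d, Measurable fun x => W x c d) (hp : ∀ x, (W x).PosSemidef) {t : ℝ}
    (hi : Integrable fun x => specSum (fun w => (max (w - t) 0) ^ ((1 : ℝ) + 1 / 2)) (W x))
    (h : ∀ j, IsH1 (u j) (g j)) (ho : IsOrthonormal u) :
    (∑ j, ∫ x, (pair ((W x).mulVec (u j x)) (u j x)).re) - kin g
      ≤ t * n + LT1.K0 * ∫ x, specSum (fun w => (max (w - t) 0) ^ ((1 : ℝ) + 1 / 2)) (W x) := by
  have hK := kinetic_ineq K h ho
  have hdom : Integrable fun x => t * (Rm u x).trace.re
      + LT1.K0 * specSum (fun w => (max (w - t) 0) ^ ((1 : ℝ) + 1 / 2)) (W x)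
      + Real.pi ^ 2 / 4 * (((Rm u x) ^ 3).trace).re :=
    (((integrable_trace_Rm h).const_mul t).add (hi.const_mul _)).add
      ((integrable_cube h).const_mul _)
  have hpt : ∀ x, ∑ j, (pair ((W x).mulVec (u j x)) (u j x)).re
      ≤ t * (Rm u x).trace.re
      + LT1.K0 * specSum (fun w => (max (w - t) 0) ^ ((1 : ℝ) + 1 / 2)) (W x)
      + Real.pi ^ 2 / 4 * (((Rm u x) ^ 3).trace).re := by
    intro x
    have := dual_pointwise (hp x) (Rm_posSemidef u x) (t := t)
    rw [← Complex.re_sum, sum_pair_eq]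
    exact this
  have hint : ∀ j, Integrable fun x => (pair ((W x).mulVec (u j x)) (u j x)).re := by
    intro j
    refine hdom.mono (Complex.continuous_re.comp_aestronglyMeasurable (aesm_pair hm h j))
      (Eventually.of_forall fun x => ?_)
    have h0 := pair_nonneg (hp x) (u j x)
    rw [Real.norm_of_nonneg h0, Real.norm_eq_abs]
    refine le_trans ?_ (le_abs_self _)
    refine le_trans ?_ (hpt x)
    exact Finset.single_le_sum (f := fun j => (pair ((W x).mulVec (u j x)) (u j x)).re)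
      (fun i _ => pair_nonneg (hp x) (u i x)) (Finset.mem_univ j)
  have e1 : ∑ j, ∫ x, (pair ((W x).mulVec (u j x)) (u j x)).re
      = ∫ x, ∑ j, (pair ((W x).mulVec (u j x)) (u j x)).re :=
    (integral_finsetSum _ fun j _ => hint j).symm
  have e2 := integral_mono (integrable_finsetSum _ fun j _ => hint j) hdom hpt
  have i12 : Integrable fun x => t * (Rm u x).trace.re
      + LT1.K0 * specSum (fun w => (max (w - t) 0) ^ ((1 : ℝ) + 1 / 2)) (W x) :=
    ((integrable_trace_Rm h).const_mul t).add (hi.const_mul _)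
  rw [integral_add i12 ((integrable_cube h).const_mul _),
    integral_add ((integrable_trace_Rm h).const_mul t) (hi.const_mul _),
    integral_const_mul, integral_const_mul, integral_const_mul] at e2
  have e3 : ∫ x, (Rm u x).trace.re = n := by
    have e4 : ∀ x, (Rm u x).trace.re = ∑ j, (pair (u j x) (u j x)).re := by
      intro x
      rw [trace_Rm]
      exact Finset.sum_congr rfl fun j _ => by rw [pair_self, Complex.ofReal_re]
    simp only [e4]
    have e5 : ∀ j, Integrable fun x => (pair (u j x) (u j x)).re := by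
      intro j
      simp only [pair_self, Complex.ofReal_re]
      exact integrable_finsetSum _ fun c _ => integrable_comp_sq h j c
    rw [integral_finsetSum _ fun j _ => e5 j]
    have e6 : ∀ j, ∫ x, (pair (u j x) (u j x)).re = 1 := by
      intro j
      have h7 := ho j j
      rw [if_pos rfl] at h7
      have h8 : ∀ x, pair (u j x) (u j x) = (((pair (u j x) (u j x)).re : ℝ) : ℂ) := by
        intro x; rw [pair_self, Complex.ofReal_re]
      have h9 : ∫ x, pair (u j x) (u j x) = ((∫ x, (pair (u j x) (u j x)).re : ℝ) : ℂ) := by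
        rw [← integral_complex_ofReal]
        exact integral_congr_ae (Eventually.of_forall h8)
      rw [h9] at h7
      exact_mod_cast h7
    simp [e6]
  rw [e3] at e2
  rw [e1]
  linarith

end families

end LTM
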