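import Mathlib
import Vale.Agent.P371.Core
import Vale.Agent.P371.MFam

/-!
# P371, `γ ∈ (1, 3/2)`: the abstract interface

`s = γ - 1/2`, `r = 1/s`. Matrices are indexed by `α`. The variable `k` stands for `√K`, so that
`F = k - Q`, `P = k + F = 2 k - Q` and `A = K - F² = k Q + Q k - Q²`.
-/

namespace LTG

open Matrix Set Filter MeasureTheory
open scoped ComplexOrder Topology ComplexConjugate

variable {α : Type*} [Fintype α] [DecidableEq α]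

/-- The domain: `0 ≤ Q`, `2 k - Q > 0`. -/
def Dom (Q k : Matrix α α ℂ) : Prop := Q.PosSemidef ∧ ((2 : ℂ) • k - Q).PosDef

/-- `A = K - F²`. -/
def Am (Q k : Matrix α α ℂ) : Matrix α α ℂ := k * Q + Q * k - Q * Q

open Classical in
/-- `tr (A ^ p)`. -/
noncomputable def tp (p : ℝ) (A : Matrix α α ℂ) : ℝ :=
  if h : A.IsHermitian then ∑ i, h.eigenvalues i ^ p else 0

/-- `B_s = ∫_{-1}^{1} (1 - y²)^s dy`. -/
noncomputable def Bs (s : ℝ) : ℝ := ∫ y in (-1 : ℝ)..1, (1 - y ^ 2) ^ s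

/-- The functional `Γ(Q, √K)` and its `Q`-gradient at fixed `K`. -/
structure Fun (s : ℝ) (α : Type*) [Fintype α] [DecidableEq α] where
  G : Matrix α α ℂ → Matrix α α ℂ → ℝ
  B : Matrix α α ℂ → Matrix α α ℂ → Matrix α α ℂ
  G_cont : ContinuousOn (fun p : Matrix α α ℂ × Matrix α α ℂ => G p.1 p.2) {p | Dom p.1 p.2}
  B_cont : ContinuousOn (fun p : Matrix α α ℂ × Matrix α α ℂ => B p.1 p.2) {p | Dom p.1 p.2}
  B_herm : ∀ Q k, Dom Q k → (B Q k).IsHermitian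
  G_zero : ∀ k : Matrix α α ℂ, k.PosDef → G 0 k = 0
  /-- mean value theorem at fixed `K` -/
  G_mvt : ∀ Q Q' k, Dom Q k → Dom Q' k → ∃ θ ∈ Set.Icc (0 : ℝ) 1,
    G Q' k - G Q k ≤ (((Q' - Q) * B (Q + (θ : ℂ) • (Q' - Q)) k).trace).re
  /-- concavity in `K` at fixed `Q` -/
  G_conc : ∀ Q k₁ k₂ k, Dom Q k₁ → Dom Q k₂ → k.PosDef →
    (2 : ℂ) • (k * k) = k₁ * k₁ + k₂ * k₂ → G Q k₁ + G Q k₂ ≤ 2 * G Q k
  /-- growth in `K` -/
  G_le : ∀ Q k, Dom Q k → G Q k ≤ Q.trace.re * (k.trace.re) ^ (2 * s)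
  /-- the Hamilton-Jacobi inequality -/
  HJ : ∀ Q k Y, Dom Q k → Y.PosSemidef →
    (1 + 1 / s) * ((B Q k * Y).trace).re
      ≤ ((B Q k * Am Q k).trace).re + 1 / s * tp (1 + s) Y
  /-- the end value -/
  G_end : ∀ (Q : Matrix α α ℂ) (η : ℝ), Q.PosSemidef → 0 < η →
    Bs s * tp (2 * s + 1) ((1 / 2 : ℂ) • (Q + (η : ℂ) • 1))
      - η * tp (2 * s) ((1 / 2 : ℂ) • (Q + (η : ℂ) • 1))
      ≤ G Q ((1 / 2 : ℂ) • (Q + (η : ℂ) • 1))

end LTG
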