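import Mathlib
import Vale.Agent.P371.GDefs

/-!
# P371, `γ ∈ (1, 3/2)`: basic facts on positive matrices
-/

namespace LTG

open Matrix Set Filter MeasureTheory
open scoped ComplexOrder Topology ComplexConjugate

variable {α : Type*} [Fintype α] [DecidableEq α]

set_option linter.unusedSectionVars false

/-- Unitary diagonalisation. -/
lemma exists_unitary {A : Matrix α α ℂ} (hA : A.IsHermitian) :
    ∃ P : Matrix α α ℂ, Pᴴ * P = 1 ∧ P * Pᴴ = 1 ∧
      A = P * diagonal (fun a => ((hA.eigenvalues a : ℝ) : ℂ)) * Pᴴ := by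
  refine ⟨(hA.eigenvectorUnitary : Matrix α α ℂ),
    Unitary.coe_star_mul_self hA.eigenvectorUnitary,
    Unitary.coe_mul_star_self hA.eigenvectorUnitary, ?_⟩
  have := hA.spectral_theorem
  rw [Unitary.conjStarAlgAut_apply] at this
  exact this

lemma exists_mul_self {A : Matrix α α ℂ} (hA : A.PosSemidef) :
    ∃ C : Matrix α α ℂ, C.PosSemidef ∧ C * C = A := by
  obtain ⟨P, h1, h2, h3⟩ := exists_unitary hA.isHermitian
  refine ⟨P * diagonal (fun a => ((√(hA.isHermitian.eigenvalues a) : ℝ) : ℂ)) * Pᴴ, ?_, ?_⟩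
  · refine PosSemidef.mul_mul_conjTranspose_same (PosSemidef.diagonal fun a => ?_) P
    change (0 : ℂ) ≤ _
    exact Complex.zero_le_real.mpr (Real.sqrt_nonneg _)
  · conv_rhs => rw [h3]
    calc _ = P * diagonal (fun a => ((√(hA.isHermitian.eigenvalues a) : ℝ) : ℂ)) * (Pᴴ * P)
          * diagonal (fun a => ((√(hA.isHermitian.eigenvalues a) : ℝ) : ℂ)) * Pᴴ := by
          simp only [Matrix.mul_assoc]
      _ = P * (diagonal (fun a => ((√(hA.isHermitian.eigenvalues a) : ℝ) : ℂ))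
          * diagonal (fun a => ((√(hA.isHermitian.eigenvalues a) : ℝ) : ℂ))) * Pᴴ := by
          rw [h1]; simp only [Matrix.mul_one, Matrix.mul_assoc]
      _ = _ := by
          rw [diagonal_mul_diagonal]
          congr 3
          funext a
          rw [← Complex.ofReal_mul, Real.mul_self_sqrt (hA.eigenvalues_nonneg a)]

lemma posDef_of_mul_self {A C : Matrix α α ℂ} (hA : A.PosDef) (hC : C.PosSemidef)
    (h : C * C = A) : C.PosDef := by
  rw [hC.posDef_iff_isUnit]
  have := hA.isUnit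
  rw [← h] at this
  exact isUnit_of_mul_isUnit_left this

lemma re_nonneg_of_posSemidef {A : Matrix α α ℂ} (hA : A.PosSemidef) : 0 ≤ A.trace.re :=
  (Complex.le_def.mp hA.trace_nonneg).1

lemma tr_mul_nonneg {A B : Matrix α α ℂ} (hA : A.PosSemidef) (hB : B.PosSemidef) :
    0 ≤ ((A * B).trace).re := by
  obtain ⟨C, hC, h⟩ := exists_mul_self hB
  have h1 : ((A * B).trace) = (Cᴴ * A * C).trace := by
    rw [← h, ← Matrix.mul_assoc, Matrix.trace_mul_comm, hC.isHermitian.eq, ← Matrix.mul_assoc]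
  rw [h1]
  exact re_nonneg_of_posSemidef (hA.conjTranspose_mul_mul_same C)

lemma trace_eq_re {A : Matrix α α ℂ} (hA : A.IsHermitian) : A.trace = ((A.trace.re : ℝ) : ℂ) := by
  have h : star A.trace = A.trace := by
    rw [← Matrix.trace_conjTranspose, hA.eq]
  exact (Complex.conj_eq_iff_re.mp h).symm

lemma trace_smul_sub {A : Matrix α α ℂ} (hA : A.PosSemidef) :
    (((A.trace.re : ℝ) : ℂ) • (1 : Matrix α α ℂ) - A).PosSemidef := by
  obtain ⟨P, h1, h2, h3⟩ := exists_unitary hA.isHermitian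
  have e : ((A.trace.re : ℝ) : ℂ) • (1 : Matrix α α ℂ) - A
      = P * diagonal (fun a => ((A.trace.re - hA.isHermitian.eigenvalues a : ℝ) : ℂ)) * Pᴴ := by
    have e1 : diagonal (fun a => ((A.trace.re - hA.isHermitian.eigenvalues a : ℝ) : ℂ))
        = ((A.trace.re : ℝ) : ℂ) • (1 : Matrix α α ℂ)
          - diagonal (fun a => ((hA.isHermitian.eigenvalues a : ℝ) : ℂ)) := by
      ext i j
      by_cases hij : i = j
      · subst hij; simp
      · simp [hij]
    rw [e1, Matrix.mul_sub, Matrix.sub_mul, ← h3]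
    congr 1
    rw [Matrix.mul_smul, Matrix.mul_one, Matrix.smul_mul, h2]
  rw [e]
  refine PosSemidef.mul_mul_conjTranspose_same (PosSemidef.diagonal fun a => ?_) P
  have h4 : A.trace = ∑ i, ((hA.isHermitian.eigenvalues i : ℝ) : ℂ) :=
    hA.isHermitian.trace_eq_sum_eigenvalues
  have h5 : A.trace.re = ∑ i, hA.isHermitian.eigenvalues i := by
    rw [h4, Complex.re_sum]; simp
  have h6 : hA.isHermitian.eigenvalues a ≤ A.trace.re := by
    rw [h5]
    exact Finset.single_le_sum (fun i _ => hA.eigenvalues_nonneg i) (Finset.mem_univ a)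
  change (0 : ℂ) ≤ _
  exact Complex.zero_le_real.mpr (sub_nonneg.mpr h6)

lemma tr_mul_le {A B : Matrix α α ℂ} (hA : A.PosSemidef) (hB : B.PosSemidef) :
    ((A * B).trace).re ≤ A.trace.re * B.trace.re := by
  have h := tr_mul_nonneg (trace_smul_sub hA) hB
  rw [Matrix.sub_mul, Matrix.trace_sub, Matrix.smul_mul, Matrix.one_mul, Matrix.trace_smul,
    Complex.sub_re, smul_eq_mul, Complex.re_ofReal_mul] at h
  linarith

lemma tr_sq (A : Matrix α α ℂ) : ((A * Aᴴ).trace).re = ∑ i, ∑ j, ‖A i j‖ ^ 2 := by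
  simp only [Matrix.trace, Matrix.diag, Matrix.mul_apply, Matrix.conjTranspose_apply,
    Complex.re_sum, Complex.star_def, Complex.mul_conj, Complex.normSq_eq_norm_sq,
    Complex.ofReal_re]

lemma sq_trace_le {k : Matrix α α ℂ} (hk : k.IsHermitian) :
    k.trace.re ^ 2 ≤ Fintype.card α * ((k * k).trace).re := by
  have h1 : ((k * k).trace).re = ∑ i, ∑ j, ‖k i j‖ ^ 2 := by
    conv_lhs => rw [show k * k = k * kᴴ by rw [hk.eq]]
    exact tr_sq k
  have h2 : k.trace.re = ∑ i, (k i i).re := by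
    simp [Matrix.trace, Complex.re_sum]
  rw [h1, h2]
  have h3 := Finset.sum_mul_sq_le_sq_mul_sq Finset.univ (fun _ : α => (1 : ℝ))
    (fun i => (k i i).re)
  simp only [one_mul, one_pow, Finset.sum_const, Finset.card_univ, nsmul_eq_mul, mul_one] at h3
  refine h3.trans (mul_le_mul_of_nonneg_left ?_ (Nat.cast_nonneg _))
  refine Finset.sum_le_sum fun i _ => ?_
  have h4 : (k i i).re ^ 2 ≤ ‖k i i‖ ^ 2 := by
    rw [← sq_abs]
    exact pow_le_pow_left₀ (abs_nonneg _) (Complex.abs_re_le_norm _) 2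
  exact h4.trans (Finset.single_le_sum (f := fun j => ‖k i j‖ ^ 2)
    (fun j _ => by positivity) (Finset.mem_univ i))

lemma norm_le_trace {k : Matrix α α ℂ} (hk : k.PosSemidef) (i j : α) :
    ‖k i j‖ ≤ k.trace.re := by
  have h0 := re_nonneg_of_posSemidef hk
  have h1 : ((k * k).trace).re = ∑ i, ∑ j, ‖k i j‖ ^ 2 := by
    conv_lhs => rw [show k * k = k * kᴴ by rw [hk.isHermitian.eq]]
    exact tr_sq k
  have h2 := tr_mul_le hk hk
  rw [h1] at h2
  have h3 : ‖k i j‖ ^ 2 ≤ ∑ i, ∑ j, ‖k i j‖ ^ 2 := by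
    refine le_trans (Finset.single_le_sum (f := fun j => ‖k i j‖ ^ 2)
      (fun j _ => by positivity) (Finset.mem_univ j)) ?_
    exact Finset.single_le_sum (f := fun i => ∑ j, ‖k i j‖ ^ 2)
      (fun i _ => by positivity) (Finset.mem_univ i)
  have h4 : ‖k i j‖ ^ 2 ≤ k.trace.re ^ 2 := by rw [sq (k.trace.re)]; exact h3.trans h2
  exact le_of_sq_le_sq h4 h0

/-- `log det`. -/
noncomputable def ld (P : Matrix α α ℂ) : ℝ := Real.log P.det.re

lemma det_re_pos {P : Matrix α α ℂ} (hP : P.PosDef) : 0 < P.det.re :=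
  (Complex.lt_def.mp hP.det_pos).1

lemma det_eq_re {P : Matrix α α ℂ} (hP : P.PosSemidef) : P.det = ((P.det.re : ℝ) : ℂ) := by
  have := Complex.le_def.mp hP.det_nonneg
  apply Complex.ext
  · simp
  · simpa using this.2.symm

lemma det_re_eq {P : Matrix α α ℂ} (hP : P.IsHermitian) :
    P.det.re = ∏ i, hP.eigenvalues i := by
  rw [hP.det_eq_prod_eigenvalues]
  norm_cast

lemma det_le {P : Matrix α α ℂ} (hP : P.PosSemidef) :
    P.det.re ≤ P.trace.re ^ Fintype.card α := by
  have h4 : P.trace = ∑ i, ((hP.isHermitian.eigenvalues i : ℝ) : ℂ) :=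
    hP.isHermitian.trace_eq_sum_eigenvalues
  have h5 : P.trace.re = ∑ i, hP.isHermitian.eigenvalues i := by
    rw [h4, Complex.re_sum]; simp
  rw [det_re_eq hP.isHermitian, h5, ← Finset.card_univ, ← Finset.prod_const]
  exact Finset.prod_le_prod (fun i _ => hP.eigenvalues_nonneg i) fun i _ =>
    Finset.single_le_sum (fun i _ => hP.eigenvalues_nonneg i) (Finset.mem_univ i)

/-- First order inequality for `log det`. -/
lemma ld_le {X Y : Matrix α α ℂ} (hX : X.PosDef) (hY : Y.PosDef) :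
    ld Y ≤ ld X + ((X⁻¹ * (Y - X)).trace).re ∧
      (ld Y = ld X + ((X⁻¹ * (Y - X)).trace).re → Y = X) := by
  obtain ⟨C, hC, hCX⟩ := exists_mul_self hX.posSemidef
  have hCd := posDef_of_mul_self hX hC hCX
  have hCu : IsUnit C := hCd.isUnit
  have hCi : C⁻¹ * C = 1 := Matrix.nonsing_inv_mul C ((Matrix.isUnit_iff_isUnit_det C).mp hCu)
  have hCi' : C * C⁻¹ = 1 := Matrix.mul_nonsing_inv C ((Matrix.isUnit_iff_isUnit_det C).mp hCu)
  have hCh : (C⁻¹)ᴴ = C⁻¹ := (hCd.inv).isHermitian.eq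
  set Z := C⁻¹ * Y * C⁻¹ with hZdef
  have hZ : Z.PosDef := by
    have := (Matrix.IsUnit.posDef_star_left_conjugate_iff (x := Y) (U := C⁻¹) (by
      rw [Matrix.isUnit_nonsing_inv_iff]; exact hCu)).mpr hY
    rw [Matrix.star_eq_conjTranspose, hCh] at this
    exact this
  have hXinv : X⁻¹ = C⁻¹ * C⁻¹ := by
    rw [← hCX, Matrix.mul_inv_rev]
  have htr : ((X⁻¹ * (Y - X)).trace).re = Z.trace.re - Fintype.card α := by
    have e1 : (X⁻¹ * (Y - X)).trace = Z.trace - Fintype.card α := by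
      rw [Matrix.mul_sub, Matrix.trace_sub, hXinv]
      congr 1
      · rw [hZdef, Matrix.mul_assoc, Matrix.trace_mul_comm, ]
      · rw [← hCX]
        have : C⁻¹ * C⁻¹ * (C * C) = 1 := by
          calc C⁻¹ * C⁻¹ * (C * C) = C⁻¹ * (C⁻¹ * C) * C := by simp only [Matrix.mul_assoc]
            _ = 1 := by rw [hCi, Matrix.mul_one, hCi]
        rw [this, Matrix.trace_one]
    rw [e1]; simp
  have hdet : Y.det.re = X.det.re * Z.det.re := by
    have e1 : Y.det = X.det * Z.det := by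
      have : C.det * C⁻¹.det = 1 := by rw [← Matrix.det_mul, hCi', Matrix.det_one]
      rw [hZdef, Matrix.det_mul, Matrix.det_mul, ← hCX, Matrix.det_mul]
      linear_combination (-(Y.det) - Y.det * (C.det * C⁻¹.det)) * this
    rw [e1, det_eq_re hX.posSemidef, Complex.re_ofReal_mul, Complex.ofReal_re]
  have hld : ld Y = ld X + ∑ i, Real.log (hZ.isHermitian.eigenvalues i) := by
    unfold ld
    rw [hdet, Real.log_mul (det_re_pos hX).ne' (det_re_pos hZ).ne', det_re_eq hZ.isHermitian,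
      Real.log_prod (fun i _ => (hZ.eigenvalues_pos i).ne')]
  have hZtr : Z.trace.re - Fintype.card α = ∑ i, (hZ.isHermitian.eigenvalues i - 1) := by
    have h4 : Z.trace = ∑ i, ((hZ.isHermitian.eigenvalues i : ℝ) : ℂ) :=
      hZ.isHermitian.trace_eq_sum_eigenvalues
    rw [h4, Complex.re_sum]; simp
  have hle : ∀ i, Real.log (hZ.isHermitian.eigenvalues i) ≤ hZ.isHermitian.eigenvalues i - 1 :=
    fun i => Real.log_le_sub_one_of_pos (hZ.eigenvalues_pos i)
  rw [htr, hZtr, hld]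
  refine ⟨by gcongr with i _; exact hle i, fun heq => ?_⟩
  have heq2 : ∑ i, Real.log (hZ.isHermitian.eigenvalues i)
      = ∑ i, (hZ.isHermitian.eigenvalues i - 1) := by linarith
  have h7 := (Finset.sum_eq_sum_iff_of_le fun i _ => hle i).mp heq2
  have h8 : ∀ i, hZ.isHermitian.eigenvalues i = 1 := by
    intro i
    by_contra hne
    have := Real.log_lt_sub_one_of_pos (hZ.eigenvalues_pos i) hne
    exact this.ne (h7 i (Finset.mem_univ i))
  have hZ1 : Z = 1 := by
    obtain ⟨P, h1, h2, h3⟩ := exists_unitary hZ.isHermitian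
    rw [h3]
    have : (fun a => ((hZ.isHermitian.eigenvalues a : ℝ) : ℂ)) = fun _ => 1 := by
      funext a; rw [h8 a]; simp
    rw [this, Matrix.diagonal_one, Matrix.mul_one, h2]
  calc Y = C * Z * C := by
        rw [hZdef]
        calc Y = (C * C⁻¹) * Y * (C⁻¹ * C) := by rw [hCi, hCi']; simp
          _ = _ := by simp only [Matrix.mul_assoc]
    _ = X := by rw [hZ1, Matrix.mul_one, hCX]

lemma ld_mono {X Y : Matrix α α ℂ} (hX : X.PosDef) (hY : Y.PosDef) (h : (Y - X).PosSemidef) :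
    ld X ≤ ld Y := by
  have h1 := (ld_le hY hX).1
  have h2 := tr_mul_nonneg hY.inv.posSemidef h
  have h3 : (Y⁻¹ * (X - Y)).trace = -(Y⁻¹ * (Y - X)).trace := by
    rw [← Matrix.trace_neg, ← Matrix.mul_neg, neg_sub]
  rw [h3, Complex.neg_re] at h1
  linarith

lemma half_add_posDef {X Y : Matrix α α ℂ} (hX : X.PosDef) (hY : Y.PosDef) :
    ((1 / 2 : ℂ) • (X + Y)).PosDef := by
  refine Matrix.PosDef.smul (hX.add hY) ?_
  have : (0 : ℝ) < 1 / 2 := by norm_num
  have h := Complex.zero_lt_real.mpr this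
  simpa using h

/-- Strict concavity of `log det`. -/
lemma ld_strict {X Y : Matrix α α ℂ} (hX : X.PosDef) (hY : Y.PosDef) (h : X ≠ Y) :
    ld X + ld Y < 2 * ld ((1 / 2 : ℂ) • (X + Y)) := by
  set M := (1 / 2 : ℂ) • (X + Y) with hM
  have hMd : M.PosDef := half_add_posDef hX hY
  obtain ⟨a1, a2⟩ := ld_le hMd hX
  obtain ⟨b1, b2⟩ := ld_le hMd hY
  have hXM : X ≠ M := by
    intro hh
    apply h
    have : X + X = X + Y := by
      have h2 : (2 : ℂ) • X = (2 : ℂ) • M := by rw [← hh]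
      rw [hM, smul_smul] at h2
      norm_num at h2
      rw [two_smul] at h2
      exact h2
    exact add_left_cancel this
  have ha : ld X < ld M + ((M⁻¹ * (X - M)).trace).re := lt_of_le_of_ne a1 fun hh => hXM (a2 hh)
  have hsum : ((M⁻¹ * (X - M)).trace).re + ((M⁻¹ * (Y - M)).trace).re = 0 := by
    rw [← Complex.add_re, ← Matrix.trace_add, ← Matrix.mul_add]
    have : X - M + (Y - M) = 0 := by
      rw [hM]
      module
    rw [this]; simp
  linarith

/-- Operator monotonicity of the square root. -/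
lemma sqrt_mono {A B : Matrix α α ℂ} (hA : A.PosSemidef) (hB : B.PosDef)
    (h : (B * B - A * A).PosSemidef) : (B - A).PosSemidef := by
  have hH : (B - A).IsHermitian := hB.isHermitian.sub hA.isHermitian
  rw [hH.posSemidef_iff_eigenvalues_nonneg]
  intro i
  by_contra hneg
  push Not at hneg
  replace hneg : hH.eigenvalues i < 0 := hneg
  set v : α → ℂ := ⇑(hH.eigenvectorBasis i) with hv
  have hv0 : v ≠ 0 := by
    intro h0
    have h1 := hH.eigenvectorBasis.orthonormal.ne_zero i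
    apply h1
    ext j
    exact congrFun h0 j
  have hev : (B - A) *ᵥ v = ((hH.eigenvalues i : ℝ) : ℂ) • v := by
    have := hH.mulVec_eigenvectorBasis i
    exact this
  have h2 := h.dotProduct_mulVec_nonneg v
  have e1 : B * B - A * A = B * (B - A) + (B - A) * A := by
    rw [Matrix.mul_sub, Matrix.sub_mul]; abel
  have e2 : star v ⬝ᵥ ((B * B - A * A) *ᵥ v)
      = ((hH.eigenvalues i : ℝ) : ℂ) * (star v ⬝ᵥ (B *ᵥ v) + star v ⬝ᵥ (A *ᵥ v)) := by
    rw [e1, Matrix.add_mulVec, dotProduct_add, ← Matrix.mulVec_mulVec, hev,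
      ← Matrix.mulVec_mulVec, Matrix.mulVec_smul, dotProduct_smul, smul_eq_mul, mul_add]
    congr 1
    rw [Matrix.dotProduct_mulVec (star v) (B - A)]
    have : star v ᵥ* (B - A) = star ((B - A) *ᵥ v) := by
      rw [Matrix.star_mulVec, hH.eq]
    rw [this, hev, star_smul, smul_dotProduct, smul_eq_mul]
    congr 1
    exact Complex.conj_ofReal _
  rw [e2] at h2
  have hBp := hB.dotProduct_mulVec_pos hv0
  have hAp := hA.dotProduct_mulVec_nonneg v
  have h3 : 0 < star v ⬝ᵥ (B *ᵥ v) + star v ⬝ᵥ (A *ᵥ v) := add_pos_of_pos_of_nonneg hBp hAp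
  have h4 := (Complex.le_def.mp h2).1
  rw [Complex.re_ofReal_mul] at h4
  have h5 := (Complex.lt_def.mp h3).1
  simp only [Complex.zero_re] at h4 h5
  nlinarith

/-- `Z, Q ≥ 0`, `tr Z Q = 0` imply `Z Q = 0`. -/
lemma mul_eq_zero_of_tr {Z Q : Matrix α α ℂ} (hZ : Z.PosSemidef) (hQ : Q.PosSemidef)
    (h : ((Z * Q).trace).re = 0) : Z * Q = 0 := by
  obtain ⟨C, hC, hCZ⟩ := exists_mul_self hZ
  obtain ⟨D, hD, hDQ⟩ := exists_mul_self hQ
  have h1 : (Z * Q).trace = ((C * D) * (C * D)ᴴ).trace := by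
    rw [Matrix.conjTranspose_mul, hC.isHermitian.eq, hD.isHermitian.eq, ← hCZ, ← hDQ]
    have : C * D * (D * C) = C * (D * D * C) := by simp only [Matrix.mul_assoc]
    rw [this, Matrix.trace_mul_comm C (D * D * C)]
    rw [Matrix.mul_assoc (D * D), Matrix.trace_mul_comm]
  have h2 : ((C * D) * (C * D)ᴴ).trace = 0 := by
    have h3 := trace_eq_re (Matrix.isHermitian_mul_conjTranspose_self (C * D))
    rw [← h1] at h3 ⊢
    rw [h3, h]; simp
  rw [Matrix.trace_mul_conjTranspose_self_eq_zero_iff] at h2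
  rw [← hCZ, ← hDQ]
  calc C * C * (D * D) = C * (C * D) * D := by simp only [Matrix.mul_assoc]
    _ = 0 := by rw [h2]; simp

end LTG
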