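import Mathlib
import Vale.Agent.P371.GBase

/-!
# P371, `γ ∈ (1, 3/2)`: the inner maximisation problem
-/

namespace LTG

open Matrix Set Filter MeasureTheory
open scoped ComplexOrder Topology ComplexConjugate

set_option linter.unusedSectionVars false

variable {α : Type*} [Fintype α] [DecidableEq α]

/-! ### Topology of positive matrices -/

lemma tendsto_entry {ι : Type*} {l : Filter ι} {A : ι → Matrix α α ℂ} {B : Matrix α α ℂ}
    (h : Tendsto A l (𝓝 B)) (i j : α) : Tendsto (fun x => A x i j) l (𝓝 (B i j)) :=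
  tendsto_pi_nhds.mp (tendsto_pi_nhds.mp h i) j

lemma isClosed_posSemidef : IsClosed {A : Matrix α α ℂ | A.PosSemidef} := by
  have e : {A : Matrix α α ℂ | A.PosSemidef} = {A : Matrix α α ℂ | Aᴴ = A} ∩
      ⋂ v : α → ℂ, {A : Matrix α α ℂ | 0 ≤ star v ⬝ᵥ (A *ᵥ v)} := by
    ext A
    simp only [Set.mem_inter_iff, Set.mem_iInter, Set.mem_ofPred_eq]
    exact ⟨fun h => ⟨h.isHermitian, fun v => h.dotProduct_mulVec_nonneg v⟩, fun h =>
      PosSemidef.of_dotProduct_mulVec_nonneg h.1 h.2⟩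
  rw [e]
  refine IsClosed.inter (isClosed_eq (by fun_prop) continuous_id) (isClosed_iInter fun v => ?_)
  refine isClosed_le continuous_const ?_
  fun_prop

lemma trace_re_eq_sum {H : Matrix α α ℂ} (hH : H.IsHermitian) :
    H.trace.re = ∑ i, hH.eigenvalues i := by
  have h4 : H.trace = ∑ i, ((hH.eigenvalues i : ℝ) : ℂ) := hH.trace_eq_sum_eigenvalues
  rw [h4, Complex.re_sum]; simp

lemma shift_posSemidef {H : Matrix α α ℂ} (hH : H.IsHermitian) {c : ℝ}
    (h : ∀ i, 0 ≤ c + hH.eigenvalues i) :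
    (((c : ℝ) : ℂ) • (1 : Matrix α α ℂ) + H).PosSemidef := by
  obtain ⟨P, h1, h2, h3⟩ := exists_unitary hH
  have e : ((c : ℝ) : ℂ) • (1 : Matrix α α ℂ) + H
      = P * diagonal (fun a => ((c + hH.eigenvalues a : ℝ) : ℂ)) * Pᴴ := by
    have e1 : diagonal (fun a => ((c + hH.eigenvalues a : ℝ) : ℂ))
        = ((c : ℝ) : ℂ) • (1 : Matrix α α ℂ)
          + diagonal (fun a => ((hH.eigenvalues a : ℝ) : ℂ)) := by
      ext i j
      by_cases hij : i = j
      · subst hij; simp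
      · simp [hij]
    rw [e1, Matrix.mul_add, Matrix.add_mul, ← h3]
    congr 1
    rw [Matrix.mul_smul, Matrix.mul_one, Matrix.smul_mul, h2]
  rw [e]
  refine PosSemidef.mul_mul_conjTranspose_same (PosSemidef.diagonal fun a => ?_) P
  change (0 : ℂ) ≤ _
  exact Complex.zero_le_real.mpr (h a)

lemma exists_lower {X : Matrix α α ℂ} (hX : X.PosDef) :
    ∃ c : ℝ, 0 < c ∧ (X - ((c : ℝ) : ℂ) • (1 : Matrix α α ℂ)).PosSemidef := by
  obtain ⟨c, hc, hc2⟩ : ∃ c : ℝ, 0 < c ∧ ∀ i, c ≤ hX.isHermitian.eigenvalues i := by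
    rcases isEmpty_or_nonempty α with hα | hα
    · exact ⟨1, one_pos, fun i => (hα.false i).elim⟩
    · obtain ⟨i0, hi0⟩ := Finite.exists_min (fun i => hX.isHermitian.eigenvalues i)
      exact ⟨_, hX.eigenvalues_pos i0, hi0⟩
  refine ⟨c, hc, ?_⟩
  have := shift_posSemidef hX.isHermitian (c := -c) fun i => by linarith [hc2 i]
  have e : X - ((c : ℝ) : ℂ) • (1 : Matrix α α ℂ)
      = (((-c : ℝ)) : ℂ) • (1 : Matrix α α ℂ) + X := by
    push_cast; rw [neg_smul]; abel
  rw [e]; exact this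

lemma tr_sq_eigen {H : Matrix α α ℂ} (hH : H.IsHermitian) :
    ((H * H).trace).re = ∑ i, hH.eigenvalues i ^ 2 := by
  obtain ⟨P, h1, h2, h3⟩ := exists_unitary hH
  have e : H * H = P * (diagonal (fun a => ((hH.eigenvalues a : ℝ) : ℂ))
      * diagonal (fun a => ((hH.eigenvalues a : ℝ) : ℂ))) * Pᴴ := by
    conv_lhs => rw [h3]
    calc _ = P * diagonal (fun a => ((hH.eigenvalues a : ℝ) : ℂ)) * (Pᴴ * P)
          * diagonal (fun a => ((hH.eigenvalues a : ℝ) : ℂ)) * Pᴴ := by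
          simp only [Matrix.mul_assoc]
      _ = _ := by rw [h1]; simp only [Matrix.mul_one, Matrix.mul_assoc]
  rw [e, Matrix.trace_mul_comm, ← Matrix.mul_assoc, h1, Matrix.one_mul, diagonal_mul_diagonal,
    Matrix.trace_diagonal, Complex.re_sum]
  refine Finset.sum_congr rfl fun i _ => ?_
  rw [← Complex.ofReal_mul, Complex.ofReal_re, sq]

lemma herm_small {H : Matrix α α ℂ} (hH : H.IsHermitian) {η : ℝ} (hη : ∀ i j, ‖H i j‖ ≤ η) :
    (((Fintype.card α * η : ℝ) : ℂ) • (1 : Matrix α α ℂ) + H).PosSemidef := by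
  refine shift_posSemidef hH fun i => ?_
  have hη0 : 0 ≤ η := (norm_nonneg _).trans (hη i i)
  have h1 : ((H * H).trace).re = ∑ i, ∑ j, ‖H i j‖ ^ 2 := by
    conv_lhs => rw [show H * H = H * Hᴴ by rw [hH.eq]]
    exact tr_sq H
  have h2 : ((H * H).trace).re ≤ (Fintype.card α * η) ^ 2 := by
    rw [h1]
    calc ∑ i, ∑ j, ‖H i j‖ ^ 2 ≤ ∑ i : α, ∑ j : α, η ^ 2 :=
          Finset.sum_le_sum fun i _ => Finset.sum_le_sum fun j _ =>
            pow_le_pow_left₀ (norm_nonneg _) (hη i j) 2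
      _ = _ := by simp; ring
  have h3 : hH.eigenvalues i ^ 2 ≤ (Fintype.card α * η) ^ 2 := by
    refine le_trans ?_ h2
    rw [tr_sq_eigen hH]
    exact Finset.single_le_sum (f := fun i => hH.eigenvalues i ^ 2) (fun i _ => sq_nonneg _)
      (Finset.mem_univ i)
  have h4 := abs_le.mp (abs_le_of_sq_le_sq h3 (by positivity))
  linarith [h4.1]

/-- Positive definiteness is stable under small Hermitian perturbations. -/
lemma eventually_posDef {ι : Type*} {l : Filter ι} {A : ι → Matrix α α ℂ} {B : Matrix α α ℂ}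
    (h : Tendsto A l (𝓝 B)) (hA : ∀ᶠ x in l, (A x).IsHermitian) (hB : B.PosDef) :
    ∀ᶠ x in l, (A x).PosDef := by
  obtain ⟨c, hc, hc2⟩ := exists_lower hB
  set N : ℝ := (Fintype.card α : ℝ) with hNdef
  have hN : 0 ≤ N := Nat.cast_nonneg _
  set η : ℝ := c / (2 * (N + 1))
  have hη : 0 < η := by positivity
  have hev : ∀ᶠ x in l, ∀ i j, ‖(A x - B) i j‖ ≤ η := by
    rw [Filter.eventually_all]; intro i
    rw [Filter.eventually_all]; intro j
    have h1 := (tendsto_entry h i j).sub_const (B i j)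
    rw [sub_self] at h1
    have h2 := h1.norm
    rw [norm_zero] at h2
    filter_upwards [h2.eventually_le_const hη] with x hx
    simpa [Matrix.sub_apply] using hx
  filter_upwards [hev, hA] with x hx hx2
  have h3 := herm_small (hx2.sub hB.isHermitian) hx
  have h4 : N * η ≤ c / 2 := by
    have : N * η = c / 2 * (N / (N + 1)) := by simp only [η]; field_simp
    rw [this]
    have h5 : N / (N + 1) ≤ 1 := by rw [div_le_one (by positivity)]; linarith
    nlinarith
  have e : A x = (B - ((c : ℝ) : ℂ) • (1 : Matrix α α ℂ))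
      + (((N * η : ℝ) : ℂ) • (1 : Matrix α α ℂ) + (A x - B))
      + ((c - N * η : ℝ) : ℂ) • (1 : Matrix α α ℂ) := by
    push_cast
    module
  rw [e]
  refine Matrix.PosDef.posSemidef_add (hc2.add h3) ?_
  refine Matrix.PosDef.smul Matrix.PosDef.one ?_
  exact Complex.zero_lt_real.mpr (by linarith)

lemma isCompact_box (T : ℝ) :
    IsCompact {k : Matrix α α ℂ | ∀ i j, ‖k i j‖ ≤ T} := by
  have h := isCompact_univ_pi (fun _ : α => isCompact_univ_pi
    (fun _ : α => isCompact_closedBall (0 : ℂ) T))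
  have e : {k : Matrix α α ℂ | ∀ i j, ‖k i j‖ ≤ T}
      = Set.univ.pi fun _ : α => Set.univ.pi fun _ : α => Metric.closedBall (0 : ℂ) T := by
    ext k
    constructor
    · intro h i _ j _
      simpa using h i j
    · intro h i j
      simpa using h i trivial j trivial
  rw [e]; exact h

/-! ### The domain -/

lemma Dom.posDef {Q k : Matrix α α ℂ} (h : Dom Q k) : k.PosDef := by
  have h1 : ((2 : ℂ) • k).PosDef := by
    have := h.2.add_posSemidef h.1
    rwa [sub_add_cancel] at this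
  have h2 : k = (1 / 2 : ℂ) • ((2 : ℂ) • k) := by rw [smul_smul]; norm_num
  rw [h2]
  refine Matrix.PosDef.smul h1 ?_
  have : (0 : ℝ) < 1 / 2 := by norm_num
  have h := Complex.zero_lt_real.mpr this
  simpa using h

lemma dom_half {Q : Matrix α α ℂ} (hQ : Q.PosSemidef) {η : ℝ} (hη : 0 < η) :
    Dom Q ((1 / 2 : ℂ) • (Q + (η : ℂ) • 1)) := by
  refine ⟨hQ, ?_⟩
  have e : (2 : ℂ) • ((1 / 2 : ℂ) • (Q + (η : ℂ) • (1 : Matrix α α ℂ))) - Q
      = (η : ℂ) • (1 : Matrix α α ℂ) := by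
    module
  rw [e]
  exact Matrix.PosDef.smul Matrix.PosDef.one (Complex.zero_lt_real.mpr hη)

lemma Dom.tr_le {Q k : Matrix α α ℂ} (h : Dom Q k) : ((2 : ℂ) • k - Q).trace.re ≤ 2 * k.trace.re := by
  have h1 := re_nonneg_of_posSemidef h.1
  rw [Matrix.trace_sub, Matrix.trace_smul, Complex.sub_re, smul_eq_mul]
  have : ((2 : ℂ) * k.trace).re = 2 * k.trace.re := by simp
  rw [this]; linarith

lemma Dom.trQ_le {Q k : Matrix α α ℂ} (h : Dom Q k) : Q.trace.re ≤ 2 * k.trace.re := by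
  have h1 := re_nonneg_of_posSemidef h.2.posSemidef
  rw [Matrix.trace_sub, Matrix.trace_smul, Complex.sub_re, smul_eq_mul] at h1
  have : ((2 : ℂ) * k.trace).re = 2 * k.trace.re := by simp
  rw [this] at h1; linarith

/-! ### The Lagrangian -/

/-- The Lagrangian. -/
noncomputable def Sig {s : ℝ} (C : Fun s α) (e : ℝ) (X M Q k : Matrix α α ℂ) : ℝ :=
  ((X * (k - Q)).trace).re + C.G Q k - ((k * k * M).trace).re + e * ld ((2 : ℂ) • k - Q)

variable {s : ℝ} (C : Fun s α) {e : ℝ}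

lemma Sig_le {d : ℝ} (he : 0 ≤ e) (hd : 0 ≤ d) {X M Q k : Matrix α α ℂ}
    (hX : X.PosSemidef) (hM : (M - ((d : ℝ) : ℂ) • (1 : Matrix α α ℂ)).PosSemidef)
    (hD : Dom Q k) :
    Sig C e X M Q k + d / Fintype.card α * k.trace.re ^ 2 ≤
      (X.trace.re + 2 * e * Fintype.card α) * k.trace.re
        + Q.trace.re * k.trace.re ^ (2 * s) := by
  have hk := hD.posDef.posSemidef
  have t0 := re_nonneg_of_posSemidef hk
  have h1 : ((X * (k - Q)).trace).re ≤ X.trace.re * k.trace.re := by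
    rw [Matrix.mul_sub, Matrix.trace_sub, Complex.sub_re]
    have a := tr_mul_le hX hk
    have b := tr_mul_nonneg hX hD.1
    linarith
  have h2 := C.G_le Q k hD
  have h3 : d / Fintype.card α * k.trace.re ^ 2 ≤ ((k * k * M).trace).re := by
    have hkk : (k * k).PosSemidef := by
      have := Matrix.posSemidef_self_mul_conjTranspose k
      rwa [hk.isHermitian.eq] at this
    have a := tr_mul_nonneg hkk hM
    rw [Matrix.mul_sub, Matrix.trace_sub, Matrix.mul_smul, Matrix.mul_one, Matrix.trace_smul,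
      Complex.sub_re, smul_eq_mul, Complex.re_ofReal_mul] at a
    have b := sq_trace_le hk.isHermitian
    have c : d / Fintype.card α * k.trace.re ^ 2 ≤ d * ((k * k).trace).re := by
      rcases isEmpty_or_nonempty α with hα | hα
      · have : (Fintype.card α : ℝ) = 0 := by simp
        rw [this, div_zero, zero_mul]
        exact mul_nonneg hd (re_nonneg_of_posSemidef hkk)
      · have hN : (0 : ℝ) < Fintype.card α := by exact_mod_cast Fintype.card_pos
        rw [div_mul_eq_mul_div, div_le_iff₀ hN]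
        have := mul_le_mul_of_nonneg_left b hd
        linarith
    linarith
  have h4 : ld ((2 : ℂ) • k - Q) ≤ Fintype.card α * (2 * k.trace.re) := by
    have a := det_re_pos hD.2
    have b := det_le hD.2.posSemidef
    have c : ((2 : ℂ) • k - Q).trace.re ^ Fintype.card α ≤ (2 * k.trace.re) ^ Fintype.card α :=
      pow_le_pow_left₀ (re_nonneg_of_posSemidef hD.2.posSemidef) hD.tr_le _
    have d1 := Real.log_le_log a (b.trans c)
    rw [Real.log_pow] at d1
    refine d1.trans (mul_le_mul_of_nonneg_left ?_ (Nat.cast_nonneg _))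
    exact Real.log_le_self (by positivity)
  have h5 := mul_le_mul_of_nonneg_left h4 he
  unfold Sig
  nlinarith

lemma Sig_le' {d : ℝ} (hd : 0 ≤ d) {X M Q k : Matrix α α ℂ}
    (hX : X.PosSemidef) (hM : (M - ((d : ℝ) : ℂ) • (1 : Matrix α α ℂ)).PosSemidef)
    (hD : Dom Q k) :
    Sig C e X M Q k ≤ X.trace.re * k.trace.re + Q.trace.re * k.trace.re ^ (2 * s)
      + e * ld ((2 : ℂ) • k - Q) := by
  have hk := hD.posDef.posSemidef
  have h1 : ((X * (k - Q)).trace).re ≤ X.trace.re * k.trace.re := by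
    rw [Matrix.mul_sub, Matrix.trace_sub, Complex.sub_re]
    have a := tr_mul_le hX hk
    have b := tr_mul_nonneg hX hD.1
    linarith
  have h2 := C.G_le Q k hD
  have h3 : 0 ≤ ((k * k * M).trace).re := by
    have hkk : (k * k).PosSemidef := by
      have := Matrix.posSemidef_self_mul_conjTranspose k
      rwa [hk.isHermitian.eq] at this
    have a := tr_mul_nonneg hkk hM
    rw [Matrix.mul_sub, Matrix.trace_sub, Matrix.mul_smul, Matrix.mul_one, Matrix.trace_smul,
      Complex.sub_re, smul_eq_mul, Complex.re_ofReal_mul] at a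
    have b := mul_nonneg hd (re_nonneg_of_posSemidef hkk)
    linarith
  unfold Sig
  linarith

/-- Elementary growth lemma. -/
lemma exists_T {a p : ℝ} (ha : 0 < a) (hp : p < 2) (c R L : ℝ) :
    ∃ T : ℝ, 0 < T ∧ ∀ t : ℝ, T ≤ t → c * t + R * t ^ p - a * t ^ 2 < -L := by
  have h1 : ∀ᶠ t : ℝ in atTop, 2 * R / a ≤ t ^ (2 - p) :=
    (tendsto_rpow_atTop (by linarith : 0 < 2 - p)).eventually_ge_atTop _
  have h2 : ∀ᶠ t : ℝ in atTop, 2 * (c + 1) / a ≤ t := eventually_ge_atTop _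
  obtain ⟨T, hT⟩ := eventually_atTop.mp ((h1.and h2).and
    ((eventually_gt_atTop L).and (eventually_gt_atTop 0)))
  refine ⟨max T 1, by positivity, fun t ht => ?_⟩
  obtain ⟨⟨b1, b2⟩, b3, b4⟩ := hT t (le_trans (le_max_left _ _) ht)
  have e1 : t ^ (2 : ℕ) = t ^ p * t ^ (2 - p) := by
    rw [← Real.rpow_add b4]
    rw [← Real.rpow_natCast]; congr 1; push_cast; ring
  have htp : 0 < t ^ p := Real.rpow_pos_of_pos b4 _
  have c1 : R * t ^ p ≤ a / 2 * t ^ 2 := by
    rw [e1]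
    rw [div_le_iff₀ ha] at b1
    nlinarith
  have c2 : c * t + L < a / 2 * t ^ 2 := by
    rw [div_le_iff₀ ha] at b2
    nlinarith
  nlinarith

/-- The key a priori estimate. -/
lemma apriori (hs0 : 0 ≤ s) (hs : s < 1) (he : 0 < e) {d : ℝ} (hd : 0 < d) (R L : ℝ) :
    ∃ T c : ℝ, 0 < T ∧ 0 < c ∧ ∀ X M Q k : Matrix α α ℂ, X.PosSemidef →
      (M - ((d : ℝ) : ℂ) • (1 : Matrix α α ℂ)).PosSemidef → Dom Q k → X.trace.re ≤ R →
      Q.trace.re ≤ R → -L ≤ Sig C e X M Q k →
      k.trace.re ≤ T ∧ c ≤ ((2 : ℂ) • k - Q).det.re := by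
  rcases isEmpty_or_nonempty α with hα | hα
  · refine ⟨1, 1, one_pos, one_pos, fun X M Q k _ _ _ _ _ _ => ⟨?_, ?_⟩⟩
    · simp [Matrix.trace]
    · simp
  have hN : (0 : ℝ) < Fintype.card α := by exact_mod_cast Fintype.card_pos
  obtain ⟨T, hT, hT2⟩ := exists_T (a := d / Fintype.card α) (p := 2 * s) (by positivity)
    (by linarith) (R + 2 * e * Fintype.card α) R L
  set R' := max R 0
  refine ⟨T, Real.exp (-(L + R' * T + R' * max T 1 ^ (2 : ℝ)) / e), hT, Real.exp_pos _,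
    fun X M Q k hX hM hD hXR hQR hL => ?_⟩
  have hk := hD.posDef.posSemidef
  have t0 := re_nonneg_of_posSemidef hk
  have hle := Sig_le C he.le hd.le hX hM hD
  have hpow : 0 ≤ k.trace.re ^ (2 * s) := Real.rpow_nonneg t0 _
  have hTk : k.trace.re ≤ T := by
    by_contra hcon
    push Not at hcon
    have := hT2 _ hcon.le
    nlinarith
  refine ⟨hTk, ?_⟩
  have hle2 := Sig_le' C (e := e) hd.le hX hM hD
  have hX0 := re_nonneg_of_posSemidef hX
  have hQ0 := re_nonneg_of_posSemidef hD.1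
  have h1 : k.trace.re ^ (2 * s) ≤ max T 1 ^ (2 : ℝ) := by
    calc k.trace.re ^ (2 * s) ≤ (max T 1) ^ (2 * s) :=
            Real.rpow_le_rpow t0 (hTk.trans (le_max_left _ _)) (by linarith)
        _ ≤ _ := Real.rpow_le_rpow_of_exponent_le (le_max_right _ _) (by linarith)
  have h2 : X.trace.re * k.trace.re ≤ R' * T :=
    mul_le_mul (hXR.trans (le_max_left _ _)) hTk t0 (le_max_right _ _)
  have h3 : Q.trace.re * k.trace.re ^ (2 * s) ≤ R' * max T 1 ^ (2 : ℝ) :=
    mul_le_mul (hQR.trans (le_max_left _ _)) h1 hpow (le_max_right _ _)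
  have h4 : -(L + R' * T + R' * max T 1 ^ (2 : ℝ)) / e ≤ ld ((2 : ℂ) • k - Q) := by
    rw [div_le_iff₀ he]
    nlinarith
  calc Real.exp (-(L + R' * T + R' * max T 1 ^ (2 : ℝ)) / e)
      ≤ Real.exp (ld ((2 : ℂ) • k - Q)) := Real.exp_le_exp.mpr h4
    _ = _ := Real.exp_log (det_re_pos hD.2)

lemma cont1 : Continuous fun q : Matrix α α ℂ × Matrix α α ℂ × Matrix α α ℂ =>
    ((q.1 * (q.2.1 - q.2.2)).trace).re :=
  Complex.continuous_re.comp ((continuous_fst.matrix_mul
    ((continuous_fst.comp continuous_snd).sub (continuous_snd.comp continuous_snd))).matrix_trace)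

lemma cont2 : Continuous fun q : Matrix α α ℂ × Matrix α α ℂ =>
    ((q.1 * q.1 * q.2).trace).re :=
  Complex.continuous_re.comp (((continuous_fst.matrix_mul continuous_fst).matrix_mul
    continuous_snd).matrix_trace)

lemma cont3 : Continuous fun q : Matrix α α ℂ × Matrix α α ℂ => ((2 : ℂ) • q.1 - q.2).det.re :=
  Complex.continuous_re.comp (((continuous_fst.const_smul (2 : ℂ)).sub
    continuous_snd).matrix_det)

/-- Continuity of the Lagrangian along filters. -/
lemma tendsto_Sig {ι : Type*} {l : Filter ι} {X' M' Q' k' : ι → Matrix α α ℂ}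
    {X M Q k : Matrix α α ℂ} (hX : Tendsto X' l (𝓝 X)) (hM : Tendsto M' l (𝓝 M))
    (hQ : Tendsto Q' l (𝓝 Q)) (hk : Tendsto k' l (𝓝 k)) (hD' : ∀ᶠ x in l, Dom (Q' x) (k' x))
    (hD : Dom Q k) :
    Tendsto (fun x => Sig C e (X' x) (M' x) (Q' x) (k' x)) l (𝓝 (Sig C e X M Q k)) := by
  have h1 : Tendsto (fun x => ((X' x * (k' x - Q' x)).trace).re) l
      (𝓝 ((X * (k - Q)).trace).re) := by
    have h := (cont1.tendsto (X, k, Q)).comp (hX.prodMk_nhds (hk.prodMk_nhds hQ))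
    exact h
  have h2 : Tendsto (fun x => C.G (Q' x) (k' x)) l (𝓝 (C.G Q k)) := by
    have h0 := (C.G_cont (Q, k) hD).tendsto
    have h1 : Tendsto (fun x => (Q' x, k' x)) l
        (𝓝[{p : Matrix α α ℂ × Matrix α α ℂ | Dom p.1 p.2}] (Q, k)) :=
      tendsto_nhdsWithin_iff.mpr ⟨hQ.prodMk_nhds hk, hD'⟩
    exact h0.comp h1
  have h3 : Tendsto (fun x => ((k' x * k' x * M' x).trace).re) l
      (𝓝 ((k * k * M).trace).re) := by
    have h := (cont2.tendsto (k, M)).comp (hk.prodMk_nhds hM)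
    exact h
  have h4 : Tendsto (fun x => ld ((2 : ℂ) • k' x - Q' x)) l (𝓝 (ld ((2 : ℂ) • k - Q))) := by
    have c2 := (cont3.tendsto (k, Q)).comp (hk.prodMk_nhds hQ)
    exact c2.log (det_re_pos hD.2).ne'
  exact ((h1.add h2).sub h3).add (h4.const_mul e)

/-- `k` maximises the Lagrangian. -/
def IsMx (C : Fun s α) (e : ℝ) (X M Q k : Matrix α α ℂ) : Prop :=
  Dom Q k ∧ ∀ k', Dom Q k' → Sig C e X M Q k' ≤ Sig C e X M Q k

lemma isCompact_reg (Q : Matrix α α ℂ) (hQ : Q.PosSemidef) (T c : ℝ) :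
    IsCompact {k : Matrix α α ℂ | ((2 : ℂ) • k - Q).PosSemidef ∧ k.trace.re ≤ T ∧
      c ≤ ((2 : ℂ) • k - Q).det.re} := by
  refine (isCompact_box T).of_isClosed_subset ?_ ?_
  · have c1 : Continuous fun k : Matrix α α ℂ => (2 : ℂ) • k - Q := by fun_prop
    have c2 : Continuous fun k : Matrix α α ℂ => k.trace.re := by fun_prop
    have c3 : Continuous fun k : Matrix α α ℂ => ((2 : ℂ) • k - Q).det.re := by fun_prop
    exact (isClosed_posSemidef.preimage c1).inter ((isClosed_le c2 continuous_const).inter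
      (isClosed_le continuous_const c3))
  · rintro k ⟨h1, h2, -⟩ i j
    have h3 : ((2 : ℂ) • k).PosSemidef := by
      have := h1.add hQ
      rwa [sub_add_cancel] at this
    have h4 := norm_le_trace h3 i j
    rw [Matrix.smul_apply, Matrix.trace_smul, norm_smul] at h4
    simp at h4
    linarith

lemma dom_of_reg {Q k : Matrix α α ℂ} (hQ : Q.PosSemidef) {c : ℝ} (hc : 0 < c)
    (h : ((2 : ℂ) • k - Q).PosSemidef) (h2 : c ≤ ((2 : ℂ) • k - Q).det.re) : Dom Q k := by
  refine ⟨hQ, ?_⟩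
  rw [h.posDef_iff_det_ne_zero]
  intro h0
  rw [h0] at h2
  simp at h2
  linarith

/-- Existence of a maximiser. -/
lemma exists_isMx (hs0 : 0 ≤ s) (hs : s < 1) (he : 0 < e) {d : ℝ} (hd : 0 < d) {X M Q : Matrix α α ℂ}
    (hX : X.PosSemidef) (hM : (M - ((d : ℝ) : ℂ) • (1 : Matrix α α ℂ)).PosSemidef)
    (hQ : Q.PosSemidef) : ∃ k, IsMx C e X M Q k := by
  set k0 := (1 / 2 : ℂ) • (Q + ((1 : ℝ) : ℂ) • (1 : Matrix α α ℂ)) with hk0
  have hD0 : Dom Q k0 := dom_half hQ one_pos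
  obtain ⟨T, c, hT, hc, H⟩ := apriori C hs0 hs he hd (max X.trace.re Q.trace.re)
    (-(Sig C e X M Q k0))
  have H' : ∀ k, Dom Q k → Sig C e X M Q k0 ≤ Sig C e X M Q k →
      k.trace.re ≤ T ∧ c ≤ ((2 : ℂ) • k - Q).det.re := fun k hk hle =>
    H X M Q k hX hM hk (le_max_left _ _) (le_max_right _ _) (by rw [neg_neg]; exact hle)
  set S := {k : Matrix α α ℂ | ((2 : ℂ) • k - Q).PosSemidef ∧ k.trace.re ≤ T ∧
      c ≤ ((2 : ℂ) • k - Q).det.re} with hS
  have hk0S : k0 ∈ S := ⟨hD0.2.posSemidef, H' k0 hD0 le_rfl⟩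
  have hcont : ContinuousOn (fun k => Sig C e X M Q k) S := by
    intro k hk
    have hDk : Dom Q k := dom_of_reg hQ hc hk.1 hk.2.2
    refine tendsto_Sig C tendsto_const_nhds tendsto_const_nhds tendsto_const_nhds
      (tendsto_nhdsWithin_of_tendsto_nhds tendsto_id) ?_ hDk
    filter_upwards [self_mem_nhdsWithin] with x hx
    exact dom_of_reg hQ hc hx.1 hx.2.2
  obtain ⟨k, hkS, hk⟩ := (isCompact_reg Q hQ T c).exists_isMaxOn ⟨k0, hk0S⟩ hcont
  refine ⟨k, dom_of_reg hQ hc hkS.1 hkS.2.2, fun k' hk' => ?_⟩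
  by_cases hle : Sig C e X M Q k0 ≤ Sig C e X M Q k'
  · exact hk ⟨hk'.2.posSemidef, H' k' hk' hle⟩
  · push Not at hle
    exact hle.le.trans (hk hk0S)

/-- Uniqueness of the maximiser. -/
lemma isMx_unique (he : 0 < e) {X M Q k₁ k₂ : Matrix α α ℂ} (hX : X.PosSemidef)
    (h₁ : IsMx C e X M Q k₁) (h₂ : IsMx C e X M Q k₂) : k₁ = k₂ := by
  by_contra hne
  have d1 := h₁.1.posDef
  have d2 := h₂.1.posDef
  have s1 : (k₁ * k₁).PosDef := by
    have : (k₁ᴴ * k₁).PosDef := Matrix.PosDef.conjTranspose_mul_self k₁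
      (Matrix.mulVec_injective_iff_isUnit.mpr d1.isUnit)
    rwa [d1.isHermitian.eq] at this
  have s2 : (k₂ * k₂).PosDef := by
    have : (k₂ᴴ * k₂).PosDef := Matrix.PosDef.conjTranspose_mul_self k₂
      (Matrix.mulVec_injective_iff_isUnit.mpr d2.isUnit)
    rwa [d2.isHermitian.eq] at this
  have s3 : ((1 / 2 : ℂ) • (k₁ * k₁ + k₂ * k₂)).PosDef := half_add_posDef s1 s2
  obtain ⟨k, hk, hkk⟩ := exists_mul_self s3.posSemidef
  have hkd := posDef_of_mul_self s3 hk hkk
  have hk2 : (2 : ℂ) • (k * k) = k₁ * k₁ + k₂ * k₂ := by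
    rw [hkk, smul_smul]; norm_num
  have hmid : (k - (1 / 2 : ℂ) • (k₁ + k₂)).PosSemidef := by
    refine sqrt_mono (half_add_posDef d1 d2).posSemidef hkd ?_
    have e1 : k * k - (1 / 2 : ℂ) • (k₁ + k₂) * (1 / 2 : ℂ) • (k₁ + k₂)
        = ((1 / 2 : ℂ) • (k₁ - k₂)) * ((1 / 2 : ℂ) • (k₁ - k₂)) := by
      rw [hkk]
      simp only [smul_add, smul_sub, smul_mul_assoc, mul_smul_comm, add_mul, mul_add, sub_mul,
        mul_sub, smul_smul]
      module
    rw [e1]
    have hH : ((1 / 2 : ℂ) • (k₁ - k₂)).IsHermitian := by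
      rw [Matrix.IsHermitian, conjTranspose_smul, conjTranspose_sub, d1.isHermitian.eq,
        d2.isHermitian.eq]
      congr 1
      simp
    have := Matrix.posSemidef_self_mul_conjTranspose ((1 / 2 : ℂ) • (k₁ - k₂))
    rwa [hH.eq] at this
  have hP : (2 : ℂ) • k - Q - (1 / 2 : ℂ) • (((2 : ℂ) • k₁ - Q) + ((2 : ℂ) • k₂ - Q))
      = (2 : ℂ) • (k - (1 / 2 : ℂ) • (k₁ + k₂)) := by module
  have hPp : ((2 : ℂ) • k - Q - (1 / 2 : ℂ) • (((2 : ℂ) • k₁ - Q)
      + ((2 : ℂ) • k₂ - Q))).PosSemidef := by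
    rw [hP]
    refine hmid.smul ?_
    have h := Complex.zero_le_real.mpr (show (0 : ℝ) ≤ 2 by norm_num)
    simpa using h
  have hPm := half_add_posDef h₁.1.2 h₂.1.2
  have hPd : ((2 : ℂ) • k - Q).PosDef := by
    have := Matrix.PosDef.posSemidef_add hPp hPm
    rwa [sub_add_cancel] at this
  have hD : Dom Q k := ⟨h₁.1.1, hPd⟩
  have hne' : (2 : ℂ) • k₁ - Q ≠ (2 : ℂ) • k₂ - Q := by
    intro h
    apply hne
    have h3 : (2 : ℂ) • k₁ = (2 : ℂ) • k₂ := sub_left_injective h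
    have := congrArg (fun A => (1 / 2 : ℂ) • A) h3
    simp only [smul_smul] at this
    norm_num at this
    exact this
  have f1 := ld_strict h₁.1.2 h₂.1.2 hne'
  have f2 := ld_mono hPm hPd hPp
  have f3 := C.G_conc Q k₁ k₂ k h₁.1 h₂.1 hkd hk2
  have f4 : ((X * (k₁ - Q)).trace).re + ((X * (k₂ - Q)).trace).re
      ≤ 2 * ((X * (k - Q)).trace).re := by
    have h5 := tr_mul_nonneg hX hmid
    have e1 : X * (k - (1 / 2 : ℂ) • (k₁ + k₂))
        = X * (k - Q) - (1 / 2 : ℂ) • (X * (k₁ - Q)) - (1 / 2 : ℂ) • (X * (k₂ - Q)) := by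
      simp only [Matrix.mul_sub, Matrix.mul_smul, Matrix.mul_add, smul_add, smul_sub]
      module
    rw [e1, Matrix.trace_sub, Matrix.trace_sub, Matrix.trace_smul, Matrix.trace_smul,
      Complex.sub_re, Complex.sub_re, smul_eq_mul, smul_eq_mul] at h5
    have r1 : ∀ z : ℂ, ((1 / 2 : ℂ) * z).re = 1 / 2 * z.re := by intro z; simp
    rw [r1, r1] at h5
    linarith
  have f5 : 2 * ((k * k * M).trace).re
      = ((k₁ * k₁ * M).trace).re + ((k₂ * k₂ * M).trace).re := by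
    have := congrArg (fun A => ((A * M).trace).re) hk2
    simp only [Matrix.smul_mul, Matrix.trace_smul, Matrix.add_mul, Matrix.trace_add,
      Complex.add_re, smul_eq_mul] at this
    have r1 : ∀ z : ℂ, ((2 : ℂ) * z).re = 2 * z.re := by intro z; simp
    rw [r1] at this
    exact this
  have g1 := h₁.2 k hD
  have g2 := h₂.2 k hD
  have g3 : e * (ld ((2 : ℂ) • k₁ - Q) + ld ((2 : ℂ) • k₂ - Q))
      < e * (2 * ld ((2 : ℂ) • k - Q)) := by
    refine mul_lt_mul_of_pos_left ?_ he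
    linarith
  unfold Sig at g1 g2
  nlinarith

/-- Continuity of the maximiser. -/
lemma tendsto_isMx (hs0 : 0 ≤ s) (hs : s < 1) (he : 0 < e) {d : ℝ} (hd : 0 < d)
    {X M Q k : Matrix α α ℂ} {X' M' Q' k' : ℕ → Matrix α α ℂ}
    (hXp : ∀ n, (X' n).PosSemidef)
    (hMp : ∀ n, (M' n - ((d : ℝ) : ℂ) • (1 : Matrix α α ℂ)).PosSemidef)
    (hX : Tendsto X' atTop (𝓝 X)) (hM : Tendsto M' atTop (𝓝 M)) (hQ : Tendsto Q' atTop (𝓝 Q))
    (hk : IsMx C e X M Q k) (hk' : ∀ n, IsMx C e (X' n) (M' n) (Q' n) (k' n)) :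
    Tendsto k' atTop (𝓝 k) := by
  have hXp0 : X.PosSemidef := isClosed_posSemidef.mem_of_tendsto hX (Eventually.of_forall hXp)
  have hQ0 : Q.PosSemidef := hk.1.1
  have ctr : Continuous fun A : Matrix α α ℂ => A.trace.re := by fun_prop
  have bX : ∀ᶠ n in atTop, (X' n).trace.re ≤ max X.trace.re Q.trace.re + 1 :=
    ((ctr.tendsto X).comp hX).eventually_le_const
      (lt_of_le_of_lt (le_max_left _ _) (lt_add_one _))
  have bQ : ∀ᶠ n in atTop, (Q' n).trace.re ≤ max X.trace.re Q.trace.re + 1 :=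
    ((ctr.tendsto Q).comp hQ).eventually_le_const
      (lt_of_le_of_lt (le_max_right _ _) (lt_add_one _))
  -- feasibility of `k` for the perturbed problem
  have hfe : ∀ᶠ n in atTop, Dom (Q' n) k := by
    have h1 : Tendsto (fun n => (2 : ℂ) • k - Q' n) atTop (𝓝 ((2 : ℂ) • k - Q)) :=
      tendsto_const_nhds.sub hQ
    have h2 := eventually_posDef h1 (Eventually.of_forall fun n => by
      have a := (hk' n).1.1.isHermitian
      have b := hk.1.posDef.isHermitian
      refine IsHermitian.sub ?_ a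
      rw [Matrix.IsHermitian, conjTranspose_smul, b.eq]
      congr 1
      simp) hk.1.2
    filter_upwards [h2] with n hn
    exact ⟨(hk' n).1.1, hn⟩
  have hval : Tendsto (fun n => Sig C e (X' n) (M' n) (Q' n) k) atTop
      (𝓝 (Sig C e X M Q k)) := tendsto_Sig C hX hM hQ tendsto_const_nhds hfe hk.1
  have hlow : ∀ᶠ n in atTop, -(-(Sig C e X M Q k) + 1) ≤ Sig C e (X' n) (M' n) (Q' n) k := by
    refine hval.eventually_const_le ?_
    linarith
  obtain ⟨T, c, hT, hc, H⟩ := apriori C hs0 hs he hd (max X.trace.re Q.trace.re + 1)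
    (-(Sig C e X M Q k) + 1)
  have hreg : ∀ᶠ n in atTop, (k' n).trace.re ≤ T ∧ c ≤ ((2 : ℂ) • k' n - Q' n).det.re := by
    filter_upwards [bX, bQ, hfe, hlow] with n a1 a2 a3 a4
    exact H _ _ _ _ (hXp n) (hMp n) (hk' n).1 a1 a2 (a4.trans ((hk' n).2 k a3))
  haveI : FirstCountableTopology (Matrix α α ℂ) :=
    inferInstanceAs (FirstCountableTopology (α → α → ℂ))
  refine tendsto_of_subseq_tendsto fun ns hns => ?_
  have hreg' : ∀ᶠ n in atTop, k' (ns n) ∈ {k : Matrix α α ℂ | ∀ i j, ‖k i j‖ ≤ T} := by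
    filter_upwards [hns.eventually hreg] with n hn i j
    exact (norm_le_trace (hk' (ns n)).1.posDef.posSemidef i j).trans hn.1
  obtain ⟨k'', hk'', φ, hφ, hlim⟩ := (isCompact_box T).tendsto_subseq' hreg'.frequently
  refine ⟨φ, ?_⟩
  have hsub : Tendsto (fun n => ns (φ n)) atTop atTop := hns.comp hφ.tendsto_atTop
  have hQs := hQ.comp hsub
  have hPs : Tendsto (fun n => (2 : ℂ) • k' (ns (φ n)) - Q' (ns (φ n))) atTop
      (𝓝 ((2 : ℂ) • k'' - Q)) := (hlim.const_smul (2 : ℂ)).sub hQs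
  have hPp : ((2 : ℂ) • k'' - Q).PosSemidef := isClosed_posSemidef.mem_of_tendsto hPs
    (Eventually.of_forall fun n => (hk' (ns (φ n))).1.2.posSemidef)
  have hdet : c ≤ ((2 : ℂ) • k'' - Q).det.re := by
    have cd : Continuous fun A : Matrix α α ℂ => A.det.re := by fun_prop
    refine ge_of_tendsto ((cd.tendsto _).comp hPs) ?_
    filter_upwards [hsub.eventually hreg] with n hn
    exact hn.2
  have hD'' : Dom Q k'' := dom_of_reg hQ0 hc hPp hdet
  have hv1 : Tendsto (fun n => Sig C e (X' (ns (φ n))) (M' (ns (φ n))) (Q' (ns (φ n)))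
      (k' (ns (φ n)))) atTop (𝓝 (Sig C e X M Q k'')) :=
    tendsto_Sig C (hX.comp hsub) (hM.comp hsub) hQs hlim
      (Eventually.of_forall fun n => (hk' (ns (φ n))).1) hD''
  have hv2 : Sig C e X M Q k ≤ Sig C e X M Q k'' := by
    refine le_of_tendsto_of_tendsto (hval.comp hsub) hv1 ?_
    filter_upwards [hsub.eventually hfe] with n hn
    exact (hk' (ns (φ n))).2 k hn
  have hmx : IsMx C e X M Q k'' := ⟨hD'', fun k1 hk1 => (hk.2 k1 hk1).trans hv2⟩
  have := isMx_unique C he hXp0 hk hmx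
  rw [this]
  exact hlim

end LTG
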