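import Mathlib
import Vale.Agent.P371.GDefs

/-!
# P371, `γ ∈ (1, 3/2)`: statements of the consumer side
-/

namespace LTG

open Matrix Set Filter MeasureTheory
open scoped ComplexOrder Topology ComplexConjugate

/-- the sharp constant `s^s / ((s+1)^(s+1) B_s)`, `s = γ - 1/2` -/
noncomputable def Kc (s : ℝ) : ℝ := s ^ s / ((s + 1) ^ (s + 1) * Bs s)

/-- The sharp kinetic inequality with weights. -/
def KinG (s : ℝ) : Prop := ∀ (n m : ℕ) (u g : Fin n → Fin m → ℝ → ℂ) (y : Fin n → ℝ),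
  Vale.P371.Fam u g → (∀ j, 0 < y j) →
  (∀ i j, ∫ t, Vale.P371.Xm u t i j =
    if i = j then (((s + 1 / 2) * Bs s * y j ^ (2 * s - 1) : ℝ) : ℂ) else 0) →
  ∀ a b : ℝ, a ≤ b → ∫ x in a..b, tp (1 + 1 / s) (Vale.P371.Xm u x) ≤
    (∑ c, ∑ i, ∫ x, ‖g i c x‖ ^ 2) + (s - 1 / 2) * Bs s * ∑ j, y j ^ (2 * s + 1)

/-- Module LTUP: the Lieb-Thirring upper bound from the kinetic inequality. -/
def S_LTUP : Prop := ∀ s : ℝ, 1 / 2 < s → s < 1 → KinG s → ∀ m : ℕ,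
  LTM.LT (s + 1 / 2) m ≤ ENNReal.ofReal (Kc s)

/-- Module SHARP: the lower bound (sharp example). -/
def S_LTLOW : Prop := ∀ s : ℝ, 0 < s → s < 1 →
  ENNReal.ofReal (Kc s) ≤ LTM.LTone (s + 1 / 2) ∧
  ∀ m : ℕ, 1 ≤ m → ENNReal.ofReal (Kc s) ≤ LTM.LT (s + 1 / 2) m

/-- Module BETA: value of the constant. -/
def S_CST : Prop := ∀ s : ℝ, 0 < s → s < 1 →
  Kc s = 2 * (s / (s + 1)) ^ s * LTM.Lcl (s + 1 / 2)

/-- Module ESC: uniform scalar estimate for the end value. -/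
def S_ESC : Prop := ∀ s : ℝ, 1 / 2 < s → s < 1 → 0 < Bs s ∧ ∀ y τ : ℝ, 0 < y → 0 < τ →
  ∃ e : ℝ, 0 < e ∧ ∀ η d x : ℝ, 0 ≤ η → η ≤ e → 0 ≤ d → d ≤ e → 0 ≤ x →
    -((s - 1 / 2) * Bs s * y ^ (2 * s + 1)) - τ ≤
      Bs s * x ^ (2 * s + 1) - η * x ^ (2 * s) - d * x ^ 2 - d * x
        - (s + 1 / 2) * Bs s * y ^ (2 * s - 1) * x ^ 2

/-- Module DOUBLY: trace functionals in the eigenbasis of `κ` against a diagonal weight. -/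
def S_DOUBLY : Prop := ∀ (n : ℕ) (κ : Matrix (Fin n) (Fin n) ℂ), κ.PosSemidef →
  ∃ (x : Fin n → ℝ) (w : Fin n → Fin n → ℝ), (∀ a, 0 ≤ x a) ∧ (∀ a j, 0 ≤ w a j) ∧
    (∀ a, ∑ j, w a j = 1) ∧ (∀ j, ∑ a, w a j = 1) ∧
    (∀ p : ℝ, tp p κ = ∑ a, x a ^ p) ∧ κ.trace.re = ∑ a, x a ∧
    (∀ d : Fin n → ℝ, ((κ * κ * Matrix.diagonal (fun j => ((d j : ℝ) : ℂ))).trace).re
      = ∑ a, ∑ j, w a j * (d j * x a ^ 2))

end LTG
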