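import Mathlib
import Vale.Agent.P371.GStat

/-! # P371, module CST: the constants -/

namespace LTG

open MeasureTheory Set Filter
open scoped Topology

namespace CST

lemma beta_real {s : ℝ} (hs : 0 < s) :
    ∫ x in (0 : ℝ)..1, x ^ s * (1 - x) ^ s
      = Real.Gamma (s + 1) * Real.Gamma (s + 1) / Real.Gamma (s + 1 + (s + 1)) := by
  have h := Complex.betaIntegral_eq_Gamma_mul_div ((s + 1 : ℝ) : ℂ) ((s + 1 : ℝ) : ℂ)
    (by simp; linarith) (by simp; linarith)
  rw [← Complex.ofReal_add, Complex.Gamma_ofReal, Complex.Gamma_ofReal] at h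
  have h2 : Complex.betaIntegral ((s + 1 : ℝ) : ℂ) ((s + 1 : ℝ) : ℂ)
      = ((∫ x in (0 : ℝ)..1, x ^ s * (1 - x) ^ s : ℝ) : ℂ) := by
    unfold Complex.betaIntegral
    rw [← intervalIntegral.integral_ofReal]
    apply intervalIntegral.integral_congr
    intro x hx
    rw [uIcc_of_le zero_le_one] at hx
    have e1 : ((s + 1 : ℝ) : ℂ) - 1 = ((s : ℝ) : ℂ) := by push_cast; ring
    have e2 : (1 : ℂ) - (x : ℂ) = ((1 - x : ℝ) : ℂ) := by push_cast; ring
    simp only [e1, e2]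
    rw [← Complex.ofReal_cpow hx.1, ← Complex.ofReal_cpow (by linarith [hx.2])]
    push_cast; ring
  rw [h2] at h
  exact_mod_cast h

lemma Bs_eq {s : ℝ} (hs : 0 < s) :
    Bs s = √Real.pi * Real.Gamma (s + 1) / Real.Gamma (s + 3 / 2) := by
  have h1 := intervalIntegral.integral_comp_mul_sub (a := (0 : ℝ)) (b := 1)
    (fun t : ℝ => (1 - t ^ 2) ^ s) (two_ne_zero) 1
  have h2 : ∫ x in (0 : ℝ)..1, (1 - (2 * x - 1) ^ 2) ^ s
      = 4 ^ s * ∫ x in (0 : ℝ)..1, x ^ s * (1 - x) ^ s := by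
    rw [← intervalIntegral.integral_const_mul]
    apply intervalIntegral.integral_congr
    intro x hx
    rw [uIcc_of_le zero_le_one] at hx
    have e : 1 - (2 * x - 1) ^ 2 = 4 * (x * (1 - x)) := by ring
    simp only [e]
    rw [Real.mul_rpow (by norm_num) (mul_nonneg hx.1 (by linarith [hx.2])),
      Real.mul_rpow hx.1 (by linarith [hx.2])]
  rw [h2, beta_real hs] at h1
  norm_num at h1
  unfold Bs
  have h3 := Real.Gamma_mul_Gamma_add_half (s + 1)
  have e1 : s + 1 + 1 / 2 = s + 3 / 2 := by ring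
  have e2 : s + 1 + (s + 1) = 2 * (s + 1) := by ring
  rw [e1] at h3
  rw [e2] at h1
  have p1 : 0 < Real.Gamma (s + 1) := Real.Gamma_pos_of_pos (by linarith)
  have p2 : 0 < Real.Gamma (s + 3 / 2) := Real.Gamma_pos_of_pos (by linarith)
  have p3 : 0 < Real.Gamma (2 * (s + 1)) := Real.Gamma_pos_of_pos (by linarith)
  have e3 : (2 : ℝ) ^ (1 - 2 * (s + 1)) * (2 * 4 ^ s) = 1 := by
    have : (4 : ℝ) ^ s = 2 ^ (2 * s) := by
      rw [Real.rpow_mul (by norm_num)]; norm_num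
    have h2 : (2 : ℝ) * 2 ^ (2 * s) = 2 ^ (2 * s + 1) := by
      rw [Real.rpow_add (by norm_num), Real.rpow_one]; ring
    rw [this, h2, ← Real.rpow_add (by norm_num)]
    ring_nf
    simp
  have e4 : (∫ t in (-1 : ℝ)..1, (1 - t ^ 2) ^ s)
      = 2 * (4 ^ s * (Real.Gamma (s + 1) * Real.Gamma (s + 1) / Real.Gamma (2 * (s + 1)))) := by
    linarith
  rw [e4, eq_div_iff p2.ne']
  have e5 : Real.Gamma (s + 1) * Real.Gamma (s + 3 / 2) * (2 * 4 ^ s)
      = Real.Gamma (2 * (s + 1)) * √Real.pi := by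
    rw [h3]
    calc Real.Gamma (2 * (s + 1)) * 2 ^ (1 - 2 * (s + 1)) * √Real.pi * (2 * 4 ^ s)
        = Real.Gamma (2 * (s + 1)) * √Real.pi * (2 ^ (1 - 2 * (s + 1)) * (2 * 4 ^ s)) := by ring
      _ = _ := by rw [e3, mul_one]
  have : 2 * (4 ^ s * (Real.Gamma (s + 1) * Real.Gamma (s + 1) / Real.Gamma (2 * (s + 1))))
        * Real.Gamma (s + 3 / 2)
      = Real.Gamma (s + 1) * (Real.Gamma (s + 1) * Real.Gamma (s + 3 / 2) * (2 * 4 ^ s))
        / Real.Gamma (2 * (s + 1)) := by ring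
  rw [this, e5]
  field_simp

lemma Bs_pos {s : ℝ} (hs : 0 < s) : 0 < Bs s := by
  have h := Bs_eq hs
  have p1 : 0 < Real.Gamma (s + 1) := Real.Gamma_pos_of_pos (by linarith)
  have p2 : 0 < Real.Gamma (s + 3 / 2) := Real.Gamma_pos_of_pos (by linarith)
  rw [h]; positivity

lemma prod_eq {s : ℝ} (hs : 0 < s) :
    (s + 1) * Bs s * Bs (s + 1 / 2) = Real.pi := by
  rw [Bs_eq hs, Bs_eq (by linarith : 0 < s + 1 / 2)]
  have p1 : 0 < Real.Gamma (s + 1) := Real.Gamma_pos_of_pos (by linarith)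
  have p2 : 0 < Real.Gamma (s + 3 / 2) := Real.Gamma_pos_of_pos (by linarith)
  have e1 : s + 1 / 2 + 1 = s + 3 / 2 := by ring
  have e2 : s + 1 / 2 + 3 / 2 = s + 1 + 1 := by ring
  rw [e1, e2, Real.Gamma_add_one (by linarith : s + 1 ≠ 0)]
  have h := Real.mul_self_sqrt Real.pi_pos.le
  field_simp
  nlinarith

lemma Lcl_eq {γ : ℝ} (hγ : 0 < γ) : LTM.Lcl γ = Bs γ / (2 * Real.pi) := by
  unfold LTM.Lcl
  have h1 : (fun ξ : ℝ => (max (1 - ξ ^ 2) 0) ^ γ)
      = (Ioc (-1 : ℝ) 1).indicator fun ξ : ℝ => (1 - ξ ^ 2) ^ γ := by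
    funext ξ
    by_cases h : ξ ∈ Ioc (-1 : ℝ) 1
    · rw [indicator_of_mem h, max_eq_left]
      nlinarith [h.1, h.2]
    · rw [indicator_of_notMem h, max_eq_right, Real.zero_rpow hγ.ne']
      rw [mem_Ioc, not_and_or, not_lt, not_le] at h
      rcases h with h | h <;> nlinarith
  rw [h1, integral_indicator measurableSet_Ioc, ← intervalIntegral.integral_of_le (by norm_num),
    Bs]
  have := Real.pi_pos
  field_simp

end CST

theorem cst : S_CST := by
  intro s hs _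
  have h1 := CST.prod_eq hs
  have p0 := Real.pi_pos
  have p1 := CST.Bs_pos hs
  have p2 := CST.Bs_pos (by linarith : 0 < s + 1 / 2)
  rw [CST.Lcl_eq (by linarith), Kc, Real.div_rpow hs.le (by linarith),
    Real.rpow_add (by linarith : 0 < s + 1), Real.rpow_one]
  have p3 : 0 < (s + 1) ^ s := Real.rpow_pos_of_pos (by linarith) _
  rw [← h1]
  generalize Bs (s + 1 / 2) = c at p2 ⊢
  field_simp

end LTG
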