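import Mathlib

/-!
# Golden–Thompson, Klein and Gibbs inequalities for complex matrices
-/

open Matrix Filter
open scoped ComplexOrder MatrixOrder Topology

namespace Vale.P371

set_option linter.unusedSectionVars false

variable {n : Type*} [Fintype n] [DecidableEq n]

/-! ## trace inequalities -/

/-- Cauchy–Schwarz for the trace form. -/
theorem norm_trace_mul_le (X Y : Matrix n n ℂ) :
    ‖(X * Y).trace‖ ^ 2 ≤ (X * Xᴴ).trace.re * (Yᴴ * Y).trace.re := by
  have h1 : (X * Y).trace = ∑ p : n × n, X p.1 p.2 * Y p.2 p.1 := by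
    rw [Fintype.sum_prod_type]
    simp [Matrix.trace, Matrix.mul_apply]
  have h2 : (X * Xᴴ).trace.re = ∑ p : n × n, ‖X p.1 p.2‖ ^ 2 := by
    rw [Fintype.sum_prod_type]
    simp only [Matrix.trace, Matrix.mul_apply, Matrix.diag_apply, Matrix.conjTranspose_apply,
      Complex.re_sum]
    refine Finset.sum_congr rfl fun i _ => Finset.sum_congr rfl fun j _ => ?_
    rw [Complex.star_def, Complex.mul_conj, Complex.ofReal_re, Complex.normSq_eq_norm_sq]
  have h3 : (Yᴴ * Y).trace.re = ∑ p : n × n, ‖Y p.2 p.1‖ ^ 2 := by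
    rw [Fintype.sum_prod_type]
    simp only [Matrix.trace, Matrix.mul_apply, Matrix.diag_apply, Matrix.conjTranspose_apply,
      Complex.re_sum]
    refine Finset.sum_congr rfl fun i _ => Finset.sum_congr rfl fun j _ => ?_
    rw [Complex.star_def, mul_comm, Complex.mul_conj, Complex.ofReal_re,
      Complex.normSq_eq_norm_sq]
  rw [h1, h2, h3]
  calc ‖∑ p : n × n, X p.1 p.2 * Y p.2 p.1‖ ^ 2
      ≤ (∑ p : n × n, ‖X p.1 p.2‖ * ‖Y p.2 p.1‖) ^ 2 := by
        gcongr
        refine (norm_sum_le _ _).trans ?_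
        exact Finset.sum_le_sum fun p _ => (norm_mul _ _).le
    _ ≤ _ := Finset.sum_mul_sq_le_sq_mul_sq _ _ _

theorem trace_pow_mul_comm (X Y : Matrix n n ℂ) (k : ℕ) (hk : k ≠ 0) :
    ((X * Y) ^ k).trace = ((Y * X) ^ k).trace := by
  obtain ⟨k, rfl⟩ := Nat.exists_eq_succ_of_ne_zero hk
  have h : ∀ k : ℕ, (X * Y) ^ k * X = X * (Y * X) ^ k := by
    intro k
    induction k with
    | zero => simp
    | succ k ih => rw [pow_succ', Matrix.mul_assoc, ih, pow_succ']; simp only [Matrix.mul_assoc]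
  rw [Nat.succ_eq_add_one, pow_succ, ← Matrix.mul_assoc, h, Matrix.mul_assoc, Matrix.trace_mul_comm,
    Matrix.mul_assoc, ← pow_succ]

theorem re_trace_mul_conjTranspose_nonneg (X : Matrix n n ℂ) : 0 ≤ (X * Xᴴ).trace.re := by
  have := (Matrix.posSemidef_self_mul_conjTranspose X).trace_nonneg
  exact (Complex.nonneg_iff.1 this).1

/-- The mutual induction behind Golden–Thompson. -/
theorem trace_pow_two_pow (k : ℕ) :
    (∀ Z : Matrix n n ℂ, ‖(Z ^ (2 ^ (k + 1))).trace‖ ≤ ((Zᴴ * Z) ^ (2 ^ k)).trace.re) ∧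
    (∀ A B : Matrix n n ℂ, A.IsHermitian → B.IsHermitian →
      ‖((A * B) ^ (2 ^ k)).trace‖ ≤ ‖(A ^ (2 ^ k) * B ^ (2 ^ k)).trace‖) := by
  induction k with
  | zero =>
    refine ⟨fun Z => ?_, fun A B _ _ => by simp⟩
    simp only [zero_add, pow_one, pow_zero, pow_two]
    have h := norm_trace_mul_le Z Z
    rw [Matrix.trace_mul_comm Z Zᴴ, ← pow_two ((Zᴴ * Z).trace.re)] at h
    refine le_of_sq_le_sq h ?_
    have := re_trace_mul_conjTranspose_nonneg Z
    rwa [Matrix.trace_mul_comm Z Zᴴ] at this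
  | succ k ih =>
    obtain ⟨ih1, ih2⟩ := ih
    constructor
    · intro Z
      have e1 : Z ^ (2 ^ (k + 1 + 1)) = (Z ^ 2) ^ (2 ^ (k + 1)) := by
        rw [← pow_mul]; congr 1; ring
      have e2 : ((Z ^ 2)ᴴ * Z ^ 2) = Zᴴ * ((Zᴴ * Z) * Z) := by
        rw [pow_two, Matrix.conjTranspose_mul]; simp only [Matrix.mul_assoc]
      have e3 : ((Zᴴ * ((Zᴴ * Z) * Z)) ^ (2 ^ k)).trace =
          (((Zᴴ * Z) * (Z * Zᴴ)) ^ (2 ^ k)).trace := by
        rw [trace_pow_mul_comm _ _ _ (by positivity)]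
        simp only [Matrix.mul_assoc]
      have hA : (Zᴴ * Z).IsHermitian := Matrix.isHermitian_conjTranspose_mul_self Z
      have hB : (Z * Zᴴ).IsHermitian := Matrix.isHermitian_mul_conjTranspose_self Z
      have h3 := norm_trace_mul_le ((Zᴴ * Z) ^ (2 ^ k)) ((Z * Zᴴ) ^ (2 ^ k))
      have hAk : ((Zᴴ * Z) ^ (2 ^ k))ᴴ = (Zᴴ * Z) ^ (2 ^ k) := by
        rw [Matrix.conjTranspose_pow, hA.eq]
      have hBk : ((Z * Zᴴ) ^ (2 ^ k))ᴴ = (Z * Zᴴ) ^ (2 ^ k) := by
        rw [Matrix.conjTranspose_pow, hB.eq]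
      rw [hAk, hBk, ← pow_add, ← pow_add] at h3
      have e4 : (2:ℕ) ^ k + 2 ^ k = 2 ^ (k + 1) := by ring
      rw [e4, trace_pow_mul_comm Z Zᴴ _ (by positivity), ← pow_two] at h3
      have h0 : 0 ≤ ((Zᴴ * Z) ^ (2 ^ (k + 1))).trace.re := by
        have := re_trace_mul_conjTranspose_nonneg ((Zᴴ * Z) ^ (2 ^ k))
        rwa [hAk, ← pow_add, e4] at this
      have h4 := le_of_sq_le_sq h3 h0
      rw [e1]
      calc ‖((Z ^ 2) ^ (2 ^ (k + 1))).trace‖
          ≤ (((Z ^ 2)ᴴ * Z ^ 2) ^ (2 ^ k)).trace.re := ih1 _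
        _ = (((Zᴴ * Z) * (Z * Zᴴ)) ^ (2 ^ k)).trace.re := by rw [e2, e3]
        _ ≤ ‖(((Zᴴ * Z) * (Z * Zᴴ)) ^ (2 ^ k)).trace‖ := Complex.re_le_norm _
        _ ≤ ‖((Zᴴ * Z) ^ (2 ^ k) * (Z * Zᴴ) ^ (2 ^ k)).trace‖ := ih2 _ _ hA hB
        _ ≤ _ := h4
    · intro A B hA hB
      have e1 : ((A * B)ᴴ * (A * B)) = B * (A ^ 2 * B) := by
        rw [Matrix.conjTranspose_mul, hA.eq, hB.eq, pow_two]; simp only [Matrix.mul_assoc]
      have e2 : ((B * (A ^ 2 * B)) ^ (2 ^ k)).trace = ((A ^ 2 * B ^ 2) ^ (2 ^ k)).trace := by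
        rw [trace_pow_mul_comm _ _ _ (by positivity), pow_two B]
        simp only [Matrix.mul_assoc]
      calc ‖((A * B) ^ (2 ^ (k + 1))).trace‖
          ≤ (((A * B)ᴴ * (A * B)) ^ (2 ^ k)).trace.re := ih1 _
        _ = ((A ^ 2 * B ^ 2) ^ (2 ^ k)).trace.re := by rw [e1, e2]
        _ ≤ ‖((A ^ 2 * B ^ 2) ^ (2 ^ k)).trace‖ := Complex.re_le_norm _
        _ ≤ ‖((A ^ 2) ^ (2 ^ k) * (B ^ 2) ^ (2 ^ k)).trace‖ := ih2 _ _ (hA.pow 2) (hB.pow 2)
        _ = _ := by
            rw [← pow_mul, ← pow_mul]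
            congr 4 <;> ring

/-! ## Lie product formula along `2 ^ k` -/

section Lie

open scoped Matrix.Norms.Operator

theorem norm_pow_sub_pow_le {R : Type*} [NormedRing R] (X Y : R) (C : ℝ) (hC : 1 ≤ C)
    (hX : ‖X‖ ≤ C) (hY : ‖Y‖ ≤ C) (m : ℕ) :
    ‖X ^ m - Y ^ m‖ ≤ m * C ^ m * ‖X - Y‖ := by
  have hC0 : 0 ≤ C := zero_le_one.trans hC
  have hXm : ∀ m : ℕ, ‖X ^ (m + 1)‖ ≤ C ^ (m + 1) := fun m =>
    (norm_pow_le' X (Nat.succ_pos m)).trans (pow_le_pow_left₀ (norm_nonneg _) hX _)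
  induction m with
  | zero => simp
  | succ m ih =>
    rcases Nat.eq_zero_or_pos m with rfl | hm
    · simp only [zero_add, pow_one, Nat.cast_one, one_mul]
      exact le_mul_of_one_le_left (norm_nonneg _) hC
    obtain ⟨k, rfl⟩ := Nat.exists_eq_succ_of_ne_zero hm.ne'
    have e : X ^ (k.succ + 1) - Y ^ (k.succ + 1) =
        X ^ k.succ * (X - Y) + (X ^ k.succ - Y ^ k.succ) * Y := by
      rw [pow_succ X, pow_succ Y]; noncomm_ring
    rw [e]
    calc ‖X ^ k.succ * (X - Y) + (X ^ k.succ - Y ^ k.succ) * Y‖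
        ≤ ‖X ^ k.succ‖ * ‖X - Y‖ + ‖X ^ k.succ - Y ^ k.succ‖ * ‖Y‖ :=
          (norm_add_le _ _).trans (add_le_add (norm_mul_le _ _) (norm_mul_le _ _))
      _ ≤ C ^ (k.succ + 1) * ‖X - Y‖ + (k.succ * C ^ k.succ * ‖X - Y‖) * C := by
          have h1 : ‖X ^ k.succ‖ ≤ C ^ (k.succ + 1) :=
            (hXm k).trans (pow_le_pow_right₀ hC (Nat.le_succ _))
          gcongr
      _ = _ := by push_cast; ring

theorem lie_tendsto_aux {R : Type*} [NormedRing R] [NormedAlgebra ℝ R] [CompleteSpace R]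
    [NormOneClass R] (A B : R) :
    Tendsto (fun k : ℕ => (NormedSpace.exp (((2:ℝ) ^ k)⁻¹ • A) *
      NormedSpace.exp (((2:ℝ) ^ k)⁻¹ • B)) ^ (2 ^ k)) atTop (𝓝 (NormedSpace.exp (A + B))) := by
  set X : ℝ → R := fun t => NormedSpace.exp (t • A) * NormedSpace.exp (t • B) with hXdef
  set Y : ℝ → R := fun t => NormedSpace.exp (t • (A + B)) with hYdef
  have hX : HasDerivAt X (A + B) 0 := by
    have h1 := hasDerivAt_exp_smul_const A (0:ℝ)
    have h2 := hasDerivAt_exp_smul_const B (0:ℝ)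
    have h3 := h1.mul h2
    have e : NormedSpace.exp ((0:ℝ) • A) * A * NormedSpace.exp ((0:ℝ) • B) +
        NormedSpace.exp ((0:ℝ) • A) * (NormedSpace.exp ((0:ℝ) • B) * B) = A + B := by simp
    rw [e] at h3
    exact h3
  have hY : HasDerivAt Y (A + B) 0 := by
    have h1 := hasDerivAt_exp_smul_const (A + B) (0:ℝ)
    have e : NormedSpace.exp ((0:ℝ) • (A + B)) * (A + B) = A + B := by simp
    rw [e] at h1
    exact h1
  have hX0 : X 0 = 1 := by simp [hXdef]
  have hY0 : Y 0 = 1 := by simp [hYdef]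
  have hD : HasDerivAt (fun t => X t - Y t) 0 0 := by
    have h := hX.sub hY
    rw [sub_self] at h
    exact h
  -- the sequence
  set t : ℕ → ℝ := fun k => ((2:ℝ) ^ k)⁻¹ with ht
  have htpos : ∀ k, 0 < t k := fun k => by positivity
  have ht0 : Tendsto t atTop (𝓝 0) := by
    have : t = fun k : ℕ => ((2:ℝ)⁻¹) ^ k := by funext k; simp [ht]
    rw [this]
    exact tendsto_pow_atTop_nhds_zero_of_lt_one (by norm_num) (by norm_num)
  -- big O bounds
  obtain ⟨K1, hK1⟩ := hX.isBigO_sub.bound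
  obtain ⟨K2, hK2⟩ := hY.isBigO_sub.bound
  set K := max (max K1 K2) 0 with hK
  have hKpos : 0 ≤ K := le_max_right _ _
  have hb1 : ∀ᶠ k in atTop, ‖X (t k)‖ ≤ 1 + K * t k := by
    filter_upwards [ht0.eventually hK1] with k hk
    have h1 : ‖X (t k)‖ ≤ ‖X (t k) - X 0‖ + ‖X 0‖ := by
      simpa using norm_add_le (X (t k) - X 0) (X 0)
    rw [hX0, norm_one] at h1
    rw [hX0, sub_zero, Real.norm_of_nonneg (htpos k).le] at hk
    have h2 : K1 * t k ≤ K * t k :=
      mul_le_mul_of_nonneg_right ((le_max_left _ _).trans (le_max_left _ _)) (htpos k).le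
    linarith
  have hb2 : ∀ᶠ k in atTop, ‖Y (t k)‖ ≤ 1 + K * t k := by
    filter_upwards [ht0.eventually hK2] with k hk
    have h1 : ‖Y (t k)‖ ≤ ‖Y (t k) - Y 0‖ + ‖Y 0‖ := by
      simpa using norm_add_le (Y (t k) - Y 0) (Y 0)
    rw [hY0, norm_one] at h1
    rw [hY0, sub_zero, Real.norm_of_nonneg (htpos k).le] at hk
    have h2 : K2 * t k ≤ K * t k :=
      mul_le_mul_of_nonneg_right ((le_max_right _ _).trans (le_max_left _ _)) (htpos k).le
    linarith
  -- little o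
  have hlo : Tendsto (fun k => (t k)⁻¹ * ‖X (t k) - Y (t k)‖) atTop (𝓝 0) := by
    have h1 := hD.isLittleO
    simp only [hX0, hY0, sub_self, sub_zero, smul_zero] at h1
    have h2 := (h1.comp_tendsto ht0).norm_norm
    have h3 := h2.tendsto_div_nhds_zero
    refine h3.congr fun k => ?_
    simp only [Function.comp, Real.norm_of_nonneg (htpos k).le]
    rw [div_eq_inv_mul]
  have hYk : ∀ k : ℕ, Y (t k) ^ (2 ^ k) = NormedSpace.exp (A + B) := by
    intro k
    simp only [hYdef]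
    let _ : NormedAlgebra ℚ R := NormedAlgebra.restrictScalars ℚ ℝ R
    rw [← NormedSpace.exp_nsmul, ← Nat.cast_smul_eq_nsmul ℝ, smul_smul, ht]
    push_cast
    rw [mul_inv_cancel₀ (by positivity), one_smul]
  rw [tendsto_iff_norm_sub_tendsto_zero]
  have hfin : Tendsto (fun k => Real.exp K * ((t k)⁻¹ * ‖X (t k) - Y (t k)‖)) atTop (𝓝 0) := by
    simpa using hlo.const_mul (Real.exp K)
  refine squeeze_zero' (Eventually.of_forall fun k => norm_nonneg _) ?_ hfin
  filter_upwards [hb1, hb2] with k h1 h2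
  have h3 := norm_pow_sub_pow_le (X (t k)) (Y (t k)) (1 + K * t k)
    (by have := mul_nonneg hKpos (htpos k).le; linarith) h1 h2 (2 ^ k)
  rw [hYk k] at h3
  refine h3.trans ?_
  have h4 : (1 + K * t k) ^ (2 ^ k) ≤ Real.exp K := by
    have h5 : 1 + K * t k ≤ Real.exp (K * t k) := by
      have := Real.add_one_le_exp (K * t k); linarith
    calc (1 + K * t k) ^ (2 ^ k) ≤ (Real.exp (K * t k)) ^ (2 ^ k) := by
          have := mul_nonneg hKpos (htpos k).le
          gcongr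
      _ = Real.exp K := by
          rw [← Real.exp_nat_mul]
          congr 1
          simp only [ht]
          push_cast
          field_simp
  have h6 : ((2 ^ k : ℕ) : ℝ) = (t k)⁻¹ := by simp [ht]
  rw [h6]
  have h7 : 0 ≤ (t k)⁻¹ := inv_nonneg.2 (htpos k).le
  calc (t k)⁻¹ * (1 + K * t k) ^ (2 ^ k) * ‖X (t k) - Y (t k)‖
      ≤ (t k)⁻¹ * Real.exp K * ‖X (t k) - Y (t k)‖ := by gcongr
    _ = _ := by ring

theorem lie_tendsto [Nonempty n] (A B : Matrix n n ℂ) :
    Tendsto (fun k : ℕ => (NormedSpace.exp (((2:ℝ) ^ k)⁻¹ • A) *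
      NormedSpace.exp (((2:ℝ) ^ k)⁻¹ • B)) ^ (2 ^ k)) atTop (𝓝 (NormedSpace.exp (A + B))) :=
  lie_tendsto_aux A B

theorem exp_real_smul_pow (A : Matrix n n ℂ) (k : ℕ) :
    NormedSpace.exp (((2:ℝ) ^ k)⁻¹ • A) ^ (2 ^ k) = NormedSpace.exp A := by
  rw [← Matrix.exp_nsmul, ← Nat.cast_smul_eq_nsmul ℝ, smul_smul]
  push_cast
  rw [mul_inv_cancel₀ (by positivity), one_smul]

/-- The trace of a product of two positive semidefinite matrices is a nonnegative real. -/
theorem trace_mul_nonneg {P Q : Matrix n n ℂ} (hP : P.PosSemidef) (hQ : Q.PosSemidef) :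
    0 ≤ (P * Q).trace := by
  obtain ⟨R, rfl⟩ := CStarAlgebra.nonneg_iff_eq_star_mul_self.mp hP.nonneg
  rw [Matrix.mul_assoc, Matrix.trace_mul_comm]
  exact (hQ.mul_mul_conjTranspose_same R).trace_nonneg

theorem exp_posSemidef {A : Matrix n n ℂ} (hA : A.IsHermitian) :
    (NormedSpace.exp A).PosSemidef := by
  have h : NormedSpace.exp A = (NormedSpace.exp (((2:ℝ) ^ 1)⁻¹ • A))ᴴ *
      NormedSpace.exp (((2:ℝ) ^ 1)⁻¹ • A) := by
    have h1 : (((2:ℝ) ^ 1)⁻¹ • A).IsHermitian := by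
      unfold Matrix.IsHermitian
      rw [Matrix.conjTranspose_smul, hA.eq]
      simp
    rw [h1.exp.eq, ← pow_two]
    have := exp_real_smul_pow A 1
    rw [← this]
    simp
  rw [h]
  exact Matrix.posSemidef_conjTranspose_mul_self _

/-- **Golden–Thompson inequality.** -/
theorem golden_thompson {A B : Matrix n n ℂ} (hA : A.IsHermitian) (hB : B.IsHermitian) :
    (NormedSpace.exp (A + B)).trace.re ≤
      (NormedSpace.exp A * NormedSpace.exp B).trace.re := by
  rcases isEmpty_or_nonempty n with hn | hn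
  · simp [Matrix.trace]
  have h1 : ∀ k : ℕ, ‖((NormedSpace.exp (((2:ℝ) ^ k)⁻¹ • A) *
      NormedSpace.exp (((2:ℝ) ^ k)⁻¹ • B)) ^ (2 ^ k)).trace‖ ≤
      (NormedSpace.exp A * NormedSpace.exp B).trace.re := by
    intro k
    have hk : ∀ {C : Matrix n n ℂ}, C.IsHermitian → (((2:ℝ) ^ k)⁻¹ • C).IsHermitian := by
      intro C hC
      unfold Matrix.IsHermitian
      rw [Matrix.conjTranspose_smul, hC.eq]
      simp
    refine ((trace_pow_two_pow k).2 _ _ (hk hA).exp (hk hB).exp).trans ?_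
    rw [exp_real_smul_pow, exp_real_smul_pow]
    have h2 := trace_mul_nonneg (exp_posSemidef hA) (exp_posSemidef hB)
    rw [Complex.nonneg_iff] at h2
    have h3 : (NormedSpace.exp A * NormedSpace.exp B).trace =
        (((NormedSpace.exp A * NormedSpace.exp B).trace.re : ℝ) : ℂ) := by
      apply Complex.ext
      · simp
      · simp [← h2.2]
    rw [h3, Complex.norm_real, Real.norm_of_nonneg (by simpa using h2.1)]
    simp
  have h2 : Tendsto (fun k : ℕ => ((NormedSpace.exp (((2:ℝ) ^ k)⁻¹ • A) *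
      NormedSpace.exp (((2:ℝ) ^ k)⁻¹ • B)) ^ (2 ^ k)).trace) atTop
      (𝓝 (NormedSpace.exp (A + B)).trace) :=
    ((continuous_id.matrix_trace).tendsto _).comp (lie_tendsto A B)
  have h3 := (Complex.continuous_re.tendsto _).comp h2
  exact le_of_tendsto h3 (Eventually.of_forall fun k => (Complex.re_le_norm _).trans (h1 k))

end Lie

/-! ## Spectral formulas, Klein and Gibbs -/

/-- overlap of the eigenbases -/
noncomputable def ovl {X Y : Matrix n n ℂ} (hX : X.IsHermitian) (hY : Y.IsHermitian) (i j : n) : ℝ :=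
  ‖((hX.eigenvectorUnitary : Matrix n n ℂ)ᴴ * (hY.eigenvectorUnitary : Matrix n n ℂ)) i j‖ ^ 2

theorem ovl_nonneg {X Y : Matrix n n ℂ} (hX : X.IsHermitian) (hY : Y.IsHermitian) (i j : n) :
    0 ≤ ovl hX hY i j := by unfold ovl; positivity

theorem cfc_eq_conj {X : Matrix n n ℂ} (hX : X.IsHermitian) (f : ℝ → ℝ) :
    cfc f X = (hX.eigenvectorUnitary : Matrix n n ℂ) *
      diagonal (fun i => ((f (hX.eigenvalues i) : ℝ) : ℂ)) *
      (hX.eigenvectorUnitary : Matrix n n ℂ)ᴴ := by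
  rw [hX.cfc_eq, Matrix.IsHermitian.cfc, Unitary.conjStarAlgAut_apply]
  rfl

theorem trace_cfc_mul_cfc {X Y : Matrix n n ℂ} (hX : X.IsHermitian) (hY : Y.IsHermitian)
    (f g : ℝ → ℝ) :
    (cfc f X * cfc g Y).trace =
      ((∑ i, ∑ j, f (hX.eigenvalues i) * g (hY.eigenvalues j) * ovl hX hY i j : ℝ) : ℂ) := by
  rw [cfc_eq_conj hX, cfc_eq_conj hY]
  set U := (hX.eigenvectorUnitary : Matrix n n ℂ) with hU
  set W := (hY.eigenvectorUnitary : Matrix n n ℂ) with hW
  set a : n → ℂ := fun i => ((f (hX.eigenvalues i) : ℝ) : ℂ) with ha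
  set b : n → ℂ := fun i => ((g (hY.eigenvalues i) : ℝ) : ℂ) with hb
  have e : (U * diagonal a * Uᴴ * (W * diagonal b * Wᴴ)).trace =
      (diagonal a * (Uᴴ * W) * diagonal b * (Uᴴ * W)ᴴ).trace := by
    rw [Matrix.conjTranspose_mul, Matrix.conjTranspose_conjTranspose]
    have e1 : U * diagonal a * Uᴴ * (W * diagonal b * Wᴴ) =
        U * (diagonal a * (Uᴴ * W) * diagonal b * Wᴴ) := by simp only [Matrix.mul_assoc]
    rw [e1, Matrix.trace_mul_comm]
    simp only [Matrix.mul_assoc]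
  rw [e]
  simp only [Matrix.trace, Matrix.diag_apply, Matrix.mul_apply (M := diagonal a * (Uᴴ * W) * diagonal b),
    Matrix.mul_diagonal, Matrix.diagonal_mul, Matrix.conjTranspose_apply]
  push_cast
  refine Finset.sum_congr rfl fun i _ => Finset.sum_congr rfl fun j _ => ?_
  unfold ovl
  rw [← hU, ← hW]
  have h1 : ((‖(Uᴴ * W) i j‖ ^ 2 : ℝ) : ℂ) = (Uᴴ * W) i j * star ((Uᴴ * W) i j) := by
    rw [Complex.star_def, Complex.mul_conj, Complex.normSq_eq_norm_sq]
  rw [h1]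
  simp only [ha, hb]
  ring

theorem trace_cfc {X : Matrix n n ℂ} (hX : X.IsHermitian) (f : ℝ → ℝ) :
    (cfc f X).trace = ((∑ i, f (hX.eigenvalues i) : ℝ) : ℂ) := by
  rw [cfc_eq_conj hX, Matrix.mul_assoc, Matrix.trace_mul_comm, Matrix.mul_assoc]
  have h1 : (hX.eigenvectorUnitary : Matrix n n ℂ)ᴴ * (hX.eigenvectorUnitary : Matrix n n ℂ) = 1 :=
    Unitary.coe_star_mul_self hX.eigenvectorUnitary
  rw [h1, Matrix.mul_one, Matrix.trace_diagonal]
  push_cast
  rfl

theorem sum_ovl_right {X Y : Matrix n n ℂ} (hX : X.IsHermitian) (hY : Y.IsHermitian) (i : n) :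
    ∑ j, ovl hX hY i j = 1 := by
  set U := (hX.eigenvectorUnitary : Matrix n n ℂ) with hU
  set W := (hY.eigenvectorUnitary : Matrix n n ℂ) with hW
  have h1 : Uᴴ * U = 1 := Unitary.coe_star_mul_self hX.eigenvectorUnitary
  have h2 : W * Wᴴ = 1 := Unitary.coe_mul_star_self hY.eigenvectorUnitary
  have h3 : (Uᴴ * W) * (Uᴴ * W)ᴴ = 1 := by
    rw [Matrix.conjTranspose_mul, Matrix.conjTranspose_conjTranspose]
    calc Uᴴ * W * (Wᴴ * U) = Uᴴ * (W * Wᴴ) * U := by simp only [Matrix.mul_assoc]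
      _ = 1 := by rw [h2, Matrix.mul_one, h1]
  have h4 := congrFun (congrFun h3 i) i
  rw [Matrix.mul_apply, Matrix.one_apply_eq] at h4
  have h5 : ((∑ j, ovl hX hY i j : ℝ) : ℂ) = 1 := by
    rw [← h4]
    push_cast
    refine Finset.sum_congr rfl fun j _ => ?_
    unfold ovl
    rw [← hU, ← hW, Matrix.conjTranspose_apply, Complex.star_def, Complex.mul_conj,
      Complex.normSq_eq_norm_sq]
  exact_mod_cast h5

theorem sum_ovl_left {X Y : Matrix n n ℂ} (hX : X.IsHermitian) (hY : Y.IsHermitian) (j : n) :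
    ∑ i, ovl hX hY i j = 1 := by
  have h : ∀ i, ovl hX hY i j = ovl hY hX j i := by
    intro i
    unfold ovl
    have e : ((hX.eigenvectorUnitary : Matrix n n ℂ)ᴴ * (hY.eigenvectorUnitary : Matrix n n ℂ)) i j
        = star (((hY.eigenvectorUnitary : Matrix n n ℂ)ᴴ *
          (hX.eigenvectorUnitary : Matrix n n ℂ)) j i) := by
      rw [← Matrix.conjTranspose_apply, Matrix.conjTranspose_mul, Matrix.conjTranspose_conjTranspose]
    rw [e, norm_star]
  rw [Finset.sum_congr rfl fun i _ => h i]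
  exact sum_ovl_right hY hX j

/-- **Klein's inequality** (general form). -/
theorem klein {X Y : Matrix n n ℂ} (hX : X.IsHermitian) (hY : Y.IsHermitian) (f g h : ℝ → ℝ)
    (H : ∀ i j, 0 ≤ f (hX.eigenvalues i) - h (hY.eigenvalues j) -
      g (hY.eigenvalues j) * (hX.eigenvalues i - hY.eigenvalues j)) :
    0 ≤ ((cfc f X).trace - (cfc h Y).trace - (cfc g Y * (X - Y)).trace).re := by
  have hXid : X = cfc (fun x => x) X := (cfc_id' ℝ X (ha := hX)).symm
  have hYid : Y = cfc (fun x => x) Y := (cfc_id' ℝ Y (ha := hY)).symm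
  have e1 : (cfc g Y * X).trace =
      ((∑ i, ∑ j, hX.eigenvalues i * g (hY.eigenvalues j) * ovl hX hY i j : ℝ) : ℂ) := by
    rw [Matrix.trace_mul_comm]
    nth_rewrite 1 [hXid]
    exact trace_cfc_mul_cfc hX hY (fun x => x) g
  have e2 : (cfc g Y * Y).trace =
      ((∑ j, g (hY.eigenvalues j) * hY.eigenvalues j : ℝ) : ℂ) := by
    have : cfc g Y * Y = cfc (fun x => g x * x) Y := by
      nth_rewrite 2 [hYid]
      rw [← cfc_mul _ _ Y (by rw [continuousOn_iff_continuous_domRestrict]; fun_prop)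
        (by rw [continuousOn_iff_continuous_domRestrict]; fun_prop)]
    rw [this, trace_cfc hY]
  rw [Matrix.mul_sub, Matrix.trace_sub, e1, e2, trace_cfc hX, trace_cfc hY]
  simp only [← Complex.ofReal_sub, Complex.ofReal_re]
  have e3 : ∑ i, f (hX.eigenvalues i) = ∑ i, ∑ j, f (hX.eigenvalues i) * ovl hX hY i j := by
    refine Finset.sum_congr rfl fun i _ => ?_
    rw [← Finset.mul_sum, sum_ovl_right, mul_one]
  have e4 : ∀ k : ℝ → ℝ, ∑ j, k (hY.eigenvalues j) =
      ∑ i, ∑ j, k (hY.eigenvalues j) * ovl hX hY i j := by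
    intro k
    rw [Finset.sum_comm]
    refine Finset.sum_congr rfl fun j _ => ?_
    rw [← Finset.mul_sum, sum_ovl_left, mul_one]
  rw [e3, e4 h, e4 (fun y => g y * y), ← Finset.sum_sub_distrib, ← Finset.sum_sub_distrib,
    ← Finset.sum_sub_distrib]
  refine Finset.sum_nonneg fun i _ => ?_
  rw [← Finset.sum_sub_distrib, ← Finset.sum_sub_distrib, ← Finset.sum_sub_distrib]
  refine Finset.sum_nonneg fun j _ => ?_
  have := mul_nonneg (H i j) (ovl_nonneg hX hY i j)
  nlinarith [this]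

theorem cfc_exp_eq {H : Matrix n n ℂ} (hH : H.IsHermitian) :
    cfc Real.exp H = NormedSpace.exp H := by
  set U := (hH.eigenvectorUnitary : Matrix n n ℂ) with hU
  have h1 : Uᴴ * U = 1 := Unitary.coe_star_mul_self hH.eigenvectorUnitary
  have h2 : U * Uᴴ = 1 := Unitary.coe_mul_star_self hH.eigenvectorUnitary
  have hinv : U⁻¹ = Uᴴ := Matrix.inv_eq_right_inv h2
  have hunit : IsUnit U := ⟨⟨U, Uᴴ, h2, h1⟩, rfl⟩
  have hspec : H = U * diagonal (fun i => ((hH.eigenvalues i : ℝ) : ℂ)) * U⁻¹ := by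
    rw [hinv]
    have h3 := cfc_eq_conj hH (fun x => x)
    have h4 : cfc (fun x : ℝ => x) H = H := cfc_id' ℝ H (ha := hH)
    exact h4.symm.trans h3
  rw [cfc_eq_conj hH]
  conv_rhs => rw [hspec, Matrix.exp_conj _ _ hunit, Matrix.exp_diagonal, hinv]
  congr 3
  funext i
  rw [Pi.coe_exp, ← Complex.exp_eq_exp_ℂ, Complex.ofReal_exp]

theorem contOn_matrix (f : ℝ → ℝ) (A : Matrix n n ℂ) : ContinuousOn f (spectrum ℝ A) := by
  rw [continuousOn_iff_continuous_domRestrict]; fun_prop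

theorem cfc_log_isHermitian (P : Matrix n n ℂ) : (cfc Real.log P).IsHermitian :=
  cfc_predicate (R := ℝ) (p := IsSelfAdjoint) Real.log P

theorem exp_cfc_log {P : Matrix n n ℂ} (hP : P.PosDef) :
    NormedSpace.exp (cfc Real.log P) = P := by
  have hPs : IsSelfAdjoint P := hP.1
  rw [← cfc_exp_eq (cfc_log_isHermitian P), ← cfc_comp' Real.exp Real.log P
    (hg := by fun_prop) (hf := contOn_matrix _ _)]
  conv_rhs => rw [← cfc_id' ℝ P]
  refine cfc_congr fun x hx => ?_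
  rw [hP.1.spectrum_real_eq_range_eigenvalues] at hx
  obtain ⟨i, rfl⟩ := hx
  exact Real.exp_log (hP.eigenvalues_pos i)

/-- Gibbs variational inequality: `Tr e - Tr exp H ≤ Tr e (log e - H)`. -/
theorem gibbs {e H : Matrix n n ℂ} (he : e.PosDef) (hH : H.IsHermitian) :
    e.trace.re - (NormedSpace.exp H).trace.re ≤ (e * (cfc Real.log e - H)).trace.re := by
  have hL := cfc_log_isHermitian e
  have h1 := klein hH hL Real.exp Real.exp Real.exp (fun i j => by
    have h := Real.add_one_le_exp (hH.eigenvalues i - hL.eigenvalues j)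
    have h2 : Real.exp (hH.eigenvalues i) = Real.exp (hL.eigenvalues j) *
        Real.exp (hH.eigenvalues i - hL.eigenvalues j) := by
      rw [← Real.exp_add]; congr 1; ring
    have h3 := Real.exp_pos (hL.eigenvalues j)
    nlinarith)
  rw [cfc_exp_eq hH, cfc_exp_eq hL, exp_cfc_log he] at h1
  simp only [Complex.sub_re] at h1
  have h4 : (e * (cfc Real.log e - H)).trace = -(e * (H - cfc Real.log e)).trace := by
    rw [← Matrix.trace_neg, ← Matrix.mul_neg, neg_sub]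
  rw [h4, Complex.neg_re]
  linarith

/-- **Golden–Thompson + Gibbs**, the form used for the general exponent:
`0 ≤ Tr PQ - Tr e + Tr e (log e - log P - log Q)`. -/
theorem golden_thompson_gibbs {e P Q : Matrix n n ℂ} (he : e.PosDef) (hP : P.PosDef)
    (hQ : Q.PosDef) :
    0 ≤ (P * Q).trace.re - e.trace.re +
      (e * (cfc Real.log e - cfc Real.log P - cfc Real.log Q)).trace.re := by
  have h1 := golden_thompson (cfc_log_isHermitian P) (cfc_log_isHermitian Q)
  rw [exp_cfc_log hP, exp_cfc_log hQ] at h1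
  have h2 := gibbs he ((cfc_log_isHermitian P).add (cfc_log_isHermitian Q))
  rw [← sub_sub] at h2
  linarith

end Vale.P371
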