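import Mathlib
import Vale.Agent.P371.GoldenThompson

/-!
# P371 general exponent: derivative of `Tr C log P_t` by resolvents
-/

open Matrix Filter MeasureTheory Set
open scoped ComplexOrder MatrixOrder Topology

namespace Vale.P371

set_option linter.unusedSectionVars false

variable {n : Type*} [Fintype n] [DecidableEq n]

/-- resolvent -/
noncomputable def Rs (X : Matrix n n ℂ) (τ : ℝ) : Matrix n n ℂ := (X + (τ : ℂ) • 1)⁻¹

theorem eigen_ge {X : Matrix n n ℂ} (hX : X.IsHermitian) {c : ℝ}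
    (h : (X - (c : ℂ) • 1).PosSemidef) (i : n) : c ≤ hX.eigenvalues i := by
  have h3 := h.re_dotProduct_nonneg (⇑(hX.eigenvectorBasis i))
  have h4 := hX.eigenvalues_eq i
  rw [Matrix.sub_mulVec, dotProduct_sub, map_sub, ← h4, Matrix.smul_mulVec, Matrix.one_mulVec,
    dotProduct_smul] at h3
  have h5 : (star (⇑(hX.eigenvectorBasis i)) ⬝ᵥ (⇑(hX.eigenvectorBasis i)) : ℂ) = 1 := by
    rw [dotProduct_comm, ← EuclideanSpace.inner_eq_star_dotProduct]
    have := hX.eigenvectorBasis.orthonormal.1 i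
    rw [inner_self_eq_norm_sq_to_K, this]
    simp
  rw [h5] at h3
  simp at h3
  linarith

theorem cfc_inv_eq {X : Matrix n n ℂ} (hX : X.PosDef) {τ : ℝ} (hτ : 0 ≤ τ) :
    cfc (fun x : ℝ => (x + τ)⁻¹) X = Rs X τ := by
  set U := (hX.1.eigenvectorUnitary : Matrix n n ℂ) with hU
  have h1 : Uᴴ * U = 1 := Unitary.coe_star_mul_self hX.1.eigenvectorUnitary
  have h2 : U * Uᴴ = 1 := Unitary.coe_mul_star_self hX.1.eigenvectorUnitary
  have h3 := cfc_eq_conj hX.1 (fun x => x)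
  have h4 : cfc (fun x : ℝ => x) X = X := cfc_id' ℝ X (ha := hX.1)
  rw [h4] at h3
  have h5 : X + (τ : ℂ) • 1 =
      U * Matrix.diagonal (fun i => ((hX.1.eigenvalues i + τ : ℝ) : ℂ)) * Uᴴ := by
    have h6 : ((τ : ℂ) • 1 : Matrix n n ℂ) = U * Matrix.diagonal (fun _ => (τ : ℂ)) * Uᴴ := by
      rw [show (Matrix.diagonal (fun _ : n => (τ : ℂ))) = (τ : ℂ) • (1 : Matrix n n ℂ) by
        rw [← diagonal_one, ← diagonal_smul]; congr 1; funext i; simp]
      rw [Matrix.mul_smul, Matrix.smul_mul, Matrix.mul_one, h2]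
    have h7 : Matrix.diagonal (fun i => ((hX.1.eigenvalues i + τ : ℝ) : ℂ)) =
        Matrix.diagonal (fun i => ((hX.1.eigenvalues i : ℝ) : ℂ)) + Matrix.diagonal (fun _ : n => (τ : ℂ)) := by
      rw [diagonal_add]; congr 1; funext i; push_cast; rfl
    rw [h7, Matrix.mul_add, Matrix.add_mul, ← h6]
    congr 1
  unfold Rs
  symm
  apply Matrix.inv_eq_right_inv
  rw [h5, cfc_eq_conj hX.1, ← hU]
  have h8 : Matrix.diagonal (fun i => ((hX.1.eigenvalues i + τ : ℝ) : ℂ)) *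
      Matrix.diagonal (fun i => (((hX.1.eigenvalues i + τ)⁻¹ : ℝ) : ℂ)) = (1 : Matrix n n ℂ) := by
    rw [diagonal_mul_diagonal, ← diagonal_one]
    congr 1
    funext i
    have : 0 < hX.1.eigenvalues i + τ := add_pos_of_pos_of_nonneg (hX.eigenvalues_pos i) hτ
    rw [← Complex.ofReal_mul, mul_inv_cancel₀ this.ne', Complex.ofReal_one]
  calc U * Matrix.diagonal (fun i => ((hX.1.eigenvalues i + τ : ℝ) : ℂ)) * Uᴴ *
        (U * Matrix.diagonal (fun i => (((hX.1.eigenvalues i + τ)⁻¹ : ℝ) : ℂ)) * Uᴴ)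
      = U * (Matrix.diagonal (fun i => ((hX.1.eigenvalues i + τ : ℝ) : ℂ)) * (Uᴴ * U) *
        Matrix.diagonal (fun i => (((hX.1.eigenvalues i + τ)⁻¹ : ℝ) : ℂ))) * Uᴴ := by
        simp only [Matrix.mul_assoc]
    _ = 1 := by rw [h1, Matrix.mul_one, h8, Matrix.mul_one, h2]

theorem norm_unitary_entry_le (U : Matrix n n ℂ) (h2 : U * Uᴴ = 1) (i k : n) : ‖U i k‖ ≤ 1 := by
  have h := congrFun (congrFun h2 i) i
  rw [Matrix.mul_apply, Matrix.one_apply_eq] at h
  have h' : ∑ j, ‖U i j‖ ^ 2 = (1 : ℝ) := by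
    have : ((∑ j, ‖U i j‖ ^ 2 : ℝ) : ℂ) = 1 := by
      rw [← h]
      push_cast
      refine Finset.sum_congr rfl fun j _ => ?_
      rw [Matrix.conjTranspose_apply, Complex.star_def, Complex.mul_conj,
        Complex.normSq_eq_norm_sq]
      push_cast
      rfl
    exact_mod_cast this
  have h3 : ‖U i k‖ ^ 2 ≤ 1 := by
    rw [← h']
    exact Finset.single_le_sum (f := fun j => ‖U i j‖ ^ 2) (fun j _ => by positivity)
      (Finset.mem_univ k)
  nlinarith [norm_nonneg (U i k)]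

theorem cfc_apply_eq {X : Matrix n n ℂ} (hX : X.IsHermitian) (f : ℝ → ℝ) (i j : n) :
    cfc f X i j = ∑ k, ((f (hX.eigenvalues k) : ℝ) : ℂ) *
      ((hX.eigenvectorUnitary : Matrix n n ℂ) i k *
        star ((hX.eigenvectorUnitary : Matrix n n ℂ) j k)) := by
  rw [cfc_eq_conj hX, Matrix.mul_apply]
  refine Finset.sum_congr rfl fun k _ => ?_
  rw [Matrix.mul_diagonal, Matrix.conjTranspose_apply]
  ring

theorem norm_cfc_apply_le {X : Matrix n n ℂ} (hX : X.IsHermitian) (f : ℝ → ℝ) (i j : n) :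
    ‖cfc f X i j‖ ≤ ∑ k, |f (hX.eigenvalues k)| := by
  rw [cfc_apply_eq hX]
  refine (norm_sum_le _ _).trans (Finset.sum_le_sum fun k _ => ?_)
  have h2 : (hX.eigenvectorUnitary : Matrix n n ℂ) * (hX.eigenvectorUnitary : Matrix n n ℂ)ᴴ = 1 :=
    Unitary.coe_mul_star_self hX.eigenvectorUnitary
  rw [norm_mul, norm_mul, norm_star, Complex.norm_real, Real.norm_eq_abs]
  have a1 := norm_unitary_entry_le _ h2 i k
  have a2 := norm_unitary_entry_le _ h2 j k
  have : ‖(hX.eigenvectorUnitary : Matrix n n ℂ) i k‖ *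
      ‖(hX.eigenvectorUnitary : Matrix n n ℂ) j k‖ ≤ 1 := by
    calc _ ≤ (1:ℝ) * 1 := by gcongr
      _ = 1 := by ring
  calc |f (hX.eigenvalues k)| * _ ≤ |f (hX.eigenvalues k)| * 1 := by gcongr
    _ = _ := mul_one _

theorem norm_Rs_apply_le {X : Matrix n n ℂ} (hX : X.PosDef) {c : ℝ} (hc : 0 < c)
    (h : (X - (c : ℂ) • 1).PosSemidef) {τ : ℝ} (hτ : 0 ≤ τ) (i j : n) :
    ‖Rs X τ i j‖ ≤ Fintype.card n * (c + τ)⁻¹ := by
  rw [← cfc_inv_eq hX hτ]
  refine (norm_cfc_apply_le hX.1 _ i j).trans ?_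
  calc ∑ k, |(hX.1.eigenvalues k + τ)⁻¹| ≤ ∑ _k : n, (c + τ)⁻¹ := by
        refine Finset.sum_le_sum fun k _ => ?_
        have h1 := eigen_ge hX.1 h k
        have h2 : 0 < c + τ := by linarith
        rw [abs_of_nonneg (inv_nonneg.2 (by linarith))]
        exact inv_anti₀ h2 (by linarith)
    _ = _ := by simp

/-! ### the scalar resolvent formula for the logarithm -/

theorem log_integrable {p : ℝ} (hp : 0 < p) :
    IntegrableOn (fun τ : ℝ => (1 + τ)⁻¹ - (p + τ)⁻¹) (Ioi 0) ∧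
      ∫ τ in Ioi (0:ℝ), ((1 + τ)⁻¹ - (p + τ)⁻¹) = Real.log p := by
  set g : ℝ → ℝ := fun τ => Real.log (1 + τ) - Real.log (p + τ) with hg
  have hd : ∀ x ∈ Ici (0:ℝ), HasDerivAt g ((1 + x)⁻¹ - (p + x)⁻¹) x := by
    intro x hx
    have hx' : (0:ℝ) ≤ x := hx
    have h1 : HasDerivAt (fun τ : ℝ => Real.log (1 + τ)) ((1 + x)⁻¹) x := by
      have := ((hasDerivAt_id x).const_add 1).log (by simp only [id]; linarith)
      simpa using this
    have h2 : HasDerivAt (fun τ : ℝ => Real.log (p + τ)) ((p + x)⁻¹) x := by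
      have := ((hasDerivAt_id x).const_add p).log (by simp only [id]; linarith)
      simpa using this
    exact h1.sub h2
  have hlim : Tendsto g atTop (𝓝 0) := by
    have h1 : Tendsto (fun τ : ℝ => (1 + τ) / (p + τ)) atTop (𝓝 1) := by
      have h2 : Tendsto (fun τ : ℝ => 1 + (1 - p) * (p + τ)⁻¹) atTop (𝓝 (1 + (1 - p) * 0)) := by
        refine tendsto_const_nhds.add (tendsto_const_nhds.mul ?_)
        exact (tendsto_atTop_add_const_left _ _ tendsto_id).inv_tendsto_atTop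
      rw [mul_zero, add_zero] at h2
      refine h2.congr' ?_
      filter_upwards [eventually_gt_atTop (0:ℝ)] with τ hτ
      have : p + τ ≠ 0 := by linarith
      field_simp
      ring
    have h3 := (Real.continuousAt_log (one_ne_zero)).tendsto.comp h1
    rw [Real.log_one] at h3
    refine h3.congr' ?_
    filter_upwards [eventually_gt_atTop (0:ℝ)] with τ hτ
    simp only [Function.comp, hg]
    rw [Real.log_div (by linarith) (by linarith)]
  have h0 : g 0 = - Real.log p := by simp [hg]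
  rcases le_total 1 p with h | h
  · have hpos : ∀ x ∈ Ioi (0:ℝ), 0 ≤ (1 + x)⁻¹ - (p + x)⁻¹ := by
      intro x hx
      have hx' : (0:ℝ) < x := hx
      have := inv_anti₀ (by linarith : 0 < 1 + x) (by linarith : 1 + x ≤ p + x)
      linarith
    have hint := integrableOn_Ioi_deriv_of_nonneg' hd hpos hlim
    refine ⟨hint, ?_⟩
    rw [integral_Ioi_of_hasDerivAt_of_tendsto' hd hint hlim, h0]
    ring
  · have hneg : ∀ x ∈ Ioi (0:ℝ), (1 + x)⁻¹ - (p + x)⁻¹ ≤ 0 := by
      intro x hx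
      have hx' : (0:ℝ) < x := hx
      have := inv_anti₀ (by linarith : 0 < p + x) (by linarith : p + x ≤ 1 + x)
      linarith
    have hint := integrableOn_Ioi_deriv_of_nonpos' hd hneg hlim
    refine ⟨hint, ?_⟩
    rw [integral_Ioi_of_hasDerivAt_of_tendsto' hd hint hlim, h0]
    ring

/-- entries of the logarithm by resolvents -/
theorem cfc_log_apply {X : Matrix n n ℂ} (hX : X.PosDef) (i j : n) :
    IntegrableOn (fun τ : ℝ => (((1 + τ)⁻¹ : ℝ) : ℂ) * (1 : Matrix n n ℂ) i j - Rs X τ i j)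
      (Ioi 0) ∧
    ∫ τ in Ioi (0:ℝ), ((((1 + τ)⁻¹ : ℝ) : ℂ) * (1 : Matrix n n ℂ) i j - Rs X τ i j) =
      cfc Real.log X i j := by
  set U := (hX.1.eigenvectorUnitary : Matrix n n ℂ) with hU
  have h2 : U * Uᴴ = 1 := Unitary.coe_mul_star_self hX.1.eigenvectorUnitary
  have h1 : (1 : Matrix n n ℂ) i j = ∑ k, (U i k * star (U j k)) := by
    rw [← h2, Matrix.mul_apply]
    rfl
  have he : ∀ τ ∈ Ioi (0:ℝ), (((1 + τ)⁻¹ : ℝ) : ℂ) * (1 : Matrix n n ℂ) i j - Rs X τ i j =
      ∑ k, (((1 + τ)⁻¹ - (hX.1.eigenvalues k + τ)⁻¹ : ℝ) : ℂ) * (U i k * star (U j k)) := by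
    intro τ hτ
    rw [← cfc_inv_eq hX (le_of_lt hτ), cfc_apply_eq hX.1, h1, Finset.mul_sum,
      ← Finset.sum_sub_distrib]
    refine Finset.sum_congr rfl fun k _ => ?_
    push_cast
    rw [← hU]
    ring
  have hint : ∀ k, IntegrableOn (fun τ : ℝ =>
      (((1 + τ)⁻¹ - (hX.1.eigenvalues k + τ)⁻¹ : ℝ) : ℂ) * (U i k * star (U j k))) (Ioi 0) := by
    intro k
    exact ((log_integrable (hX.eigenvalues_pos k)).1.ofReal).mul_const _
  constructor
  · have h3 := integrable_finsetSum Finset.univ fun k (_ : k ∈ Finset.univ) => hint k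
    refine h3.congr ?_
    filter_upwards [ae_restrict_mem measurableSet_Ioi] with τ hτ
    exact (he τ hτ).symm
  · rw [setIntegral_congr_fun measurableSet_Ioi he, integral_finsetSum _ fun k _ => hint k,
      cfc_apply_eq hX.1]
    refine Finset.sum_congr rfl fun k _ => ?_
    rw [integral_mul_const]
    have h4 : ∫ a in Ioi (0:ℝ), (((1 + a)⁻¹ - (hX.1.eigenvalues k + a)⁻¹ : ℝ) : ℂ) =
        ((∫ a in Ioi (0:ℝ), ((1 + a)⁻¹ - (hX.1.eigenvalues k + a)⁻¹) : ℝ) : ℂ) := integral_ofReal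
    rw [h4, (log_integrable (hX.eigenvalues_pos k)).2]

/-! ### the derivative of the logarithm along a path -/

theorem posDef_of_sub {X : Matrix n n ℂ} {c : ℝ} (hc : 0 < c)
    (h : (X - (c : ℂ) • 1).PosSemidef) : X.PosDef := by
  have h1 : ((c : ℂ) • (1 : Matrix n n ℂ)).PosDef :=
    Matrix.PosDef.one.smul (by exact_mod_cast hc)
  have := h1.add_posSemidef h
  simpa using this

theorem posDef_add {X : Matrix n n ℂ} (hX : X.PosDef) {τ : ℝ} (hτ : 0 ≤ τ) :
    (X + (τ : ℂ) • (1 : Matrix n n ℂ)).PosDef :=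
  hX.add_posSemidef (Matrix.PosSemidef.one.smul (by exact_mod_cast hτ))

theorem Rs_sub {X Y : Matrix n n ℂ} (hX : X.PosDef) (hY : Y.PosDef) {τ : ℝ} (hτ : 0 ≤ τ) :
    Rs X τ - Rs Y τ = Rs X τ * (Y - X) * Rs Y τ := by
  have h1 : (X + (τ : ℂ) • (1 : Matrix n n ℂ))⁻¹ * (X + (τ : ℂ) • (1 : Matrix n n ℂ)) = 1 :=
    Matrix.nonsing_inv_mul _ ((Matrix.isUnit_iff_isUnit_det _).1 (posDef_add hX hτ).isUnit)
  have h2 : (Y + (τ : ℂ) • (1 : Matrix n n ℂ)) * (Y + (τ : ℂ) • (1 : Matrix n n ℂ))⁻¹ = 1 :=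
    Matrix.mul_nonsing_inv _ ((Matrix.isUnit_iff_isUnit_det _).1 (posDef_add hY hτ).isUnit)
  have h3 : Y - X = (Y + (τ : ℂ) • (1 : Matrix n n ℂ)) - (X + (τ : ℂ) • (1 : Matrix n n ℂ)) := by
    abel
  unfold Rs
  rw [h3, Matrix.mul_sub, Matrix.sub_mul, h1, Matrix.mul_assoc, h2, Matrix.mul_one, Matrix.one_mul]

theorem tendsto_Rs {ι : Type*} {l : Filter ι} {P : ι → Matrix n n ℂ} {X : Matrix n n ℂ}
    (hP : ∀ i j, Tendsto (fun τ => P τ i j) l (𝓝 (X i j))) (hX : X.PosDef) {t : ℝ} (ht : 0 ≤ t)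
    (i j : n) : Tendsto (fun τ => Rs (P τ) t i j) l (𝓝 (Rs X t i j)) := by
  have hPm : Tendsto P l (𝓝 X) :=
    tendsto_pi_nhds.2 fun i => tendsto_pi_nhds.2 fun j => hP i j
  have h1 : ContinuousAt (fun A : Matrix n n ℂ => Rs A t i j) X := by
    have hdet : (X + (t : ℂ) • (1 : Matrix n n ℂ)).det ≠ 0 :=
      ((Matrix.isUnit_iff_isUnit_det _).1 (posDef_add hX ht).isUnit).ne_zero
    have e : (fun A : Matrix n n ℂ => Rs A t i j) = fun A =>
        (A + (t : ℂ) • (1 : Matrix n n ℂ)).det⁻¹ *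
          (A + (t : ℂ) • (1 : Matrix n n ℂ)).adjugate i j := by
      funext A
      unfold Rs
      rw [Matrix.inv_def, Matrix.smul_apply, Ring.inverse_eq_inv', smul_eq_mul]
    rw [e]
    have c1 : Continuous fun A : Matrix n n ℂ => (A + (t : ℂ) • (1 : Matrix n n ℂ)).det :=
      (continuous_id.add continuous_const).matrix_det
    have c2 : Continuous fun A : Matrix n n ℂ =>
        (A + (t : ℂ) • (1 : Matrix n n ℂ)).adjugate i j :=
      ((continuous_id.add continuous_const).matrix_adjugate).matrix_elem i j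
    exact (c1.continuousAt.inv₀ hdet).mul c2.continuousAt
  exact h1.tendsto.comp hPm

theorem aesm_Rs {X : Matrix n n ℂ} (hX : X.PosDef) (i j : n) :
    AEStronglyMeasurable (fun t : ℝ => Rs X t i j) (volume.restrict (Ioi 0)) := by
  have h : AEStronglyMeasurable (fun t : ℝ => ∑ k, (((hX.1.eigenvalues k + t)⁻¹ : ℝ) : ℂ) *
      ((hX.1.eigenvectorUnitary : Matrix n n ℂ) i k *
        star ((hX.1.eigenvectorUnitary : Matrix n n ℂ) j k))) (volume.restrict (Ioi 0)) := by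
    apply Measurable.aestronglyMeasurable
    refine Finset.measurable_sum _ fun k _ => ?_
    exact (Complex.measurable_ofReal.comp ((measurable_const.add measurable_id).inv)).mul_const _
  refine h.congr ?_
  filter_upwards [ae_restrict_mem measurableSet_Ioi] with t ht
  rw [← cfc_inv_eq hX (le_of_lt ht), cfc_apply_eq hX.1]

theorem integrable_inv_sq {c : ℝ} (hc : 0 < c) :
    IntegrableOn (fun t : ℝ => ((c + t)⁻¹) ^ 2) (Ioi 0) := by
  have hd : ∀ x ∈ Ici (0:ℝ), HasDerivAt (fun t : ℝ => -(c + t)⁻¹) (((c + x)⁻¹) ^ 2) x := by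
    intro x hx
    have hx' : (0:ℝ) ≤ x := hx
    have h1 : HasDerivAt (fun t : ℝ => c + t) 1 x := by
      simpa using (hasDerivAt_id x).const_add c
    have h2 := (h1.inv (by linarith : c + x ≠ 0)).neg
    refine h2.congr_deriv ?_
    have : c + x ≠ 0 := by linarith
    field_simp
  have hlim : Tendsto (fun t : ℝ => -(c + t)⁻¹) atTop (𝓝 0) := by
    have := (tendsto_atTop_add_const_left atTop c tendsto_id).inv_tendsto_atTop.neg
    simpa using this
  exact integrableOn_Ioi_deriv_of_nonneg' hd (fun x _ => by positivity) hlim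

theorem norm_mul3_le {R S T : Matrix n n ℂ} {r k : ℝ} (hr : 0 ≤ r) (hk : 0 ≤ k)
    (h1 : ∀ i j, ‖R i j‖ ≤ r) (h2 : ∀ i j, ‖S i j‖ ≤ k) (h3 : ∀ i j, ‖T i j‖ ≤ r) (i j : n) :
    ‖(R * S * T) i j‖ ≤ (Fintype.card n) ^ 2 * k * r ^ 2 := by
  rw [Matrix.mul_apply]
  calc ‖∑ b, (R * S) i b * T b j‖ ≤ ∑ b : n, (Fintype.card n * (r * k)) * r := by
        refine (norm_sum_le _ _).trans (Finset.sum_le_sum fun b _ => ?_)
        rw [norm_mul]
        refine mul_le_mul ?_ (h3 b j) (norm_nonneg _) (by positivity)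
        rw [Matrix.mul_apply]
        calc ‖∑ a, R i a * S a b‖ ≤ ∑ _a : n, r * k := by
              refine (norm_sum_le _ _).trans (Finset.sum_le_sum fun a _ => ?_)
              rw [norm_mul]
              exact mul_le_mul (h1 i a) (h2 a b) (norm_nonneg _) hr
          _ = _ := by simp
    _ = _ := by simp; ring

theorem integrable_RMR {X M : Matrix n n ℂ} {c : ℝ} (hc : 0 < c)
    (hX : (X - (c : ℂ) • 1).PosSemidef) (i j : n) :
    IntegrableOn (fun t => (Rs X t * M * Rs X t) i j) (Ioi 0) := by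
  have hXd : X.PosDef := posDef_of_sub hc hX
  set N : ℝ := ((Fintype.card n : ℕ) : ℝ) with hN
  set K : ℝ := ∑ a, ∑ b, ‖M a b‖ with hK
  have hK0 : 0 ≤ K := by rw [hK]; positivity
  have hMK : ∀ a b, ‖M a b‖ ≤ K := by
    intro a b
    rw [hK]
    refine le_trans ?_ (Finset.single_le_sum (f := fun a => ∑ b, ‖M a b‖)
      (fun a _ => by positivity) (Finset.mem_univ a))
    exact Finset.single_le_sum (f := fun b => ‖M a b‖)
      (fun b _ => by positivity) (Finset.mem_univ b)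
  have hbint : Integrable (fun t => N ^ 2 * K * (N * (c + t)⁻¹) ^ 2)
      (volume.restrict (Ioi 0)) := by
    have h1 := (integrable_inv_sq hc).const_mul (N ^ 2 * K * N ^ 2)
    refine h1.congr ?_
    filter_upwards with t
    ring
  refine Integrable.mono' hbint ?_ ?_
  · have e : (fun t : ℝ => (Rs X t * M * Rs X t) i j) =
        fun t => ∑ b, (∑ a, Rs X t i a * M a b) * Rs X t b j := by
      funext t
      rw [Matrix.mul_apply]
      refine Finset.sum_congr rfl fun b _ => ?_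
      rw [Matrix.mul_apply]
    rw [e]
    refine Finset.aestronglyMeasurable_fun_sum _ fun b _ => ?_
    refine AEStronglyMeasurable.mul ?_ (aesm_Rs hXd b j)
    refine Finset.aestronglyMeasurable_fun_sum _ fun a _ => ?_
    exact (aesm_Rs hXd i a).mul_const _
  · filter_upwards [ae_restrict_mem measurableSet_Ioi] with t ht
    have ht' : (0:ℝ) < t := ht
    exact norm_mul3_le (by positivity) hK0 (fun a b => norm_Rs_apply_le hXd hc hX ht'.le a b) hMK
      (fun a b => norm_Rs_apply_le hXd hc hX ht'.le a b) i j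

theorem exists_sub_posSemidef {X : Matrix n n ℂ} (hX : X.PosDef) :
    ∃ c : ℝ, 0 < c ∧ (X - (c : ℂ) • 1).PosSemidef := by
  have h : ∃ c : ℝ, 0 < c ∧ ∀ i, c ≤ hX.1.eigenvalues i := by
    rcases isEmpty_or_nonempty n with hn | hn
    · exact ⟨1, one_pos, fun i => (hn.false i).elim⟩
    · refine ⟨Finset.univ.inf' Finset.univ_nonempty hX.1.eigenvalues, ?_, fun i =>
        Finset.inf'_le _ (Finset.mem_univ i)⟩
      rw [Finset.lt_inf'_iff]
      exact fun i _ => hX.eigenvalues_pos i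
  obtain ⟨c, hc, hi⟩ := h
  refine ⟨c, hc, ?_⟩
  set U := (hX.1.eigenvectorUnitary : Matrix n n ℂ) with hU
  have h2 : U * Uᴴ = 1 := Unitary.coe_mul_star_self hX.1.eigenvectorUnitary
  have h3 := cfc_eq_conj hX.1 (fun x => x)
  have h4 : cfc (fun x : ℝ => x) X = X := cfc_id' ℝ X (ha := hX.1)
  rw [h4] at h3
  have h5 : X - (c : ℂ) • 1 =
      U * Matrix.diagonal (fun i => ((hX.1.eigenvalues i - c : ℝ) : ℂ)) * Uᴴ := by
    have h6 : ((c : ℂ) • 1 : Matrix n n ℂ) = U * Matrix.diagonal (fun _ => (c : ℂ)) * Uᴴ := by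
      rw [show (Matrix.diagonal (fun _ : n => (c : ℂ))) = (c : ℂ) • (1 : Matrix n n ℂ) by
        rw [← diagonal_one, ← diagonal_smul]; congr 1; funext i; simp]
      rw [Matrix.mul_smul, Matrix.smul_mul, Matrix.mul_one, h2]
    have h7 : Matrix.diagonal (fun i => ((hX.1.eigenvalues i - c : ℝ) : ℂ)) =
        Matrix.diagonal (fun i => ((hX.1.eigenvalues i : ℝ) : ℂ)) -
          Matrix.diagonal (fun _ : n => (c : ℂ)) := by
      rw [diagonal_sub]; congr 1; funext i; push_cast; rfl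
    rw [h7, Matrix.mul_sub, Matrix.sub_mul, ← h6]
    congr 1
  rw [h5]
  refine Matrix.PosSemidef.mul_mul_conjTranspose_same ?_ U
  rw [Matrix.posSemidef_diagonal_iff]
  intro i
  have := hi i
  exact_mod_cast sub_nonneg.2 this

/-- entrywise derivative of the logarithm along a path. -/
theorem hasDerivAt_log_apply {P : ℝ → Matrix n n ℂ} {P' : Matrix n n ℂ} {τ₀ c : ℝ} (hc : 0 < c)
    (hP : ∀ᶠ τ in 𝓝 τ₀, (P τ - (c : ℂ) • 1).PosSemidef)
    (hd : ∀ i j, HasDerivAt (fun τ => P τ i j) (P' i j) τ₀) (i j : n) :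
    IntegrableOn (fun t => (Rs (P τ₀) t * P' * Rs (P τ₀) t) i j) (Ioi 0) ∧
    HasDerivAt (fun τ => cfc Real.log (P τ) i j)
      (∫ t in Ioi (0:ℝ), (Rs (P τ₀) t * P' * Rs (P τ₀) t) i j) τ₀ := by
  have hP0 : (P τ₀ - (c : ℂ) • 1).PosSemidef := hP.self_of_nhds
  have hP0d : (P τ₀).PosDef := posDef_of_sub hc hP0
  set N : ℝ := ((Fintype.card n : ℕ) : ℝ) with hN
  -- slope matrices
  set S : ℝ → Matrix n n ℂ := fun τ => ((τ - τ₀)⁻¹ : ℝ) • (P τ - P τ₀) with hS
  have hSt : ∀ a b, Tendsto (fun τ => S τ a b) (𝓝[≠] τ₀) (𝓝 (P' a b)) := by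
    intro a b
    have := hasDerivAt_iff_tendsto_slope.1 (hd a b)
    refine this.congr fun τ => ?_
    simp [hS, slope_def_module]
  -- bound on the slopes
  set K : ℝ := ∑ a, ∑ b, (‖P' a b‖ + 1) with hK
  have hKb : ∀ᶠ τ in 𝓝[≠] τ₀, ∀ a b, ‖S τ a b‖ ≤ K := by
    rw [eventually_all]
    intro a
    rw [eventually_all]
    intro b
    have h1 := (hSt a b).norm.eventually (gt_mem_nhds (lt_add_one ‖P' a b‖))
    filter_upwards [h1] with τ hτ
    refine hτ.le.trans ?_
    rw [hK]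
    refine le_trans ?_ (Finset.single_le_sum (f := fun a => ∑ b, (‖P' a b‖ + 1))
      (fun a _ => by positivity) (Finset.mem_univ a))
    exact Finset.single_le_sum (f := fun b => (‖P' a b‖ + 1))
      (fun b _ => by positivity) (Finset.mem_univ b)
  have hK0 : 0 ≤ K := by rw [hK]; positivity
  have hP'K : ∀ a b, ‖P' a b‖ ≤ K := by
    intro a b
    refine (lt_add_one ‖P' a b‖).le.trans ?_
    rw [hK]
    refine le_trans ?_ (Finset.single_le_sum (f := fun a => ∑ b, (‖P' a b‖ + 1))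
      (fun a _ => by positivity) (Finset.mem_univ a))
    exact Finset.single_le_sum (f := fun b => (‖P' a b‖ + 1))
      (fun b _ => by positivity) (Finset.mem_univ b)
  set bound : ℝ → ℝ := fun t => N ^ 2 * K * (N * (c + t)⁻¹) ^ 2 with hbound
  have hbint : Integrable bound (volume.restrict (Ioi 0)) := by
    have h1 := (integrable_inv_sq hc).const_mul (N ^ 2 * K * N ^ 2)
    refine h1.congr ?_
    filter_upwards with t
    simp only [hbound]
    ring
  have hRb : ∀ {X : Matrix n n ℂ}, (X - (c : ℂ) • 1).PosSemidef → ∀ {t : ℝ}, 0 < t → ∀ a b,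
      ‖Rs X t a b‖ ≤ N * (c + t)⁻¹ := fun hX t ht a b =>
    norm_Rs_apply_le (posDef_of_sub hc hX) hc hX ht.le a b
  have haes : ∀ {X Y M : Matrix n n ℂ}, X.PosDef → Y.PosDef →
      AEStronglyMeasurable (fun t : ℝ => (Rs X t * M * Rs Y t) i j) (volume.restrict (Ioi 0)) := by
    intro X Y M hX hY
    have e : (fun t : ℝ => (Rs X t * M * Rs Y t) i j) =
        fun t => ∑ b, (∑ a, Rs X t i a * M a b) * Rs Y t b j := by
      funext t
      rw [Matrix.mul_apply]
      refine Finset.sum_congr rfl fun b _ => ?_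
      rw [Matrix.mul_apply]
    rw [e]
    refine Finset.aestronglyMeasurable_fun_sum _ fun b _ => ?_
    refine AEStronglyMeasurable.mul ?_ (aesm_Rs hY b j)
    refine Finset.aestronglyMeasurable_fun_sum _ fun a _ => ?_
    exact (aesm_Rs hX i a).mul_const _
  have hint0 : IntegrableOn (fun t => (Rs (P τ₀) t * P' * Rs (P τ₀) t) i j) (Ioi 0) := by
    refine Integrable.mono' hbint (haes hP0d hP0d) ?_
    filter_upwards [ae_restrict_mem measurableSet_Ioi] with t ht
    have ht' : (0:ℝ) < t := ht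
    exact norm_mul3_le (by positivity) hK0 (hRb hP0 ht') hP'K (hRb hP0 ht') i j
  refine ⟨hint0, ?_⟩
  rw [hasDerivAt_iff_tendsto_slope]
  have hPne : ∀ᶠ τ in 𝓝[≠] τ₀, (P τ - (c : ℂ) • 1).PosSemidef :=
    hP.filter_mono nhdsWithin_le_nhds
  have heq : ∀ᶠ τ in 𝓝[≠] τ₀, slope (fun τ => cfc Real.log (P τ) i j) τ₀ τ =
      ∫ t in Ioi (0:ℝ), (Rs (P τ) t * S τ * Rs (P τ₀) t) i j := by
    filter_upwards [hPne] with τ hτ
    have hτd := posDef_of_sub hc hτ
    obtain ⟨i1, e1⟩ := cfc_log_apply hτd i j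
    obtain ⟨i2, e2⟩ := cfc_log_apply hP0d i j
    rw [slope_def_module, ← e1, ← e2, ← integral_sub i1 i2, ← integral_smul]
    refine setIntegral_congr_fun measurableSet_Ioi fun t ht => ?_
    have ht' : (0:ℝ) < t := ht
    have h3 : (((1 + t)⁻¹ : ℝ) : ℂ) * (1 : Matrix n n ℂ) i j - Rs (P τ) t i j -
        ((((1 + t)⁻¹ : ℝ) : ℂ) * (1 : Matrix n n ℂ) i j - Rs (P τ₀) t i j) =
        -(Rs (P τ) t - Rs (P τ₀) t) i j := by
      rw [Matrix.sub_apply]; ring
    simp only [h3]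
    rw [Rs_sub hτd hP0d ht'.le]
    have h4 : Rs (P τ) t * S τ * Rs (P τ₀) t =
        ((τ - τ₀)⁻¹ : ℝ) • (Rs (P τ) t * (P τ - P τ₀) * Rs (P τ₀) t) := by
      rw [hS]; simp only [Matrix.mul_smul, Matrix.smul_mul]
    rw [h4, Matrix.smul_apply]
    congr 1
    rw [← Matrix.neg_apply]
    rw [← Matrix.neg_mul, ← Matrix.mul_neg, neg_sub]
  refine (tendsto_congr' heq).2 ?_
  refine tendsto_integral_filter_of_dominated_convergence bound ?_ ?_ hbint ?_
  · filter_upwards [hPne] with τ hτ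
    exact haes (posDef_of_sub hc hτ) hP0d
  · filter_upwards [hPne, hKb] with τ hτ hτK
    filter_upwards [ae_restrict_mem measurableSet_Ioi] with t ht
    have ht' : (0:ℝ) < t := ht
    exact norm_mul3_le (by positivity) hK0 (hRb hτ ht') hτK (hRb hP0 ht') i j
  · filter_upwards [ae_restrict_mem measurableSet_Ioi] with t ht
    have ht' : (0:ℝ) < t := ht
    have hPc : ∀ a b, Tendsto (fun τ => P τ a b) (𝓝[≠] τ₀) (𝓝 (P τ₀ a b)) := fun a b =>
      (hd a b).continuousAt.tendsto.mono_left nhdsWithin_le_nhds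
    simp only [Matrix.mul_apply]
    refine tendsto_finsetSum _ fun b _ => ?_
    refine Tendsto.mul ?_ tendsto_const_nhds
    refine tendsto_finsetSum _ fun a _ => ?_
    exact (tendsto_Rs hPc hP0d ht'.le i a).mul (hSt a b)

end Vale.P371
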