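import Mathlib
import Vale.Agent.P371.GoldenThompson
import Vale.Agent.P371.GLog

/-!
# P371 general exponent: the inequality `δ_t ≥ 0` in resolvent form
-/

open Matrix Filter MeasureTheory Set
open scoped ComplexOrder MatrixOrder Topology

namespace Vale.P371

set_option linter.unusedSectionVars false

variable {n : Type*} [Fintype n] [DecidableEq n]

/-- `Tr κ⁻¹ R κ R ≥ Tr R²`. -/
theorem trace_conj_ge {κ R : Matrix n n ℂ} (hκ : κ.PosDef) (hR : R.IsHermitian) :
    (R * R).trace.re ≤ (κ⁻¹ * R * κ * R).trace.re := by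
  have hH := hκ.1
  set U := (hH.eigenvectorUnitary : Matrix n n ℂ) with hU
  have h1 : Uᴴ * U = 1 := Unitary.coe_star_mul_self hH.eigenvectorUnitary
  have h2 : U * Uᴴ = 1 := Unitary.coe_mul_star_self hH.eigenvectorUnitary
  set d : n → ℝ := hH.eigenvalues with hd
  have hdpos : ∀ i, 0 < d i := hκ.eigenvalues_pos
  set D : Matrix n n ℂ := diagonal (fun i => ((d i : ℝ) : ℂ)) with hD
  set D' : Matrix n n ℂ := diagonal (fun i => (((d i)⁻¹ : ℝ) : ℂ)) with hD'
  have hspec : κ = U * D * Uᴴ := by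
    have h3 := cfc_eq_conj hH (fun x => x)
    have h4 : cfc (fun x : ℝ => x) κ = κ := cfc_id' ℝ κ (ha := hH)
    exact h4.symm.trans h3
  have hDD : D * D' = 1 := by
    rw [hD, hD', diagonal_mul_diagonal, ← diagonal_one]
    congr 1
    funext i
    rw [← Complex.ofReal_mul, mul_inv_cancel₀ (hdpos i).ne', Complex.ofReal_one]
  have hinv : κ⁻¹ = U * D' * Uᴴ := by
    apply Matrix.inv_eq_right_inv
    rw [hspec]
    calc U * D * Uᴴ * (U * D' * Uᴴ) = U * D * (Uᴴ * U) * D' * Uᴴ := by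
          simp only [Matrix.mul_assoc]
      _ = 1 := by rw [h1, Matrix.mul_one, Matrix.mul_assoc U, hDD, Matrix.mul_one, h2]
  set S := Uᴴ * R * U with hS
  have hSH : S.IsHermitian := by
    unfold Matrix.IsHermitian
    rw [hS]
    simp only [Matrix.conjTranspose_mul, Matrix.conjTranspose_conjTranspose, hR.eq,
      Matrix.mul_assoc]
  have hR' : R = U * S * Uᴴ := by
    rw [hS]
    calc R = (U * Uᴴ) * R * (U * Uᴴ) := by rw [h2]; simp
      _ = _ := by simp only [Matrix.mul_assoc]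
  have e1 : (R * R).trace = (S * S).trace := by
    rw [hR']
    calc (U * S * Uᴴ * (U * S * Uᴴ)).trace = (U * (S * (Uᴴ * U) * S * Uᴴ)).trace := by
          simp only [Matrix.mul_assoc]
      _ = _ := by
          rw [h1, Matrix.mul_one, Matrix.trace_mul_comm, Matrix.mul_assoc, h1, Matrix.mul_one]
  have e2 : (κ⁻¹ * R * κ * R).trace = (D' * S * D * S).trace := by
    rw [hinv]
    nth_rewrite 1 [hspec]
    nth_rewrite 1 2 [hR']
    calc (U * D' * Uᴴ * (U * S * Uᴴ) * (U * D * Uᴴ) * (U * S * Uᴴ)).trace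
        = (U * (D' * (Uᴴ * U) * S * (Uᴴ * U) * D * (Uᴴ * U) * S * Uᴴ)).trace := by
          simp only [Matrix.mul_assoc]
      _ = _ := by
          rw [h1, Matrix.trace_mul_comm]
          simp only [Matrix.mul_one, Matrix.mul_assoc, h1]
  rw [e1, e2]
  have hsym : ∀ i j, S j i = star (S i j) := fun i j => by
    rw [← Matrix.conjTranspose_apply, hSH.eq]
  have hn : ∀ i j, S i j * S j i = ((‖S i j‖ ^ 2 : ℝ) : ℂ) := fun i j => by
    rw [hsym i j, Complex.star_def, Complex.mul_conj, Complex.normSq_eq_norm_sq]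
  have hn' : ∀ i j, ‖S j i‖ = ‖S i j‖ := fun i j => by rw [hsym i j, norm_star]
  have f1 : (S * S).trace.re = ∑ i, ∑ j, ‖S i j‖ ^ 2 := by
    simp only [Matrix.trace, Matrix.diag_apply, Matrix.mul_apply, hn]
    simp only [Complex.re_sum, Complex.ofReal_re]
  have f2 : (D' * S * D * S).trace.re = ∑ i, ∑ j, (d i)⁻¹ * d j * ‖S i j‖ ^ 2 := by
    rw [Matrix.trace, Complex.re_sum]
    refine Finset.sum_congr rfl fun i _ => ?_
    rw [Matrix.diag_apply, Matrix.mul_apply, Complex.re_sum]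
    refine Finset.sum_congr rfl fun j _ => ?_
    rw [hD, Matrix.mul_diagonal, hD', Matrix.diagonal_mul]
    have : (((d i)⁻¹ : ℝ) : ℂ) * S i j * ((d j : ℝ) : ℂ) * S j i =
        (((d i)⁻¹ * d j * ‖S i j‖ ^ 2 : ℝ) : ℂ) := by
      calc (((d i)⁻¹ : ℝ) : ℂ) * S i j * ((d j : ℝ) : ℂ) * S j i
          = (((d i)⁻¹ : ℝ) : ℂ) * ((d j : ℝ) : ℂ) * (S i j * S j i) := by ring
        _ = _ := by rw [hn]; push_cast; ring
    rw [this, Complex.ofReal_re]
  rw [f1, f2]
  have f3 : ∑ i, ∑ j, (d i)⁻¹ * d j * ‖S i j‖ ^ 2 = ∑ i, ∑ j, (d j)⁻¹ * d i * ‖S i j‖ ^ 2 := by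
    rw [Finset.sum_comm]
    refine Finset.sum_congr rfl fun i _ => Finset.sum_congr rfl fun j _ => ?_
    rw [hn']
  have f4 : 2 * ∑ i, ∑ j, ‖S i j‖ ^ 2 ≤ ∑ i, ∑ j, (d i)⁻¹ * d j * ‖S i j‖ ^ 2 +
      ∑ i, ∑ j, (d j)⁻¹ * d i * ‖S i j‖ ^ 2 := by
    rw [Finset.mul_sum, ← Finset.sum_add_distrib]
    refine Finset.sum_le_sum fun i _ => ?_
    rw [Finset.mul_sum, ← Finset.sum_add_distrib]
    refine Finset.sum_le_sum fun j _ => ?_
    have hi := hdpos i
    have hj := hdpos j
    have g : 2 ≤ (d i)⁻¹ * d j + (d j)⁻¹ * d i := by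
      have e : (d i)⁻¹ * d j + (d j)⁻¹ * d i - 2 = (d i - d j) ^ 2 / (d i * d j) := by
        field_simp; ring
      have : 0 ≤ (d i - d j) ^ 2 / (d i * d j) := by positivity
      linarith
    have := mul_le_mul_of_nonneg_right g (sq_nonneg ‖S i j‖)
    linarith
  linarith [f3]

/-- `Tr (C f(P))` in the eigenbasis. -/
theorem trace_mul_cfc {P : Matrix n n ℂ} (hP : P.IsHermitian) (C : Matrix n n ℂ) (f : ℝ → ℝ) :
    (C * cfc f P).trace.re = ∑ i, f (hP.eigenvalues i) *
      (((hP.eigenvectorUnitary : Matrix n n ℂ)ᴴ * C * (hP.eigenvectorUnitary : Matrix n n ℂ)) i i).re := by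
  rw [cfc_eq_conj hP]
  set U := (hP.eigenvectorUnitary : Matrix n n ℂ)
  have e : (C * (U * Matrix.diagonal (fun i => ((f (hP.eigenvalues i) : ℝ) : ℂ)) * Uᴴ)).trace =
      ((Uᴴ * C * U) * Matrix.diagonal (fun i => ((f (hP.eigenvalues i) : ℝ) : ℂ))).trace := by
    have e1 : C * (U * Matrix.diagonal (fun i => ((f (hP.eigenvalues i) : ℝ) : ℂ)) * Uᴴ) =
      (C * U * Matrix.diagonal (fun i => ((f (hP.eigenvalues i) : ℝ) : ℂ))) * Uᴴ := by
      simp only [Matrix.mul_assoc]
    rw [e1, Matrix.trace_mul_comm]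
    simp only [Matrix.mul_assoc]
  rw [e, Matrix.trace, Complex.re_sum]
  refine Finset.sum_congr rfl fun i _ => ?_
  rw [Matrix.diag_apply, Matrix.mul_diagonal, Complex.re_mul_ofReal, mul_comm]

theorem integral_inv_sq {x : ℝ} (hx : 0 < x) :
    ∫ t in Ioi (0:ℝ), ((x + t)⁻¹) ^ 2 = x⁻¹ := by
  have hd : ∀ y ∈ Ici (0:ℝ), HasDerivAt (fun t : ℝ => -(x + t)⁻¹) (((x + y)⁻¹) ^ 2) y := by
    intro y hy
    have hy' : (0:ℝ) ≤ y := hy
    have h1 : HasDerivAt (fun t : ℝ => x + t) 1 y := by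
      simpa using (hasDerivAt_id y).const_add x
    have h2 := (h1.inv (by linarith : x + y ≠ 0)).neg
    refine h2.congr_deriv ?_
    have : x + y ≠ 0 := by linarith
    field_simp
  have hlim : Tendsto (fun t : ℝ => -(x + t)⁻¹) atTop (𝓝 0) := by
    have := (tendsto_atTop_add_const_left atTop x tendsto_id).inv_tendsto_atTop.neg
    simpa using this
  rw [integral_Ioi_of_hasDerivAt_of_tendsto' hd (integrable_inv_sq hx) hlim]
  simp

/-- The kernel inequality in integrated resolvent form. -/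
theorem dlk_gen {P κ : Matrix n n ℂ} (hP : P.PosDef) (hκ : κ.PosDef) :
    IntegrableOn (fun t => ((P * κ + κ * P - P * P) * (Rs P t * κ⁻¹ * Rs P t)).trace.re) (Ioi 0) ∧
    ∫ t in Ioi (0:ℝ), ((P * κ + κ * P - P * P) * (Rs P t * κ⁻¹ * Rs P t)).trace.re ≤
      2 * Fintype.card n - (κ⁻¹ * P).trace.re := by
  obtain ⟨c, hc, hcP⟩ := exists_sub_posSemidef hP
  have hint : IntegrableOn
      (fun t => ((P * κ + κ * P - P * P) * (Rs P t * κ⁻¹ * Rs P t)).trace.re) (Ioi 0) := by
    have e : (fun t => ((P * κ + κ * P - P * P) * (Rs P t * κ⁻¹ * Rs P t)).trace.re) =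
        fun t => ∑ i, ∑ j, ((P * κ + κ * P - P * P) i j * (Rs P t * κ⁻¹ * Rs P t) j i).re := by
      funext t
      rw [Matrix.trace, Complex.re_sum]
      refine Finset.sum_congr rfl fun i _ => ?_
      rw [Matrix.diag_apply, Matrix.mul_apply, Complex.re_sum]
    rw [e]
    refine integrable_finsetSum _ fun i _ => integrable_finsetSum _ fun j _ => ?_
    exact ((integrable_RMR hc hcP j i).const_mul _).re
  refine ⟨hint, ?_⟩
  set cf : n → ℝ := fun i => (((hP.1.eigenvectorUnitary : Matrix n n ℂ)ᴴ * κ⁻¹ *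
    (hP.1.eigenvectorUnitary : Matrix n n ℂ)) i i).re with hcf
  have hpt : ∀ t ∈ Ioi (0:ℝ),
      ((P * κ + κ * P - P * P) * (Rs P t * κ⁻¹ * Rs P t)).trace.re ≤
      ∑ i, (2 * (hP.1.eigenvalues i * ((hP.1.eigenvalues i + t)⁻¹) ^ 2) -
        (hP.1.eigenvalues i ^ 2 * ((hP.1.eigenvalues i + t)⁻¹) ^ 2) * cf i) := by
    intro t ht
    have ht' : (0:ℝ) < t := ht
    have hR := cfc_inv_eq hP ht'.le
    have hpd := posDef_add hP ht'.le
    have hdet : IsUnit (P + (t : ℂ) • (1 : Matrix n n ℂ)).det :=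
      (Matrix.isUnit_iff_isUnit_det _).1 hpd.isUnit
    have hRH : (Rs P t).IsHermitian := by unfold Rs; exact hpd.1.inv
    have h1 : Rs P t * P = 1 - (t : ℂ) • Rs P t := by
      have : Rs P t * (P + (t : ℂ) • (1 : Matrix n n ℂ)) = 1 := Matrix.nonsing_inv_mul _ hdet
      rw [Matrix.mul_add, Matrix.mul_smul, Matrix.mul_one] at this
      exact eq_sub_of_add_eq this
    have h2 : P * Rs P t = 1 - (t : ℂ) • Rs P t := by
      have : (P + (t : ℂ) • (1 : Matrix n n ℂ)) * Rs P t = 1 := Matrix.mul_nonsing_inv _ hdet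
      rw [Matrix.add_mul, Matrix.smul_mul, Matrix.one_mul] at this
      exact eq_sub_of_add_eq this
    have hκdet : IsUnit κ.det := (Matrix.isUnit_iff_isUnit_det _).1 hκ.isUnit
    have hκ1 : κ⁻¹ * κ = 1 := Matrix.nonsing_inv_mul _ hκdet
    have hκ2 : κ * κ⁻¹ = 1 := Matrix.mul_nonsing_inv _ hκdet
    -- the linear part
    have e1 : ((P * κ + κ * P) * (Rs P t * κ⁻¹ * Rs P t)).trace =
        2 * (Rs P t).trace - 2 * (t : ℂ) * (κ⁻¹ * Rs P t * κ * Rs P t).trace := by
      have a1 : (P * κ * (Rs P t * κ⁻¹ * Rs P t)).trace =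
          (Rs P t).trace - (t : ℂ) * (κ⁻¹ * Rs P t * κ * Rs P t).trace := by
        have b1 : (P * κ * (Rs P t * κ⁻¹ * Rs P t)).trace =
            ((Rs P t * P) * (κ * Rs P t * κ⁻¹)).trace := by
          have : P * κ * (Rs P t * κ⁻¹ * Rs P t) = (P * (κ * Rs P t * κ⁻¹)) * Rs P t := by
            simp only [Matrix.mul_assoc]
          rw [this, Matrix.trace_mul_comm, ← Matrix.mul_assoc]
        rw [b1, h1, Matrix.sub_mul, Matrix.one_mul, Matrix.trace_sub, Matrix.smul_mul,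
          Matrix.trace_smul, smul_eq_mul]
        congr 1
        · rw [Matrix.trace_mul_comm, ← Matrix.mul_assoc, hκ1, Matrix.one_mul]
        · congr 1
          have : Rs P t * (κ * Rs P t * κ⁻¹) = (Rs P t * κ * Rs P t) * κ⁻¹ := by
            simp only [Matrix.mul_assoc]
          rw [this, Matrix.trace_mul_comm]
          simp only [Matrix.mul_assoc]
      have a2 : (κ * P * (Rs P t * κ⁻¹ * Rs P t)).trace =
          (Rs P t).trace - (t : ℂ) * (κ⁻¹ * Rs P t * κ * Rs P t).trace := by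
        have b1 : κ * P * (Rs P t * κ⁻¹ * Rs P t) = κ * (P * Rs P t) * (κ⁻¹ * Rs P t) := by
          simp only [Matrix.mul_assoc]
        rw [b1, h2, Matrix.mul_sub, Matrix.mul_one, Matrix.sub_mul, ← Matrix.mul_assoc, hκ2,
          Matrix.one_mul, Matrix.trace_sub, Matrix.mul_smul, Matrix.smul_mul, Matrix.trace_smul,
          smul_eq_mul]
        congr 2
        have : κ * Rs P t * (κ⁻¹ * Rs P t) = (κ * Rs P t) * (κ⁻¹ * Rs P t) := rfl
        rw [this, Matrix.trace_mul_comm]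
        simp only [Matrix.mul_assoc]
      rw [Matrix.add_mul, Matrix.trace_add, a1, a2]
      ring
    have e2 : (P * P * (Rs P t * κ⁻¹ * Rs P t)).trace.re =
        ∑ i, (hP.1.eigenvalues i ^ 2 * ((hP.1.eigenvalues i + t)⁻¹) ^ 2) * cf i := by
      have b1 : (P * P * (Rs P t * κ⁻¹ * Rs P t)).trace =
          (κ⁻¹ * (Rs P t * P * (P * Rs P t))).trace := by
        have : P * P * (Rs P t * κ⁻¹ * Rs P t) = (P * (P * Rs P t)) * (κ⁻¹ * Rs P t) := by
          simp only [Matrix.mul_assoc]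
        rw [this, Matrix.trace_mul_comm]
        simp only [Matrix.mul_assoc]
      have b2 : Rs P t * P * (P * Rs P t) =
          cfc (fun x : ℝ => x ^ 2 * ((x + t)⁻¹) ^ 2) P := by
        have c1 : cfc (fun x : ℝ => x) P = P := cfc_id' ℝ P (ha := hP.1)
        rw [← hR]
        nth_rewrite 2 3 [← c1]
        rw [← cfc_mul _ _ P (contOn_matrix _ _) (contOn_matrix _ _),
          ← cfc_mul _ _ P (contOn_matrix _ _) (contOn_matrix _ _),
          ← cfc_mul _ _ P (contOn_matrix _ _) (contOn_matrix _ _)]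
        congr 1
        funext x
        ring
      rw [b1, b2, trace_mul_cfc hP.1]
    have e3 : (Rs P t * Rs P t).trace.re ≤ (κ⁻¹ * Rs P t * κ * Rs P t).trace.re :=
      trace_conj_ge hκ hRH
    have e4 : (Rs P t).trace.re - t * (Rs P t * Rs P t).trace.re =
        ∑ i, hP.1.eigenvalues i * ((hP.1.eigenvalues i + t)⁻¹) ^ 2 := by
      have b2 : Rs P t - (t : ℂ) • (Rs P t * Rs P t) =
          cfc (fun x : ℝ => x * ((x + t)⁻¹) ^ 2) P := by
        have c1 : cfc (fun x : ℝ => x) P = P := cfc_id' ℝ P (ha := hP.1)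
        have c2 : Rs P t - (t : ℂ) • (Rs P t * Rs P t) = Rs P t * P * Rs P t := by
          rw [h1, Matrix.sub_mul, Matrix.one_mul, Matrix.smul_mul]
        rw [c2, ← hR]
        nth_rewrite 2 [← c1]
        rw [← cfc_mul _ _ P (contOn_matrix _ _) (contOn_matrix _ _),
          ← cfc_mul _ _ P (contOn_matrix _ _) (contOn_matrix _ _)]
        congr 1
        funext x
        ring
      have b3 := congrArg (fun M => (Matrix.trace M).re) b2
      simp only [Matrix.trace_sub, Matrix.trace_smul, smul_eq_mul, Complex.sub_re,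
        Complex.re_ofReal_mul] at b3
      rw [b3, trace_cfc hP.1, Complex.ofReal_re]
    have e5 : ((P * κ + κ * P - P * P) * (Rs P t * κ⁻¹ * Rs P t)).trace.re =
        2 * ((Rs P t).trace.re - t * (κ⁻¹ * Rs P t * κ * Rs P t).trace.re) -
        (P * P * (Rs P t * κ⁻¹ * Rs P t)).trace.re := by
      rw [Matrix.sub_mul, Matrix.trace_sub, e1, Complex.sub_re, Complex.sub_re]
      have : (2 * (Rs P t).trace).re = 2 * (Rs P t).trace.re := by simp
      have h2' : (2 * (t : ℂ) * (κ⁻¹ * Rs P t * κ * Rs P t).trace).re =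
          2 * t * (κ⁻¹ * Rs P t * κ * Rs P t).trace.re := by
        rw [show (2 * (t:ℂ)) = ((2 * t : ℝ) : ℂ) by push_cast; ring, Complex.re_ofReal_mul]
      rw [this, h2']
      ring
    rw [e5, e2, Finset.sum_sub_distrib, ← Finset.mul_sum, ← e4]
    have := mul_le_mul_of_nonneg_left e3 ht'.le
    linarith
  have hi : ∀ i, IntegrableOn (fun t : ℝ =>
      (2 * (hP.1.eigenvalues i * ((hP.1.eigenvalues i + t)⁻¹) ^ 2) -
        (hP.1.eigenvalues i ^ 2 * ((hP.1.eigenvalues i + t)⁻¹) ^ 2) * cf i)) (Ioi 0) := by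
    intro i
    have h1 := integrable_inv_sq (hP.eigenvalues_pos i)
    have h2 := h1.const_mul (2 * hP.1.eigenvalues i - hP.1.eigenvalues i ^ 2 * cf i)
    refine h2.congr ?_
    filter_upwards with t
    ring
  calc ∫ t in Ioi (0:ℝ), ((P * κ + κ * P - P * P) * (Rs P t * κ⁻¹ * Rs P t)).trace.re
      ≤ ∫ t in Ioi (0:ℝ), ∑ i, (2 * (hP.1.eigenvalues i * ((hP.1.eigenvalues i + t)⁻¹) ^ 2) -
        (hP.1.eigenvalues i ^ 2 * ((hP.1.eigenvalues i + t)⁻¹) ^ 2) * cf i) := by
        refine setIntegral_mono_on hint ?_ measurableSet_Ioi hpt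
        exact integrable_finsetSum _ fun i _ => hi i
    _ = ∑ i, (2 - hP.1.eigenvalues i * cf i) := by
        rw [integral_finsetSum _ fun i _ => hi i]
        refine Finset.sum_congr rfl fun i _ => ?_
        have hx := hP.eigenvalues_pos i
        have e : ∀ t : ℝ, (2 * (hP.1.eigenvalues i * ((hP.1.eigenvalues i + t)⁻¹) ^ 2) -
            (hP.1.eigenvalues i ^ 2 * ((hP.1.eigenvalues i + t)⁻¹) ^ 2) * cf i) =
            (2 * hP.1.eigenvalues i - hP.1.eigenvalues i ^ 2 * cf i) *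
              ((hP.1.eigenvalues i + t)⁻¹) ^ 2 := fun t => by ring
        simp only [e]
        rw [integral_const_mul, integral_inv_sq hx]
        field_simp
    _ = _ := by
        have e : (κ⁻¹ * P).trace.re = ∑ i, hP.1.eigenvalues i * cf i := by
          have c1 : cfc (fun x : ℝ => x) P = P := cfc_id' ℝ P (ha := hP.1)
          nth_rewrite 1 [← c1]
          rw [trace_mul_cfc hP.1]
        rw [e, Finset.sum_sub_distrib]
        simp [mul_comm]

end Vale.P371
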