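import Vale.Agent.P371.GStat

/-!
# P371, general `γ`: module DOUBLY
-/

namespace LTG

open Matrix Filter MeasureTheory
open scoped ComplexOrder Topology ComplexConjugate

theorem doubly : S_DOUBLY := by
  intro n κ hκ
  classical
  have hH : κ.IsHermitian := hκ.1
  let U : Matrix (Fin n) (Fin n) ℂ := (hH.eigenvectorUnitary : Matrix (Fin n) (Fin n) ℂ)
  have hU1 : star U * U = 1 := Unitary.coe_star_mul_self hH.eigenvectorUnitary
  have hU2 : U * star U = 1 := Unitary.coe_mul_star_self hH.eigenvectorUnitary
  have hspec : κ = U * diagonal (RCLike.ofReal ∘ hH.eigenvalues) * star U := by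
    have := hH.spectral_theorem
    rw [Unitary.conjStarAlgAut_apply] at this
    exact this
  refine ⟨hH.eigenvalues, fun a j => ‖U j a‖ ^ 2, ?_, ?_, ?_, ?_, ?_, ?_, ?_⟩
  · exact fun a => hκ.eigenvalues_nonneg a
  · intro a j; positivity
  · intro a
    have h := congrFun (congrFun hU1 a) a
    rw [Matrix.mul_apply, Matrix.one_apply_eq] at h
    have h2 : ∀ j, (star U) a j * U j a = ((‖U j a‖ ^ 2 : ℝ) : ℂ) := by
      intro j
      rw [Matrix.star_apply, RCLike.star_def, RCLike.conj_mul]
      push_cast
      rfl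
    rw [Finset.sum_congr rfl (fun j _ => h2 j)] at h
    exact_mod_cast h
  · intro j
    have h := congrFun (congrFun hU2 j) j
    rw [Matrix.mul_apply, Matrix.one_apply_eq] at h
    have h2 : ∀ a, U j a * (star U) a j = ((‖U j a‖ ^ 2 : ℝ) : ℂ) := by
      intro a
      rw [Matrix.star_apply, RCLike.star_def, RCLike.mul_conj]
      push_cast
      rfl
    rw [Finset.sum_congr rfl (fun a _ => h2 a)] at h
    exact_mod_cast h
  · intro p
    rw [tp, dif_pos hH]
  · rw [hH.trace_eq_sum_eigenvalues]
    simp
  · intro d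
    have hsq : κ * κ = U * diagonal (fun a => ((hH.eigenvalues a ^ 2 : ℝ) : ℂ)) * star U := by
      have h1 : κ * κ = U * diagonal (RCLike.ofReal ∘ hH.eigenvalues) * star U *
          (U * diagonal (RCLike.ofReal ∘ hH.eigenvalues) * star U) := by
        rw [← hspec]
      have h2 : U * diagonal (RCLike.ofReal ∘ hH.eigenvalues) * star U *
          (U * diagonal (RCLike.ofReal ∘ hH.eigenvalues) * star U)
          = U * diagonal (RCLike.ofReal ∘ hH.eigenvalues) * (star U * U) *
            (diagonal (RCLike.ofReal ∘ hH.eigenvalues) * star U) := by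
        simp only [Matrix.mul_assoc]
      rw [h1, h2, hU1, Matrix.mul_one, Matrix.mul_assoc, ← Matrix.mul_assoc (diagonal _) (diagonal _),
        diagonal_mul_diagonal, ← Matrix.mul_assoc]
      congr 3
      funext a
      simp [pow_two]
    have hdiag : ∀ j, (κ * κ) j j = ∑ a, ((‖U j a‖ ^ 2 * hH.eigenvalues a ^ 2 : ℝ) : ℂ) := by
      intro j
      rw [hsq, Matrix.mul_apply]
      apply Finset.sum_congr rfl
      intro a _
      rw [Matrix.mul_diagonal, Matrix.star_apply, RCLike.star_def]
      have : U j a * (starRingEnd ℂ) (U j a) = ((‖U j a‖ ^ 2 : ℝ) : ℂ) := by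
        rw [RCLike.mul_conj]; push_cast; rfl
      calc U j a * ((hH.eigenvalues a ^ 2 : ℝ) : ℂ) * (starRingEnd ℂ) (U j a)
          = (U j a * (starRingEnd ℂ) (U j a)) * ((hH.eigenvalues a ^ 2 : ℝ) : ℂ) := by ring
        _ = _ := by rw [this]; push_cast; ring
    rw [Matrix.trace]
    simp only [Matrix.diag_apply, Matrix.mul_diagonal, hdiag]
    rw [Finset.sum_comm' (t' := Finset.univ) (s' := fun _ => Finset.univ) (by simp)]
    rw [Complex.re_sum]
    apply Finset.sum_congr rfl
    intro j _
    rw [← Complex.ofReal_sum, ← Complex.ofReal_mul, Complex.ofReal_re, Finset.sum_mul]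
    apply Finset.sum_congr rfl
    intro a _
    ring

end LTG
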