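import Vale.Agent.P371.GStat

/-!
# P371, general `γ`: module ESC
-/

namespace LTG

open Filter MeasureTheory
open scoped Topology

theorem Bs_pos' (s : ℝ) (hs : 0 < s) : 0 < Bs s := by
  unfold Bs
  apply intervalIntegral.intervalIntegral_pos_of_pos_on
  · apply Continuous.intervalIntegrable
    apply Continuous.rpow_const (by fun_prop)
    intro x; right; exact hs.le
  · intro x hx
    apply Real.rpow_pos_of_pos
    have h1 : x < 1 := hx.2
    have h2 : -1 < x := hx.1
    nlinarith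
  · norm_num

theorem esc : S_ESC := by
  intro s hs1 hs2
  have hs0 : 0 < s := by linarith
  have hB := Bs_pos' s hs0
  refine ⟨hB, ?_⟩
  intro y τ hy hτ
  set B := Bs s with hBdef
  set A : ℝ := (s + 1 / 2) * B * y ^ (2 * s - 1) with hA
  have hA0 : 0 < A := by positivity
  set M : ℝ := ((A + 3) / B) ^ (1 / (2 * s - 1)) with hM
  have hM0 : 0 < M := by positivity
  have h2s : 0 < 2 * s - 1 := by linarith
  have hMp : M ^ (2 * s - 1) = (A + 3) / B := by
    rw [hM, ← Real.rpow_mul (by positivity), one_div, inv_mul_cancel₀ h2s.ne', Real.rpow_one]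
  -- Young
  have young : ∀ x : ℝ, 0 ≤ x → A * x ^ 2 ≤ B * x ^ (2 * s + 1) + (s - 1 / 2) * B * y ^ (2 * s + 1) := by
    intro x hx
    have hp : 0 < 2 * s + 1 := by linarith
    have h := Real.geom_mean_le_arith_mean2_weighted (w₁ := 2 / (2 * s + 1))
      (w₂ := (2 * s - 1) / (2 * s + 1)) (p₁ := x ^ (2 * s + 1)) (p₂ := y ^ (2 * s + 1))
      (by positivity) (by positivity) (by positivity) (by positivity) (by field_simp; ring)
    have e1 : (x ^ (2 * s + 1)) ^ (2 / (2 * s + 1)) = x ^ 2 := by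
      rw [← Real.rpow_mul hx, mul_div_cancel₀ _ hp.ne']
      norm_num
    have e2 : (y ^ (2 * s + 1)) ^ ((2 * s - 1) / (2 * s + 1)) = y ^ (2 * s - 1) := by
      rw [← Real.rpow_mul hy.le, mul_div_cancel₀ _ hp.ne']
    rw [e1, e2] at h
    have h2 := mul_le_mul_of_nonneg_left h (show 0 ≤ (s + 1 / 2) * B by positivity)
    calc A * x ^ 2 = (s + 1 / 2) * B * (x ^ 2 * y ^ (2 * s - 1)) := by rw [hA]; ring
      _ ≤ _ := h2
      _ = _ := by field_simp
  refine ⟨min 1 (τ / (2 + 3 * M ^ 2)), by positivity, ?_⟩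
  intro η d x hη0 hη hd0 hd hx
  have he1 := min_le_left (1 : ℝ) (τ / (2 + 3 * M ^ 2))
  have he2 := min_le_right (1 : ℝ) (τ / (2 + 3 * M ^ 2))
  set e : ℝ := min 1 (τ / (2 + 3 * M ^ 2)) with he
  have he0 : 0 < e := by positivity
  have he3 : e * (2 + 3 * M ^ 2) ≤ τ := by
    rwa [le_div_iff₀ (by positivity)] at he2
  have hx2s : x ^ (2 * s) ≤ 1 + x ^ 2 := by
    rcases le_total x 1 with h | h
    · have : x ^ (2 * s) ≤ 1 := Real.rpow_le_one hx h (by linarith)
      nlinarith [sq_nonneg x]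
    · have : x ^ (2 * s) ≤ x ^ (2 : ℝ) := Real.rpow_le_rpow_of_exponent_le h (by linarith)
      rw [Real.rpow_two] at this
      linarith
  have hx1 : x ≤ 1 + x ^ 2 := by nlinarith [sq_nonneg (x - 1)]
  have hx2s0 : 0 ≤ x ^ (2 * s) := by positivity
  have p1 : η * x ^ (2 * s) ≤ e * (1 + x ^ 2) := mul_le_mul hη hx2s hx2s0 he0.le
  have p2 : d * x ^ 2 ≤ e * x ^ 2 := mul_le_mul_of_nonneg_right hd (by positivity)
  have p3 : d * x ≤ e * (1 + x ^ 2) := mul_le_mul hd hx1 hx he0.le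
  have p4 : η * x ^ (2 * s) + d * x ^ 2 + d * x ≤ e * (2 + 3 * x ^ 2) := by linarith
  have hy0 : 0 < (s - 1 / 2) * B * y ^ (2 * s + 1) := by
    have : 0 < s - 1 / 2 := by linarith
    positivity
  rcases le_total x M with h | h
  · have h1 := young x hx
    have h2 : e * (2 + 3 * x ^ 2) ≤ e * (2 + 3 * M ^ 2) := by gcongr
    linarith
  · have hx0 : 0 < x := lt_of_lt_of_le hM0 h
    have h1 : (A + 3) / B ≤ x ^ (2 * s - 1) := by
      rw [← hMp]
      exact Real.rpow_le_rpow hM0.le h h2s.le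
    rw [div_le_iff₀ hB] at h1
    have h3 : x ^ (2 * s + 1) = x ^ (2 * s - 1) * x ^ 2 := by
      rw [← Real.rpow_two, ← Real.rpow_add hx0]
      congr 1; ring
    have h4 : (A + 3) * x ^ 2 ≤ B * x ^ (2 * s + 1) := by
      rw [h3]
      nlinarith [sq_nonneg x]
    have h5 : e * (2 + 3 * x ^ 2) ≤ 2 * e + 3 * x ^ 2 := by nlinarith [sq_nonneg x]
    have h6 : 2 * e ≤ τ := by nlinarith [sq_nonneg M]
    linarith

end LTG
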