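import Mathlib
import Vale.Agent.P371.GArg
import Vale.Agent.P371.GStat

/-!
# P371, `γ ∈ (1, 3/2)`: statements of the consumer side, second part
-/

namespace LTG

open Matrix Set Filter MeasureTheory
open scoped ComplexOrder Topology ComplexConjugate

/-- Module POW: matrix powers. -/
def S_POW : Prop := ∀ (n : ℕ) (s : ℝ) (X : Matrix (Fin n) (Fin n) ℂ), 0 < s → X.PosSemidef →
  ∃ Y : Matrix (Fin n) (Fin n) ℂ, Y.PosSemidef ∧ ((X * Y).trace).re = tp (1 + 1 / s) X ∧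
    tp (1 + s) Y = tp (1 + 1 / s) X

/-- Module TPC: continuity of `tr (A ^ p)`. -/
def S_TPC : Prop := ∀ (n : ℕ) (p : ℝ) (A : ℝ → Matrix (Fin n) (Fin n) ℂ), 0 < p →
  Continuous A → (∀ x, (A x).PosSemidef) → Continuous fun x => tp p (A x)

/-- Module INC: the basic increment inequality. -/
def S_INC : Prop := ∀ (n m : ℕ) (u g : Fin n → Fin m → ℝ → ℂ) (Q k : Matrix (Fin n) (Fin n) ℂ)
  (x y : ℝ), Vale.P371.Fam u g → Q.IsHermitian → k.IsHermitian → x ≤ y →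
  (((Vale.P371.Xm u y - Vale.P371.Xm u x) * (k - Q)).trace).re
    - ((k * k * (Vale.P371.MS u (Iic y) - Vale.P371.MS u (Iic x))).trace).re
    ≤ (∫ t in x..y, ∑ c, ∑ i, ‖g i c t‖ ^ 2)
      - ((Am Q k * (Vale.P371.MS u (Iic y) - Vale.P371.MS u (Iic x))).trace).re

/-- The path inequality. -/
def Path (s : ℝ) : Prop := ∀ (n m : ℕ) (C : Fun s (Fin n)) (u g : Fin n → Fin m → ℝ → ℂ) (d : ℝ),
  0 < d → Vale.P371.Fam u g → ∃ T : ℝ, ∀ e a b : ℝ, 0 < e → e ≤ 1 → a ≤ b →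
    ∃ Q : Matrix (Fin n) (Fin n) ℂ, Q.PosSemidef ∧ ∀ η : ℝ, 0 < η →
      Sig C e (Vale.P371.Xm u b) ((d : ℂ) • 1 + Vale.P371.MS u (Iic b)) Q
          ((1 / 2 : ℂ) • (Q + (η : ℂ) • 1))
        + ∫ x in a..b, tp (1 + 1 / s) (Vale.P371.Xm u x)
      ≤ n * ((Vale.P371.Xm u a).trace.re + 2 * e * n) ^ 2 / (4 * d)
        + (∫ x in a..b, ∑ c, ∑ i, ‖g i c x‖ ^ 2) + e * T * (b - a)

/-- Module KIN: the kinetic inequality from the path inequality. -/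
def S_KIN : Prop := ∀ s : ℝ, 1 / 2 < s → s < 1 → (∀ n : ℕ, Nonempty (Fun s (Fin n))) →
  Path s → KinG s

end LTG
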