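import Mathlib
import Vale.Agent.P371.GStat2

/-! # P371, `γ ∈ (1, 3/2)`, module INC: the basic increment inequality -/

namespace LTG

open Matrix Set Filter MeasureTheory
open scoped ComplexOrder Topology ComplexConjugate

namespace Inc

open Vale.P371

variable {n m : ℕ}

/-- The pointwise inequality. -/
lemma pointwise (U G : Matrix (Fin n) (Fin m) ℂ) {F : Matrix (Fin n) (Fin n) ℂ}
    (hF : F.IsHermitian) :
    (((G * Uᴴ + U * Gᴴ) * F).trace).re ≤ ((Gᴴ * G).trace).re + ((F * F * (U * Uᴴ)).trace).re := by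
  have h0 : 0 ≤ (((G - F * U)ᴴ * (G - F * U)).trace).re := by
    have := (Matrix.posSemidef_conjTranspose_mul_self (G - F * U)).trace_nonneg
    exact (Complex.le_def.mp this).1
  have e0 : ((G - F * U)ᴴ * (G - F * U)).trace = (Gᴴ * G).trace -
      ((G * Uᴴ + U * Gᴴ) * F).trace + (F * F * (U * Uᴴ)).trace := by
    rw [Matrix.conjTranspose_sub, Matrix.conjTranspose_mul, hF.eq]
    have a1 : (Uᴴ * F * G).trace = (G * Uᴴ * F).trace := by
      rw [Matrix.trace_mul_comm, ← Matrix.mul_assoc]
    have a2 : (Gᴴ * (F * U)).trace = (U * Gᴴ * F).trace := by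
      rw [← Matrix.mul_assoc, Matrix.trace_mul_comm, ← Matrix.mul_assoc]
    have a3 : (Uᴴ * F * (F * U)).trace = (F * F * (U * Uᴴ)).trace := by
      rw [Matrix.mul_assoc, Matrix.trace_mul_comm]
      simp only [Matrix.mul_assoc]
    rw [Matrix.sub_mul, Matrix.mul_sub, Matrix.mul_sub, Matrix.trace_sub, Matrix.trace_sub,
      Matrix.trace_sub, a1, a2, a3, Matrix.add_mul, Matrix.trace_add]
    ring
  rw [e0] at h0
  simp only [Complex.add_re, Complex.sub_re] at h0
  linarith

end Inc

theorem inc : S_INC := by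
  intro n m u g Q k x y h hQ hk hxy
  have hF : (k - Q).IsHermitian := hk.sub hQ
  have p1 := ((h.primX.mul (Vale.P371.PrimM.const (k - Q))).trace).clm Complex.reCLM
  have p2 := (((Vale.P371.PrimM.const (k * k)).mul h.primMS).trace).clm Complex.reCLM
  have p3 := (((Vale.P371.PrimM.const (Am Q k)).mul h.primMS).trace).clm Complex.reCLM
  simp only [Matrix.mul_zero, Matrix.zero_mul, add_zero, zero_add, Complex.reCLM_apply] at p1 p2 p3
  have hkin : Integrable (fun x => ∑ c, ∑ i, ‖g i c x‖ ^ 2) :=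
    integrable_finsetSum _ (fun c _ => integrable_finsetSum _ (fun i _ => h.int_sq i c))
  have e1 : (((Vale.P371.Xm u y - Vale.P371.Xm u x) * (k - Q)).trace).re
      = ∫ t in x..y, ((Vale.P371.Xd u g t * (k - Q)).trace).re := by
    rw [← p1.sub_eq x y, Matrix.sub_mul, Matrix.trace_sub, Complex.sub_re]
  have e2 : ((k * k * (Vale.P371.MS u (Iic y) - Vale.P371.MS u (Iic x))).trace).re
      = ∫ t in x..y, ((k * k * Vale.P371.Xm u t).trace).re := by
    rw [← p2.sub_eq x y, Matrix.mul_sub, Matrix.trace_sub, Complex.sub_re]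
  have e3 : ((Am Q k * (Vale.P371.MS u (Iic y) - Vale.P371.MS u (Iic x))).trace).re
      = ∫ t in x..y, ((Am Q k * Vale.P371.Xm u t).trace).re := by
    rw [← p3.sub_eq x y, Matrix.mul_sub, Matrix.trace_sub, Complex.sub_re]
  rw [e1, e2, e3, ← intervalIntegral.integral_sub (p1.intervalIntegrable _ _)
    (p2.intervalIntegrable _ _), ← intervalIntegral.integral_sub hkin.intervalIntegrable
    (p3.intervalIntegrable _ _)]
  apply intervalIntegral.integral_mono_on hxy
  · exact (p1.intervalIntegrable _ _).sub (p2.intervalIntegrable _ _)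
  · exact hkin.intervalIntegrable.sub (p3.intervalIntegrable _ _)
  · intro t _
    have h1 := Inc.pointwise (Vale.P371.Um u t) (Vale.P371.Um g t) hF
    rw [Vale.P371.Fam.kin_eq] at h1
    have h2 : (k - Q) * (k - Q) * Vale.P371.Xm u t
        = k * k * Vale.P371.Xm u t - Am Q k * Vale.P371.Xm u t := by
      rw [← Matrix.sub_mul]
      congr 1
      unfold Am
      noncomm_ring
    have h3 : ((k - Q) * (k - Q) * (Vale.P371.Um u t * (Vale.P371.Um u t)ᴴ)).trace.re
        = ((k * k * Vale.P371.Xm u t).trace).re - ((Am Q k * Vale.P371.Xm u t).trace).re := by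
      rw [← Complex.sub_re, ← Matrix.trace_sub, ← h2]
      rfl
    rw [h3] at h1
    have h4 : ((Vale.P371.Xd u g t * (k - Q)).trace).re
        = (((Vale.P371.Um g t * (Vale.P371.Um u t)ᴴ + Vale.P371.Um u t * (Vale.P371.Um g t)ᴴ)
          * (k - Q)).trace).re := rfl
    rw [h4]
    linarith

end LTG
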