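import Mathlib
import Vale.Agent.P371.MFam

/-! # P371: measurability of `tr f(W)` and the Aizenman-Lieb lift for matrix potentials -/

namespace LTM

open MeasureTheory Set Filter Matrix Polynomial
open scoped ComplexConjugate ENNReal Topology ComplexOrder

variable {m n : ℕ}

lemma trace_pow {A : Matrix (Fin m) (Fin m) ℂ} (hA : A.IsHermitian) (k : ℕ) :
    (A ^ k).trace = ((∑ i, hA.eigenvalues i ^ k : ℝ) : ℂ) := by
  obtain ⟨P, h1, h2, hP⟩ := exists_unitary hA
  have key : ∀ k : ℕ, A ^ k = P * diagonal (fun a => ((hA.eigenvalues a ^ k : ℝ) : ℂ)) * Pᴴ := by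
    intro k
    induction k with
    | zero => simp [h2]
    | succ k ih =>
      rw [pow_succ, ih]
      refine (congrArg (fun B => P * diagonal (fun a => ((hA.eigenvalues a ^ k : ℝ) : ℂ)) * Pᴴ
        * B) hP).trans ?_
      calc P * diagonal (fun a => ((hA.eigenvalues a ^ k : ℝ) : ℂ)) * Pᴴ
            * (P * diagonal (fun a => ((hA.eigenvalues a : ℝ) : ℂ)) * Pᴴ)
          = P * diagonal (fun a => ((hA.eigenvalues a ^ k : ℝ) : ℂ)) * (Pᴴ * P)
            * diagonal (fun a => ((hA.eigenvalues a : ℝ) : ℂ)) * Pᴴ := by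
            simp only [Matrix.mul_assoc]
        _ = P * (diagonal (fun a => ((hA.eigenvalues a ^ k : ℝ) : ℂ))
            * diagonal (fun a => ((hA.eigenvalues a : ℝ) : ℂ))) * Pᴴ := by
            rw [h1]; simp only [Matrix.mul_one, Matrix.mul_assoc]
        _ = _ := by
            rw [Matrix.diagonal_mul_diagonal]
            congr 3
            funext a
            push_cast
            ring
  rw [key k, Matrix.mul_assoc, Matrix.trace_mul_comm, Matrix.mul_assoc, h1, Matrix.mul_one]
  simp [trace]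

lemma measurable_trace_pow {W : ℝ → Matrix (Fin m) (Fin m) ℂ}
    (hm : ∀ c d, Measurable fun x => W x c d) (k : ℕ) :
    ∀ c d, Measurable fun x => (W x ^ k) c d := by
  induction k with
  | zero =>
    intro c d
    simp only [pow_zero]
    exact measurable_const
  | succ k ih =>
    intro c d
    simp only [pow_succ, Matrix.mul_apply]
    exact Finset.measurable_fun_sum _ fun e _ => (ih c e).mul (hm e d)

lemma measurable_specSum {f : ℝ → ℝ} (hf : Continuous f) {W : ℝ → Matrix (Fin m) (Fin m) ℂ}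
    (hm : ∀ c d, Measurable fun x => W x c d) (hH : ∀ x, (W x).IsHermitian) :
    Measurable fun x => specSum f (W x) := by
  have hex : ∀ k : ℕ, ∃ p : ℝ[X], ∀ y ∈ Icc (-(k : ℝ)) k, |p.eval y - f y| < 1 / ((k : ℝ) + 1) :=
    fun k => exists_polynomial_near_of_continuousOn _ _ f hf.continuousOn _ (by positivity)
  choose p hp using hex
  have hmeas : ∀ k, Measurable fun x => ∑ i, (p k).eval ((hH x).eigenvalues i) := by
    intro k
    have e : ∀ x, ∑ i, (p k).eval ((hH x).eigenvalues i)
        = ∑ j ∈ Finset.range ((p k).natDegree + 1), (p k).coeff j * ((W x ^ j).trace).re := by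
      intro x
      simp only [Polynomial.eval_eq_sum_range, trace_pow (hH x), Complex.ofReal_re]
      rw [Finset.sum_comm]
      exact Finset.sum_congr rfl fun j _ => by rw [Finset.mul_sum]
    simp only [e]
    refine Finset.measurable_fun_sum _ fun j _ => Measurable.const_mul ?_ _
    refine Complex.measurable_re.comp ?_
    simp only [trace, diag]
    exact Finset.measurable_fun_sum _ fun c _ => measurable_trace_pow hm j c c
  refine measurable_of_tendsto_metrizable hmeas (tendsto_pi_nhds.mpr fun x => ?_)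
  rw [specSum_eq (hH x)]
  refine tendsto_finsetSum _ fun i _ => ?_
  rw [tendsto_iff_dist_tendsto_zero]
  obtain ⟨K, hK⟩ := exists_nat_ge |(hH x).eigenvalues i|
  refine squeeze_zero' (Eventually.of_forall fun _ => dist_nonneg) ?_
    tendsto_one_div_add_atTop_nhds_zero_nat
  filter_upwards [eventually_ge_atTop K] with k hk
  have h1 : |(hH x).eigenvalues i| ≤ k := hK.trans (by exact_mod_cast hk)
  rw [Real.dist_eq]
  exact (hp k _ (abs_le.mp h1)).le

/-- Scalar computation behind the lift. -/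
lemma lift_cl {γ w : ℝ} (hγ : 1 < γ) (hw : 0 ≤ w) :
    ∫⁻ t in Ioi (0 : ℝ), ENNReal.ofReal (t ^ (γ - 2)
        * (LT1.Lcl 1 * (max (w - t) 0) ^ ((1 : ℝ) + 1 / 2)))
      = ENNReal.ofReal (LT1.Lcl γ * w ^ (γ + 1 / 2) / (γ * (γ - 1))) := by
  have hγ0 : 0 < γ := by linarith
  have e1 : ∀ t ∈ Ioi (0 : ℝ), ENNReal.ofReal (t ^ (γ - 2)
        * (LT1.Lcl 1 * (max (w - t) 0) ^ ((1 : ℝ) + 1 / 2)))
      = ENNReal.ofReal (1 / (2 * Real.pi)) * ∫⁻ ξ : ℝ,
          ENNReal.ofReal (t ^ (γ - 2) * max (max (w - ξ ^ 2) 0 - t) 0) := by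
    intro t ht
    have htp : 0 ≤ t ^ (γ - 2) := Real.rpow_nonneg (le_of_lt ht) _
    rw [ENNReal.ofReal_mul htp, LT1.cl_lintegral one_pos (le_max_right _ _), ← mul_assoc,
      mul_comm (ENNReal.ofReal (t ^ (γ - 2))), mul_assoc]
    congr 1
    rw [← lintegral_const_mul' _ _ ENNReal.ofReal_ne_top]
    refine lintegral_congr fun ξ => ?_
    rw [← ENNReal.ofReal_mul htp, Real.rpow_one]
    congr 2
    have hξ := sq_nonneg ξ
    have ht0 : 0 < t := ht
    rcases le_total (w - t) 0 with h1 | h1
    · rw [max_eq_right h1, max_eq_right (by linarith : (0 : ℝ) - ξ ^ 2 ≤ 0)]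
      symm
      apply max_eq_right
      rcases le_total (w - ξ ^ 2) 0 with h2 | h2
      · rw [max_eq_right h2]; linarith
      · rw [max_eq_left h2]; linarith
    · rw [max_eq_left h1]
      rcases le_total (w - ξ ^ 2) 0 with h2 | h2
      · rw [max_eq_right h2, max_eq_right (by linarith), max_eq_right (by linarith)]
      · rw [max_eq_left h2]; congr 1; ring
  rw [setLIntegral_congr_fun measurableSet_Ioi e1,
    lintegral_const_mul' _ _ ENNReal.ofReal_ne_top, lintegral_lintegral_swap]
  · have e2 : ∀ ξ : ℝ, ∫⁻ t in Ioi (0 : ℝ),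
        ENNReal.ofReal (t ^ (γ - 2) * max (max (w - ξ ^ 2) 0 - t) 0)
        = ENNReal.ofReal ((max (w - ξ ^ 2) 0) ^ γ)
          * ENNReal.ofReal (1 / (γ * (γ - 1))) := by
      intro ξ
      rw [LT1.lintegral_lift hγ (le_max_right _ _), ← ENNReal.ofReal_mul
        (Real.rpow_nonneg (le_max_right _ _) _)]
      congr 1; ring
    simp only [e2]
    rw [lintegral_mul_const' _ _ ENNReal.ofReal_ne_top, ← mul_assoc,
      ← LT1.cl_lintegral hγ0 hw, ← ENNReal.ofReal_mul
        (mul_nonneg (LT1.Lcl_nonneg γ) (Real.rpow_nonneg hw _))]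
    congr 1; ring
  · have h2 : Measurable fun p : ℝ × ℝ => ENNReal.ofReal (p.1 ^ (γ - 2)
      * max (max (w - p.2 ^ 2) 0 - p.1) 0) := by fun_prop
    exact h2.aemeasurable

lemma IsBoundState.form {W : ℝ → Matrix (Fin m) (Fin m) ℂ} {lam : ℝ} {u g : ℝ → Fin m → ℂ}
    (h : IsBoundState W lam u g) (hp : ∀ x, (W x).PosSemidef)
    (h1 : ∫ x, pair (u x) (u x) = 1) :
    (∑ c, ∫ x, ‖g x c‖ ^ 2) - ∫ x, (pair ((W x).mulVec (u x)) (u x)).re = lam := by
  have e := h.eqn u g h.isH1
  rw [h1] at e
  have e1 : (∫ x, pair (g x) (g x)) = ((∑ c, ∫ x, ‖g x c‖ ^ 2 : ℝ) : ℂ) := by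
    rw [← integral_finsetSum _ fun c _ =>
      (memLp_two_iff_integrable_sq_norm (h.isH1.memLp' c).1).mp (h.isH1.memLp' c),
      ← integral_complex_ofReal]
    congr 1; funext x
    exact pair_self _
  have e2 : (∫ x, pair ((W x).mulVec (u x)) (u x))
      = ((∫ x, (pair ((W x).mulVec (u x)) (u x)).re : ℝ) : ℂ) := by
    rw [← integral_complex_ofReal]
    congr 1; funext x
    have h2 := (hp x).dotProduct_mulVec_nonneg (u x)
    have e3 : star (u x) ⬝ᵥ (W x *ᵥ u x) = pair ((W x).mulVec (u x)) (u x) := by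
      simp only [pair, dotProduct, Pi.star_apply, RCLike.star_def]
      exact Finset.sum_congr rfl fun c _ => mul_comm _ _
    rw [e3] at h2
    apply Complex.ext
    · simp
    · simpa using (Complex.le_def.mp h2).2.symm
  rw [e1, e2, mul_one] at e
  exact_mod_cast e

lemma cut_continuous (t : ℝ) :
    Continuous fun w : ℝ => (max (w - t) 0) ^ ((1 : ℝ) + 1 / 2) :=
  ((continuous_id.sub continuous_const).max continuous_const).rpow_const
    fun _ => Or.inr (by norm_num)

lemma cut_integrable {γ t : ℝ} (hγ : 1 ≤ γ) (ht : 0 < t)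
    {W : ℝ → Matrix (Fin m) (Fin m) ℂ} (hW : IsPotential γ W) :
    Integrable fun x => specSum (fun w => (max (w - t) 0) ^ ((1 : ℝ) + 1 / 2)) (W x) := by
  refine (hW.integrable.const_mul (t ^ (1 - γ))).mono
    (measurable_specSum (cut_continuous t) hW.measurable
      fun x => (hW.posSemidef x).isHermitian).aestronglyMeasurable
    (Eventually.of_forall fun x => ?_)
  have hH := (hW.posSemidef x).isHermitian
  rw [trPow_eq, specSum_eq hH, specSum_eq hH, Finset.mul_sum]
  have h0 : ∀ i, 0 ≤ hH.eigenvalues i := fun i => (hW.posSemidef x).eigenvalues_nonneg i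
  rw [Real.norm_of_nonneg (Finset.sum_nonneg fun i _ => Real.rpow_nonneg (le_max_right _ _) _),
    Real.norm_of_nonneg (Finset.sum_nonneg fun i _ =>
      mul_nonneg (Real.rpow_nonneg ht.le _) (Real.rpow_nonneg (h0 i) _))]
  exact Finset.sum_le_sum fun i _ => LT1.cut_le hγ ht (h0 i)

/-- Subfamilies. -/
lemma sum_cut_of_integrable (K : KineticM) {W : ℝ → Matrix (Fin m) (Fin m) ℂ}
    (hm : ∀ c d, Measurable fun x => W x c d) (hp : ∀ x, (W x).PosSemidef) {t : ℝ}
    (hi : Integrable fun x => specSum (fun w => (max (w - t) 0) ^ ((1 : ℝ) + 1 / 2)) (W x))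
    {lam : Fin n → ℝ} {u g : Fin n → ℝ → Fin m → ℂ} (hlam : ∀ j, lam j < 0)
    (h : ∀ j, IsBoundState W (lam j) (u j) (g j)) (ho : IsOrthonormal u) :
    ∑ j, max (|lam j| - t) 0
      ≤ LT1.K0 * ∫ x, specSum (fun w => (max (w - t) 0) ^ ((1 : ℝ) + 1 / 2)) (W x) := by
  classical
  set S : Finset (Fin n) := Finset.univ.filter fun j => t < |lam j| with hS
  let e : Fin S.card ≃ S := S.equivFin.symm
  have ho' : IsOrthonormal (fun i => u (e i)) := by
    intro i j
    rw [ho (e i) (e j)]
    by_cases hij : i = j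
    · rw [if_pos hij, if_pos (by rw [hij])]
    · rw [if_neg hij, if_neg (fun hh => hij (e.injective (Subtype.ext hh)))]
  have hv := variational K hm hp hi (u := fun i => u (e i)) (g := fun i => g (e i))
    (fun i => (h (e i)).isH1) ho'
  have h1 : ∀ j : Fin n, (∫ x, (pair ((W x).mulVec (u j x)) (u j x)).re)
      - ∑ c, ∫ x, ‖g j x c‖ ^ 2 = |lam j| := by
    intro j
    have := (h j).form hp (by simpa using ho j j)
    rw [abs_of_neg (hlam j)]
    linarith
  have h2 : (∑ i, ∫ x, (pair ((W x).mulVec (u (e i) x)) (u (e i) x)).re)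
      - kin (fun i => g (e i)) - t * (S.card : ℝ) = ∑ i : Fin S.card, (|lam (e i)| - t) := by
    rw [kin, ← Finset.sum_sub_distrib, Finset.sum_sub_distrib (f := fun i => |lam (e i)|)]
    simp only [h1, Finset.sum_const, Finset.card_univ, Fintype.card_fin, nsmul_eq_mul]
    ring
  have h3 : ∑ j, max (|lam j| - t) 0 = ∑ i : Fin S.card, (|lam (e i)| - t) := by
    rw [e.sum_comp (fun j : S => |lam j| - t), Finset.sum_coe_sort S (fun j => |lam j| - t), hS,
      Finset.sum_filter]
    refine Finset.sum_congr rfl fun j _ => ?_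
    split_ifs with hj
    · exact max_eq_left (by linarith)
    · exact max_eq_right (by linarith)
  rw [h3, ← h2]
  linarith

/-- `γ = 1`. -/
lemma sum_le_one (K : KineticM) {W : ℝ → Matrix (Fin m) (Fin m) ℂ} (hW : IsPotential 1 W)
    {lam : Fin n → ℝ} {u g : Fin n → ℝ → Fin m → ℂ} (hlam : ∀ j, lam j < 0)
    (h : ∀ j, IsBoundState W (lam j) (u j) (g j)) (ho : IsOrthonormal u) :
    ∑ j, |lam j| ^ (1 : ℝ) ≤ LT1.K0 * ∫ x, trPow ((1 : ℝ) + 1 / 2) (W x) := by
  have e : ∀ x, specSum (fun w => (max (w - 0) 0) ^ ((1 : ℝ) + 1 / 2)) (W x)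
      = trPow ((1 : ℝ) + 1 / 2) (W x) := by
    intro x
    have hH := (hW.posSemidef x).isHermitian
    rw [trPow_eq, specSum_eq hH, specSum_eq hH]
    refine Finset.sum_congr rfl fun i _ => ?_
    rw [sub_zero, max_eq_left ((hW.posSemidef x).eigenvalues_nonneg i)]
  have := sum_cut_of_integrable K hW.measurable hW.posSemidef (t := 0) (by
    simp only [e]; exact hW.integrable) hlam h ho
  simp only [e] at this
  refine le_trans (le_of_eq ?_) this
  refine Finset.sum_congr rfl fun j _ => ?_
  rw [Real.rpow_one, sub_zero, max_eq_left (abs_nonneg _)]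

/-- Aizenman-Lieb lift. -/
lemma sum_lift (K : KineticM) {γ : ℝ} (hγ : 1 < γ) {W : ℝ → Matrix (Fin m) (Fin m) ℂ}
    (hW : IsPotential γ W) {lam : Fin n → ℝ}
    {u g : Fin n → ℝ → Fin m → ℂ} (hlam : ∀ j, lam j < 0)
    (h : ∀ j, IsBoundState W (lam j) (u j) (g j)) (ho : IsOrthonormal u) :
    ENNReal.ofReal (∑ j, |lam j| ^ γ)
      ≤ ENNReal.ofReal (2 / √3 * LT1.Lcl γ)
        * ENNReal.ofReal (∫ x, trPow (γ + 1 / 2) (W x)) := by
  have hγ0 : 0 < γ := by linarith
  have hc : 0 < γ * (γ - 1) := by nlinarith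
  have hH : ∀ x, (W x).IsHermitian := fun x => (hW.posSemidef x).isHermitian
  have hw : ∀ x i, 0 ≤ (hH x).eigenvalues i := fun x i => (hW.posSemidef x).eigenvalues_nonneg i
  have hmeas : Measurable (Function.uncurry fun (t : ℝ) (x : ℝ) =>
      specSum (fun w => (max (w - t) 0) ^ ((1 : ℝ) + 1 / 2)) (W x)) := by
    refine measurable_uncurry_of_continuous_of_measurable (fun x => ?_) fun t =>
      measurable_specSum (cut_continuous t) hW.measurable hH
    simp only [specSum_eq (hH x)]
    refine continuous_finsetSum _ fun i _ => ?_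
    exact ((continuous_const.sub continuous_id).max continuous_const).rpow_const
      fun _ => Or.inr (by norm_num)
  have key : ENNReal.ofReal ((∑ j, |lam j| ^ γ) / (γ * (γ - 1)))
      ≤ ENNReal.ofReal (2 / √3) * ∫⁻ x, ENNReal.ofReal (LT1.Lcl γ * trPow (γ + 1 / 2) (W x)
        / (γ * (γ - 1))) := by
    calc ENNReal.ofReal ((∑ j, |lam j| ^ γ) / (γ * (γ - 1)))
        = ∑ j, ∫⁻ t in Ioi (0 : ℝ), ENNReal.ofReal (t ^ (γ - 2) * max (|lam j| - t) 0) := by
          rw [Finset.sum_div, ENNReal.ofReal_sum_of_nonneg (fun j _ => by positivity)]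
          exact Finset.sum_congr rfl fun j _ => (LT1.lintegral_lift hγ (abs_nonneg _)).symm
      _ = ∫⁻ t in Ioi (0 : ℝ), ∑ j, ENNReal.ofReal (t ^ (γ - 2) * max (|lam j| - t) 0) := by
          rw [lintegral_finsetSum]
          intro j _
          exact ((measurable_id.pow_const _).mul
            ((measurable_const.sub measurable_id).max measurable_const)).ennreal_ofReal
      _ ≤ ∫⁻ t in Ioi (0 : ℝ), ENNReal.ofReal (2 / √3) * ∫⁻ x, ENNReal.ofReal (t ^ (γ - 2)
            * (LT1.Lcl 1 * specSum (fun w => (max (w - t) 0) ^ ((1 : ℝ) + 1 / 2)) (W x))) := by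
          refine setLIntegral_mono' measurableSet_Ioi fun t ht => ?_
          have ht' : 0 < t := ht
          have hi := cut_integrable hγ.le ht' hW
          have hcut := sum_cut_of_integrable K hW.measurable hW.posSemidef hi hlam h ho
          have htp : 0 ≤ t ^ (γ - 2) := by positivity
          have e1 : ∑ j, ENNReal.ofReal (t ^ (γ - 2) * max (|lam j| - t) 0)
              = ENNReal.ofReal (t ^ (γ - 2) * ∑ j, max (|lam j| - t) 0) := by
            rw [Finset.mul_sum, ENNReal.ofReal_sum_of_nonneg]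
            exact fun j _ => mul_nonneg htp (le_max_right _ _)
          have hnn : ∀ x, 0 ≤ specSum (fun w => (max (w - t) 0) ^ ((1 : ℝ) + 1 / 2)) (W x) := by
            intro x
            rw [specSum_eq (hH x)]
            exact Finset.sum_nonneg fun i _ => Real.rpow_nonneg (le_max_right _ _) _
          rw [e1]
          calc ENNReal.ofReal (t ^ (γ - 2) * ∑ j, max (|lam j| - t) 0)
              ≤ ENNReal.ofReal (t ^ (γ - 2) * (LT1.K0 * ∫ x,
                  specSum (fun w => (max (w - t) 0) ^ ((1 : ℝ) + 1 / 2)) (W x))) :=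
                ENNReal.ofReal_le_ofReal (mul_le_mul_of_nonneg_left hcut htp)
            _ = ENNReal.ofReal (2 / √3 * ∫ x, t ^ (γ - 2) * (LT1.Lcl 1
                  * specSum (fun w => (max (w - t) 0) ^ ((1 : ℝ) + 1 / 2)) (W x))) := by
                rw [integral_const_mul, integral_const_mul, LT1.K0_eq]
                congr 1; ring
            _ = _ := by
                rw [ENNReal.ofReal_mul (by positivity),
                  ofReal_integral_eq_lintegral_ofReal ((hi.const_mul _).const_mul _)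
                    (Eventually.of_forall fun x => mul_nonneg htp
                      (mul_nonneg (LT1.Lcl_nonneg 1) (hnn x)))]
      _ = ENNReal.ofReal (2 / √3) * ∫⁻ x, ∫⁻ t in Ioi (0 : ℝ), ENNReal.ofReal (t ^ (γ - 2)
            * (LT1.Lcl 1 * specSum (fun w => (max (w - t) 0) ^ ((1 : ℝ) + 1 / 2)) (W x))) := by
          rw [lintegral_const_mul' _ _ ENNReal.ofReal_ne_top, lintegral_lintegral_swap]
          have h3 : Measurable fun p : ℝ × ℝ => ENNReal.ofReal (p.1 ^ (γ - 2)
              * (LT1.Lcl 1 * specSum (fun w => (max (w - p.1) 0) ^ ((1 : ℝ) + 1 / 2))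
                (W p.2))) :=
            ((measurable_fst.pow_const _).mul (hmeas.const_mul _)).ennreal_ofReal
          exact h3.aemeasurable
      _ = _ := by
          congr 1
          refine lintegral_congr fun x => ?_
          rw [trPow_eq, specSum_eq (hH x)]
          simp only [specSum_eq (hH x)]
          have e2 : ∀ t ∈ Ioi (0 : ℝ), ENNReal.ofReal (t ^ (γ - 2) * (LT1.Lcl 1
                * ∑ i, (max ((hH x).eigenvalues i - t) 0) ^ ((1 : ℝ) + 1 / 2)))
              = ∑ i, ENNReal.ofReal (t ^ (γ - 2) * (LT1.Lcl 1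
                * (max ((hH x).eigenvalues i - t) 0) ^ ((1 : ℝ) + 1 / 2))) := by
            intro t ht
            rw [← ENNReal.ofReal_sum_of_nonneg]
            · rw [Finset.mul_sum, Finset.mul_sum]
            · intro i _
              exact mul_nonneg (Real.rpow_nonneg (le_of_lt ht) _) (mul_nonneg
                (LT1.Lcl_nonneg 1) (Real.rpow_nonneg (le_max_right _ _) _))
          rw [setLIntegral_congr_fun measurableSet_Ioi e2, lintegral_finsetSum]
          · simp only [lift_cl hγ (hw x _)]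
            rw [← ENNReal.ofReal_sum_of_nonneg]
            · rw [← Finset.sum_div, Finset.mul_sum]
            · intro i _
              exact div_nonneg (mul_nonneg (LT1.Lcl_nonneg γ) (Real.rpow_nonneg (hw x i) _)) hc.le
          · intro i _
            exact ((measurable_id.pow_const _).mul (((measurable_const.sub
              measurable_id).max measurable_const).pow_const _ |>.const_mul _)).ennreal_ofReal
  have hnn : ∀ x, 0 ≤ trPow (γ + 1 / 2) (W x) := by
    intro x
    rw [trPow_eq, specSum_eq (hH x)]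
    exact Finset.sum_nonneg fun i _ => Real.rpow_nonneg (hw x i) _
  have e3 : ∫⁻ x, ENNReal.ofReal (LT1.Lcl γ * trPow (γ + 1 / 2) (W x) / (γ * (γ - 1)))
      = ENNReal.ofReal (LT1.Lcl γ * (∫ x, trPow (γ + 1 / 2) (W x)) / (γ * (γ - 1))) := by
    rw [← ofReal_integral_eq_lintegral_ofReal ((hW.integrable.const_mul _).div_const _)
      (Eventually.of_forall fun x => div_nonneg (mul_nonneg (LT1.Lcl_nonneg γ) (hnn x)) hc.le),
      integral_div, integral_const_mul]
  rw [e3, ← ENNReal.ofReal_mul (by positivity)] at key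
  have hp := hW.pos
  have hL := LT1.Lcl_nonneg γ
  rw [ENNReal.ofReal_le_ofReal_iff (by positivity)] at key
  rw [← ENNReal.ofReal_mul (by positivity)]
  refine ENNReal.ofReal_le_ofReal ?_
  rw [div_le_iff₀ hc] at key
  calc ∑ j, |lam j| ^ γ
      ≤ 2 / √3 * (LT1.Lcl γ * (∫ x, trPow (γ + 1 / 2) (W x)) / (γ * (γ - 1)))
        * (γ * (γ - 1)) := key
    _ = _ := by rw [mul_assoc, div_mul_cancel₀ _ hc.ne', ← mul_assoc]

lemma Lcl_eq (γ : ℝ) : Lcl γ = LT1.Lcl γ := rfl

theorem LT_le (K : KineticM) {γ : ℝ} (hγ : 1 ≤ γ) (m : ℕ) :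
    LT γ m ≤ ENNReal.ofReal (2 / √3 * Lcl γ) := by
  unfold LT
  refine iSup_le fun W => iSup_le fun hW => ?_
  refine ENNReal.div_le_of_le_mul ?_
  unfold traceNeg
  refine iSup_le fun n => iSup_le fun lam => iSup_le fun u => iSup_le fun g =>
    iSup_le fun h => ?_
  rcases hγ.eq_or_lt with rfl | hγ
  · have h2 := LT1.K0_pos
    rw [Lcl_eq, ← LT1.K0_eq, ← ENNReal.ofReal_mul h2.le]
    exact ENNReal.ofReal_le_ofReal (sum_le_one K hW h.1 h.2.1 h.2.2)
  · rw [Lcl_eq]
    exact sum_lift K hγ hW h.1 h.2.1 h.2.2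

end LTM
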