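import Mathlib
import Vale.Agent.P371.MLift
import Vale.Agent.P371.Sharp

/-! # P371: sharpness of the matrix constant at `γ = 1` -/

namespace LTM

open MeasureTheory Set Filter Matrix
open scoped ComplexConjugate ENNReal Topology ComplexOrder

variable {m : ℕ}

lemma isHermitian_diag (d : Fin m → ℝ) :
    (diagonal (fun i => ((d i : ℝ) : ℂ))).IsHermitian := by
  rw [Matrix.IsHermitian, diagonal_conjTranspose]
  congr 1
  funext i
  simp

lemma specSum_diagonal (f : ℝ → ℝ) (d : Fin m → ℝ) :
    specSum f (diagonal (fun i => ((d i : ℝ) : ℂ))) = ∑ i, f (d i) := by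
  have hH := isHermitian_diag d
  rw [specSum_eq hH]
  have h1 := hH.roots_charpoly_eq_eigenvalues
  rw [Matrix.charpoly_diagonal] at h1
  have h0 : (∏ i, (Polynomial.X - Polynomial.C ((d i : ℝ) : ℂ))).roots
      = Multiset.map (fun i => ((d i : ℝ) : ℂ)) Finset.univ.val := by
    have := Polynomial.roots_multiset_prod_X_sub_C
      (Multiset.map (fun i => ((d i : ℝ) : ℂ)) (Finset.univ : Finset (Fin m)).val)
    rw [Multiset.map_map] at this
    exact this
  rw [h0] at h1
  have h2 := congrArg (fun s : Multiset ℂ => (s.map (fun z => f z.re)).sum) h1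
  simp only [Multiset.map_map, Function.comp_def, Complex.ofReal_re, Complex.coe_algebraMap] at h2
  exact h2.symm

/-- The extremal matrix potential, supported on the index `i0`. -/
noncomputable def Wd (i0 : Fin m) (x : ℝ) : Matrix (Fin m) (Fin m) ℂ :=
  diagonal (fun i => (((if i = i0 then LT1.Sharp.W x else 0 : ℝ)) : ℂ))

/-- The extremal bound state. -/
noncomputable def psid (i0 : Fin m) (x : ℝ) (c : Fin m) : ℂ :=
  if c = i0 then LT1.Sharp.psi x else 0

/-- Its derivative. -/
noncomputable def psid' (i0 : Fin m) (x : ℝ) (c : Fin m) : ℂ :=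
  if c = i0 then LT1.Sharp.psi' x else 0

lemma trPow_Wd (i0 : Fin m) (x : ℝ) {p : ℝ} (hp : p ≠ 0) :
    trPow p (Wd i0 x) = LT1.Sharp.W x ^ p := by
  rw [trPow_eq, Wd, specSum_diagonal, Finset.sum_eq_single i0]
  · simp
  · intro b _ hb
    rw [if_neg hb, Real.zero_rpow hp]
  · intro h; exact absurd (Finset.mem_univ _) h

lemma isPotential_Wd (i0 : Fin m) : IsPotential 1 (Wd i0) where
  measurable c d := by
    unfold Wd
    by_cases hcd : c = d
    · subst hcd
      simp only [diagonal_apply_eq]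
      by_cases hc : c = i0
      · simp only [hc, if_true]
        exact Complex.measurable_ofReal.comp LT1.Sharp.continuous_W.measurable
      · simp only [hc, if_false]
        exact measurable_const
    · simp only [diagonal_apply_ne _ hcd]
      exact measurable_const
  posSemidef x := by
    unfold Wd
    refine Matrix.PosSemidef.diagonal fun i => ?_
    have : (0 : ℝ) ≤ if i = i0 then LT1.Sharp.W x else 0 := by
      split_ifs
      · exact LT1.Sharp.W_nonneg x
      · exact le_refl _
    simpa using this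
  integrable := by
    simp only [trPow_Wd i0 _ (by norm_num : (1 : ℝ) + 1 / 2 ≠ 0)]
    exact LT1.Sharp.isPotential_W.integrable
  pos := by
    simp only [trPow_Wd i0 _ (by norm_num : (1 : ℝ) + 1 / 2 ≠ 0)]
    exact LT1.Sharp.isPotential_W.pos

lemma integral_Wd (i0 : Fin m) :
    ∫ x, trPow ((1 : ℝ) + 1 / 2) (Wd i0 x) = 3 * √3 * Real.pi / 16 := by
  simp only [trPow_Wd i0 _ (by norm_num : (1 : ℝ) + 1 / 2 ≠ 0)]
  exact LT1.Sharp.integral_W

lemma isH1_psid (i0 : Fin m) : IsH1 (psid i0) (psid' i0) where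
  memLp c := by
    unfold psid
    by_cases hc : c = i0
    · simp only [hc, if_true]; exact LT1.Sharp.isH1_psi.memLp
    · simp only [hc, if_false]; exact MemLp.zero'
  memLp' c := by
    unfold psid'
    by_cases hc : c = i0
    · simp only [hc, if_true]; exact LT1.Sharp.isH1_psi.memLp'
    · simp only [hc, if_false]; exact MemLp.zero'
  ftc c x y := by
    unfold psid psid'
    by_cases hc : c = i0
    · simp only [hc, if_true]; exact LT1.Sharp.isH1_psi.ftc x y
    · simp [hc]

lemma IsH1.comp_scalar {v h : ℝ → Fin m → ℂ} (H : IsH1 v h) (c : Fin m) :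
    LT1.IsH1 (fun x => v x c) (fun x => h x c) :=
  ⟨H.memLp c, H.memLp' c, H.ftc c⟩

lemma pair_single (i0 : Fin m) (z : ℂ) (a : Fin m → ℂ) :
    pair (fun c => if c = i0 then z else 0) a = z * conj (a i0) := by
  unfold pair
  rw [Finset.sum_eq_single i0]
  · simp
  · intro b _ hb; simp [hb]
  · intro h; exact absurd (Finset.mem_univ _) h

lemma isBoundState_psid (i0 : Fin m) : IsBoundState (Wd i0) (-(1 / 4)) (psid i0) (psid' i0) where
  isH1 := isH1_psid i0
  eqn v h H := by
    have h1 := LT1.Sharp.isBoundState_psi.eqn _ _ (H.comp_scalar i0)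
    have e1 : ∀ x, pair (psid' i0 x) (h x) = LT1.Sharp.psi' x * conj (h x i0) := fun x =>
      pair_single i0 _ _
    have e3 : ∀ x, pair (psid i0 x) (v x) = LT1.Sharp.psi x * conj (v x i0) := fun x =>
      pair_single i0 _ _
    have e2 : ∀ x, pair ((Wd i0 x).mulVec (psid i0 x)) (v x)
        = (LT1.Sharp.W x : ℂ) * LT1.Sharp.psi x * conj (v x i0) := by
      intro x
      have : (Wd i0 x).mulVec (psid i0 x)
          = fun c => if c = i0 then (LT1.Sharp.W x : ℂ) * LT1.Sharp.psi x else 0 := by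
        funext c
        rw [Wd, mulVec_diagonal, psid]
        by_cases hc : c = i0 <;> simp [hc]
      rw [this]
      exact pair_single i0 _ _
    simp only [e1, e2, e3]
    exact h1

lemma integral_psid (i0 : Fin m) : ∫ x, pair (psid i0 x) (psid i0 x) = 1 := by
  have e : ∀ x, pair (psid i0 x) (psid i0 x)
      = LT1.Sharp.psi x * conj (LT1.Sharp.psi x) := by
    intro x
    have := pair_single i0 (LT1.Sharp.psi x) (psid i0 x)
    simp only [psid, if_true] at this ⊢
    exact this
  simp only [e]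
  exact LT1.Sharp.integral_psi_sq

lemma lowestNeg_le_traceNeg (γ : ℝ) (W : ℝ → Matrix (Fin m) (Fin m) ℂ) :
    lowestNeg γ W ≤ traceNeg γ W := by
  unfold lowestNeg traceNeg
  refine iSup_le fun lam => iSup_le fun u => iSup_le fun g => iSup_le fun h => ?_
  refine le_iSup_of_le 1 (le_iSup_of_le (fun _ => lam) (le_iSup_of_le (fun _ => u)
    (le_iSup_of_le (fun _ => g) (le_iSup_of_le ⟨fun _ => h.1, fun _ => h.2.1, ?_⟩ ?_))))
  · intro i j
    rw [h.2.2, if_pos (Subsingleton.elim _ _)]
  · simp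

lemma LTone_le_LT (γ : ℝ) : LTone γ ≤ LT γ 1 := by
  unfold LTone LT
  refine iSup_mono fun W => iSup_mono fun hW => ?_
  exact ENNReal.div_le_div_right (lowestNeg_le_traceNeg γ W) _

lemma lowestNeg_Wd (i0 : Fin m) : ENNReal.ofReal (1 / 4) ≤ lowestNeg 1 (Wd i0) := by
  unfold lowestNeg
  refine le_iSup_of_le (-(1 / 4)) (le_iSup_of_le (psid i0) (le_iSup_of_le (psid' i0)
    (le_iSup_of_le ⟨by norm_num, isBoundState_psid i0, integral_psid i0⟩ ?_)))
  rw [Real.rpow_one, abs_neg, abs_of_pos (by norm_num)]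

lemma K0_le_quot (i0 : Fin m) : ENNReal.ofReal LT1.K0
    ≤ ENNReal.ofReal (1 / 4) / ENNReal.ofReal (∫ x, trPow ((1 : ℝ) + 1 / 2) (Wd i0 x)) := by
  rw [integral_Wd]
  have hpi := Real.pi_pos
  rw [← ENNReal.ofReal_div_of_pos (by positivity)]
  refine ENNReal.ofReal_le_ofReal (le_of_eq ?_)
  unfold LT1.K0
  have h3 : (0 : ℝ) < √3 := by positivity
  have h33 : √3 ^ 2 = 3 := Real.sq_sqrt (by norm_num)
  field_simp
  ring

lemma le_LTone : ENNReal.ofReal LT1.K0 ≤ LTone 1 := by
  unfold LTone
  refine le_iSup_of_le (Wd 0) (le_iSup_of_le (isPotential_Wd 0) ?_)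
  exact (K0_le_quot 0).trans (ENNReal.div_le_div_right (lowestNeg_Wd 0) _)

lemma le_LT (hm : 1 ≤ m) : ENNReal.ofReal LT1.K0 ≤ LT 1 m := by
  unfold LT
  refine le_iSup_of_le (Wd ⟨0, hm⟩) (le_iSup_of_le (isPotential_Wd _) ?_)
  exact (K0_le_quot _).trans (ENNReal.div_le_div_right
    ((lowestNeg_Wd _).trans (lowestNeg_le_traceNeg _ _)) _)

theorem LT_eq (K : KineticM) (hm : 1 ≤ m) : LT 1 m = ENNReal.ofReal LT1.K0 := by
  refine le_antisymm ?_ (le_LT hm)
  rw [LT1.K0_eq, ← Lcl_eq]
  exact LT_le K le_rfl m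

theorem LTone_eq (K : KineticM) : LTone 1 = ENNReal.ofReal LT1.K0 :=
  le_antisymm ((LTone_le_LT 1).trans (LT_eq K le_rfl).le) le_LTone

end LTM
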