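import Mathlib
import Vale.Agent.P371.GStat
import Vale.Agent.P371.GCst
import Vale.Agent.P371.MSharp

/-! # P371, `γ ∈ (1, 3/2)`, module LTLOW: the potential `s (s + 1) sech²` -/

namespace LTG

open MeasureTheory Set Filter Matrix
open scoped ComplexConjugate ENNReal Topology ComplexOrder

namespace Low

open Real LT1.Sharp

/-- The extremal potential. -/
noncomputable def W (s x : ℝ) : ℝ := s * (s + 1) * (cosh x)⁻¹ ^ 2

/-- The (unnormalised) bound state. -/
noncomputable def u (s x : ℝ) : ℝ := ((cosh x)⁻¹) ^ s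

/-- Its derivative. -/
noncomputable def u' (s x : ℝ) : ℝ := -s * (sinh x * (cosh x)⁻¹) * u s x

variable {s : ℝ}

lemma u_pos (s x : ℝ) : 0 < u s x := Real.rpow_pos_of_pos (sech_pos x) _

lemma W_nonneg (hs : 0 < s) (x : ℝ) : 0 ≤ W s x := by unfold W; positivity

lemma W_pos (hs : 0 < s) (x : ℝ) : 0 < W s x := by
  have := sech_pos x
  unfold W; positivity

lemma hasDerivAt_u (s x : ℝ) : HasDerivAt (u s) (u' s x) x := by
  have h := (hasDerivAt_sech x).rpow_const (p := s) (Or.inl (sech_pos x).ne')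
  unfold u u'
  convert! h using 1
  unfold u
  have hp := sech_pos x
  rw [Real.rpow_sub_one hp.ne']
  field_simp

lemma hasDerivAt_u' (s x : ℝ) : HasDerivAt (u' s) (s ^ 2 * u s x - W s x * u s x) x := by
  have h := ((hasDerivAt_tanh' x).const_mul (-s : ℝ)).mul (hasDerivAt_u s x)
  convert! h using 1
  unfold u' W
  have h2 := tanh_sq x
  linear_combination (-(s ^ 2) * u s x) * h2

lemma continuous_u (s : ℝ) : Continuous (u s) := by
  rw [continuous_iff_continuousAt]; exact fun x => (hasDerivAt_u s x).continuousAt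

lemma continuous_u' (s : ℝ) : Continuous (u' s) := by
  rw [continuous_iff_continuousAt]; exact fun x => (hasDerivAt_u' s x).continuousAt

lemma continuous_W (s : ℝ) : Continuous (W s) := by
  unfold W
  have : Continuous fun x : ℝ => (cosh x)⁻¹ := continuous_cosh.inv₀ fun x => (cosh_pos x).ne'
  fun_prop

lemma sech_le_exp {x : ℝ} : (cosh x)⁻¹ ≤ 2 * exp (-x) := by
  have h1 : exp x / 2 ≤ cosh x := by
    rw [Real.cosh_eq]; linarith [exp_pos (-x)]
  have h2 : 0 < exp x / 2 := by positivity
  calc (cosh x)⁻¹ ≤ (exp x / 2)⁻¹ := inv_anti₀ h2 h1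
    _ = 2 * exp (-x) := by rw [Real.exp_neg]; field_simp

lemma integrable_sech_rpow {p : ℝ} (hp : 0 < p) : Integrable fun x : ℝ => ((cosh x)⁻¹) ^ p := by
  have hg : Integrable ((Ioi (-1 : ℝ)).indicator fun x => 2 ^ p * exp (-p * x)) := by
    rw [integrable_indicator_iff measurableSet_Ioi]
    exact (exp_neg_integrableOn_Ioi (-1) hp).const_mul _
  have hb : ∀ x, ((cosh x)⁻¹) ^ p ≤ 2 ^ p * exp (-p * x) := by
    intro x
    calc ((cosh x)⁻¹) ^ p ≤ (2 * exp (-x)) ^ p :=
          Real.rpow_le_rpow (sech_pos x).le sech_le_exp hp.le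
      _ = 2 ^ p * exp (-p * x) := by
          rw [Real.mul_rpow (by norm_num) (exp_pos _).le, ← Real.exp_mul]
          ring_nf
  have hc : Continuous fun x : ℝ => ((cosh x)⁻¹) ^ p :=
    continuous_sech.rpow_const fun _ => Or.inr hp.le
  refine (hg.add hg.comp_neg).mono' hc.aestronglyMeasurable (Eventually.of_forall fun x => ?_)
  have h0 : 0 ≤ ((cosh x)⁻¹) ^ p := Real.rpow_nonneg (sech_pos x).le _
  rw [Real.norm_of_nonneg h0]
  simp only [Pi.add_apply]
  have n1 : ∀ y : ℝ, 0 ≤ (Ioi (-1 : ℝ)).indicator (fun x => 2 ^ p * exp (-p * x)) y :=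
    fun y => indicator_nonneg (fun z _ => by positivity) y
  rcases le_total 0 x with hx | hx
  · have : (Ioi (-1 : ℝ)).indicator (fun x => 2 ^ p * exp (-p * x)) x = 2 ^ p * exp (-p * x) :=
      indicator_of_mem (by rw [mem_Ioi]; linarith) _
    rw [this]
    linarith [n1 (-x), hb x]
  · have : (Ioi (-1 : ℝ)).indicator (fun x => 2 ^ p * exp (-p * x)) (-x)
        = 2 ^ p * exp (-p * (-x)) :=
      indicator_of_mem (by rw [mem_Ioi]; linarith) _
    rw [this]
    have := hb (-x)
    rw [cosh_neg] at this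
    linarith [n1 x]

lemma u_sq (s x : ℝ) : u s x ^ 2 = ((cosh x)⁻¹) ^ (2 * s) := by
  unfold u
  rw [← Real.rpow_natCast, ← Real.rpow_mul (sech_pos x).le]
  congr 1; push_cast; ring

lemma integrable_u_sq (hs : 0 < s) : Integrable fun x => u s x ^ 2 := by
  simp only [u_sq]
  exact integrable_sech_rpow (by linarith)

/-- normalisation -/
noncomputable def N (s : ℝ) : ℝ := ∫ x, u s x ^ 2

lemma N_pos (hs : 0 < s) : 0 < N s := by
  unfold N
  rw [integral_pos_iff_support_of_nonneg (fun x => sq_nonneg _) (integrable_u_sq hs)]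
  have : Function.support (fun x => u s x ^ 2) = univ := by
    ext x
    simp only [Function.mem_support, mem_univ, iff_true]
    exact (pow_pos (u_pos s x) 2).ne'
  rw [this]; simp

lemma memLp_u (hs : 0 < s) : MemLp (u s) 2 volume := by
  rw [memLp_two_iff_integrable_sq (continuous_u s).aestronglyMeasurable]
  exact integrable_u_sq hs

lemma abs_u'_le (hs : 0 < s) (x : ℝ) : |u' s x| ≤ s * |u s x| := by
  unfold u'
  rw [abs_mul, abs_mul, abs_neg, abs_of_pos hs]
  have h := abs_tanh_le x
  have := abs_nonneg (u s x)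
  calc s * |sinh x * (cosh x)⁻¹| * |u s x| ≤ s * 1 * |u s x| := by gcongr
    _ = _ := by ring

lemma memLp_u' (hs : 0 < s) : MemLp (u' s) 2 volume := by
  refine ((memLp_u hs).const_mul s).mono (continuous_u' s).aestronglyMeasurable
    (Eventually.of_forall fun x => ?_)
  rw [Real.norm_eq_abs, Real.norm_eq_abs, abs_mul, abs_of_pos hs]
  exact abs_u'_le hs x

lemma W_le (hs : 0 < s) (x : ℝ) : W s x ≤ s * (s + 1) := by
  unfold W
  have h1 := sech_le_one x
  have h2 := sech_pos x
  have h3 : (cosh x)⁻¹ ^ 2 ≤ 1 := by nlinarith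
  have h4 : 0 < s * (s + 1) := by positivity
  nlinarith

lemma memLp_Wu (hs : 0 < s) : MemLp (fun x => W s x * u s x) 2 volume := by
  refine ((memLp_u hs).const_mul (s * (s + 1))).mono
    ((continuous_W s).mul (continuous_u s)).aestronglyMeasurable
    (Eventually.of_forall fun x => ?_)
  have h4 : 0 < s * (s + 1) := by positivity
  rw [Real.norm_eq_abs, Real.norm_eq_abs, abs_mul, abs_of_nonneg (W_nonneg hs x), abs_mul,
    abs_of_pos h4]
  have := W_le hs x
  gcongr

/-- The eigenvalue equation tested against a real function of `H¹`. -/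
lemma weak_real (hs : 0 < s) {v h : ℝ → ℝ} (hv : MemLp v 2 volume) (hh : MemLp h 2 volume)
    (hP : ∀ x y, v y - v x = ∫ t in x..y, h t) :
    (∫ x, u' s x * h x) - ∫ x, W s x * u s x * v x = -(s ^ 2) * ∫ x, u s x * v x := by
  have c2 : Continuous fun x => s ^ 2 * u s x - W s x * u s x := by
    have := continuous_u s; have := continuous_W s; fun_prop
  have i1 : Integrable fun x => u' s x * h x := (memLp_u' hs).integrable_mul hh
  have i2 : Integrable fun x => W s x * u s x * v x := (memLp_Wu hs).integrable_mul hv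
  have i3 : Integrable fun x => u s x * v x := (memLp_u hs).integrable_mul hv
  have i4 : Integrable fun x => (s ^ 2 * u s x - W s x * u s x) * v x := by
    refine ((i3.const_mul (s ^ 2)).sub i2).congr (Eventually.of_forall fun x => ?_)
    simp only [Pi.sub_apply]; ring
  have hloc : LocallyIntegrable h := hh.locallyIntegrable (by norm_num)
  have hprod : ∀ a b : ℝ, u' s b * v b - u' s a * v a
      = ∫ x in a..b, ((s ^ 2 * u s x - W s x * u s x) * v x + u' s x * h x) := fun a b =>
    (LT1.real_prod_ftc c2.locallyIntegrable hloc (hasDerivAt_ftc (hasDerivAt_u' s) c2)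
      hP a b).symm
  have i5 : Integrable fun x => u' s x * v x := (memLp_u' hs).integrable_mul hv
  have h0 := LT1.integral_eq_zero_of_prim i5 (i4.add i1) hprod
  have h1 : (∫ x, (((s ^ 2 * u s x - W s x * u s x) * v x) + u' s x * h x))
      = (∫ x, (s ^ 2 * u s x - W s x * u s x) * v x) + ∫ x, u' s x * h x := integral_add i4 i1
  have h2 : (∫ x, (s ^ 2 * u s x - W s x * u s x) * v x)
      = s ^ 2 * (∫ x, u s x * v x) - ∫ x, W s x * u s x * v x := by
    rw [← integral_const_mul, ← integral_sub (i3.const_mul _) i2]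
    congr 1; funext x; ring
  simp only [Pi.add_apply] at h0
  linarith

/-- The normalised bound state. -/
noncomputable def psi (s x : ℝ) : ℂ := ((√(N s))⁻¹ * u s x : ℝ)

/-- Its derivative. -/
noncomputable def psi' (s x : ℝ) : ℂ := ((√(N s))⁻¹ * u' s x : ℝ)

lemma isH1_psi (hs : 0 < s) : LT1.IsH1 (psi s) (psi' s) where
  memLp := ((memLp_u hs).const_mul (√(N s))⁻¹).ofReal
  memLp' := ((memLp_u' hs).const_mul (√(N s))⁻¹).ofReal
  ftc x y := by
    have h : ∀ z, HasDerivAt (fun x => (√(N s))⁻¹ * u s x) ((√(N s))⁻¹ * u' s z) z := fun z =>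
      (hasDerivAt_u s z).const_mul _
    have h2 := hasDerivAt_ftc h (continuous_const.mul (continuous_u' s)) x y
    unfold psi psi'
    rw [intervalIntegral.integral_ofReal, ← h2]
    push_cast; ring

lemma isBoundState_psi (hs : 0 < s) : LT1.IsBoundState (W s) (-(s ^ 2)) (psi s) (psi' s) where
  isH1 := isH1_psi hs
  eqn v h H := by
    have hr := weak_real hs H.memLp.re H.memLp'.re (isH1_re H)
    have hi := weak_real hs H.memLp.im H.memLp'.im (isH1_im H)
    have e1 : (∫ x, psi' s x * conj (h x))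
        = ((√(N s))⁻¹ : ℂ) * ∫ x, (u' s x : ℂ) * conj (h x) := by
      rw [← integral_const_mul]
      congr 1; funext x; unfold psi'; push_cast; ring
    have e2 : (∫ x, (W s x : ℂ) * psi s x * conj (v x))
        = ((√(N s))⁻¹ : ℂ) * ∫ x, ((W s x * u s x : ℝ) : ℂ) * conj (v x) := by
      rw [← integral_const_mul]
      congr 1; funext x; unfold psi; push_cast; ring
    have e3 : (∫ x, psi s x * conj (v x))
        = ((√(N s))⁻¹ : ℂ) * ∫ x, (u s x : ℂ) * conj (v x) := by
      rw [← integral_const_mul]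
      congr 1; funext x; unfold psi; push_cast; ring
    rw [e1, e2, e3, integral_ofReal_mul_conj (memLp_u' hs) H.memLp',
      integral_ofReal_mul_conj (memLp_Wu hs) H.memLp,
      integral_ofReal_mul_conj (memLp_u hs) H.memLp]
    have hr' : ((∫ x, u' s x * (h x).re : ℝ) : ℂ) - ((∫ x, W s x * u s x * (v x).re : ℝ) : ℂ)
        = -((s : ℂ) ^ 2) * ((∫ x, u s x * (v x).re : ℝ) : ℂ) := by
      have := congrArg (fun r : ℝ => (r : ℂ)) hr
      push_cast at this ⊢
      exact this
    have hi' : ((∫ x, u' s x * (h x).im : ℝ) : ℂ) - ((∫ x, W s x * u s x * (v x).im : ℝ) : ℂ)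
        = -((s : ℂ) ^ 2) * ((∫ x, u s x * (v x).im : ℝ) : ℂ) := by
      have := congrArg (fun r : ℝ => (r : ℂ)) hi
      push_cast at this ⊢
      exact this
    push_cast
    linear_combination ((√(N s) : ℂ)⁻¹) * hr' - ((√(N s) : ℂ)⁻¹) * Complex.I * hi'

lemma integral_psi_sq (hs : 0 < s) : ∫ x, psi s x * conj (psi s x) = 1 := by
  have hN := N_pos hs
  have h : ∀ x, psi s x * conj (psi s x) = (((N s)⁻¹ * u s x ^ 2 : ℝ) : ℂ) := by
    intro x
    unfold psi
    rw [Complex.conj_ofReal, ← Complex.ofReal_mul]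
    congr 1
    have h2 : (√(N s))⁻¹ ^ 2 = (N s)⁻¹ := by rw [inv_pow, Real.sq_sqrt hN.le]
    calc (√(N s))⁻¹ * u s x * ((√(N s))⁻¹ * u s x) = (√(N s))⁻¹ ^ 2 * u s x ^ 2 := by ring
      _ = _ := by rw [h2]
  simp only [h]
  rw [integral_complex_ofReal, integral_const_mul]
  have : (∫ x, u s x ^ 2) = N s := rfl
  rw [this, inv_mul_cancel₀ hN.ne']
  simp

lemma tendsto_tanh_atTop : Tendsto (fun x => sinh x * (cosh x)⁻¹) atTop (𝓝 1) := by
  have h : ∀ x : ℝ, 1 - exp (-x) * (cosh x)⁻¹ = sinh x * (cosh x)⁻¹ := by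
    intro x
    have hp := cosh_pos x
    have h1 : exp (-x) = cosh x - sinh x := by rw [Real.cosh_sub_sinh]
    rw [h1]; field_simp; ring
  have h1 : Tendsto (fun x : ℝ => 1 - exp (-x) * (cosh x)⁻¹) atTop (𝓝 (1 - 0 * 0)) :=
    ((Real.tendsto_exp_atBot.comp tendsto_neg_atTop_atBot).mul tendsto_sech_atTop).const_sub _
  simp only [h] at h1
  simpa using h1

lemma tendsto_tanh_atBot : Tendsto (fun x => sinh x * (cosh x)⁻¹) atBot (𝓝 (-1)) := by
  have h := (tendsto_tanh_atTop.comp tendsto_neg_atBot_atTop).neg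
  refine h.congr fun x => ?_
  simp

lemma integral_sech_rpow (hs : 0 < s) :
    Integrable (fun x : ℝ => ((cosh x)⁻¹) ^ (2 * (s + 1))) ∧
      ∫ x : ℝ, ((cosh x)⁻¹) ^ (2 * (s + 1)) = Bs s := by
  have hc : Continuous fun t : ℝ => (1 - t ^ 2) ^ s :=
    (by fun_prop : Continuous fun t : ℝ => 1 - t ^ 2).rpow_const fun _ => Or.inr hs.le
  have hG : ∀ t : ℝ, HasDerivAt (fun v => ∫ y in (0 : ℝ)..v, (1 - y ^ 2) ^ s)
      ((1 - t ^ 2) ^ s) t := fun t => (hc.integral_hasStrictDerivAt 0 t).hasDerivAt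
  have hGc : Continuous (fun v => ∫ y in (0 : ℝ)..v, (1 - y ^ 2) ^ s) := by
    rw [continuous_iff_continuousAt]; exact fun x => (hG x).continuousAt
  have hF : ∀ x : ℝ, HasDerivAt
      (fun x => ∫ y in (0 : ℝ)..(sinh x * (cosh x)⁻¹), (1 - y ^ 2) ^ s)
      (((cosh x)⁻¹) ^ (2 * (s + 1))) x := by
    intro x
    have h := (hG (sinh x * (cosh x)⁻¹)).comp x (hasDerivAt_tanh' x)
    convert! h using 1
    rw [tanh_sq, sub_sub_cancel, ← Real.rpow_natCast, ← Real.rpow_mul (sech_pos x).le,
      ← Real.rpow_add (sech_pos x)]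
    congr 1; push_cast; ring
  have hcf : Continuous fun x : ℝ => ((cosh x)⁻¹) ^ (2 * (s + 1)) :=
    continuous_sech.rpow_const fun _ => Or.inr (by positivity)
  have h := integral_of_nonneg_deriv hF hcf (fun x => Real.rpow_nonneg (sech_pos x).le _)
    ((hGc.tendsto (-1)).comp tendsto_tanh_atBot) ((hGc.tendsto 1).comp tendsto_tanh_atTop)
  refine ⟨h.1, h.2.trans ?_⟩
  rw [intervalIntegral.integral_symm (-1 : ℝ) 0, sub_neg_eq_add, add_comm,
    intervalIntegral.integral_add_adjacent_intervals (hc.intervalIntegrable _ _)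
    (hc.intervalIntegrable _ _), Bs]

lemma W_rpow (hs : 0 < s) (x : ℝ) : W s x ^ (s + 1 / 2 + 1 / 2)
    = (s * (s + 1)) ^ (s + 1) * ((cosh x)⁻¹) ^ (2 * (s + 1)) := by
  have hp := sech_pos x
  unfold W
  have e : s + 1 / 2 + 1 / 2 = s + 1 := by ring
  rw [e, Real.mul_rpow (by positivity) (by positivity), ← Real.rpow_natCast (cosh x)⁻¹,
    ← Real.rpow_mul hp.le]
  norm_num

lemma isPotential_W (hs : 0 < s) : LT1.IsPotential (s + 1 / 2) (W s) where
  measurable := (continuous_W s).measurable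
  nonneg := W_nonneg hs
  integrable := by
    simp only [W_rpow hs]
    exact (integral_sech_rpow hs).1.const_mul _
  pos := by
    simp only [W_rpow hs]
    rw [integral_const_mul, (integral_sech_rpow hs).2]
    have := CST.Bs_pos hs
    positivity

lemma integral_W (hs : 0 < s) :
    ∫ x, W s x ^ (s + 1 / 2 + 1 / 2) = (s * (s + 1)) ^ (s + 1) * Bs s := by
  simp only [W_rpow hs]
  rw [integral_const_mul, (integral_sech_rpow hs).2]

variable {m : ℕ}

/-- The extremal matrix potential, supported on the index `i0`. -/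
noncomputable def Wd (s : ℝ) (i0 : Fin m) (x : ℝ) : Matrix (Fin m) (Fin m) ℂ :=
  diagonal (fun i => (((if i = i0 then W s x else 0 : ℝ)) : ℂ))

/-- The extremal bound state. -/
noncomputable def psid (s : ℝ) (i0 : Fin m) (x : ℝ) (c : Fin m) : ℂ :=
  if c = i0 then psi s x else 0

/-- Its derivative. -/
noncomputable def psid' (s : ℝ) (i0 : Fin m) (x : ℝ) (c : Fin m) : ℂ :=
  if c = i0 then psi' s x else 0

lemma trPow_Wd (i0 : Fin m) (x : ℝ) {p : ℝ} (hp : p ≠ 0) :
    LTM.trPow p (Wd s i0 x) = W s x ^ p := by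
  rw [LTM.trPow_eq, Wd, LTM.specSum_diagonal, Finset.sum_eq_single i0]
  · simp
  · intro b _ hb
    rw [if_neg hb, Real.zero_rpow hp]
  · intro h; exact absurd (Finset.mem_univ _) h

lemma isPotential_Wd (hs : 0 < s) (i0 : Fin m) : LTM.IsPotential (s + 1 / 2) (Wd s i0) where
  measurable c d := by
    unfold Wd
    by_cases hcd : c = d
    · subst hcd
      simp only [diagonal_apply_eq]
      by_cases hc : c = i0
      · simp only [hc, if_true]
        exact Complex.measurable_ofReal.comp (continuous_W s).measurable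
      · simp only [hc, if_false]
        exact measurable_const
    · simp only [diagonal_apply_ne _ hcd]
      exact measurable_const
  posSemidef x := by
    unfold Wd
    refine Matrix.PosSemidef.diagonal fun i => ?_
    have : (0 : ℝ) ≤ if i = i0 then W s x else 0 := by
      split_ifs
      · exact W_nonneg hs x
      · exact le_refl _
    simpa using this
  integrable := by
    simp only [trPow_Wd i0 _ (by positivity : s + 1 / 2 + 1 / 2 ≠ 0)]
    exact (isPotential_W hs).integrable
  pos := by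
    simp only [trPow_Wd i0 _ (by positivity : s + 1 / 2 + 1 / 2 ≠ 0)]
    exact (isPotential_W hs).pos

lemma integral_Wd (hs : 0 < s) (i0 : Fin m) :
    ∫ x, LTM.trPow (s + 1 / 2 + 1 / 2) (Wd s i0 x) = (s * (s + 1)) ^ (s + 1) * Bs s := by
  simp only [trPow_Wd i0 _ (by positivity : s + 1 / 2 + 1 / 2 ≠ 0)]
  exact integral_W hs

lemma isH1_psid (hs : 0 < s) (i0 : Fin m) : LTM.IsH1 (psid s i0) (psid' s i0) where
  memLp c := by
    unfold psid
    by_cases hc : c = i0
    · simp only [hc, if_true]; exact (isH1_psi hs).memLp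
    · simp only [hc, if_false]; exact MemLp.zero'
  memLp' c := by
    unfold psid'
    by_cases hc : c = i0
    · simp only [hc, if_true]; exact (isH1_psi hs).memLp'
    · simp only [hc, if_false]; exact MemLp.zero'
  ftc c x y := by
    unfold psid psid'
    by_cases hc : c = i0
    · simp only [hc, if_true]; exact (isH1_psi hs).ftc x y
    · simp [hc]

lemma isBoundState_psid (hs : 0 < s) (i0 : Fin m) :
    LTM.IsBoundState (Wd s i0) (-(s ^ 2)) (psid s i0) (psid' s i0) where
  isH1 := isH1_psid hs i0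
  eqn v h H := by
    have h1 := (isBoundState_psi hs).eqn _ _ (H.comp_scalar i0)
    have e1 : ∀ x, LTM.pair (psid' s i0 x) (h x) = psi' s x * conj (h x i0) := fun x =>
      LTM.pair_single i0 _ _
    have e3 : ∀ x, LTM.pair (psid s i0 x) (v x) = psi s x * conj (v x i0) := fun x =>
      LTM.pair_single i0 _ _
    have e2 : ∀ x, LTM.pair ((Wd s i0 x).mulVec (psid s i0 x)) (v x)
        = (W s x : ℂ) * psi s x * conj (v x i0) := by
      intro x
      have : (Wd s i0 x).mulVec (psid s i0 x)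
          = fun c => if c = i0 then (W s x : ℂ) * psi s x else 0 := by
        funext c
        rw [Wd, mulVec_diagonal, psid]
        by_cases hc : c = i0 <;> simp [hc]
      rw [this]
      exact LTM.pair_single i0 _ _
    simp only [e1, e2, e3]
    exact h1

lemma integral_psid (hs : 0 < s) (i0 : Fin m) :
    ∫ x, LTM.pair (psid s i0 x) (psid s i0 x) = 1 := by
  have e : ∀ x, LTM.pair (psid s i0 x) (psid s i0 x) = psi s x * conj (psi s x) := by
    intro x
    have := LTM.pair_single i0 (psi s x) (psid s i0 x)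
    simp only [psid, if_true] at this ⊢
    exact this
  simp only [e]
  exact integral_psi_sq hs

lemma lowestNeg_Wd (hs : 0 < s) (i0 : Fin m) :
    ENNReal.ofReal (s ^ (2 * s + 1)) ≤ LTM.lowestNeg (s + 1 / 2) (Wd s i0) := by
  unfold LTM.lowestNeg
  refine le_iSup_of_le (-(s ^ 2)) (le_iSup_of_le (psid s i0) (le_iSup_of_le (psid' s i0)
    (le_iSup_of_le ⟨by nlinarith, isBoundState_psid hs i0, integral_psid hs i0⟩ ?_)))
  rw [abs_neg, abs_of_pos (by positivity), ← Real.rpow_natCast, ← Real.rpow_mul hs.le]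
  apply le_of_eq
  congr 2; push_cast; ring

lemma Kc_le_quot (hs : 0 < s) (i0 : Fin m) : ENNReal.ofReal (Kc s)
    ≤ ENNReal.ofReal (s ^ (2 * s + 1))
      / ENNReal.ofReal (∫ x, LTM.trPow (s + 1 / 2 + 1 / 2) (Wd s i0 x)) := by
  rw [integral_Wd hs]
  have hB := CST.Bs_pos hs
  rw [← ENNReal.ofReal_div_of_pos (by positivity)]
  refine ENNReal.ofReal_le_ofReal (le_of_eq ?_)
  unfold Kc
  have e : s ^ (2 * s + 1) = s ^ s * s ^ (s + 1) := by
    rw [← Real.rpow_add hs]; congr 1; ring
  rw [e, Real.mul_rpow hs.le (by linarith)]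
  have p1 : 0 < s ^ (s + 1) := Real.rpow_pos_of_pos hs _
  have p2 : 0 < (s + 1) ^ (s + 1) := Real.rpow_pos_of_pos (by linarith) _
  field_simp

end Low

theorem ltlow : S_LTLOW := by
  intro s hs _
  constructor
  · unfold LTM.LTone
    refine le_iSup_of_le (Low.Wd s 0) (le_iSup_of_le (Low.isPotential_Wd hs 0) ?_)
    exact (Low.Kc_le_quot hs 0).trans (ENNReal.div_le_div_right (Low.lowestNeg_Wd hs 0) _)
  · intro m hm
    unfold LTM.LT
    refine le_iSup_of_le (Low.Wd s ⟨0, hm⟩) (le_iSup_of_le (Low.isPotential_Wd hs _) ?_)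
    exact (Low.Kc_le_quot hs _).trans (ENNReal.div_le_div_right
      ((Low.lowestNeg_Wd hs _).trans (LTM.lowestNeg_le_traceNeg _ _)) _)

end LTG
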