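import Mathlib
import Vale.Agent.P371.GStat
import Vale.Agent.P371.GCst
import Vale.Agent.P371.MLift

/-! # P371, `γ ∈ (1, 3/2)`, module LTUP: the upper bound from the kinetic inequality -/

namespace LTG

open MeasureTheory Set Filter Matrix
open scoped ComplexConjugate ENNReal Topology ComplexOrder

namespace Up

variable {m n : ℕ}

/-- Young's inequality with the sharp constant. -/
lemma young {s : ℝ} (hs : 0 < s) {w r : ℝ} (hw : 0 ≤ w) (hr : 0 ≤ r) :
    w * r ≤ s ^ s / (s + 1) ^ (s + 1) * w ^ (s + 1) + r ^ (1 + 1 / s) := by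
  have hs1 : 0 < s + 1 := by linarith
  have hq : 0 < s / (s + 1) := by positivity
  set α : ℝ := (s / (s + 1)) ^ (s / (s + 1)) with hα
  have hα0 : 0 < α := Real.rpow_pos_of_pos hq _
  have hc : (s + 1).HolderConjugate (1 + 1 / s) := by
    rw [Real.holderConjugate_iff]
    refine ⟨by linarith, ?_⟩
    field_simp
    ring
  have h := Real.young_inequality_of_nonneg (mul_nonneg hα0.le hw)
    (div_nonneg hr hα0.le) hc
  have e1 : α * w * (r / α) = w * r := by field_simp
  have e2 : (α * w) ^ (s + 1) = (s / (s + 1)) ^ s * w ^ (s + 1) := by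
    rw [Real.mul_rpow hα0.le hw, hα, ← Real.rpow_mul hq.le]
    congr 2; field_simp
  have e3 : (r / α) ^ (1 + 1 / s) = r ^ (1 + 1 / s) / (s / (s + 1)) := by
    rw [Real.div_rpow hr hα0.le, hα, ← Real.rpow_mul hq.le]
    congr 1
    have : s / (s + 1) * (1 + 1 / s) = 1 := by field_simp
    rw [this, Real.rpow_one]
  rw [e1, e2, e3] at h
  refine h.trans (le_of_eq ?_)
  rw [Real.div_rpow hs.le hs1.le, Real.rpow_add hs1, Real.rpow_one]
  have p1 : 0 < (s + 1) ^ s := Real.rpow_pos_of_pos hs1 _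
  field_simp

lemma specSum_eq_roots (f : ℝ → ℝ) {A : Matrix (Fin m) (Fin m) ℂ} (hA : A.IsHermitian) :
    LTM.specSum f A = (A.charpoly.roots.map fun z => f z.re).sum := by
  rw [LTM.specSum_eq hA, hA.roots_charpoly_eq_eigenvalues, Multiset.map_map]
  simp only [Function.comp_def, Complex.coe_algebraMap, Complex.ofReal_re]
  rfl

lemma specSum_congr {f : ℝ → ℝ} {A B : Matrix (Fin m) (Fin m) ℂ} (hA : A.IsHermitian)
    (hB : B.IsHermitian) (h : A.charpoly = B.charpoly) : LTM.specSum f A = LTM.specSum f B := by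
  rw [specSum_eq_roots f hA, specSum_eq_roots f hB, h]

lemma specSum_mul_comm {f : ℝ → ℝ} (h0 : f 0 = 0) (V : Matrix (Fin m) (Fin n) ℂ) :
    LTM.specSum f (V * Vᴴ) = LTM.specSum f (Vᴴ * V) := by
  have h1 : (V * Vᴴ).IsHermitian := Matrix.isHermitian_mul_conjTranspose_self V
  have h2 : (Vᴴ * V).IsHermitian := Matrix.isHermitian_conjTranspose_mul_self V
  have h := congrArg (fun p : Polynomial ℂ => (p.roots.map fun z => f z.re).sum)
    (Matrix.charpoly_mul_comm' V Vᴴ)
  rw [Polynomial.roots_mul, Polynomial.roots_mul, Polynomial.roots_X_pow,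
    Polynomial.roots_X_pow] at h
  · simp only [Multiset.map_add, Multiset.sum_add, Multiset.map_nsmul, Multiset.sum_nsmul,
      Multiset.map_singleton, Multiset.sum_singleton, Complex.zero_re, h0, smul_zero,
      zero_add] at h
    rw [specSum_eq_roots f h1, specSum_eq_roots f h2]
    exact h
  · exact mul_ne_zero (pow_ne_zero _ Polynomial.X_ne_zero) (Matrix.charpoly_monic _).ne_zero
  · exact mul_ne_zero (pow_ne_zero _ Polynomial.X_ne_zero) (Matrix.charpoly_monic _).ne_zero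

/-- The diagonal of `R` in an eigenbasis of `W` (Peierls inequality). -/
lemma exists_occupation {W R : Matrix (Fin m) (Fin m) ℂ} (hW : W.IsHermitian)
    (hR : R.PosSemidef) {p : ℝ} (hp : 1 ≤ p) : ∃ r : Fin m → ℝ, (∀ i, 0 ≤ r i) ∧
      (W * R).trace = ((∑ i, hW.eigenvalues i * r i : ℝ) : ℂ) ∧
      ∑ i, r i ^ p ≤ LTM.specSum (fun t => t ^ p) R := by
  obtain ⟨P, h1, h2, hP⟩ := LTM.exists_unitary hW
  obtain ⟨Q, k1, k2, hQ⟩ := LTM.exists_unitary hR.isHermitian
  set ρ := hR.isHermitian.eigenvalues with hρ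
  have hρ0 : ∀ a, 0 ≤ ρ a := fun a => hR.eigenvalues_nonneg a
  set V : Matrix (Fin m) (Fin m) ℂ := Pᴴ * Q with hV
  have v1 : V * Vᴴ = 1 := by
    rw [hV, conjTranspose_mul, conjTranspose_conjTranspose]
    calc Pᴴ * Q * (Qᴴ * P) = Pᴴ * (Q * Qᴴ) * P := by simp only [Matrix.mul_assoc]
      _ = 1 := by rw [k2, Matrix.mul_one, h1]
  have v2 : Vᴴ * V = 1 := by
    rw [hV, conjTranspose_mul, conjTranspose_conjTranspose]
    calc Qᴴ * P * (Pᴴ * Q) = Qᴴ * (P * Pᴴ) * Q := by simp only [Matrix.mul_assoc]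
      _ = 1 := by rw [h2, Matrix.mul_one, k1]
  set B : Matrix (Fin m) (Fin m) ℂ := Pᴴ * R * P with hB
  have hBV : B = V * diagonal (fun a => ((ρ a : ℝ) : ℂ)) * Vᴴ := by
    rw [hB, hV, conjTranspose_mul, conjTranspose_conjTranspose]
    conv_lhs => rw [hQ]
    simp only [Matrix.mul_assoc]
  have hBi : ∀ i, B i i = ((∑ a, ‖V i a‖ ^ 2 * ρ a : ℝ) : ℂ) := by
    intro i
    rw [hBV, Matrix.mul_apply]
    simp only [Matrix.conjTranspose_apply, Matrix.mul_diagonal]
    push_cast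
    refine Finset.sum_congr rfl fun a _ => ?_
    rw [RCLike.star_def]
    have := Complex.mul_conj (V i a)
    rw [Complex.normSq_eq_norm_sq] at this
    push_cast at this
    linear_combination (ρ a : ℂ) * this
  have hrow : ∀ i, ∑ a, ‖V i a‖ ^ 2 = 1 := by
    intro i
    have := congrFun (congrFun v1 i) i
    simp only [Matrix.mul_apply, Matrix.conjTranspose_apply, Matrix.one_apply_eq,
      RCLike.star_def, Complex.mul_conj, Complex.normSq_eq_norm_sq] at this
    exact_mod_cast this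
  have hcol : ∀ a, ∑ i, ‖V i a‖ ^ 2 = 1 := by
    intro a
    have := congrFun (congrFun v2 a) a
    simp only [Matrix.mul_apply, Matrix.conjTranspose_apply, Matrix.one_apply_eq,
      RCLike.star_def, mul_comm (conj _), Complex.mul_conj, Complex.normSq_eq_norm_sq] at this
    exact_mod_cast this
  refine ⟨fun i => ∑ a, ‖V i a‖ ^ 2 * ρ a, fun i => Finset.sum_nonneg fun a _ =>
    mul_nonneg (sq_nonneg _) (hρ0 a), ?_, ?_⟩
  · have e : (W * R).trace = (diagonal (fun a => ((hW.eigenvalues a : ℝ) : ℂ)) * B).trace := by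
      conv_lhs => rw [hP]
      rw [Matrix.mul_assoc, Matrix.mul_assoc, Matrix.trace_mul_comm, hB]
      simp only [Matrix.mul_assoc]
    rw [e]
    simp only [trace, diag, diagonal_mul, hBi]
    push_cast
    rfl
  · rw [LTM.specSum_eq hR.isHermitian]
    have hj : ∀ i, (∑ a, ‖V i a‖ ^ 2 * ρ a) ^ p ≤ ∑ a, ‖V i a‖ ^ 2 * ρ a ^ p := by
      intro i
      have := (convexOn_rpow hp).map_sum_le (t := Finset.univ) (w := fun a => ‖V i a‖ ^ 2)
        (p := ρ) (fun a _ => sq_nonneg _) (hrow i) (fun a _ => hρ0 a)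
      simpa only [smul_eq_mul] using this
    calc ∑ i, (∑ a, ‖V i a‖ ^ 2 * ρ a) ^ p ≤ ∑ i, ∑ a, ‖V i a‖ ^ 2 * ρ a ^ p :=
          Finset.sum_le_sum fun i _ => hj i
      _ = ∑ a, ρ a ^ p := by
          rw [Finset.sum_comm]
          refine Finset.sum_congr rfl fun a _ => ?_
          rw [← Finset.sum_mul, hcol, one_mul]

/-- Pointwise duality. -/
lemma dual_pointwise {s : ℝ} (hs : 0 < s) {W R : Matrix (Fin m) (Fin m) ℂ} (hW : W.PosSemidef)
    (hR : R.PosSemidef) : ((W * R).trace).re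
      ≤ s ^ s / (s + 1) ^ (s + 1) * LTM.trPow (s + 1) W
        + LTM.specSum (fun t => t ^ (1 + 1 / s)) R := by
  have hp : 1 ≤ 1 + 1 / s := by
    have : 0 < 1 / s := by positivity
    linarith
  obtain ⟨r, hr, e1, e2⟩ := exists_occupation hW.isHermitian hR hp
  rw [e1, Complex.ofReal_re, LTM.trPow_eq, LTM.specSum_eq hW.isHermitian, Finset.mul_sum]
  refine le_trans ?_ (add_le_add_right e2 _)
  rw [← Finset.sum_add_distrib]
  exact Finset.sum_le_sum fun i _ => young hs (hW.eigenvalues_nonneg i) (hr i)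

/-- `tr (R ^ p)` is bounded by `(tr R) ^ p`. -/
lemma specSum_rpow_le {X : Matrix (Fin n) (Fin n) ℂ} (hX : X.PosSemidef) {q C : ℝ} (hq : 0 ≤ q)
    (hC : X.trace.re ≤ C) : LTM.specSum (fun t => t ^ (1 + q)) X ≤ C ^ q * X.trace.re := by
  have hH := hX.isHermitian
  have h0 : ∀ i, 0 ≤ hH.eigenvalues i := fun i => hX.eigenvalues_nonneg i
  have ht : X.trace.re = ∑ i, hH.eigenvalues i := by
    rw [hH.trace_eq_sum_eigenvalues]; simp
  rw [LTM.specSum_eq hH, ht, Finset.mul_sum]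
  refine Finset.sum_le_sum fun i _ => ?_
  have h1 : hH.eigenvalues i ≤ C := by
    refine le_trans ?_ (ht ▸ hC)
    exact Finset.single_le_sum (f := fun i => hH.eigenvalues i) (fun j _ => h0 j)
      (Finset.mem_univ i)
  rcases (h0 i).eq_or_lt with h | h
  · rw [← h, mul_zero, Real.zero_rpow (by linarith)]
  · rw [Real.rpow_add h, Real.rpow_one, mul_comm]
    exact mul_le_mul_of_nonneg_right (Real.rpow_le_rpow h.le h1 hq) h.le

section families

variable {u g : Fin n → ℝ → Fin m → ℂ}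

lemma specSum_Xm {f : ℝ → ℝ} (h0 : f 0 = 0) (u : Fin n → ℝ → Fin m → ℂ) (x : ℝ) :
    LTM.specSum f (Vale.P371.Xm (LTM.swap u) x) = LTM.specSum f (LTM.Rm u x) := by
  have e1 : Vale.P371.Xm (LTM.swap u) x = ((LTM.Vm u x)ᴴ * LTM.Vm u x)ᵀ := by
    rw [Vale.P371.Xm, LTM.Um_swap, Matrix.transpose_mul]
    congr 1
  have h2 : ((LTM.Vm u x)ᴴ * LTM.Vm u x).IsHermitian :=
    Matrix.isHermitian_conjTranspose_mul_self _
  rw [e1, specSum_congr h2.transpose h2 (Matrix.charpoly_transpose _), LTM.Rm,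
    specSum_mul_comm h0]

lemma posSemidef_Xm (u : Fin n → Fin m → ℝ → ℂ) (x : ℝ) : (Vale.P371.Xm u x).PosSemidef :=
  Matrix.posSemidef_self_mul_conjTranspose _

lemma integrable_specSum {s : ℝ} (hs : 0 < s) {u g : Fin n → Fin m → ℝ → ℂ}
    (h : Vale.P371.Fam u g) :
    Integrable fun x => LTM.specSum (fun t => t ^ (1 + 1 / s)) (Vale.P371.Xm u x) := by
  have hs' : 0 < 1 / s := by positivity
  have hint : Integrable fun x => (Vale.P371.Xm u x).trace.re := by
    have : Integrable fun x => (Vale.P371.Xm u x).trace := by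
      simp only [trace, diag]
      exact integrable_finsetSum _ fun i _ => h.intX i i
    exact this.re
  have hb : ∃ C, ∀ x, (Vale.P371.Xm u x).trace.re ≤ C := by
    refine ⟨∑ i, (‖Vale.P371.Xm u 0 i i‖ + ∫ t, ‖Vale.P371.Xd u g t i i‖), fun x => ?_⟩
    simp only [trace, diag, Complex.re_sum]
    refine Finset.sum_le_sum fun i _ => ?_
    exact (Complex.re_le_norm _).trans ((h.primX i i).norm_le (h.intXd i i) x)
  obtain ⟨C, hC⟩ := hb
  have hmeas : Measurable fun x => LTM.specSum (fun t => t ^ (1 + 1 / s)) (Vale.P371.Xm u x) := by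
    refine LTM.measurable_specSum (Real.continuous_rpow_const (by positivity))
      (fun c d => ?_) fun x => (posSemidef_Xm u x).isHermitian
    exact (h.primX c d).continuous.measurable
  refine (hint.const_mul (C ^ (1 / s))).mono' hmeas.aestronglyMeasurable
    (Eventually.of_forall fun x => ?_)
  have hH := (posSemidef_Xm u x).isHermitian
  have h0 : 0 ≤ LTM.specSum (fun t => t ^ (1 + 1 / s)) (Vale.P371.Xm u x) := by
    rw [LTM.specSum_eq hH]
    exact Finset.sum_nonneg fun i _ => Real.rpow_nonneg ((posSemidef_Xm u x).eigenvalues_nonneg i) _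
  rw [Real.norm_of_nonneg h0]
  exact specSum_rpow_le (posSemidef_Xm u x) hs'.le (hC x)

/-- the kinetic inequality on the whole line -/
lemma kin_line {s : ℝ} (hs : 0 < s) (K : KinG s) {u g : Fin n → Fin m → ℝ → ℂ} {y : Fin n → ℝ}
    (h : Vale.P371.Fam u g) (hy : ∀ j, 0 < y j)
    (hG : ∀ i j, ∫ t, Vale.P371.Xm u t i j =
      if i = j then (((s + 1 / 2) * Bs s * y j ^ (2 * s - 1) : ℝ) : ℂ) else 0) :
    ∫ x, LTM.specSum (fun t => t ^ (1 + 1 / s)) (Vale.P371.Xm u x) ≤
      (∑ c, ∑ i, ∫ x, ‖g i c x‖ ^ 2) + (s - 1 / 2) * Bs s * ∑ j, y j ^ (2 * s + 1) := by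
  have h1 := K n m u g y h hy hG
  have h2 := intervalIntegral_tendsto_integral (integrable_specSum hs h)
    tendsto_neg_atTop_atBot tendsto_id
  refine le_of_tendsto h2 (eventually_atTop.mpr ⟨0, fun R hR => ?_⟩)
  exact h1 (-R) R (by linarith)

lemma integral_le {s : ℝ} (hs : 0 < s) {W : ℝ → Matrix (Fin m) (Fin m) ℂ}
    (hW : LTM.IsPotential (s + 1 / 2) W) (h : ∀ j, LTM.IsH1 (u j) (g j)) :
    (∑ j, ∫ x, (LTM.pair ((W x).mulVec (u j x)) (u j x)).re)
      ≤ s ^ s / (s + 1) ^ (s + 1) * (∫ x, LTM.trPow (s + 1 / 2 + 1 / 2) (W x))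
        + ∫ x, LTM.specSum (fun t => t ^ (1 + 1 / s)) (Vale.P371.Xm (LTM.swap u) x) := by
  have e0 : s + 1 / 2 + 1 / 2 = s + 1 := by ring
  have i1 : Integrable fun x => s ^ s / (s + 1) ^ (s + 1) * LTM.trPow (s + 1) (W x) := by
    have := hW.integrable
    rw [e0] at this
    exact this.const_mul _
  have i2 := integrable_specSum hs (LTM.fam_swap h)
  have hdom := i1.add i2
  have hz : (fun t : ℝ => t ^ (1 + 1 / s)) 0 = 0 := by
    have : 0 < 1 / s := by positivity
    exact Real.zero_rpow (by linarith)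
  have hpt : ∀ x, ∑ j, (LTM.pair ((W x).mulVec (u j x)) (u j x)).re
      ≤ s ^ s / (s + 1) ^ (s + 1) * LTM.trPow (s + 1) (W x)
        + LTM.specSum (fun t => t ^ (1 + 1 / s)) (Vale.P371.Xm (LTM.swap u) x) := by
    intro x
    have := dual_pointwise hs (hW.posSemidef x) (LTM.Rm_posSemidef u x)
    rw [← Complex.re_sum, LTM.sum_pair_eq, specSum_Xm hz]
    exact this
  have hint : ∀ j, Integrable fun x => (LTM.pair ((W x).mulVec (u j x)) (u j x)).re := by
    intro j
    refine hdom.mono (Complex.continuous_re.comp_aestronglyMeasurable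
      (LTM.aesm_pair hW.measurable h j)) (Eventually.of_forall fun x => ?_)
    have h0 := LTM.pair_nonneg (hW.posSemidef x) (u j x)
    rw [Real.norm_of_nonneg h0, Real.norm_eq_abs]
    refine le_trans ?_ (le_abs_self _)
    refine le_trans ?_ (hpt x)
    exact Finset.single_le_sum (f := fun j => (LTM.pair ((W x).mulVec (u j x)) (u j x)).re)
      (fun i _ => LTM.pair_nonneg (hW.posSemidef x) (u i x)) (Finset.mem_univ j)
  rw [← integral_finsetSum _ fun j _ => hint j, e0, ← integral_const_mul,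
    ← integral_add i1 i2]
  exact integral_mono (integrable_finsetSum _ fun j _ => hint j) hdom hpt

end families

/-- The weighted family. -/
noncomputable def wf (c : Fin n → ℝ) (u : Fin n → ℝ → Fin m → ℂ) : Fin n → ℝ → Fin m → ℂ :=
  fun j x k => ((√(c j) : ℝ) : ℂ) * u j x k

lemma isH1_wf (c : Fin n → ℝ) {u g : Fin n → ℝ → Fin m → ℂ} (h : ∀ j, LTM.IsH1 (u j) (g j)) :
    ∀ j, LTM.IsH1 (wf c u j) (wf c g j) := fun j =>
  { memLp := fun k => ((h j).memLp k).const_mul _
    memLp' := fun k => ((h j).memLp' k).const_mul _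
    ftc := fun k x y => by
      simp only [wf]
      rw [intervalIntegral.integral_const_mul, ← (h j).ftc k x y]; ring }

lemma pair_wf (c : Fin n → ℝ) (u : Fin n → ℝ → Fin m → ℂ) (x : ℝ) (i j : Fin n) :
    LTM.pair (wf c u i x) (wf c u j x)
      = (((√(c i) * √(c j) : ℝ)) : ℂ) * LTM.pair (u i x) (u j x) := by
  simp only [LTM.pair, wf, map_mul, Complex.conj_ofReal, Finset.mul_sum]
  refine Finset.sum_congr rfl fun k _ => ?_
  push_cast; ring

lemma pair_wf' {c : Fin n → ℝ} (A : Matrix (Fin m) (Fin m) ℂ) (u : Fin n → ℝ → Fin m → ℂ)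
    (x : ℝ) (j : Fin n) (hc : 0 ≤ c j) :
    (LTM.pair (A.mulVec (wf c u j x)) (wf c u j x)).re
      = c j * (LTM.pair (A.mulVec (u j x)) (u j x)).re := by
  have : LTM.pair (A.mulVec (wf c u j x)) (wf c u j x)
      = ((c j : ℝ) : ℂ) * LTM.pair (A.mulVec (u j x)) (u j x) := by
    have h2 : ((√(c j) : ℝ) : ℂ) * ((√(c j) : ℝ) : ℂ) = ((c j : ℝ) : ℂ) := by
      rw [← Complex.ofReal_mul, Real.mul_self_sqrt hc]
    rw [LTM.pair_eq, LTM.pair_eq, Finset.mul_sum]
    refine Finset.sum_congr rfl fun a _ => ?_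
    rw [Finset.mul_sum]
    refine Finset.sum_congr rfl fun b _ => ?_
    simp only [wf, map_mul, Complex.conj_ofReal]
    rw [← h2]; ring
  rw [this, Complex.re_ofReal_mul]

lemma sum_le {s : ℝ} (hs : 1 / 2 < s) (K : KinG s) {W : ℝ → Matrix (Fin m) (Fin m) ℂ}
    (hW : LTM.IsPotential (s + 1 / 2) W) {lam : Fin n → ℝ} {u g : Fin n → ℝ → Fin m → ℂ}
    (hlam : ∀ j, lam j < 0) (h : ∀ j, LTM.IsBoundState W (lam j) (u j) (g j))
    (ho : LTM.IsOrthonormal u) :
    ∑ j, |lam j| ^ (s + 1 / 2) ≤ Kc s * ∫ x, LTM.trPow (s + 1 / 2 + 1 / 2) (W x) := by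
  have hs0 : 0 < s := by linarith
  have hB := CST.Bs_pos hs0
  have hl : ∀ j, 0 < |lam j| := fun j => abs_pos.mpr (hlam j).ne
  set y : Fin n → ℝ := fun j => √|lam j| with hy
  have hy0 : ∀ j, 0 < y j := fun j => Real.sqrt_pos.mpr (hl j)
  have hy2 : ∀ j, y j ^ 2 = |lam j| := fun j => Real.sq_sqrt (hl j).le
  set c : Fin n → ℝ := fun j => (s + 1 / 2) * Bs s * y j ^ (2 * s - 1) with hc
  have hc0 : ∀ j, 0 < c j := fun j => by
    have := Real.rpow_pos_of_pos (hy0 j) (2 * s - 1)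
    simp only [hc]; positivity
  have hH := isH1_wf c fun j => (h j).isH1
  have hG : ∀ i j, ∫ t, Vale.P371.Xm (LTM.swap (wf c u)) t i j =
      if i = j then (((s + 1 / 2) * Bs s * y j ^ (2 * s - 1) : ℝ) : ℂ) else 0 := by
    intro i j
    simp only [LTM.Xm_swap_apply, pair_wf]
    rw [integral_const_mul, ho i j]
    by_cases hij : i = j
    · subst hij
      rw [if_pos rfl, if_pos rfl, mul_one, Real.mul_self_sqrt (hc0 i).le]
    · rw [if_neg hij, if_neg hij, mul_zero]
  have h1 := kin_line hs0 K (LTM.fam_swap hH) hy0 hG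
  have h2 := integral_le hs0 hW hH
  have hform : ∀ j, (∑ k, ∫ x, ‖g j x k‖ ^ 2)
      - ∫ x, (LTM.pair ((W x).mulVec (u j x)) (u j x)).re = lam j := fun j =>
    (h j).form hW.posSemidef (by simpa using ho j j)
  have e1 : ∑ j, ∫ x, (LTM.pair ((W x).mulVec (wf c u j x)) (wf c u j x)).re
      = ∑ j, c j * ∫ x, (LTM.pair ((W x).mulVec (u j x)) (u j x)).re := by
    refine Finset.sum_congr rfl fun j _ => ?_
    rw [← integral_const_mul]
    congr 1; funext x
    exact pair_wf' _ _ _ _ (hc0 j).le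
  have e2 : (∑ k, ∑ j, ∫ x, ‖LTM.swap (wf c g) j k x‖ ^ 2)
      = ∑ j, c j * ∑ k, ∫ x, ‖g j x k‖ ^ 2 := by
    rw [Finset.sum_comm]
    refine Finset.sum_congr rfl fun j _ => ?_
    rw [Finset.mul_sum]
    refine Finset.sum_congr rfl fun k _ => ?_
    rw [← integral_const_mul]
    congr 1; funext x
    simp only [LTM.swap, wf, norm_mul, Complex.norm_real, mul_pow, Real.norm_eq_abs, sq_abs]
    rw [Real.sq_sqrt (hc0 j).le]
  have e3 : ∑ j, c j * |lam j| = (s + 1 / 2) * Bs s * ∑ j, y j ^ (2 * s + 1) := by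
    rw [Finset.mul_sum]
    refine Finset.sum_congr rfl fun j _ => ?_
    simp only [hc]
    rw [← hy2 j, mul_assoc, ← Real.rpow_natCast (y j) 2, ← Real.rpow_add (hy0 j)]
    congr 2; push_cast; ring
  have e4 : ∑ j, c j * |lam j| = (∑ j, c j * ∫ x, (LTM.pair ((W x).mulVec (u j x)) (u j x)).re)
      - ∑ j, c j * ∑ k, ∫ x, ‖g j x k‖ ^ 2 := by
    rw [← Finset.sum_sub_distrib]
    refine Finset.sum_congr rfl fun j _ => ?_
    rw [← mul_sub, abs_of_neg (hlam j), ← hform j]; ring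
  have e5 : ∑ j, |lam j| ^ (s + 1 / 2) = ∑ j, y j ^ (2 * s + 1) := by
    refine Finset.sum_congr rfl fun j _ => ?_
    rw [← hy2 j, ← Real.rpow_natCast (y j) 2, ← Real.rpow_mul (hy0 j).le]
    congr 1; push_cast; ring
  rw [e2] at h1
  rw [e1] at h2
  rw [e5, Kc]
  have h3 : Bs s * ∑ j, y j ^ (2 * s + 1)
      ≤ s ^ s / (s + 1) ^ (s + 1) * ∫ x, LTM.trPow (s + 1 / 2 + 1 / 2) (W x) := by
    nlinarith [h1, h2, e3, e4]
  have h4 : s ^ s / ((s + 1) ^ (s + 1) * Bs s) * (∫ x, LTM.trPow (s + 1 / 2 + 1 / 2) (W x))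
      = (s ^ s / (s + 1) ^ (s + 1) * ∫ x, LTM.trPow (s + 1 / 2 + 1 / 2) (W x)) / Bs s := by
    field_simp
  rw [h4, le_div_iff₀ hB, mul_comm]
  exact h3

end Up

theorem ltup : S_LTUP := by
  intro s hs hs1 K m
  have hs0 : 0 < s := by linarith
  have hB := CST.Bs_pos hs0
  unfold LTM.LT
  refine iSup_le fun W => iSup_le fun hW => ?_
  refine ENNReal.div_le_of_le_mul ?_
  unfold LTM.traceNeg
  refine iSup_le fun n => iSup_le fun lam => iSup_le fun u => iSup_le fun g =>
    iSup_le fun h => ?_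
  have hK : 0 ≤ Kc s := by unfold Kc; positivity
  rw [← ENNReal.ofReal_mul hK]
  exact ENNReal.ofReal_le_ofReal (Up.sum_le hs K hW h.1 h.2.1 h.2.2)

end LTG
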