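import Mathlib
import Vale.Agent.P371.GStat2

/-!
# P371, `γ ∈ (1, 3/2)`: the saddle point and the first order condition
-/

namespace LTG

open Matrix Set Filter MeasureTheory
open scoped ComplexOrder Topology ComplexConjugate

set_option linter.unusedSectionVars false

variable {α : Type*} [Fintype α] [DecidableEq α] {s : ℝ} (C : Fun s α) {e : ℝ}

open Classical in
/-- The maximiser. -/
noncomputable def km (C : Fun s α) (e : ℝ) (X M Q : Matrix α α ℂ) : Matrix α α ℂ :=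
  if h : ∃ k, IsMx C e X M Q k then h.choose else 0

lemma km_spec {X M Q : Matrix α α ℂ} (h : ∃ k, IsMx C e X M Q k) :
    IsMx C e X M Q (km C e X M Q) := by
  rw [km, dif_pos h]; exact h.choose_spec

/-- The value of the inner problem. -/
noncomputable def gv (C : Fun s α) (e : ℝ) (X M Q : Matrix α α ℂ) : ℝ :=
  Sig C e X M Q (km C e X M Q)

/-- Standing assumptions on the parameters. -/
structure Adm (d : ℝ) (X M : Matrix α α ℂ) : Prop where
  hX : X.PosSemidef
  hM : (M - ((d : ℝ) : ℂ) • (1 : Matrix α α ℂ)).PosSemidef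

lemma Adm.isMx (hs0 : 0 ≤ s) (hs : s < 1) (he : 0 < e) {d : ℝ} (hd : 0 < d)
    {X M Q : Matrix α α ℂ} (h : Adm d X M) (hQ : Q.PosSemidef) :
    IsMx C e X M Q (km C e X M Q) :=
  km_spec C (exists_isMx C hs0 hs he hd h.hX h.hM hQ)

lemma trace_kk_nonneg {k : Matrix α α ℂ} (hk : k.IsHermitian) : (k * k).PosSemidef := by
  have := Matrix.posSemidef_self_mul_conjTranspose k
  rwa [hk.eq] at this

lemma ld_smul_one {η : ℝ} (hη : 0 < η) :
    ld ((η : ℂ) • (1 : Matrix α α ℂ)) = Fintype.card α * Real.log η := by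
  unfold ld
  rw [Matrix.det_smul, Matrix.det_one, mul_one]
  have : ((η : ℂ) ^ Fintype.card α).re = η ^ Fintype.card α := by
    rw [← Complex.ofReal_pow, Complex.ofReal_re]
  rw [this, Real.log_pow]

/-- The lower bound used for coercivity and for the end value. -/
lemma Sig_half_ge {X M Q : Matrix α α ℂ} (hX : X.PosSemidef) (hQ : Q.PosSemidef) {η : ℝ}
    (hη : 0 < η) :
    Bs s * tp (2 * s + 1) ((1 / 2 : ℂ) • (Q + (η : ℂ) • 1))
      - η * tp (2 * s) ((1 / 2 : ℂ) • (Q + (η : ℂ) • 1))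
      - X.trace.re * ((1 / 2 : ℂ) • (Q + (η : ℂ) • 1)).trace.re
      - (((1 / 2 : ℂ) • (Q + (η : ℂ) • 1) * ((1 / 2 : ℂ) • (Q + (η : ℂ) • 1)) * M).trace).re
      + e * (Fintype.card α * Real.log η)
      ≤ Sig C e X M Q ((1 / 2 : ℂ) • (Q + (η : ℂ) • 1)) := by
  have h1 := C.G_end Q η hQ hη
  have hD := dom_half hQ hη
  set k := (1 / 2 : ℂ) • (Q + (η : ℂ) • (1 : Matrix α α ℂ)) with hk
  have hkp := hD.posDef.posSemidef
  have e1 : (2 : ℂ) • k - Q = (η : ℂ) • (1 : Matrix α α ℂ) := by rw [hk]; module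
  have e2 : k - Q = (η : ℂ) • (1 : Matrix α α ℂ) - k := by rw [hk]; module
  clear_value k
  have h2 : -(X.trace.re * k.trace.re) ≤ ((X * (k - Q)).trace).re := by
    rw [e2, Matrix.mul_sub, Matrix.trace_sub, Matrix.mul_smul, Matrix.mul_one,
      Matrix.trace_smul, Complex.sub_re, smul_eq_mul, Complex.re_ofReal_mul]
    have a := tr_mul_le hX hkp
    have b := mul_nonneg hη.le (re_nonneg_of_posSemidef hX)
    linarith
  unfold Sig
  rw [e1, ld_smul_one hη]
  linarith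

/-- Scalar growth. -/
lemma exists_c {B : ℝ} (hB : 0 < B) (hs : 1 / 2 < s) (hs1 : s < 1) (m R : ℝ) :
    ∃ c : ℝ, 0 ≤ c ∧ ∀ x : ℝ, 0 ≤ x →
      x - c ≤ B * x ^ (2 * s + 1) - x ^ (2 * s) - m * x ^ 2 - R * x := by
  set K : ℝ := 2 + |m| + |R| with hK
  have hK0 : 0 < K := by positivity
  obtain ⟨x0, hx0⟩ := eventually_atTop.mp
    ((tendsto_rpow_atTop (by linarith : 0 < 2 * s - 1)).eventually_ge_atTop (K / B))
  set X0 := max 1 x0 with hX0
  have h1X : 1 ≤ X0 := le_max_left _ _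
  refine ⟨K * X0 ^ 2, by positivity, fun x hx => ?_⟩
  have hm1 : m * x ^ 2 ≤ |m| * x ^ 2 := mul_le_mul_of_nonneg_right (le_abs_self _) (sq_nonneg _)
  have hR1 : R * x ≤ |R| * x := mul_le_mul_of_nonneg_right (le_abs_self _) hx
  have ham := abs_nonneg m
  have haR := abs_nonneg R
  have hp : 0 ≤ x ^ (2 * s + 1) := Real.rpow_nonneg hx _
  rcases le_total x X0 with hxX | hxX
  · have a1 : x ^ (2 * s) ≤ X0 ^ 2 := by
      calc x ^ (2 * s) ≤ X0 ^ (2 * s) := Real.rpow_le_rpow hx hxX (by linarith)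
        _ ≤ X0 ^ (2 : ℝ) := Real.rpow_le_rpow_of_exponent_le h1X (by linarith)
        _ = X0 ^ 2 := by rw [← Real.rpow_natCast]; norm_num
    have a2 : x ^ 2 ≤ X0 ^ 2 := pow_le_pow_left₀ hx hxX 2
    have a3 : x ≤ X0 ^ 2 := by nlinarith
    have a4 : |m| * x ^ 2 ≤ |m| * X0 ^ 2 := mul_le_mul_of_nonneg_left a2 ham
    have a5 : |R| * x ≤ |R| * X0 ^ 2 := mul_le_mul_of_nonneg_left a3 haR
    have a6 : 0 ≤ B * x ^ (2 * s + 1) := by positivity
    have : K * X0 ^ 2 = 2 * X0 ^ 2 + |m| * X0 ^ 2 + |R| * X0 ^ 2 := by rw [hK]; ring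
    linarith
  · have hx1 : 1 ≤ x := h1X.trans hxX
    have hxp : 0 < x := by linarith
    have a0 := hx0 x ((le_max_right _ _).trans hxX)
    rw [div_le_iff₀ hB] at a0
    have a1 : x ^ (2 * s) ≤ x ^ 2 := by
      calc x ^ (2 * s) ≤ x ^ (2 : ℝ) := Real.rpow_le_rpow_of_exponent_le hx1 (by linarith)
        _ = x ^ 2 := by rw [← Real.rpow_natCast]; norm_num
    have a2 : x ^ (2 * s + 1) = x ^ 2 * x ^ (2 * s - 1) := by
      rw [← Real.rpow_natCast x 2, ← Real.rpow_add hxp]; congr 1; push_cast; ring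
    have a3 : x ≤ x ^ 2 := by nlinarith
    have a4 : |R| * x ≤ |R| * x ^ 2 := mul_le_mul_of_nonneg_left a3 haR
    have a5 : K * x ^ 2 ≤ B * x ^ (2 * s + 1) := by
      rw [a2]
      have := mul_le_mul_of_nonneg_left a0 (sq_nonneg x)
      nlinarith
    have a6 : 0 ≤ K * X0 ^ 2 := by positivity
    have : K * x ^ 2 = 2 * x ^ 2 + |m| * x ^ 2 + |R| * x ^ 2 := by rw [hK]; ring
    linarith

/-- Coercivity in `Q`. -/
lemma coercive (hB : 0 < Bs s) (hs : 1 / 2 < s) (hs1 : s < 1) (m R : ℝ) :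
    ∃ c : ℝ, 0 ≤ c ∧ ∀ X M Q : Matrix α α ℂ, X.PosSemidef → M.PosSemidef → Q.PosSemidef →
      X.trace.re ≤ R → M.trace.re ≤ m →
      Q.trace.re / 2 - c ≤ Sig C e X M Q ((1 / 2 : ℂ) • (Q + ((1 : ℝ) : ℂ) • 1)) := by
  obtain ⟨c, hc, H⟩ := exists_c hB hs hs1 m R
  refine ⟨c * Fintype.card α, by positivity, fun X M Q hX hM hQ hXR hMm => ?_⟩
  have h1 := Sig_half_ge C (e := e) (M := M) hX hQ one_pos
  have hD := dom_half hQ one_pos
  set k := (1 / 2 : ℂ) • (Q + ((1 : ℝ) : ℂ) • (1 : Matrix α α ℂ)) with hk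
  have hkp := hD.posDef.posSemidef
  have h2 : ((k * k * M).trace).re ≤ m * ((k * k).trace).re := by
    have a := tr_mul_le (trace_kk_nonneg hkp.isHermitian) hM
    have b := mul_le_mul_of_nonneg_left hMm
      (re_nonneg_of_posSemidef (trace_kk_nonneg hkp.isHermitian))
    linarith
  have h3 : X.trace.re * k.trace.re ≤ R * k.trace.re :=
    mul_le_mul_of_nonneg_right hXR (re_nonneg_of_posSemidef hkp)
  have h4 : Q.trace.re ≤ 2 * k.trace.re := hD.trQ_le
  have h5 : tp (2 * s + 1) k = ∑ i, hkp.isHermitian.eigenvalues i ^ (2 * s + 1) := by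
    rw [tp, dif_pos hkp.isHermitian]
  have h6 : tp (2 * s) k = ∑ i, hkp.isHermitian.eigenvalues i ^ (2 * s) := by
    rw [tp, dif_pos hkp.isHermitian]
  have h7 := tr_sq_eigen hkp.isHermitian
  have h8 := trace_re_eq_sum hkp.isHermitian
  have h9 : ∑ i, (hkp.isHermitian.eigenvalues i - c) ≤
      ∑ i, (Bs s * hkp.isHermitian.eigenvalues i ^ (2 * s + 1)
        - hkp.isHermitian.eigenvalues i ^ (2 * s) - m * hkp.isHermitian.eigenvalues i ^ 2
        - R * hkp.isHermitian.eigenvalues i) :=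
    Finset.sum_le_sum fun i _ => H _ (hkp.eigenvalues_nonneg i)
  simp only [Finset.sum_sub_distrib, ← Finset.mul_sum, Finset.sum_const, Finset.card_univ,
    nsmul_eq_mul, ← h5, ← h6, ← h7, ← h8] at h9
  rw [Real.log_one] at h1
  linarith

/-- Upper bound at `Q = 0`. -/
lemma gv_zero_le (hs0 : 0 ≤ s) (hs : s < 1) (he : 0 < e) {d : ℝ} (hd : 0 < d)
    {X M : Matrix α α ℂ} (h : Adm d X M) :
    gv C e X M 0 ≤ Fintype.card α * (X.trace.re + 2 * e * Fintype.card α) ^ 2 / (4 * d) := by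
  have hm := h.isMx C hs0 hs he hd (Q := 0) PosSemidef.zero
  have h1 := Sig_le C he.le hd.le h.hX h.hM hm.1
  rw [Matrix.trace_zero, Complex.zero_re, zero_mul, add_zero] at h1
  unfold gv
  set t := (km C e X M 0).trace.re with ht
  set A := X.trace.re + 2 * e * Fintype.card α with hA
  rcases isEmpty_or_nonempty α with hα | hα
  · have h0 : (Fintype.card α : ℝ) = 0 := by simp
    have h2 : t = 0 := by rw [ht]; simp [Matrix.trace]
    rw [h2] at h1
    simp only [ne_eq, OfNat.ofNat_ne_zero, not_false_eq_true, zero_pow, mul_zero, add_zero] at h1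
    rw [h0]; simpa using h1
  · have hN : (0 : ℝ) < Fintype.card α := by exact_mod_cast Fintype.card_pos
    have h2 : A * t - d / Fintype.card α * t ^ 2 ≤ Fintype.card α * A ^ 2 / (4 * d) := by
      rw [le_div_iff₀ (by positivity)]
      have e1 : (A * t - d / Fintype.card α * t ^ 2) * (4 * d)
          = Fintype.card α * A ^ 2
            - (Fintype.card α : ℝ) * (A - 2 * d / Fintype.card α * t) ^ 2 := by
        field_simp
        ring
      rw [e1]
      have : 0 ≤ (Fintype.card α : ℝ) * (A - 2 * d / Fintype.card α * t) ^ 2 := by positivity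
      linarith
    linarith

/-- Continuity of the inner value. -/
lemma continuousOn_gv (hs0 : 0 ≤ s) (hs : s < 1) (he : 0 < e) {d : ℝ} (hd : 0 < d)
    {X M : Matrix α α ℂ} (h : Adm d X M) :
    ContinuousOn (fun Q => gv C e X M Q) {Q : Matrix α α ℂ | Q.PosSemidef} := by
  have : FirstCountableTopology (Matrix α α ℂ) :=
    inferInstanceAs (FirstCountableTopology (α → α → ℂ))
  intro Q hQ
  have hQ' : Q.PosSemidef := hQ
  refine tendsto_of_seq_tendsto fun Qn hQn => ?_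
  obtain ⟨hQ1, hQ2⟩ := tendsto_nhdsWithin_iff.mp hQn
  obtain ⟨N, hN⟩ := eventually_atTop.mp hQ2
  rw [← tendsto_add_atTop_iff_nat N]
  have hQ1' : Tendsto (fun n => Qn (n + N)) atTop (𝓝 Q) :=
    hQ1.comp (tendsto_add_atTop_nat N)
  have hp : ∀ n, (Qn (n + N)).PosSemidef := fun n => hN _ (Nat.le_add_left _ _)
  have h1 : Tendsto (fun n => km C e X M (Qn (n + N))) atTop (𝓝 (km C e X M Q)) :=
    tendsto_isMx C hs0 hs he hd (fun _ => h.hX) (fun _ => h.hM) tendsto_const_nhds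
      tendsto_const_nhds hQ1' (h.isMx C hs0 hs he hd hQ') fun n => h.isMx C hs0 hs he hd (hp n)
  exact tendsto_Sig C tendsto_const_nhds tendsto_const_nhds hQ1' h1
    (Eventually.of_forall fun n => (h.isMx C hs0 hs he hd (hp n)).1)
    (h.isMx C hs0 hs he hd hQ').1

/-- `Q` is a minimiser of the inner value. -/
def IsMn (C : Fun s α) (e : ℝ) (X M Q : Matrix α α ℂ) : Prop :=
  Q.PosSemidef ∧ ∀ Q', Q'.PosSemidef → gv C e X M Q ≤ gv C e X M Q'

lemma Adm.posSemidef {d : ℝ} (hd : 0 < d) {X M : Matrix α α ℂ} (h : Adm d X M) :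
    M.PosSemidef := by
  have h2 : (((d : ℝ) : ℂ) • (1 : Matrix α α ℂ)).PosSemidef :=
    PosSemidef.one.smul (Complex.zero_le_real.mpr hd.le)
  have := h.hM.add h2
  rwa [sub_add_cancel] at this

/-- Existence of minimisers with a uniform bound. -/
lemma exists_isMn (hB : 0 < Bs s) (hs : 1 / 2 < s) (hs1 : s < 1) {d : ℝ} (hd : 0 < d)
    (m R : ℝ) : ∃ T : ℝ, 0 ≤ T ∧ ∀ e : ℝ, 0 < e → e ≤ 1 → ∀ X M : Matrix α α ℂ, Adm d X M →
      X.trace.re ≤ R → M.trace.re ≤ m →
      (∃ Q, IsMn C e X M Q) ∧ ∀ Q, IsMn C e X M Q → Q.trace.re ≤ T := by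
  obtain ⟨c, hc, H⟩ := coercive (e := 0) C hB hs hs1 m R
  set U : ℝ := Fintype.card α * (max R 0 + 2 * Fintype.card α) ^ 2 / (4 * d) with hU
  have hU0 : 0 ≤ U := by positivity
  refine ⟨2 * (U + c), by positivity, fun e he he1 X M h hXR hMm => ?_⟩
  have hs0 : 0 ≤ s := by linarith
  have hX0 := re_nonneg_of_posSemidef h.hX
  have hzero : gv C e X M 0 ≤ U := by
    refine (gv_zero_le C hs0 hs1 he hd h).trans ?_
    rw [hU]
    gcongr
    · exact hXR.trans (le_max_left _ _)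
    · linarith
  have hbound : ∀ Q : Matrix α α ℂ, Q.PosSemidef → gv C e X M Q ≤ U →
      Q.trace.re ≤ 2 * (U + c) := by
    intro Q hQ hle
    have h1 := H X M Q h.hX (h.posSemidef hd) hQ hXR hMm
    have hD := dom_half hQ one_pos
    have h2 := (h.isMx C hs0 hs1 he hd hQ).2 _ hD
    have h3 : Sig C 0 X M Q ((1 / 2 : ℂ) • (Q + ((1 : ℝ) : ℂ) • 1))
        = Sig C e X M Q ((1 / 2 : ℂ) • (Q + ((1 : ℝ) : ℂ) • 1)) := by
      have e1 : (2 : ℂ) • ((1 / 2 : ℂ) • (Q + ((1 : ℝ) : ℂ) • (1 : Matrix α α ℂ))) - Q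
          = ((1 : ℝ) : ℂ) • (1 : Matrix α α ℂ) := by module
      unfold Sig
      rw [e1, ld_smul_one one_pos, Real.log_one]
      ring
    rw [h3] at h1
    have h4 : Sig C e X M Q (km C e X M Q) = gv C e X M Q := rfl
    rw [h4] at h2
    linarith
  refine ⟨?_, fun Q hQ => hbound Q hQ.1 ((hQ.2 0 PosSemidef.zero).trans hzero)⟩
  -- existence
  set S := {Q : Matrix α α ℂ | Q.PosSemidef ∧ Q.trace.re ≤ 2 * (U + c)} with hS
  have hScomp : IsCompact S := by
    refine (isCompact_box (2 * (U + c))).of_isClosed_subset ?_ ?_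
    · have c2 : Continuous fun k : Matrix α α ℂ => k.trace.re := by fun_prop
      exact isClosed_posSemidef.inter (isClosed_le c2 continuous_const)
    · rintro Q ⟨h1, h2⟩ i j
      exact (norm_le_trace h1 i j).trans h2
  have h0S : (0 : Matrix α α ℂ) ∈ S := by
    refine ⟨PosSemidef.zero, ?_⟩
    rw [Matrix.trace_zero, Complex.zero_re]; positivity
  have hcont : ContinuousOn (fun Q => gv C e X M Q) S :=
    (continuousOn_gv C hs0 hs1 he hd h).mono fun Q hQ => hQ.1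
  obtain ⟨Q, hQS, hQ⟩ := hScomp.exists_isMinOn ⟨0, h0S⟩ hcont
  refine ⟨Q, hQS.1, fun Q' hQ' => ?_⟩
  by_cases hle : gv C e X M Q' ≤ U
  · exact hQ ⟨hQ', hbound Q' hQ' hle⟩
  · push Not at hle
    exact ((hQ h0S).trans hzero).trans hle.le

lemma herm_smul_real {A : Matrix α α ℂ} (hA : A.IsHermitian) (r : ℝ) :
    ((r : ℂ) • A).IsHermitian := by
  rw [Matrix.IsHermitian, conjTranspose_smul, hA.eq]
  congr 1
  exact Complex.conj_ofReal r

/-- First order condition. -/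
lemma foc (hs0 : 0 ≤ s) (hs : s < 1) (he : 0 < e) {d : ℝ} (hd : 0 < d)
    {X M Q V : Matrix α α ℂ} (h : Adm d X M) (hQ : IsMn C e X M Q) (hV : V.IsHermitian)
    (hfe : ∀ t : ℝ, 0 ≤ t → t ≤ 1 → (Q + (t : ℂ) • V).PosSemidef) :
    0 ≤ ((V * (C.B Q (km C e X M Q) - X
      - (e : ℂ) • ((2 : ℂ) • km C e X M Q - Q)⁻¹)).trace).re := by
  have hmx := h.isMx C hs0 hs he hd hQ.1
  set k := km C e X M Q with hk
  -- the perturbed problems
  set t : ℕ → ℝ := fun n => 1 / ((n : ℝ) + 1) with ht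
  have ht0 : ∀ n, 0 < t n := fun n => by simp only [ht]; positivity
  have ht1 : ∀ n, t n ≤ 1 := fun n => by
    simp only [ht]; rw [div_le_one (by positivity)]; linarith [Nat.cast_nonneg (α := ℝ) n]
  have htt : Tendsto t atTop (𝓝 0) := tendsto_one_div_add_atTop_nhds_zero_nat
  set Qn : ℕ → Matrix α α ℂ := fun n => Q + ((t n : ℝ) : ℂ) • V with hQn
  have hQnp : ∀ n, (Qn n).PosSemidef := fun n => hfe _ (ht0 n).le (ht1 n)
  have htc : Tendsto (fun n => ((t n : ℝ) : ℂ)) atTop (𝓝 0) := by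
    have := (Complex.continuous_ofReal.tendsto 0).comp htt
    rw [Complex.ofReal_zero] at this
    exact this
  have hQnt : Tendsto Qn atTop (𝓝 Q) := by
    have := (htc.smul_const V).const_add Q
    rw [zero_smul, add_zero] at this
    exact this
  set kn : ℕ → Matrix α α ℂ := fun n => km C e X M (Qn n) with hkn
  have hknmx : ∀ n, IsMx C e X M (Qn n) (kn n) := fun n => h.isMx C hs0 hs he hd (hQnp n)
  have hknt : Tendsto kn atTop (𝓝 k) :=
    tendsto_isMx C hs0 hs he hd (fun _ => h.hX) (fun _ => h.hM) tendsto_const_nhds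
      tendsto_const_nhds hQnt hmx hknmx
  -- `(Q, kn)` is feasible
  have hP2 : Tendsto (fun n => (2 : ℂ) • kn n - Q) atTop (𝓝 ((2 : ℂ) • k - Q)) :=
    (hknt.const_smul (2 : ℂ)).sub_const Q
  have hfeas : ∀ᶠ n in atTop, ((2 : ℂ) • kn n - Q).PosDef := by
    refine eventually_posDef hP2 (Eventually.of_forall fun n => ?_) hmx.1.2
    have a := herm_smul_real (hknmx n).1.posDef.isHermitian 2
    have b : ((2 : ℝ) : ℂ) = 2 := by norm_num
    rw [b] at a
    exact a.sub hQ.1.isHermitian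
  -- the inequality at stage `n`
  have hstage : ∀ᶠ n in atTop, ∃ θ ∈ Set.Icc (0 : ℝ) 1,
      0 ≤ ((V * C.B (Q + ((θ * t n : ℝ) : ℂ) • V) (kn n)).trace).re - ((X * V).trace).re
        - e * ((((2 : ℂ) • kn n - Q)⁻¹ * V).trace).re := by
    filter_upwards [hfeas] with n hn
    have hD1 : Dom Q (kn n) := ⟨hQ.1, hn⟩
    have hD2 : Dom (Qn n) (kn n) := (hknmx n).1
    obtain ⟨θ, hθ, hθ2⟩ := C.G_mvt Q (Qn n) (kn n) hD1 hD2
    refine ⟨θ, hθ, ?_⟩
    have e1 : Qn n - Q = ((t n : ℝ) : ℂ) • V := by simp only [hQn]; abel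
    rw [e1] at hθ2
    have e2 : ((θ : ℝ) : ℂ) • ((t n : ℝ) : ℂ) • V = ((θ * t n : ℝ) : ℂ) • V := by
      rw [smul_smul]; push_cast; rfl
    rw [e2, Matrix.smul_mul, Matrix.trace_smul, smul_eq_mul, Complex.re_ofReal_mul] at hθ2
    have f1 : gv C e X M Q ≤ gv C e X M (Qn n) := hQ.2 _ (hQnp n)
    have f2 : Sig C e X M Q (kn n) ≤ gv C e X M Q := hmx.2 _ hD1
    have f3 : gv C e X M (Qn n) = Sig C e X M (Qn n) (kn n) := rfl
    have f4 : Sig C e X M Q (kn n) ≤ Sig C e X M (Qn n) (kn n) := by linarith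
    have f5 := (ld_le hn hD2.2).1
    have e3 : (2 : ℂ) • kn n - Qn n - ((2 : ℂ) • kn n - Q) = -(((t n : ℝ) : ℂ) • V) := by
      simp only [hQn]; abel
    rw [e3, Matrix.mul_neg, Matrix.trace_neg, Matrix.mul_smul, Matrix.trace_smul, Complex.neg_re,
      smul_eq_mul, Complex.re_ofReal_mul] at f5
    have f6 : ((X * (kn n - Qn n)).trace).re
        = ((X * (kn n - Q)).trace).re - t n * ((X * V).trace).re := by
      have : kn n - Qn n = (kn n - Q) - ((t n : ℝ) : ℂ) • V := by simp only [hQn]; abel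
      rw [this, Matrix.mul_sub, Matrix.trace_sub, Matrix.mul_smul, Matrix.trace_smul,
        Complex.sub_re, smul_eq_mul, Complex.re_ofReal_mul]
    unfold Sig at f4
    rw [f6] at f4
    have f7 := mul_le_mul_of_nonneg_left f5 he.le
    have f8 : 0 ≤ t n * (((V * C.B (Q + ((θ * t n : ℝ) : ℂ) • V) (kn n)).trace).re
        - ((X * V).trace).re - e * ((((2 : ℂ) • kn n - Q)⁻¹ * V).trace).re) := by
      nlinarith
    exact nonneg_of_mul_nonneg_right f8 (ht0 n)
  -- pass to the limit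
  have hinv : Tendsto (fun n => ((2 : ℂ) • kn n - Q)⁻¹) atTop (𝓝 ((2 : ℂ) • k - Q)⁻¹) := by
    have hdet : ((2 : ℂ) • k - Q).det ≠ 0 := hmx.1.2.det_pos.ne'
    have c1 : Tendsto (fun n => ((2 : ℂ) • kn n - Q).det) atTop (𝓝 ((2 : ℂ) • k - Q).det) :=
      ((continuous_id.matrix_det).tendsto _).comp hP2
    have c2 : Tendsto (fun n => ((2 : ℂ) • kn n - Q).adjugate) atTop
        (𝓝 ((2 : ℂ) • k - Q).adjugate) :=
      ((continuous_id.matrix_adjugate).tendsto _).comp hP2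
    have c3 := (c1.inv₀ hdet).smul c2
    simp only [Matrix.inv_def, Ring.inverse_eq_inv']
    exact c3
  choose! θ hθ hθ2 using fun (n : ℕ) (hn : ∃ θ ∈ Set.Icc (0 : ℝ) 1,
      0 ≤ ((V * C.B (Q + ((θ * t n : ℝ) : ℂ) • V) (kn n)).trace).re - ((X * V).trace).re
        - e * ((((2 : ℂ) • kn n - Q)⁻¹ * V).trace).re) => hn
  have hθt : Tendsto (fun n => θ n * t n) atTop (𝓝 0) := by
    refine squeeze_zero_norm' ?_ htt
    filter_upwards [hstage] with n hn
    have := hθ n hn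
    rw [Real.norm_eq_abs, abs_of_nonneg (mul_nonneg this.1 (ht0 n).le)]
    exact mul_le_of_le_one_left (ht0 n).le this.2
  have hQθ : Tendsto (fun n => Q + ((θ n * t n : ℝ) : ℂ) • V) atTop (𝓝 Q) := by
    have h1 := (Complex.continuous_ofReal.tendsto 0).comp hθt
    have h2 := ((h1.smul_const V).const_add Q)
    rw [Complex.ofReal_zero, zero_smul, add_zero] at h2
    exact h2
  have hDθ : ∀ᶠ n in atTop, Dom (Q + ((θ n * t n : ℝ) : ℂ) • V) (kn n) := by
    filter_upwards [hstage, hfeas] with n hn hn2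
    have hθn := hθ n hn
    have b1 : 0 ≤ θ n * t n := mul_nonneg hθn.1 (ht0 n).le
    have b2 : θ n * t n ≤ t n := mul_le_of_le_one_left (ht0 n).le hθn.2
    refine ⟨hfe _ b1 (b2.trans (ht1 n)), ?_⟩
    have e1 : (2 : ℂ) • kn n - (Q + ((θ n * t n : ℝ) : ℂ) • V)
        = ((1 - θ n : ℝ) : ℂ) • ((2 : ℂ) • kn n - Q)
          + ((θ n : ℝ) : ℂ) • ((2 : ℂ) • kn n - Qn n) := by
      simp only [hQn]; push_cast; module
    rw [e1]
    rcases eq_or_lt_of_le hθn.1 with h0 | h0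
    · rw [← h0]
      simp only [sub_zero, Complex.ofReal_one, one_smul, Complex.ofReal_zero, zero_smul, add_zero]
      exact hn2
    · refine Matrix.PosDef.posSemidef_add (hn2.posSemidef.smul ?_)
        (Matrix.PosDef.smul (hknmx n).1.2 (Complex.zero_lt_real.mpr h0))
      exact Complex.zero_le_real.mpr (by linarith [hθn.2])
  have hBt : Tendsto (fun n => C.B (Q + ((θ n * t n : ℝ) : ℂ) • V) (kn n)) atTop
      (𝓝 (C.B Q k)) := by
    have h0 := (C.B_cont (Q, k) hmx.1).tendsto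
    have h1 : Tendsto (fun n => (Q + ((θ n * t n : ℝ) : ℂ) • V, kn n)) atTop
        (𝓝[{p : Matrix α α ℂ × Matrix α α ℂ | Dom p.1 p.2}] (Q, k)) :=
      tendsto_nhdsWithin_iff.mpr ⟨hQθ.prodMk_nhds hknt, hDθ⟩
    exact h0.comp h1
  have hlim : Tendsto (fun n => ((V * C.B (Q + ((θ n * t n : ℝ) : ℂ) • V) (kn n)).trace).re
      - ((X * V).trace).re - e * ((((2 : ℂ) • kn n - Q)⁻¹ * V).trace).re) atTop
      (𝓝 (((V * C.B Q k).trace).re - ((X * V).trace).re
        - e * ((((2 : ℂ) • k - Q)⁻¹ * V).trace).re)) := by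
    have c1 : Continuous fun A : Matrix α α ℂ => ((V * A).trace).re := by fun_prop
    have c2 : Continuous fun A : Matrix α α ℂ => ((A * V).trace).re := by fun_prop
    have l1 := (c1.tendsto _).comp hBt
    have l2 := (c2.tendsto _).comp hinv
    exact (l1.sub_const _).sub (l2.const_mul e)
  have hfin := ge_of_tendsto hlim (by
    filter_upwards [hstage] with n hn
    exact hθ2 n hn)
  have e4 : ((V * (C.B Q k - X - (e : ℂ) • ((2 : ℂ) • k - Q)⁻¹)).trace).re
      = ((V * C.B Q k).trace).re - ((X * V).trace).re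
        - e * ((((2 : ℂ) • k - Q)⁻¹ * V).trace).re := by
    rw [Matrix.mul_sub, Matrix.mul_sub, Matrix.trace_sub, Matrix.trace_sub, Matrix.mul_smul,
      Matrix.trace_smul, Complex.sub_re, Complex.sub_re, smul_eq_mul, Complex.re_ofReal_mul,
      Matrix.trace_mul_comm V X, Matrix.trace_mul_comm V (((2 : ℂ) • k - Q)⁻¹)]
  rw [e4]
  exact hfin

end LTG
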