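import Mathlib
import Vale.Agent.P371.GSad

/-!
# P371, `γ ∈ (1, 3/2)`: the inequality at the saddle point
-/

namespace LTG

open Matrix Set Filter MeasureTheory
open scoped ComplexOrder Topology ComplexConjugate

set_option linter.unusedSectionVars false

variable {α : Type*} [Fintype α] [DecidableEq α] {s : ℝ} (C : Fun s α) {e : ℝ}

lemma tr_vmv (A : Matrix α α ℂ) (v : α → ℂ) :
    (vecMulVec v (star v) * A).trace = star v ⬝ᵥ (A *ᵥ v) := by
  rw [Matrix.trace_mul_comm, Matrix.mul_vecMulVec, Matrix.trace_vecMulVec, dotProduct_comm]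

lemma posSemidef_of_tr {Z : Matrix α α ℂ} (hZ : Z.IsHermitian)
    (h : ∀ V : Matrix α α ℂ, V.PosSemidef → 0 ≤ ((V * Z).trace).re) : Z.PosSemidef := by
  refine PosSemidef.of_dotProduct_mulVec_nonneg hZ fun v => ?_
  have h1 := h _ (Matrix.posSemidef_vecMulVec_self_star v)
  rw [tr_vmv] at h1
  refine Complex.le_def.mpr ⟨by simpa using h1, ?_⟩
  have h2 := hZ.im_star_dotProduct_mulVec_self v
  simpa using h2.symm

/-- The inequality at the saddle point. -/
theorem saddle_ineq (hs0 : 0 < s) (hs : s < 1) (he : 0 < e) {d : ℝ} (hd : 0 < d)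
    {X M Q Y : Matrix α α ℂ} (h : Adm d X M) (hQ : IsMn C e X M Q) (hY : Y.PosSemidef)
    (hY1 : ((X * Y).trace).re = tp (1 + 1 / s) X) (hY2 : tp (1 + s) Y = tp (1 + 1 / s) X) :
    tp (1 + 1 / s) X - e * Q.trace.re ≤ ((Am Q (km C e X M Q) * X).trace).re := by
  have hmx := h.isMx C hs0.le hs he hd hQ.1
  have hfoc : ∀ V : Matrix α α ℂ, V.IsHermitian →
      (∀ t : ℝ, 0 ≤ t → t ≤ 1 → (Q + (t : ℂ) • V).PosSemidef) → _ := fun V hV hfe =>
    foc C hs0.le hs he hd h hQ hV hfe
  set k := km C e X M Q with hk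
  have hkH := hmx.1.posDef.isHermitian
  set P := (2 : ℂ) • k - Q with hP
  have hPd : P.PosDef := hmx.1.2
  have hPi : P⁻¹.PosDef := hPd.inv
  set Z := C.B Q k - X - (e : ℂ) • P⁻¹ with hZ
  have hZH : Z.IsHermitian :=
    ((C.B_herm Q k hmx.1).sub h.hX.isHermitian).sub (herm_smul_real hPi.isHermitian e)
  have hZp : Z.PosSemidef := by
    refine posSemidef_of_tr hZH fun V hV => ?_
    refine hfoc V hV.isHermitian fun t ht _ => ?_
    exact hQ.1.add (hV.smul (Complex.zero_le_real.mpr ht))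
  have hZQ : Z * Q = 0 := by
    refine mul_eq_zero_of_tr hZp hQ.1 (le_antisymm ?_ (tr_mul_nonneg hZp hQ.1))
    have h1 := hfoc (-Q) hQ.1.isHermitian.neg fun t ht ht1 => by
      have e1 : Q + (t : ℂ) • (-Q) = ((1 - t : ℝ) : ℂ) • Q := by push_cast; module
      rw [e1]
      exact hQ.1.smul (Complex.zero_le_real.mpr (by linarith))
    rw [Matrix.neg_mul, Matrix.trace_neg, Complex.neg_re, Matrix.trace_mul_comm] at h1
    linarith
  have hQZ : Q * Z = 0 := by
    have := congrArg Matrix.conjTranspose hZQ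
    rwa [Matrix.conjTranspose_mul, hZH.eq, hQ.1.isHermitian.eq, Matrix.conjTranspose_zero] at this
  have t1 : (Z * Am Q k).trace = 0 := by
    unfold Am
    rw [Matrix.mul_sub, Matrix.mul_add, Matrix.trace_sub, Matrix.trace_add, ← Matrix.mul_assoc,
      Matrix.trace_mul_comm (Z * k) Q, ← Matrix.mul_assoc, hQZ, ← Matrix.mul_assoc, hZQ,
      ← Matrix.mul_assoc, hZQ]
    simp
  have t2 : ((P⁻¹ * Am Q k).trace) = Q.trace := by
    have hu : IsUnit P.det := (Matrix.isUnit_iff_isUnit_det P).mp hPd.isUnit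
    have e1 : Am Q k = (1 / 2 : ℂ) • (P * Q + Q * P) := by
      unfold Am
      rw [hP]
      simp only [Matrix.sub_mul, Matrix.mul_sub, Matrix.smul_mul, Matrix.mul_smul]
      module
    rw [e1, Matrix.mul_smul, Matrix.trace_smul, Matrix.mul_add, Matrix.trace_add,
      ← Matrix.mul_assoc, Matrix.nonsing_inv_mul P hu, Matrix.one_mul,
      Matrix.trace_mul_comm P⁻¹ (Q * P), Matrix.mul_assoc, Matrix.mul_nonsing_inv P hu,
      Matrix.mul_one, smul_eq_mul]
    ring
  have hB : C.B Q k = X + (e : ℂ) • P⁻¹ + Z := by rw [hZ]; abel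
  have t3 : ((C.B Q k * Am Q k).trace).re = ((X * Am Q k).trace).re + e * Q.trace.re := by
    rw [hB, Matrix.add_mul, Matrix.add_mul, Matrix.trace_add, Matrix.trace_add, t1,
      Matrix.smul_mul, Matrix.trace_smul, t2, add_zero, Complex.add_re, smul_eq_mul,
      Complex.re_ofReal_mul]
  have t4 : ((X * Y).trace).re ≤ ((C.B Q k * Y).trace).re := by
    rw [hB, Matrix.add_mul, Matrix.add_mul, Matrix.trace_add, Matrix.trace_add,
      Matrix.smul_mul, Matrix.trace_smul, Complex.add_re, Complex.add_re, smul_eq_mul,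
      Complex.re_ofReal_mul]
    have a := mul_nonneg he.le (tr_mul_nonneg hPi.posSemidef hY)
    have b := tr_mul_nonneg hZp hY
    linarith
  have t5 := C.HJ Q k Y hmx.1 hY
  rw [hY2, t3] at t5
  rw [hY1] at t4
  have hs1 : (0 : ℝ) < 1 + 1 / s := by positivity
  have t6 := mul_le_mul_of_nonneg_left t4 hs1.le
  rw [Matrix.trace_mul_comm]
  linarith

end LTG
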