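import Mathlib
import Vale.Agent.P371.GSad2

/-!
# P371, `γ ∈ (1, 3/2)`: the path inequality
-/

namespace LTG

open Matrix Set Filter MeasureTheory
open scoped ComplexOrder Topology ComplexConjugate

set_option linter.unusedSectionVars false

lemma abs_tr_mul_le {α : Type*} [Fintype α] [DecidableEq α] (A B : Matrix α α ℂ) {b : ℝ}
    (hB : ∀ i j, ‖B i j‖ ≤ b) : |((A * B).trace).re| ≤ (∑ i, ∑ j, ‖A i j‖) * b := by
  refine (Complex.abs_re_le_norm _).trans ?_
  simp only [Matrix.trace, Matrix.diag, Matrix.mul_apply]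
  refine (norm_sum_le _ _).trans ?_
  rw [Finset.sum_mul]
  refine Finset.sum_le_sum fun i _ => ?_
  refine (norm_sum_le _ _).trans ?_
  rw [Finset.sum_mul]
  refine Finset.sum_le_sum fun j _ => ?_
  rw [norm_mul]
  exact mul_le_mul_of_nonneg_left (hB j i) (norm_nonneg _)

section

variable {n m : ℕ} {s : ℝ} (C : Fun s (Fin n)) {u g : Fin n → Fin m → ℝ → ℂ}

/-- The matrix `d + ∫_{-∞}^x U U*`. -/
noncomputable def Md (u : Fin n → Fin m → ℝ → ℂ) (d : ℝ) (x : ℝ) : Matrix (Fin n) (Fin n) ℂ :=
  (d : ℂ) • 1 + Vale.P371.MS u (Iic x)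

lemma adm (h : Vale.P371.Fam u g) (d : ℝ) (x : ℝ) : Adm d (Vale.P371.Xm u x) (Md u d x) where
  hX := Matrix.posSemidef_self_mul_conjTranspose _
  hM := by
    have : Md u d x - (d : ℂ) • 1 = Vale.P371.MS u (Iic x) := by unfold Md; abel
    rw [this]
    exact h.psd _

lemma continuous_Xm (h : Vale.P371.Fam u g) : Continuous fun x => Vale.P371.Xm u x := by
  refine continuous_pi fun i => continuous_pi fun j => ?_
  exact (h.primX i j).continuous

lemma primMd (h : Vale.P371.Fam u g) (d : ℝ) (i j : Fin n) :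
    Vale.P371.Prim (fun x => Md u d x i j) (fun x => Vale.P371.Xm u x i j) := by
  intro a b
  refine ⟨(h.primMS i j).intervalIntegrable a b, ?_⟩
  rw [← (h.primMS i j).sub_eq a b]
  simp only [Md, Matrix.add_apply]
  ring

lemma continuous_Md (h : Vale.P371.Fam u g) (d : ℝ) : Continuous fun x => Md u d x := by
  refine continuous_pi fun i => continuous_pi fun j => ?_
  exact (primMd h d i j).continuous

lemma hasDerivAt_Md (h : Vale.P371.Fam u g) (d : ℝ) (i j : Fin n) (x : ℝ) :
    HasDerivAt (fun x => Md u d x i j) (Vale.P371.Xm u x i j) x := by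
  rw [(primMd h d i j).eq_add x]
  refine HasDerivAt.const_add _ ?_
  exact intervalIntegral.integral_hasDerivAt_right ((primMd h d i j).intervalIntegrable _ _)
    ((h.primX i j).continuous.stronglyMeasurableAtFilter _ _)
    (h.primX i j).continuous.continuousAt

lemma trace_bounds (h : Vale.P371.Fam u g) (d : ℝ) : ∃ R : ℝ, ∀ x,
    (Vale.P371.Xm u x).trace.re ≤ R ∧ (Md u d x).trace.re ≤ R := by
  have h1 : ∀ i, ∃ c, ∀ x, ‖Vale.P371.Xm u x i i‖ ≤ c := fun i =>
    ⟨_, fun x => (h.primX i i).norm_le (h.intXd i i) x⟩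
  have h2 : ∀ i, ∃ c, ∀ x, ‖Md u d x i i‖ ≤ c := fun i =>
    ⟨_, fun x => (primMd h d i i).norm_le (h.intX i i) x⟩
  choose c hc using h1
  choose c' hc' using h2
  refine ⟨max (∑ i, c i) (∑ i, c' i), fun x => ⟨?_, ?_⟩⟩
  · refine le_trans ?_ (le_max_left _ _)
    simp only [Matrix.trace, Matrix.diag, Complex.re_sum]
    exact Finset.sum_le_sum fun i _ => (Complex.re_le_norm _).trans (hc i x)
  · refine le_trans ?_ (le_max_right _ _)
    simp only [Matrix.trace, Matrix.diag, Complex.re_sum]
    exact Finset.sum_le_sum fun i _ => (Complex.re_le_norm _).trans (hc' i x)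

/-- The kinetic energy density. -/
noncomputable def kd (g : Fin n → Fin m → ℝ → ℂ) (x : ℝ) : ℝ := ∑ c, ∑ i, ‖g i c x‖ ^ 2

lemma integrable_kd (h : Vale.P371.Fam u g) : Integrable (kd g) :=
  integrable_finsetSum _ fun c _ => integrable_finsetSum _ fun i _ => h.int_sq i c

theorem path_ineq (inc : S_INC) (tpc : S_TPC) (pw : S_POW) (hB : 0 < Bs s) (hs : 1 / 2 < s)
    (hs1 : s < 1) (h : Vale.P371.Fam u g) {d : ℝ} (hd : 0 < d) :
    ∃ T : ℝ, ∀ e a b : ℝ, 0 < e → e ≤ 1 → a ≤ b →
    ∃ Q : Matrix (Fin n) (Fin n) ℂ, Q.PosSemidef ∧ ∀ η : ℝ, 0 < η →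
      Sig C e (Vale.P371.Xm u b) (Md u d b) Q ((1 / 2 : ℂ) • (Q + (η : ℂ) • 1))
        + ∫ x in a..b, tp (1 + 1 / s) (Vale.P371.Xm u x)
      ≤ n * ((Vale.P371.Xm u a).trace.re + 2 * e * n) ^ 2 / (4 * d)
        + (∫ x in a..b, kd g x) + e * T * (b - a) := by
  have hs0 : 0 < s := by linarith
  obtain ⟨R, hR⟩ := trace_bounds h d
  obtain ⟨T, hT0, hT⟩ := exists_isMn C hB hs hs1 hd R R
  refine ⟨T, fun e a b he he1 hab => ?_⟩
  set X : ℝ → Matrix (Fin n) (Fin n) ℂ := fun x => Vale.P371.Xm u x with hXdef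
  set M : ℝ → Matrix (Fin n) (Fin n) ℂ := fun x => Md u d x with hMdef
  have hadm : ∀ x, Adm d (X x) (M x) := fun x => adm h d x
  have hex : ∀ x, ∃ Q, IsMn C e (X x) (M x) Q := fun x =>
    (hT e he he1 _ _ (hadm x) (hR x).1 (hR x).2).1
  choose Qm hQm using hex
  have hQT : ∀ x, (Qm x).trace.re ≤ T := fun x =>
    (hT e he he1 _ _ (hadm x) (hR x).1 (hR x).2).2 _ (hQm x)
  set kk : ℝ → ℝ → Matrix (Fin n) (Fin n) ℂ := fun x y => km C e (X y) (M y) (Qm x) with hkk
  have hmx : ∀ x y, IsMx C e (X y) (M y) (Qm x) (kk x y) := fun x y =>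
    (hadm y).isMx C hs0.le hs1 he hd (hQm x).1
  set S : ℝ → ℝ := fun x => gv C e (X x) (M x) (Qm x) with hS
  -- the basic increment
  have hincr : ∀ x y, S y - S x ≤ (((X y - X x) * (kk x y - Qm x)).trace).re
      - ((kk x y * kk x y * (M y - M x)).trace).re := by
    intro x y
    have h1 : S y ≤ Sig C e (X y) (M y) (Qm x) (kk x y) := (hQm y).2 _ (hQm x).1
    have h2 : Sig C e (X x) (M x) (Qm x) (kk x y) ≤ S x := (hmx x x).2 _ (hmx x y).1
    have h3 : Sig C e (X y) (M y) (Qm x) (kk x y) - Sig C e (X x) (M x) (Qm x) (kk x y)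
        = (((X y - X x) * (kk x y - Qm x)).trace).re
      - ((kk x y * kk x y * (M y - M x)).trace).re := by
      unfold Sig
      rw [Matrix.sub_mul (X y), Matrix.mul_sub (kk x y * kk x y), Matrix.trace_sub,
        Matrix.trace_sub, Complex.sub_re, Complex.sub_re]
      ring
    linarith
  -- uniform bound for the maximisers
  obtain ⟨c, hc, hcoer⟩ := coercive (e := e) C hB hs hs1 R R
  obtain ⟨T', c', hT', hc', hap⟩ := apriori C hs0.le hs1 he hd (max R T) c
  have hkT : ∀ x y, (kk x y).trace.re ≤ T' := by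
    intro x y
    refine (hap (X y) (M y) (Qm x) (kk x y) (hadm y).hX (hadm y).hM (hmx x y).1
      ((hR y).1.trans (le_max_left _ _)) ((hQT x).trans (le_max_right _ _)) ?_).1
    have h1 := hcoer (X y) (M y) (Qm x) (hadm y).hX ((hadm y).posSemidef hd) (hQm x).1
      (hR y).1 (hR y).2
    have h2 := (hmx x y).2 _ (dom_half (hQm x).1 one_pos)
    have h3 := re_nonneg_of_posSemidef (hQm x).1
    linarith
  have hbd : ∀ x y, S y - S x ≤ (∑ i, ∑ j, ‖(X y - X x) i j‖) * (T' + T)
      + (∑ i, ∑ j, ‖(M y - M x) i j‖) * (T' * T') := by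
    intro x y
    refine (hincr x y).trans ?_
    have hkp := (hmx x y).1.posDef.posSemidef
    have h1 := abs_tr_mul_le (X y - X x) (kk x y - Qm x) (b := T' + T) fun i j => by
      rw [Matrix.sub_apply]
      refine (norm_sub_le _ _).trans (add_le_add ?_ ?_)
      · exact (norm_le_trace hkp i j).trans (hkT x y)
      · exact (norm_le_trace (hQm x).1 i j).trans (hQT x)
    have h2 := abs_tr_mul_le (M y - M x) (kk x y * kk x y) (b := T' * T') fun i j => by
      refine (norm_le_trace (trace_kk_nonneg hkp.isHermitian) i j).trans ?_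
      refine (tr_mul_le hkp hkp).trans ?_
      exact mul_le_mul (hkT x y) (hkT x y) (re_nonneg_of_posSemidef hkp) hT'.le
    rw [Matrix.trace_mul_comm] at h2
    have h3 := (abs_le.mp h1).2
    have h4 := (abs_le.mp h2).1
    linarith
  have hcX : Continuous X := continuous_Xm h
  have hcM : Continuous M := continuous_Md h d
  have hScont : Continuous S := by
    rw [continuous_iff_continuousAt]
    intro x
    rw [ContinuousAt, tendsto_iff_dist_tendsto_zero]
    have hb2 : ∀ y, dist (S y) (S x) ≤ (∑ i, ∑ j, ‖(X y - X x) i j‖) * (T' + T)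
      + (∑ i, ∑ j, ‖(M y - M x) i j‖) * (T' * T') := by
      intro y
      rw [Real.dist_eq, abs_le]
      have h1 := hbd x y
      have h2 := hbd y x
      have e1 : ∀ A B : Matrix (Fin n) (Fin n) ℂ, ∑ i, ∑ j, ‖(A - B) i j‖
          = ∑ i, ∑ j, ‖(B - A) i j‖ := by
        intro A B
        refine Finset.sum_congr rfl fun i _ => Finset.sum_congr rfl fun j _ => ?_
        rw [Matrix.sub_apply, Matrix.sub_apply, norm_sub_rev]
      rw [e1 (X x), e1 (M x)] at h2
      constructor <;> linarith
    refine squeeze_zero (fun _ => dist_nonneg) hb2 ?_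
    have c1 : Continuous fun y => (∑ i, ∑ j, ‖(X y - X x) i j‖) * (T' + T)
      + (∑ i, ∑ j, ‖(M y - M x) i j‖) * (T' * T') := by
      refine Continuous.add (Continuous.mul ?_ continuous_const)
        (Continuous.mul ?_ continuous_const)
      · refine continuous_finsetSum _ fun i _ => continuous_finsetSum _ fun j _ => ?_
        exact (((hcX.sub continuous_const).matrix_elem i j)).norm
      · refine continuous_finsetSum _ fun i _ => continuous_finsetSum _ fun j _ => ?_
        exact (((hcM.sub continuous_const).matrix_elem i j)).norm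
    have := c1.tendsto x
    simpa using this
  -- the comparison
  set φ : ℝ → ℝ := fun x => tp (1 + 1 / s) (X x) - e * T with hφ
  have htpc : Continuous fun x => tp (1 + 1 / s) (X x) :=
    tpc n (1 + 1 / s) X (by positivity) hcX fun x => (hadm x).hX
  have hφc : Continuous φ := htpc.sub continuous_const
  set f : ℝ → ℝ := fun x => S x - ∫ t in a..x, kd g t with hf
  have hkd := integrable_kd h
  have hprim : Continuous fun x => ∫ t in a..x, kd g t :=
    intervalIntegral.continuous_primitive (fun _ _ => hkd.intervalIntegrable) a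
  have hfc : Continuous f := hScont.sub hprim
  have hmain : ∀ ⦃x⦄, x ∈ Icc a b → f x ≤ f a + ∫ t in a..x, -(φ t) := by
    refine image_le_of_liminf_slope_right_le_deriv_boundary (f := f)
      (B := fun x => f a + ∫ t in a..x, -(φ t))
      (B' := fun x => -(φ x)) hfc.continuousOn ?_ ?_ ?_ ?_
    · simp
    · exact (continuous_const.add (intervalIntegral.continuous_primitive
        (fun _ _ => (hφc.neg).intervalIntegrable _ _) a)).continuousOn
    · intro x _
      refine HasDerivAt.hasDerivWithinAt (HasDerivAt.const_add _ ?_)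
      exact intervalIntegral.integral_hasDerivAt_right ((hφc.neg).intervalIntegrable _ _)
        (hφc.neg.stronglyMeasurableAtFilter _ _) hφc.neg.continuousAt
    · intro x _ r hr
      refine Eventually.frequently ?_
      -- convergence of the maximisers
      have hkt : Tendsto (fun z => kk x z) (𝓝[>] x) (𝓝 (kk x x)) := by
        refine tendsto_of_seq_tendsto fun z hz => ?_
        have hz' : Tendsto z atTop (𝓝 x) := tendsto_nhds_of_tendsto_nhdsWithin hz
        exact tendsto_isMx C hs0.le hs1 he hd (fun i => (hadm (z i)).hX)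
          (fun i => (hadm (z i)).hM) ((hcX.tendsto x).comp hz') ((hcM.tendsto x).comp hz')
          tendsto_const_nhds (hmx x x) fun i => hmx x (z i)
      have hslope : Tendsto (fun z => (((z - x)⁻¹ : ℝ) : ℂ) • (M z - M x)) (𝓝[>] x) (𝓝 (X x)) := by
        refine tendsto_pi_nhds.mpr fun i => tendsto_pi_nhds.mpr fun j => ?_
        have h1 := (hasDerivAt_Md h d i j x).tendsto_slope
        have h2 : Tendsto (slope (fun x => Md u d x i j) x) (𝓝[>] x)
            (𝓝 (Vale.P371.Xm u x i j)) :=
          h1.mono_left (nhdsWithin_mono x fun z hz => ne_of_gt hz)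
        refine h2.congr fun z => ?_
        rw [slope_def_module, Matrix.smul_apply, Matrix.sub_apply, smul_eq_mul]
        rw [Complex.real_smul]
      have hup : Tendsto (fun z => -(((Am (Qm x) (kk x z))
          * ((((z - x)⁻¹ : ℝ) : ℂ) • (M z - M x))).trace).re) (𝓝[>] x)
          (𝓝 (-((Am (Qm x) (kk x x) * X x).trace).re)) := by
        have c1 : Continuous fun q : Matrix (Fin n) (Fin n) ℂ × Matrix (Fin n) (Fin n) ℂ =>
            -((((q.1 * Qm x + Qm x * q.1 - Qm x * Qm x)) * q.2).trace).re := by fun_prop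
        have h1 := (c1.tendsto (kk x x, X x)).comp (hkt.prodMk_nhds hslope)
        exact h1
      obtain ⟨Y, hY, hY1, hY2⟩ := pw n s (X x) hs0 (hadm x).hX
      have hsad := saddle_ineq C hs0 hs1 he hd (hadm x) (hQm x) hY hY1 hY2
      have hlt : -((Am (Qm x) (kk x x) * X x).trace).re < r := by
        have h1 : e * (Qm x).trace.re ≤ e * T := mul_le_mul_of_nonneg_left (hQT x) he.le
        have h2 : tp (1 + 1 / s) (X x) - e * (Qm x).trace.re
            ≤ ((Am (Qm x) (kk x x) * X x).trace).re := hsad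
        have h3 : -(tp (1 + 1 / s) (X x) - e * T) < r := hr
        linarith
      filter_upwards [hup.eventually_lt_const hlt, self_mem_nhdsWithin] with z hz hxz
      have hxz' : x < z := hxz
      refine lt_of_le_of_lt ?_ hz
      rw [slope_def_field, div_le_iff₀ (by linarith)]
      have h1 := hincr x z
      have h2 := inc n m u g (Qm x) (kk x z) x z h (hQm x).1.isHermitian
        (hmx x z).1.posDef.isHermitian hxz'.le
      have h3 : M z - M x = Vale.P371.MS u (Iic z) - Vale.P371.MS u (Iic x) := by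
        simp only [hMdef, Md]; abel
      rw [← h3] at h2
      have h4 : f z - f x = S z - S x - ∫ t in x..z, kd g t := by
        simp only [hf]
        rw [← intervalIntegral.integral_add_adjacent_intervals (hkd.intervalIntegrable (a := a)
          (b := x)) (hkd.intervalIntegrable (a := x) (b := z))]
        ring
      have h5 : (((Am (Qm x) (kk x z)) * ((((z - x)⁻¹ : ℝ) : ℂ) • (M z - M x))).trace).re * (z - x)
          = ((Am (Qm x) (kk x z) * (M z - M x)).trace).re := by
        rw [Matrix.mul_smul, Matrix.trace_smul, smul_eq_mul, Complex.re_ofReal_mul]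
        have : z - x ≠ 0 := (sub_pos.mpr hxz').ne'
        field_simp
      rw [h4, neg_mul, h5]
      have h6 : (∫ t in x..z, ∑ c, ∑ i, ‖g i c t‖ ^ 2) = ∫ t in x..z, kd g t := rfl
      rw [h6] at h2
      linarith
  have hend := hmain ⟨hab, le_rfl⟩
  refine ⟨Qm b, (hQm b).1, fun η hη => ?_⟩
  have h1 : Sig C e (X b) (M b) (Qm b) ((1 / 2 : ℂ) • (Qm b + (η : ℂ) • 1)) ≤ S b :=
    (hmx b b).2 _ (dom_half (hQm b).1 hη)
  have h2 : S a ≤ n * ((X a).trace.re + 2 * e * n) ^ 2 / (4 * d) := by
    refine ((hQm a).2 0 PosSemidef.zero).trans ?_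
    have := gv_zero_le C hs0.le hs1 he hd (hadm a)
    rw [Fintype.card_fin] at this
    exact this
  have h3 : (∫ t in a..b, -(φ t)) = -(∫ x in a..b, tp (1 + 1 / s) (X x)) + e * T * (b - a) := by
    rw [intervalIntegral.integral_neg]
    simp only [hφ]
    rw [intervalIntegral.integral_sub (htpc.intervalIntegrable _ _)
      (continuous_const.intervalIntegrable _ _), intervalIntegral.integral_const, smul_eq_mul]
    ring
  simp only [hf] at hend
  rw [intervalIntegral.integral_same, sub_zero, h3] at hend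
  change Sig C e (X b) (M b) (Qm b) ((1 / 2 : ℂ) • (Qm b + (η : ℂ) • 1))
    + ∫ x in a..b, tp (1 + 1 / s) (X x) ≤ _
  linarith

end

/-- Module PATH. -/
theorem path (inc : S_INC) (tpc : S_TPC) (pw : S_POW) {s : ℝ} (hB : 0 < Bs s) (hs : 1 / 2 < s)
    (hs1 : s < 1) : Path s := fun _ _ C _ _ _ hd h =>
  path_ineq C inc tpc pw hB hs hs1 h hd

end LTG
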