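import Mathlib
import Vale.Agent.P371.GDefs

/-!
# P371, `γ ∈ (1, 3/2)`: modules POW and TPC (matrix powers and continuity of `tr (A ^ p)`)
-/

namespace LTG

open Matrix Set Filter MeasureTheory
open scoped ComplexOrder Topology ComplexConjugate

namespace PowAux

variable {n : ℕ}

theorem cont_spec (Q : Matrix (Fin n) (Fin n) ℂ) (f : ℝ → ℝ) : ContinuousOn f (spectrum ℝ Q) :=
  (Matrix.finite_real_spectrum).continuousOn f

theorem cont_spec' (Q : Matrix (Fin n) (Fin n) ℂ) (g f : ℝ → ℝ) :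
    ContinuousOn g (f '' spectrum ℝ Q) :=
  ((Matrix.finite_real_spectrum).image f).continuousOn g

theorem tr_cfc {Q : Matrix (Fin n) (Fin n) ℂ} (hQ : Q.IsHermitian) (f : ℝ → ℝ) :
    ((cfc f Q).trace).re = ∑ i, f (hQ.eigenvalues i) := by
  rw [hQ.cfc_eq, Matrix.IsHermitian.cfc, Unitary.conjStarAlgAut_apply, Matrix.trace_mul_comm,
    ← Matrix.mul_assoc]
  have h1 : (star hQ.eigenvectorUnitary : Matrix (Fin n) (Fin n) ℂ) *
      (hQ.eigenvectorUnitary : Matrix (Fin n) (Fin n) ℂ) = 1 :=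
    Unitary.coe_star_mul_self hQ.eigenvectorUnitary
  rw [h1, Matrix.one_mul, Matrix.trace_diagonal]
  simp

theorem herm_cfc (Q : Matrix (Fin n) (Fin n) ℂ) (f : ℝ → ℝ) : (cfc f Q).IsHermitian :=
  cfc_predicate f Q

theorem tp_eq {A : Matrix (Fin n) (Fin n) ℂ} (hA : A.IsHermitian) (p : ℝ) :
    tp p A = ∑ i, hA.eigenvalues i ^ p := by
  rw [tp, dif_pos hA]

theorem tp_cfc {A : Matrix (Fin n) (Fin n) ℂ} (hA : A.IsHermitian) (p : ℝ) :
    tp p A = ((cfc (fun x : ℝ => x ^ p) A).trace).re := by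
  rw [tp_eq hA, tr_cfc hA]

theorem cfc_cfc {Q : Matrix (Fin n) (Fin n) ℂ} (hQ : Q.IsHermitian) (g f : ℝ → ℝ) :
    cfc g (cfc f Q) = cfc (fun x => g (f x)) Q :=
  (cfc_comp' g f Q (cont_spec' Q g f) (cont_spec Q f) hQ).symm

theorem mul_cfc (Q : Matrix (Fin n) (Fin n) ℂ) (f g : ℝ → ℝ) :
    cfc f Q * cfc g Q = cfc (fun x => f x * g x) Q :=
  (cfc_mul f g Q (cont_spec Q f) (cont_spec Q g)).symm

theorem self_cfc {Q : Matrix (Fin n) (Fin n) ℂ} (hQ : Q.IsHermitian) :
    cfc (fun x : ℝ => x) Q = Q :=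
  cfc_id' ℝ Q (ha := hQ)

theorem posSemidef_cfc {Q : Matrix (Fin n) (Fin n) ℂ} (hQ : Q.IsHermitian) (f : ℝ → ℝ)
    (hf : ∀ i, 0 ≤ f (hQ.eigenvalues i)) : (cfc f Q).PosSemidef := by
  rw [hQ.cfc_eq, Matrix.IsHermitian.cfc, Unitary.conjStarAlgAut_apply]
  have hd : (diagonal (fun i => ((f (hQ.eigenvalues i) : ℝ) : ℂ))).PosSemidef := by
    refine Matrix.PosSemidef.diagonal fun i => ?_
    have := hf i
    simpa using this
  exact hd.mul_mul_conjTranspose_same (hQ.eigenvectorUnitary : Matrix (Fin n) (Fin n) ℂ)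

end PowAux

open PowAux in
theorem pow : ∀ (n : ℕ) (s : ℝ) (X : Matrix (Fin n) (Fin n) ℂ), 0 < s → X.PosSemidef →
    ∃ Y : Matrix (Fin n) (Fin n) ℂ, Y.PosSemidef ∧ ((X * Y).trace).re = tp (1 + 1 / s) X ∧
      tp (1 + s) Y = tp (1 + 1 / s) X := by
  intro n s X hs hX
  have hH := hX.isHermitian
  have h0 : ∀ i, 0 ≤ hH.eigenvalues i := hX.eigenvalues_nonneg
  refine ⟨cfc (fun x : ℝ => x ^ (1 / s)) X, ?_, ?_, ?_⟩
  · exact posSemidef_cfc hH _ fun i => Real.rpow_nonneg (h0 i) _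
  · have e : X * cfc (fun x : ℝ => x ^ (1 / s)) X = cfc (fun x : ℝ => x * x ^ (1 / s)) X := by
      nth_rewrite 1 [← self_cfc hH]
      exact mul_cfc X _ _
    rw [e, tr_cfc hH, tp_eq hH]
    refine Finset.sum_congr rfl fun i _ => ?_
    have hp : 0 < 1 + 1 / s := by positivity
    rw [Real.rpow_add' (h0 i) hp.ne', Real.rpow_one]
  · rw [tp_cfc (herm_cfc X _), cfc_cfc hH, tr_cfc hH, tp_eq hH]
    refine Finset.sum_congr rfl fun i _ => ?_
    rw [← Real.rpow_mul (h0 i)]
    congr 1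
    field_simp
    ring

open PowAux in
theorem tpc : ∀ (n : ℕ) (p : ℝ) (A : ℝ → Matrix (Fin n) (Fin n) ℂ), 0 < p →
    Continuous A → (∀ x, (A x).PosSemidef) → Continuous fun x => tp p (A x) := by
  intro n p A hp hA hpsd
  have hH : ∀ x, (A x).IsHermitian := fun x => (hpsd x).isHermitian
  rw [continuous_iff_continuousAt]
  intro x0
  have hR : Continuous fun x => ((A x).trace).re :=
    Complex.continuous_re.comp (Continuous.matrix_trace hA)
  set R : ℝ := ((A x0).trace).re + 1 with hRdef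
  have hev : ∀ᶠ x in 𝓝 x0, ((A x).trace).re < R :=
    hR.continuousAt.eventually_lt continuousAt_const (by rw [hRdef]; linarith)
  have hle : ∀ x, ((A x).trace).re < R → ∀ i, (hH x).eigenvalues i ∈ Icc (0 : ℝ) R := by
    intro x hx i
    refine ⟨(hpsd x).eigenvalues_nonneg i, ?_⟩
    have h1 : ((A x).trace).re = ∑ j, (hH x).eigenvalues j := by
      have := tr_cfc (hH x) (fun y : ℝ => y)
      rwa [self_cfc (hH x)] at this
    have h2 : (hH x).eigenvalues i ≤ ∑ j, (hH x).eigenvalues j :=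
      Finset.single_le_sum (f := fun j => (hH x).eigenvalues j)
        (fun j _ => (hpsd x).eigenvalues_nonneg j) (Finset.mem_univ i)
    linarith
  refine continuousAt_of_locally_uniform_approx_of_continuousAt fun u hu => ?_
  obtain ⟨ε, hε, hεu⟩ := Metric.mem_uniformity_dist.mp hu
  obtain ⟨P, hP⟩ := exists_polynomial_near_of_continuousOn 0 R (fun t : ℝ => t ^ p)
    ((Real.continuous_rpow_const hp.le).continuousOn) (ε / (n + 1)) (by positivity)
  refine ⟨_, hev, fun x => ((Polynomial.aeval (A x) P).trace).re, ?_, ?_⟩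
  · refine Continuous.continuousAt ?_
    refine Complex.continuous_re.comp (Continuous.matrix_trace ?_)
    simp only [Polynomial.aeval_eq_sum_range]
    refine continuous_finsetSum _ fun i _ => ?_
    exact Continuous.const_smul (hA.pow i) (P.coeff i)
  · intro x hx
    refine hεu ?_
    have hx' : ((A x).trace).re < R := hx
    have h1 : Polynomial.aeval (A x) P = cfc (fun t : ℝ => P.eval t) (A x) :=
      (cfc_polynomial P (A x) (ha := hH x)).symm
    show dist (tp p (A x)) (((Polynomial.aeval (A x) P).trace).re) < ε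
    rw [Real.dist_eq, tp_eq (hH x), h1, tr_cfc (hH x), ← Finset.sum_sub_distrib]
    calc |∑ i, ((hH x).eigenvalues i ^ p - Polynomial.eval ((hH x).eigenvalues i) P)|
        ≤ ∑ i, |(hH x).eigenvalues i ^ p - Polynomial.eval ((hH x).eigenvalues i) P| :=
          Finset.abs_sum_le_sum_abs _ _
      _ ≤ ∑ _i : Fin n, ε / (n + 1) := by
          refine Finset.sum_le_sum fun i _ => ?_
          rw [abs_sub_comm]
          exact (hP _ (hle x hx' i)).le
      _ = n * (ε / (n + 1)) := by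
          rw [Finset.sum_const, Finset.card_univ, Fintype.card_fin, nsmul_eq_mul]
      _ < ε := by
          rw [mul_div_assoc', div_lt_iff₀ (by positivity)]
          nlinarith

end LTG
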