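import Mathlib
import Vale.Agent.P371.MSharp

/-! # P371: the matrix results at `γ = 1`, modulo the kinetic inequality -/

namespace LTM

open MeasureTheory Set Filter Matrix
open scoped ComplexConjugate ENNReal Topology ComplexOrder

variable {m n : ℕ}

lemma specSum_cut_zero {A : Matrix (Fin m) (Fin m) ℂ} (hA : A.PosSemidef) :
    specSum (fun w => (max (w - 0) 0) ^ ((1 : ℝ) + 1 / 2)) A = trPow ((1 : ℝ) + 1 / 2) A := by
  have hH := hA.isHermitian
  rw [trPow_eq, specSum_eq hH, specSum_eq hH]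
  refine Finset.sum_congr rfl fun i _ => ?_
  rw [sub_zero, max_eq_left (hA.eigenvalues_nonneg i)]

/-- The variational form. -/
theorem variational_form (K : KineticM) {W : ℝ → Matrix (Fin m) (Fin m) ℂ}
    (hm : ∀ c d, Measurable fun x => W x c d) (hp : ∀ x, (W x).PosSemidef)
    (hi : Integrable fun x => trPow (3 / 2) (W x))
    {u g : Fin n → ℝ → Fin m → ℂ} (h : ∀ j, IsH1 (u j) (g j)) (ho : IsOrthonormal u) :
    -(4 / (3 * √3 * Real.pi) * ∫ x, trPow (3 / 2) (W x))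
      ≤ ∑ j, ((∑ c, ∫ x, ‖g j x c‖ ^ 2)
        - ∫ x, (pair ((W x).mulVec (u j x)) (u j x)).re) := by
  have e : ((3 : ℝ) / 2) = 1 + 1 / 2 := by norm_num
  rw [e] at hi ⊢
  have h0 : ∀ x, specSum (fun w => (max (w - 0) 0) ^ ((1 : ℝ) + 1 / 2)) (W x)
      = trPow ((1 : ℝ) + 1 / 2) (W x) := fun x => specSum_cut_zero (hp x)
  have hv := variational K hm hp (t := 0) (by simp only [h0]; exact hi) h ho
  simp only [h0, kin, LT1.K0] at hv
  rw [Finset.sum_sub_distrib]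
  linarith

/-- The kinetic form. -/
theorem kinetic_form (K : KineticM) {u g : Fin n → ℝ → Fin m → ℂ}
    (h : ∀ j, IsH1 (u j) (g j)) (ho : IsOrthonormal u) :
    Real.pi ^ 2 / 4 * ∫ x, trPow 3 (Matrix.of fun c d => ∑ j, u j x c * conj (u j x d))
      ≤ ∑ j, ∑ c, ∫ x, ‖g j x c‖ ^ 2 := by
  have hv := kinetic_ineq K h ho
  have e1 : ∀ x, (Matrix.of fun c d => ∑ j, u j x c * conj (u j x d)) = Rm u x := by
    intro x
    ext c d
    simp only [Rm, Vm, Matrix.mul_apply, Matrix.conjTranspose_apply, Matrix.of_apply,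
      RCLike.star_def]
  have e2 : ∀ x, trPow 3 (Rm u x) = (((Rm u x) ^ 3).trace).re := by
    intro x
    have hH := (Rm_posSemidef u x).isHermitian
    rw [trPow_eq, specSum_eq hH, trace_pow hH 3, Complex.ofReal_re]
    refine Finset.sum_congr rfl fun i _ => ?_
    have : (3 : ℝ) = ((3 : ℕ) : ℝ) := by norm_num
    rw [this, Real.rpow_natCast]
  simp only [e1, e2]
  exact hv

theorem final (K : KineticM) :
    (∀ m : ℕ, 1 ≤ m → LT 1 m = LTone 1 ∧ LT 1 m = ENNReal.ofReal (2 / √3 * Lcl 1)) ∧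
    2 / √3 * Lcl 1 = 4 / (3 * √3 * Real.pi) ∧
    (∀ (γ : ℝ) (m : ℕ), 1 ≤ γ → LT γ m ≤ ENNReal.ofReal (2 / √3 * Lcl γ)) ∧
    (∀ (m : ℕ) (W : ℝ → Matrix (Fin m) (Fin m) ℂ), (∀ c d, Measurable fun x => W x c d) →
      (∀ x, (W x).PosSemidef) → Integrable (fun x => trPow (3 / 2) (W x)) →
      ∀ (n : ℕ) (u g : Fin n → ℝ → Fin m → ℂ), (∀ j, IsH1 (u j) (g j)) → IsOrthonormal u →
        -(4 / (3 * √3 * Real.pi) * ∫ x, trPow (3 / 2) (W x))
          ≤ ∑ j, ((∑ c, ∫ x, ‖g j x c‖ ^ 2)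
            - ∫ x, (pair ((W x).mulVec (u j x)) (u j x)).re)) ∧
    (∀ (m n : ℕ) (u g : Fin n → ℝ → Fin m → ℂ), (∀ j, IsH1 (u j) (g j)) → IsOrthonormal u →
      Real.pi ^ 2 / 4 * ∫ x, trPow 3 (Matrix.of fun c d => ∑ j, u j x c * conj (u j x d))
        ≤ ∑ j, ∑ c, ∫ x, ‖g j x c‖ ^ 2) := by
  refine ⟨fun m hm => ⟨(LT_eq K hm).trans (LTone_eq K).symm, ?_⟩, ?_,
    fun γ m hγ => LT_le K hγ m, fun m W hm hp hi n u g h ho => variational_form K hm hp hi h ho,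
    fun m n u g h ho => kinetic_form K h ho⟩
  · rw [Lcl_eq, ← LT1.K0_eq]; exact LT_eq K hm
  · rw [Lcl_eq, ← LT1.K0_eq]; rfl

end LTM
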