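import Mathlib
import Vale.Agent.P371.Kernel

/-!
# P371: the finite dimensional spectral computation
-/

open Set Filter Polynomial Matrix
open scoped Topology ComplexOrder

namespace Vale.P371

variable {α : Type*} [Fintype α] [DecidableEq α]

/-- Diagonalisation of `0 ≤ M ≤ 1`. -/
theorem exists_diag (M : Matrix α α ℂ) (hM : M.PosSemidef)
    (hM1 : (1 - M).PosSemidef) :
    ∃ (P : Matrix α α ℂ) (m : α → ℝ), star P * P = 1 ∧ P * star P = 1 ∧
      (∀ a, m a ∈ Icc (0:ℝ) 1) ∧
      ∀ i : ℕ, M ^ i = P * diagonal (fun a => ((m a ^ i : ℝ) : ℂ)) * star P := by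
  have hH := hM.1
  set P : Matrix α α ℂ := (hH.eigenvectorUnitary : Matrix α α ℂ) with hP
  have h1 : star P * P = 1 := Unitary.coe_star_mul_self hH.eigenvectorUnitary
  have h2 : P * star P = 1 := Unitary.coe_mul_star_self hH.eigenvectorUnitary
  have hspec : M = P * diagonal (fun a => ((hH.eigenvalues a : ℝ) : ℂ)) * star P := by
    have := hH.spectral_theorem
    rw [Unitary.conjStarAlgAut_apply] at this
    exact this
  refine ⟨P, hH.eigenvalues, h1, h2, ?_, ?_⟩
  · intro a
    refine ⟨hM.eigenvalues_nonneg a, ?_⟩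
    have h3 := hM1.re_dotProduct_nonneg (⇑(hH.eigenvectorBasis a))
    have h4 := hH.eigenvalues_eq a
    rw [Matrix.sub_mulVec, Matrix.one_mulVec, dotProduct_sub, map_sub, ← h4] at h3
    have h5 : RCLike.re (star (⇑(hH.eigenvectorBasis a)) ⬝ᵥ ⇑(hH.eigenvectorBasis a) : ℂ) = 1 := by
      rw [dotProduct_comm, ← EuclideanSpace.inner_eq_star_dotProduct]
      have := hH.eigenvectorBasis.orthonormal.1 a
      rw [inner_self_eq_norm_sq_to_K, this]
      simp
    linarith
  · intro i
    have key : ∀ i : ℕ, (P * diagonal (fun a => ((hH.eigenvalues a : ℝ) : ℂ)) * star P) ^ i =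
        P * diagonal (fun a => ((hH.eigenvalues a ^ i : ℝ) : ℂ)) * star P := by
      intro i
      induction i with
      | zero => simp [h2]
      | succ i ih =>
        rw [pow_succ, ih]
        calc P * diagonal (fun a => ((hH.eigenvalues a ^ i : ℝ) : ℂ)) * star P *
              (P * diagonal (fun a => ((hH.eigenvalues a : ℝ) : ℂ)) * star P)
            = P * diagonal (fun a => ((hH.eigenvalues a ^ i : ℝ) : ℂ)) * (star P *
              P) * diagonal (fun a => ((hH.eigenvalues a : ℝ) : ℂ)) * star P := by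
              simp only [Matrix.mul_assoc]
          _ = _ := by
              rw [h1, Matrix.mul_one, Matrix.mul_assoc P, Matrix.diagonal_mul_diagonal]
              simp [pow_succ]
    conv_lhs => rw [hspec]
    exact key i

/-- The moments `A i = Re ⟨U, M^i U⟩`. -/
noncomputable def mom (M : Matrix α α ℂ) (U : α → ℂ) (i : ℕ) : ℝ :=
  (star U ⬝ᵥ (M ^ i *ᵥ U)).re

theorem spec (M : Matrix α α ℂ) (hM : M.PosSemidef) (hM1 : (1 - M).PosSemidef)
    (U : α → ℂ) (p : ℝ[X]) (N : ℕ) (hN : p.natDegree ≤ N) (K : ℝ)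
    (hK : ∀ x ∈ Icc (0:ℝ) 1, ∀ y ∈ Icc (0:ℝ) 1, ∀ z ∈ Icc (0:ℝ) 1,
      K ≤ - dd p N x y z - p.eval (x + y) * p.eval (z + y)) :
    K * (mom M U 0) ^ 3 ≤
      -(∑ i ∈ Finset.range (N + 1), ∑ l ∈ Finset.range (N + 1),
          cf p i l * (mom M U l * ∑ k ∈ Finset.range i, mom M U k * mom M U (i - 1 - k)))
      - (star (∑ i ∈ Finset.range (N + 1), ∑ l ∈ Finset.range (N + 1),
            (((cf p i l * mom M U l : ℝ) : ℂ)) • (M ^ i *ᵥ U)) ⬝ᵥ
          (∑ i ∈ Finset.range (N + 1), ∑ l ∈ Finset.range (N + 1),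
            (((cf p i l * mom M U l : ℝ) : ℂ)) • (M ^ i *ᵥ U))).re := by
  obtain ⟨P, m, h1, h2, hm, hpow⟩ := exists_diag M hM hM1
  set V : α → ℂ := star P *ᵥ U with hV
  set q : α → ℝ := fun a => ‖V a‖ ^ 2 with hq
  have hq0 : ∀ a, 0 ≤ q a := fun a => by positivity
  -- powers
  have hpU : ∀ i : ℕ, M ^ i *ᵥ U = P *ᵥ (fun a => ((m a ^ i : ℝ) : ℂ) * V a) := by
    intro i
    rw [hpow i, ← Matrix.mulVec_mulVec, ← hV, ← Matrix.mulVec_mulVec]
    congr 1
    funext a
    rw [Matrix.mulVec_diagonal]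
  have hstar : ∀ X Y : α → ℂ, star (P *ᵥ X) ⬝ᵥ (P *ᵥ Y) = star X ⬝ᵥ Y := by
    intro X Y
    rw [Matrix.star_mulVec, ← Matrix.dotProduct_mulVec, Matrix.mulVec_mulVec]
    rw [show Pᴴ * P = 1 from h1, Matrix.one_mulVec]
  have hUV : U = P *ᵥ V := by
    rw [hV, Matrix.mulVec_mulVec, h2, Matrix.one_mulVec]
  have hself : ∀ a, (star (V a) * V a) = ((q a : ℝ) : ℂ) := by
    intro a
    rw [hq]
    simp only [RCLike.star_def]
    rw [Complex.conj_mul']
    push_cast
    rfl
  have hmom : ∀ i, mom M U i = ∑ a, q a * m a ^ i := by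
    intro i
    unfold mom
    rw [hpU i]
    nth_rewrite 1 [hUV]
    rw [hstar]
    have : star V ⬝ᵥ (fun a => ((m a ^ i : ℝ) : ℂ) * V a) = ((∑ a, q a * m a ^ i : ℝ) : ℂ) := by
      simp only [dotProduct, Pi.star_apply]
      rw [Complex.ofReal_sum]
      apply Finset.sum_congr rfl
      intro a _
      rw [Complex.ofReal_mul, ← hself a]
      ring
    rw [this, Complex.ofReal_re]
  -- the vector
  have hsum : ∀ a, (∑ i ∈ Finset.range (N + 1), ∑ l ∈ Finset.range (N + 1),
      cf p i l * mom M U l * m a ^ i) = ∑ b, q b * p.eval (m a + m b) := by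
    intro a
    simp only [eval_add_eq hN, hmom, Finset.mul_sum, Finset.sum_mul]
    rw [Finset.sum_comm' (s := Finset.univ) (t' := Finset.range (N + 1))
      (s' := fun _ => Finset.univ) (by intros; simp)]
    apply Finset.sum_congr rfl
    intro i _
    rw [Finset.sum_comm]
    apply Finset.sum_congr rfl
    intro l _
    apply Finset.sum_congr rfl
    intro b _
    ring
  have hS : (∑ i ∈ Finset.range (N + 1), ∑ l ∈ Finset.range (N + 1),
      (((cf p i l * mom M U l : ℝ) : ℂ)) • (M ^ i *ᵥ U)) =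
      P *ᵥ (fun a => ((∑ b, q b * p.eval (m a + m b) : ℝ) : ℂ) * V a) := by
    simp only [hpU, ← Matrix.mulVec_smul, ← Matrix.mulVec_sum]
    congr 1
    funext a
    rw [← hsum a]
    simp only [Finset.sum_apply, Pi.smul_apply, smul_eq_mul]
    push_cast
    simp only [Finset.sum_mul]
    apply Finset.sum_congr rfl
    intro i _
    apply Finset.sum_congr rfl
    intro l _
    ring
  rw [hS, hstar]
  have hSS : (star (fun a => ((∑ b, q b * p.eval (m a + m b) : ℝ) : ℂ) * V a) ⬝ᵥ
      (fun a => ((∑ b, q b * p.eval (m a + m b) : ℝ) : ℂ) * V a)) =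
      ((∑ a, q a * (∑ b, q b * p.eval (m a + m b)) ^ 2 : ℝ) : ℂ) := by
    simp only [dotProduct, Pi.star_apply, star_mul', RCLike.star_def, Complex.conj_ofReal]
    rw [Complex.ofReal_sum]
    apply Finset.sum_congr rfl
    intro a _
    have := hself a
    simp only [RCLike.star_def] at this
    rw [Complex.ofReal_mul (q a), ← this]
    push_cast
    ring
  rw [hSS, Complex.ofReal_re]
  -- the triple sums
  have hT1 : (mom M U 0) ^ 3 = ∑ b, ∑ a, ∑ c, q b * q a * q c := by
    rw [hmom 0]
    simp only [pow_zero, mul_one]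
    rw [pow_three, Finset.sum_mul]
    apply Finset.sum_congr rfl
    intro b _
    rw [Finset.sum_mul_sum, Finset.mul_sum]
    apply Finset.sum_congr rfl
    intro a _
    rw [Finset.mul_sum]
    apply Finset.sum_congr rfl
    intro c _
    ring
  have hT2 : (∑ b, q b * (∑ a, q a * p.eval (m b + m a)) ^ 2) =
      ∑ b, ∑ a, ∑ c, q b * q a * q c * (p.eval (m a + m b) * p.eval (m c + m b)) := by
    apply Finset.sum_congr rfl
    intro b _
    rw [sq, Finset.sum_mul_sum, Finset.mul_sum]
    apply Finset.sum_congr rfl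
    intro a _
    rw [Finset.mul_sum]
    apply Finset.sum_congr rfl
    intro c _
    rw [add_comm (m b) (m a), add_comm (m b) (m c)]
    ring
  have hT3 : (∑ i ∈ Finset.range (N + 1), ∑ l ∈ Finset.range (N + 1),
      cf p i l * (mom M U l * ∑ k ∈ Finset.range i, mom M U k * mom M U (i - 1 - k))) =
      ∑ b, ∑ a, ∑ c, q b * q a * q c * dd p N (m a) (m b) (m c) := by
    have e1 : ∀ i l, (mom M U l * ∑ k ∈ Finset.range i, mom M U k * mom M U (i - 1 - k)) =
        ∑ b, ∑ a, ∑ c, q b * q a * q c *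
          (m b ^ l * ∑ k ∈ Finset.range i, m a ^ k * m c ^ (i - 1 - k)) := by
      intro i l
      rw [hmom l, Finset.sum_mul]
      apply Finset.sum_congr rfl
      intro b _
      have e2 : ∑ k ∈ Finset.range i, mom M U k * mom M U (i - 1 - k) =
          ∑ a, ∑ c, q a * q c * ∑ k ∈ Finset.range i, m a ^ k * m c ^ (i - 1 - k) := by
        simp only [Finset.mul_sum]
        have e3 : ∀ k, mom M U k * mom M U (i - 1 - k) =
            ∑ a, ∑ c, q a * q c * (m a ^ k * m c ^ (i - 1 - k)) := by
          intro k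
          rw [hmom, hmom, Finset.sum_mul_sum]
          apply Finset.sum_congr rfl
          intro a _
          apply Finset.sum_congr rfl
          intro c _
          ring
        simp only [e3]
        rw [Finset.sum_comm]
        apply Finset.sum_congr rfl
        intro a _
        rw [Finset.sum_comm]
      rw [e2, Finset.mul_sum]
      apply Finset.sum_congr rfl
      intro a _
      rw [Finset.mul_sum]
      apply Finset.sum_congr rfl
      intro c _
      ring
    simp only [e1, dd, Finset.mul_sum]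
    have e4 : ∀ F : ℕ → ℕ → α → α → α → ℝ,
        (∑ i ∈ Finset.range (N + 1), ∑ l ∈ Finset.range (N + 1), ∑ b, ∑ a, ∑ c, F i l b a c) =
        ∑ b, ∑ a, ∑ c, ∑ i ∈ Finset.range (N + 1), ∑ l ∈ Finset.range (N + 1), F i l b a c := by
      intro F
      have f1 : ∀ i, (∑ l ∈ Finset.range (N + 1), ∑ b, ∑ a, ∑ c, F i l b a c) =
          ∑ b, ∑ a, ∑ c, ∑ l ∈ Finset.range (N + 1), F i l b a c := by
        intro i
        rw [Finset.sum_comm]
        apply Finset.sum_congr rfl
        intro b _
        rw [Finset.sum_comm]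
        apply Finset.sum_congr rfl
        intro a _
        rw [Finset.sum_comm]
      simp only [f1]
      rw [Finset.sum_comm]
      apply Finset.sum_congr rfl
      intro b _
      rw [Finset.sum_comm]
      apply Finset.sum_congr rfl
      intro a _
      rw [Finset.sum_comm]
    rw [e4]
    apply Finset.sum_congr rfl
    intro b _
    apply Finset.sum_congr rfl
    intro a _
    apply Finset.sum_congr rfl
    intro c _
    apply Finset.sum_congr rfl
    intro i _
    apply Finset.sum_congr rfl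
    intro l _
    apply Finset.sum_congr rfl
    intro k _
    ring
  rw [hT1, hT2, hT3, Finset.mul_sum, ← Finset.sum_neg_distrib, ← Finset.sum_sub_distrib]
  apply Finset.sum_le_sum
  intro b _
  rw [Finset.mul_sum, ← Finset.sum_neg_distrib, ← Finset.sum_sub_distrib]
  apply Finset.sum_le_sum
  intro a _
  rw [Finset.mul_sum, ← Finset.sum_neg_distrib, ← Finset.sum_sub_distrib]
  apply Finset.sum_le_sum
  intro c _
  have hqq : 0 ≤ q b * q a * q c := mul_nonneg (mul_nonneg (hq0 b) (hq0 a)) (hq0 c)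
  have := mul_le_mul_of_nonneg_left (hK (m a) (hm a) (m b) (hm b) (m c) (hm c)) hqq
  nlinarith

end Vale.P371
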