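import Vale.Agent.P371.Core
import Vale.Agent.P371.Spec
import Vale.Agent.P371.Cubic
import Vale.Agent.P371.MFam

/-!
# P371: spectral reduction and approximation for matrix valued families
-/

open MeasureTheory Set Filter Matrix Polynomial
open scoped Topology ComplexConjugate ComplexOrder

namespace Vale.P371

/-- Exact form of the cotangent kernel off the diagonal. -/
theorem ck_eq {lam ep s t : ℝ} (hep : 0 < ep) (hlam : 0 < lam) (h : 2 * lam + 2 * ep = Real.pi)
    (hs : s ∈ Icc (0:ℝ) 2) (ht : t ∈ Icc (0:ℝ) 2) (hst : s ≠ t) :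
    -((ck lam ep s - ck lam ep t) / (s - t)) - ck lam ep s * ck lam ep t =
      lam ^ 2 * (1 + (Real.sinc (lam * (s - t)) - Real.cos (lam * (s - t))) /
        (Real.sin (lam * s + ep) * Real.sin (lam * t + ep))) := by
  have sA := sin_arg_pos hep hlam h hs
  have sB := sin_arg_pos hep hlam h ht
  set A := lam * s + ep with hAdef
  set B := lam * t + ep with hBdef
  have hAB : lam * (s - t) = A - B := by rw [hAdef, hBdef]; ring
  have hst' : s - t ≠ 0 := sub_ne_zero.mpr hst
  have hne : A - B ≠ 0 := by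
    rw [← hAB]; exact mul_ne_zero hlam.ne' hst'
  have hl : s - t = (A - B) / lam := by rw [← hAB]; field_simp
  rw [hAB, Real.sinc_of_ne_zero hne, ck, ck, ← hAdef, ← hBdef, hl, Real.cos_sub]
  have e : Real.sin (A - B) = Real.sin A * Real.cos B - Real.cos A * Real.sin B :=
    Real.sin_sub A B
  rw [e]
  field_simp
  ring

/-- Two sided polynomial approximation of the full kernel. -/
theorem exists_poly_kernel2 {lam ep : ℝ} (hep : 0 < ep) (hlam : 0 < lam)
    (h : 2 * lam + 2 * ep = Real.pi) {d : ℝ} (hd : 0 < d) : ∃ p : ℝ[X],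
    ∀ N : ℕ, p.natDegree ≤ N → ∀ x ∈ Icc (0:ℝ) 1, ∀ y ∈ Icc (0:ℝ) 1, ∀ z ∈ Icc (0:ℝ) 1,
      |(- dd p N x y z - p.eval (x + y) * p.eval (z + y)) -
        lam ^ 2 * (1 + (Real.sinc (lam * (x - z)) - Real.cos (lam * (x - z))) /
        (Real.sin (lam * (x + y) + ep) * Real.sin (lam * (z + y) + ep)))| ≤ d := by
  obtain ⟨F, hF⟩ := isCompact_Icc.exists_bound_of_continuousOn (ck_continuousOn hep hlam h)
  have hF0 : 0 ≤ F := le_trans (norm_nonneg _) (hF 0 (by constructor <;> norm_num))
  obtain ⟨eta, heta, heta1, heta2⟩ : ∃ eta : ℝ, 0 < eta ∧ eta ≤ 1 ∧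
      eta * (2 + 2 * F) ≤ d := by
    refine ⟨min 1 (d / (2 + 2 * F)), ?_, min_le_left _ _, ?_⟩
    · have : 0 < 2 + 2 * F := by linarith
      positivity
    · have h3 : 0 < 2 + 2 * F := by linarith
      calc min 1 (d / (2 + 2 * F)) * (2 + 2 * F) ≤ d / (2 + 2 * F) * (2 + 2 * F) :=
          mul_le_mul_of_nonneg_right (min_le_right _ _) h3.le
        _ = d := by field_simp
  obtain ⟨p, hp1, hp2⟩ := exists_poly_near hep hlam h heta
  refine ⟨p, fun N hN => ?_⟩
  -- the inequality off the diagonal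
  have off : ∀ x ∈ Icc (0:ℝ) 1, ∀ y ∈ Icc (0:ℝ) 1, ∀ z ∈ Icc (0:ℝ) 1, x ≠ z →
      |(- dd p N x y z - p.eval (x + y) * p.eval (z + y)) -
        lam ^ 2 * (1 + (Real.sinc (lam * (x - z)) - Real.cos (lam * (x - z))) /
        (Real.sin (lam * (x + y) + ep) * Real.sin (lam * (z + y) + ep)))| ≤ d := by
    intro x hx y hy z hz hxz
    have hs : x + y ∈ Icc (0:ℝ) 2 := ⟨by linarith [hx.1, hy.1], by linarith [hx.2, hy.2]⟩
    have ht : z + y ∈ Icc (0:ℝ) 2 := ⟨by linarith [hz.1, hy.1], by linarith [hz.2, hy.2]⟩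
    have hst : x + y ≠ z + y := fun hh => hxz (add_right_cancel hh)
    have hdd : dd p N x y z = (p.eval (x + y) - p.eval (z + y)) / ((x + y) - (z + y)) := by
      rw [eq_div_iff (sub_ne_zero.mpr hst), ← dd_mul hN]
      ring
    have k1 := ck_eq hep hlam h hs ht hst
    have exz : (x + y) - (z + y) = x - z := by ring
    rw [exz] at k1
    rw [← k1]
    have k2 := hp2 _ hs _ ht hst
    have k3 := hp1 _ hs
    have k4 := hp1 _ ht
    have k5 := hF _ hs
    have k6 := hF _ ht
    rw [Real.norm_eq_abs] at k5 k6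
    rw [← hdd, exz] at k2
    set P := p.eval (x + y)
    set Q := p.eval (z + y)
    set f := ck lam ep (x + y)
    set g := ck lam ep (z + y)
    set D := (f - g) / (x - z)
    have e0 : (-dd p N x y z - P * Q) - (-D - f * g) =
        -(dd p N x y z - D) - ((P - f) * (Q - g) + (P - f) * g + f * (Q - g)) := by ring
    have b1 : |(P - f) * (Q - g)| ≤ eta * 1 := by
      rw [abs_mul]
      exact mul_le_mul k3 (k4.trans heta1) (abs_nonneg _) heta.le
    have b2 : |(P - f) * g| ≤ eta * F := by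
      rw [abs_mul]
      exact mul_le_mul k3 k6 (abs_nonneg _) heta.le
    have b3 : |f * (Q - g)| ≤ F * eta := by
      rw [abs_mul]
      exact mul_le_mul k5 k4 (abs_nonneg _) hF0
    rw [e0]
    have c1 := abs_le.mp b1
    have c2 := abs_le.mp b2
    have c3 := abs_le.mp b3
    have c4 := abs_le.mp k2
    rw [abs_le]
    constructor <;> nlinarith
  intro x hx y hy z hz
  rcases ne_or_eq x z with hxz | rfl
  · exact off x hx y hy z hz hxz
  · -- approach the diagonal
    have hcont : ContinuousOn (fun w => (- dd p N w y x - p.eval (w + y) * p.eval (x + y)) -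
        lam ^ 2 * (1 + (Real.sinc (lam * (w - x)) - Real.cos (lam * (w - x))) /
        (Real.sin (lam * (w + y) + ep) * Real.sin (lam * (x + y) + ep)))) (Icc 0 1) := by
      have c1 : Continuous (fun w => (- dd p N w y x - p.eval (w + y) * p.eval (x + y))) :=
        (dd_continuous p N y x).neg.sub
          ((p.continuous.comp (continuous_id.add continuous_const)).mul continuous_const)
      refine c1.continuousOn.sub (ContinuousOn.mul continuousOn_const
        (ContinuousOn.add continuousOn_const (ContinuousOn.div ?_ ?_ ?_)))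
      · apply Continuous.continuousOn
        exact (Real.continuous_sinc.comp (by fun_prop)).sub (by fun_prop)
      · fun_prop
      · intro w hw
        exact mul_ne_zero (sin_arg_pos hep hlam h
          ⟨by linarith [hw.1, hy.1], by linarith [hw.2, hy.2]⟩).ne'
          (sin_arg_pos hep hlam h
          ⟨by linarith [hx.1, hy.1], by linarith [hx.2, hy.2]⟩).ne'
    have hmem : x ∈ closure (Icc (0:ℝ) 1 ∩ {x}ᶜ) := by
      have : x ∈ closure (Ioo (0:ℝ) 1 ∩ {x}ᶜ) := by
        have hd1 : Dense ({x}ᶜ : Set ℝ) := dense_compl_singleton x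
        have h2 : x ∈ closure (Ioo (0:ℝ) 1) := by
          rw [closure_Ioo (by norm_num)]; exact hx
        rw [mem_closure_iff_nhds] at h2 ⊢
        intro t ht
        obtain ⟨o, hot, ho, hxo⟩ := mem_nhds_iff.mp ht
        obtain ⟨w, hw1, hw2⟩ := h2 o (ho.mem_nhds hxo)
        obtain ⟨v, hv1, hv2⟩ := hd1.inter_open_nonempty (o ∩ Ioo 0 1) (ho.inter isOpen_Ioo)
          ⟨w, hw1, hw2⟩
        exact ⟨v, hot hv1.1, hv1.2, hv2⟩
      exact closure_mono (inter_subset_inter_left _ Ioo_subset_Icc_self) this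
    have hclosed : IsClosed (Icc (0:ℝ) 1 ∩ (fun w => |(- dd p N w y x -
        p.eval (w + y) * p.eval (x + y)) -
        lam ^ 2 * (1 + (Real.sinc (lam * (w - x)) - Real.cos (lam * (w - x))) /
        (Real.sin (lam * (w + y) + ep) * Real.sin (lam * (x + y) + ep)))|) ⁻¹' Iic d) :=
      hcont.abs.preimage_isClosed_of_isClosed isClosed_Icc isClosed_Iic
    have := hclosed.closure_subset_iff.mpr
      (fun w hw => ⟨hw.1, off w hw.1 y hy x hx hw.2⟩) hmem
    exact this.2

variable {α : Type*} [Fintype α] [DecidableEq α]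

omit [DecidableEq α] in
theorem tr3 (A B C : Matrix α α ℂ) :
    (A * (B * C)).trace = ∑ a, ∑ b, ∑ c, A a b * B b c * C c a := by
  simp only [Matrix.trace, Matrix.diag, Matrix.mul_apply, Finset.mul_sum, mul_assoc]

theorem tr_conj {P : Matrix α α ℂ} (h2 : P * star P = 1) (A : Matrix α α ℂ) :
    (star P * A * P).trace = A.trace := by
  rw [Matrix.trace_mul_comm, ← Matrix.mul_assoc, h2, Matrix.one_mul]

/-- Diagonalised trace of a product. -/
theorem tr_eig {P M : Matrix α α ℂ} {m : α → ℝ}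
    (hpow : ∀ i : ℕ, M ^ i = P * diagonal (fun a => ((m a ^ i : ℝ) : ℂ)) * star P)
    (X : Matrix α α ℂ) (l s t : ℕ) :
    (X * M ^ l * (X * M ^ s * (X * M ^ t))).trace = ∑ a, ∑ b, ∑ c,
      ((star P * X * P) a b * (star P * X * P) b c * (star P * X * P) c a) *
        ((m b ^ l * m c ^ s * m a ^ t : ℝ) : ℂ) := by
  set X' := star P * X * P with hX'
  have e : (X * M ^ l * (X * M ^ s * (X * M ^ t))).trace =
      ((X' * diagonal (fun a => ((m a ^ l : ℝ) : ℂ))) *
        ((X' * diagonal (fun a => ((m a ^ s : ℝ) : ℂ))) *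
        (X' * diagonal (fun a => ((m a ^ t : ℝ) : ℂ))))).trace := by
    rw [hpow l, hpow s, hpow t]
    set Dl : Matrix α α ℂ := diagonal (fun a => ((m a ^ l : ℝ) : ℂ))
    set Ds : Matrix α α ℂ := diagonal (fun a => ((m a ^ s : ℝ) : ℂ))
    set Dt : Matrix α α ℂ := diagonal (fun a => ((m a ^ t : ℝ) : ℂ))
    have e1 : X * (P * Dl * star P) * (X * (P * Ds * star P) * (X * (P * Dt * star P))) =
        (X * (P * Dl * star P) * (X * (P * Ds * star P) * (X * (P * Dt)))) * star P := by
      simp only [Matrix.mul_assoc]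
    rw [e1, Matrix.trace_mul_comm, hX']
    congr 1
    simp only [Matrix.mul_assoc]
  rw [e, tr3]
  simp only [Matrix.mul_diagonal]
  apply Finset.sum_congr rfl; intro a _
  apply Finset.sum_congr rfl; intro b _
  apply Finset.sum_congr rfl; intro c _
  push_cast
  ring

/-- `RF` in the eigenbasis. -/
theorem RF_eig {P M : Matrix α α ℂ} {m : α → ℝ}
    (hpow : ∀ i : ℕ, M ^ i = P * diagonal (fun a => ((m a ^ i : ℝ) : ℂ)) * star P)
    (X : Matrix α α ℂ) (p : ℝ[X]) (N : ℕ) :
    RF p N M X = ∑ a, ∑ b, ∑ c,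
      ((star P * X * P) a b * (star P * X * P) b c * (star P * X * P) c a) *
        ((dd p N (m c) (m b) (m a) : ℝ) : ℂ) := by
  unfold RF
  simp only [tr_eig hpow]
  unfold dd
  push_cast
  simp only [Finset.mul_sum]
  have hc : ∀ (s : Finset ℕ) (f : ℕ → α → ℂ), ∑ i ∈ s, ∑ a, f i a = ∑ a, ∑ i ∈ s, f i a :=
    fun s f => Finset.sum_comm
  rw [Finset.sum_congr rfl (fun i _ => Finset.sum_congr rfl (fun l _ => hc _ _))]
  rw [Finset.sum_congr rfl (fun i _ => hc _ _), hc]
  apply Finset.sum_congr rfl; intro a _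
  rw [Finset.sum_congr rfl (fun i _ => Finset.sum_congr rfl (fun l _ => hc _ _))]
  rw [Finset.sum_congr rfl (fun i _ => hc _ _), hc]
  apply Finset.sum_congr rfl; intro b _
  rw [Finset.sum_congr rfl (fun i _ => Finset.sum_congr rfl (fun l _ => hc _ _))]
  rw [Finset.sum_congr rfl (fun i _ => hc _ _), hc]
  apply Finset.sum_congr rfl; intro c _
  apply Finset.sum_congr rfl; intro i _
  apply Finset.sum_congr rfl; intro l _
  apply Finset.sum_congr rfl; intro s _
  ring

/-- `WF` in the eigenbasis. -/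
theorem WF_eig {P M : Matrix α α ℂ} {m : α → ℝ} (h1 : star P * P = 1)
    (hpow : ∀ i : ℕ, M ^ i = P * diagonal (fun a => ((m a ^ i : ℝ) : ℂ)) * star P)
    (X : Matrix α α ℂ) {p : ℝ[X]} {N : ℕ} (hN : p.natDegree ≤ N) (a b : α) :
    (star P * WF p N M X * P) a b =
      ((p.eval (m a + m b) : ℝ) : ℂ) * (star P * X * P) a b := by
  have e0 : star P * WF p N M X * P = ∑ i ∈ Finset.range (N + 1), ∑ l ∈ Finset.range (N + 1),
      ((cf p i l : ℝ) : ℂ) • (diagonal (fun a => ((m a ^ l : ℝ) : ℂ)) * (star P * X * P) *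
        diagonal (fun a => ((m a ^ i : ℝ) : ℂ))) := by
    unfold WF
    simp only [Matrix.mul_sum, Matrix.sum_mul, Matrix.mul_smul, Matrix.smul_mul]
    apply Finset.sum_congr rfl; intro i _
    apply Finset.sum_congr rfl; intro l _
    congr 1
    rw [hpow l, hpow i]
    calc star P * (P * diagonal (fun a => ((m a ^ l : ℝ) : ℂ)) * star P * X *
          (P * diagonal (fun a => ((m a ^ i : ℝ) : ℂ)) * star P)) * P
        = (star P * P) * diagonal (fun a => ((m a ^ l : ℝ) : ℂ)) * (star P * X * P) *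
          diagonal (fun a => ((m a ^ i : ℝ) : ℂ)) * (star P * P) := by
          simp only [Matrix.mul_assoc]
      _ = _ := by rw [h1, Matrix.one_mul, Matrix.mul_one]
  rw [e0, add_comm (m a) (m b), eval_add_eq hN]
  push_cast
  rw [Finset.sum_mul, Matrix.sum_apply]
  apply Finset.sum_congr rfl; intro i _
  rw [Finset.sum_mul, Matrix.sum_apply]
  apply Finset.sum_congr rfl; intro l _
  rw [Matrix.smul_apply, Matrix.mul_diagonal, Matrix.diagonal_mul, smul_eq_mul]
  push_cast
  ring

theorem WWX_eig {P M : Matrix α α ℂ} {m : α → ℝ} (h1 : star P * P = 1) (h2 : P * star P = 1)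
    (hpow : ∀ i : ℕ, M ^ i = P * diagonal (fun a => ((m a ^ i : ℝ) : ℂ)) * star P)
    (X : Matrix α α ℂ) {p : ℝ[X]} {N : ℕ} (hN : p.natDegree ≤ N) :
    (WF p N M X * WF p N M X * X).trace = ∑ a, ∑ b, ∑ c,
      ((star P * X * P) a b * (star P * X * P) b c * (star P * X * P) c a) *
        ((p.eval (m a + m b) * p.eval (m b + m c) : ℝ) : ℂ) := by
  have e : (WF p N M X * WF p N M X * X).trace =
      ((star P * WF p N M X * P) * ((star P * WF p N M X * P) * (star P * X * P))).trace := by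
    have e1 : (star P * WF p N M X * P) * ((star P * WF p N M X * P) * (star P * X * P)) =
        star P * (WF p N M X * (P * star P) * WF p N M X * (P * star P) * X) * P := by
      simp only [Matrix.mul_assoc]
    rw [e1, h2, Matrix.mul_one, Matrix.mul_one, tr_conj h2]
  rw [e, tr3]
  simp only [WF_eig h1 hpow X hN]
  apply Finset.sum_congr rfl; intro a _
  apply Finset.sum_congr rfl; intro b _
  apply Finset.sum_congr rfl; intro c _
  push_cast
  ring

omit [Fintype α] [DecidableEq α] in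
theorem norm_entry_le {β : Type*} [Fintype β] (V : Matrix α β ℂ) (a b : α) :
    ‖(V * Vᴴ) a b‖ ≤ (((V * Vᴴ) a a).re + ((V * Vᴴ) b b).re) / 2 := by
  have e : ∀ a, ((V * Vᴴ) a a).re = ∑ c, ‖V a c‖ ^ 2 := by
    intro a
    simp only [Matrix.mul_apply, Matrix.conjTranspose_apply, Complex.re_sum]
    apply Finset.sum_congr rfl; intro c _
    rw [Complex.star_def, Complex.mul_conj, Complex.ofReal_re, Complex.normSq_eq_norm_sq]
  rw [e, e, ← Finset.sum_add_distrib, Finset.sum_div, Matrix.mul_apply]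
  refine (norm_sum_le _ _).trans (Finset.sum_le_sum (fun c _ => ?_))
  rw [norm_mul, Matrix.conjTranspose_apply, norm_star]
  nlinarith [sq_nonneg (‖V a c‖ - ‖V b c‖)]

theorem cube_eig {P : Matrix α α ℂ} (h2 : P * star P = 1) (X : Matrix α α ℂ) :
    (X ^ 3).trace = ∑ a, ∑ b, ∑ c,
      ((star P * X * P) a b * (star P * X * P) b c * (star P * X * P) c a) := by
  have e : (X ^ 3).trace = ((star P * X * P) * ((star P * X * P) * (star P * X * P))).trace := by
    have e1 : (star P * X * P) * ((star P * X * P) * (star P * X * P)) =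
        star P * (X * (P * star P) * X * (P * star P) * X) * P := by
      simp only [Matrix.mul_assoc]
    rw [e1, h2, Matrix.mul_one, Matrix.mul_one, tr_conj h2, pow_succ, pow_two]
  rw [e, tr3]


/-- The matrix valued finite dimensional inequality. -/
theorem matSpec {n : ℕ} {d : ℝ} (hd : 0 < d) : ∃ p : ℝ[X],
    ∀ {β : Type} [Fintype β] (M : Matrix (Fin n) (Fin n) ℂ), M.PosSemidef → (1 - M).PosSemidef →
    ∀ U : Matrix (Fin n) β ℂ,
      ((Real.pi / 2) ^ 2 - d) * (((U * Uᴴ) ^ 3).trace).re ≤ -(RF p p.natDegree M (U * Uᴴ)).re -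
        ((WF p p.natDegree M (U * Uᴴ) * WF p p.natDegree M (U * Uᴴ) * (U * Uᴴ)).trace).re := by
  have hpi := Real.pi_pos
  obtain ⟨ep, hep, hep1, hep2⟩ : ∃ ep : ℝ, 0 < ep ∧ ep < Real.pi / 2 ∧
      Real.pi * ep ≤ d / 2 := by
    refine ⟨min (Real.pi / 4) (d / (2 * Real.pi)), ?_, ?_, ?_⟩
    · positivity
    · exact lt_of_le_of_lt (min_le_left _ _) (by linarith)
    · calc Real.pi * min (Real.pi / 4) (d / (2 * Real.pi)) ≤ Real.pi * (d / (2 * Real.pi)) :=
          mul_le_mul_of_nonneg_left (min_le_right _ _) hpi.le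
        _ = d / 2 := by field_simp
  set lam : ℝ := Real.pi / 2 - ep with hlamdef
  have hlam : 0 < lam := by linarith
  have h : 2 * lam + 2 * ep = Real.pi := by rw [hlamdef]; ring
  have hn0 : (0:ℝ) < 2 * ((n:ℝ) ^ 3 + 1) := by positivity
  set eta : ℝ := d / (2 * ((n:ℝ) ^ 3 + 1)) with heta
  have heta0 : 0 < eta := by positivity
  have hetan : eta * (n:ℝ) ^ 3 ≤ d / 2 := by
    have : eta * ((n:ℝ) ^ 3 + 1) = d / 2 := by rw [heta]; field_simp
    nlinarith
  obtain ⟨p, hp⟩ := exists_poly_kernel2 hep hlam h heta0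
  refine ⟨p, ?_⟩
  intro β _ M hM hM1 U
  obtain ⟨P, m, h1, h2, hm, hpow⟩ := exists_diag M hM hM1
  set X := U * Uᴴ with hX
  set V : Matrix (Fin n) β ℂ := star P * U with hV
  have hXV : star P * X * P = V * Vᴴ := by
    rw [hV, hX, Matrix.conjTranspose_mul, ← Matrix.star_eq_conjTranspose (star P), star_star]
    simp only [Matrix.mul_assoc]
  have hXp : (V * Vᴴ).PosSemidef := Matrix.posSemidef_self_mul_conjTranspose V
  rw [RF_eig hpow, WWX_eig h1 h2 hpow X le_rfl, cube_eig h2, hXV]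
  set Y := V * Vᴴ with hY
  set t : Fin n → Fin n → Fin n → ℂ := fun a b c => Y a b * Y b c * Y c a with ht
  -- the cube of the maximal diagonal entry
  have hcubeY : (∑ a, ∑ b, ∑ c, t a b c) = (Y ^ 3).trace := by
    rw [pow_succ, pow_two, Matrix.mul_assoc, tr3]
  have hmax : ∀ a b c, ‖t a b c‖ ≤ ((∑ a, ∑ b, ∑ c, t a b c)).re := by
    intro a b c
    obtain ⟨i0, hi0⟩ : ∃ i0, ∀ j, (Y j j).re ≤ (Y i0 i0).re := by
      have : Nonempty (Fin n) := ⟨a⟩
      exact Finite.exists_max (fun j => (Y j j).re)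
    have hD0 : 0 ≤ (Y i0 i0).re := (LTM.posSemidef_re_diag hXp i0).1
    have hent : ∀ a b, ‖Y a b‖ ≤ (Y i0 i0).re := by
      intro a b
      refine (norm_entry_le V a b).trans ?_
      have := hi0 a
      have := hi0 b
      linarith
    have h3 : ‖t a b c‖ ≤ (Y i0 i0).re ^ 3 := by
      rw [ht]
      simp only [norm_mul]
      calc ‖Y a b‖ * ‖Y b c‖ * ‖Y c a‖ ≤ (Y i0 i0).re * (Y i0 i0).re * (Y i0 i0).re := by
            apply mul_le_mul _ (hent _ _) (norm_nonneg _) (by positivity)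
            exact mul_le_mul (hent _ _) (hent _ _) (norm_nonneg _) hD0
        _ = (Y i0 i0).re ^ 3 := by ring
    refine h3.trans ((LTM.diag_cube_le hXp i0).trans ?_)
    rw [hcubeY, Matrix.trace, Complex.re_sum]
    have hpos : ∀ i ∈ Finset.univ, 0 ≤ ((Y ^ 3).diag i).re := fun i _ =>
      (LTM.posSemidef_re_diag (hXp.pow 3) i).1
    exact Finset.single_le_sum hpos (Finset.mem_univ i0)
  set S3 : ℝ := ((∑ a, ∑ b, ∑ c, t a b c)).re with hS3
  -- the cubic inequality of the cotangent kernel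
  have hcub := cubic_nonneg hXp (φ := fun a => 2 * lam * m a + ep) (by
    intro a
    have := (hm a).1
    have := (hm a).2
    constructor
    · positivity
    · nlinarith)
  have hcub' : 0 ≤ ∑ a, ∑ b, ∑ c, (t a b c).re *
      ((Real.sinc (lam * (m a - m c)) - Real.cos (lam * (m a - m c))) /
        (Real.sin (lam * (m a + m b) + ep) * Real.sin (lam * (m b + m c) + ep))) := by
    have e1 : ∀ a c, (2 * lam * m a + ep - (2 * lam * m c + ep)) / 2 = lam * (m a - m c) := by
      intro a c; ring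
    have e2 : ∀ a c, (2 * lam * m a + ep + (2 * lam * m c + ep)) / 2 = lam * (m a + m c) + ep := by
      intro a c; ring
    simp only [e1, e2] at hcub
    exact hcub
  have hnS : ∑ a : Fin n, ∑ b : Fin n, ∑ c : Fin n, (eta * S3 : ℝ) = eta * S3 * (n:ℝ) ^ 3 := by
    simp only [Finset.sum_const, Finset.card_univ, Fintype.card_fin, nsmul_eq_mul]
    ring
  have hS30 : 0 ≤ S3 * (n:ℝ) ^ 3 := by
    rcases Nat.eq_zero_or_pos n with h0 | h0
    · simp [h0]
    · have : 0 ≤ S3 := (norm_nonneg _).trans (hmax ⟨0, h0⟩ ⟨0, h0⟩ ⟨0, h0⟩)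
      positivity
  have hS3' : 0 ≤ S3 := by
    rcases Nat.eq_zero_or_pos n with h0 | h0
    · subst h0; simp [hS3]
    · exact (norm_nonneg _).trans (hmax ⟨0, h0⟩ ⟨0, h0⟩ ⟨0, h0⟩)
  -- termwise lower bound
  have hterm : ∀ a b c, (t a b c).re * lam ^ 2 + lam ^ 2 * ((t a b c).re *
      ((Real.sinc (lam * (m a - m c)) - Real.cos (lam * (m a - m c))) /
        (Real.sin (lam * (m a + m b) + ep) * Real.sin (lam * (m b + m c) + ep)))) -
      eta * S3 ≤ -((t a b c) * ((dd p p.natDegree (m c) (m b) (m a) : ℝ) : ℂ)).re -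
        ((t a b c) * ((p.eval (m a + m b) * p.eval (m b + m c) : ℝ) : ℂ)).re := by
    intro a b c
    have hk := hp p.natDegree le_rfl (m c) (hm c) (m b) (hm b) (m a) (hm a)
    have e1 : Real.sinc (lam * (m c - m a)) = Real.sinc (lam * (m a - m c)) := by
      rw [← Real.sinc_neg]; congr 1; ring
    have e2 : Real.cos (lam * (m c - m a)) = Real.cos (lam * (m a - m c)) := by
      rw [← Real.cos_neg]; congr 1; ring
    rw [e1, e2, add_comm (m c) (m b), mul_comm (Real.sin (lam * (m b + m c) + ep))] at hk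
    set g := (Real.sinc (lam * (m a - m c)) - Real.cos (lam * (m a - m c))) /
        (Real.sin (lam * (m a + m b) + ep) * Real.sin (lam * (m b + m c) + ep))
    set T := - dd p p.natDegree (m c) (m b) (m a) - p.eval (m b + m c) * p.eval (m a + m b)
      with hT
    rw [Complex.re_mul_ofReal, Complex.re_mul_ofReal]
    have hre : |(t a b c).re| ≤ S3 := (Complex.abs_re_le_norm _).trans (hmax a b c)
    have hprod : |(t a b c).re * (T - lam ^ 2 * (1 + g))| ≤ S3 * eta := by
      rw [abs_mul]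
      exact mul_le_mul hre hk (abs_nonneg _) hS3'
    have := (abs_le.mp hprod).1
    rw [hT] at this
    nlinarith
  -- summation
  have hsum : lam ^ 2 * S3 + lam ^ 2 * (∑ a, ∑ b, ∑ c, (t a b c).re *
      ((Real.sinc (lam * (m a - m c)) - Real.cos (lam * (m a - m c))) /
        (Real.sin (lam * (m a + m b) + ep) * Real.sin (lam * (m b + m c) + ep)))) -
      eta * S3 * (n:ℝ) ^ 3 ≤
      -(∑ a, ∑ b, ∑ c, (t a b c) * ((dd p p.natDegree (m c) (m b) (m a) : ℝ) : ℂ)).re -
        (∑ a, ∑ b, ∑ c,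
          (t a b c) * ((p.eval (m a + m b) * p.eval (m b + m c) : ℝ) : ℂ)).re := by
    have := Finset.sum_le_sum (fun a (_ : a ∈ Finset.univ) => Finset.sum_le_sum
      (fun b (_ : b ∈ Finset.univ) => Finset.sum_le_sum
        (fun c (_ : c ∈ Finset.univ) => hterm a b c)))
    simp only [Finset.sum_sub_distrib, Finset.sum_add_distrib, Finset.sum_neg_distrib] at this
    rw [hnS] at this
    have f1 : ∑ a, ∑ b, ∑ c, (t a b c).re * lam ^ 2 = lam ^ 2 * S3 := by
      rw [hS3]
      simp only [Complex.re_sum, Finset.mul_sum, mul_comm]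
    rw [f1] at this
    simp only [Complex.re_sum, Finset.mul_sum] at this ⊢
    linarith
  refine le_trans ?_ hsum
  have k9 : (Real.pi / 2) ^ 2 - d / 2 ≤ lam ^ 2 := by
    rw [hlamdef]; nlinarith [sq_nonneg ep]
  have hl2 : 0 ≤ lam ^ 2 := sq_nonneg _
  have k10 : 0 ≤ lam ^ 2 * (∑ a, ∑ b, ∑ c, (t a b c).re *
      ((Real.sinc (lam * (m a - m c)) - Real.cos (lam * (m a - m c))) /
        (Real.sin (lam * (m a + m b) + ep) * Real.sin (lam * (m b + m c) + ep)))) :=
    mul_nonneg hl2 hcub'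
  have k11 : eta * S3 * (n:ℝ) ^ 3 ≤ d / 2 * S3 := by
    calc eta * S3 * (n:ℝ) ^ 3 = (eta * (n:ℝ) ^ 3) * S3 := by ring
      _ ≤ d / 2 * S3 := mul_le_mul_of_nonneg_right hetan hS3'
  have k12 : ((Real.pi / 2) ^ 2 - d / 2) * S3 ≤ lam ^ 2 * S3 :=
    mul_le_mul_of_nonneg_right k9 hS3'
  linarith

/-- The sharp kinetic inequality for `ℂ^m` valued orthonormal families. -/
theorem kineticM : LTM.KineticM := by
  intro n m u g hF ho
  have key : ∀ d : ℝ, 0 < d → ((Real.pi / 2) ^ 2 - d) *
      ∫ x, ((Xm u x * Xm u x * Xm u x).trace).re ≤ ∑ c, ∑ i, ∫ x, ‖g i c x‖ ^ 2 := by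
    intro d hd
    obtain ⟨p, hp⟩ := matSpec (n := n) hd
    exact hF.kinetic_core ho p p.natDegree ((Real.pi / 2) ^ 2 - d)
      (fun M hM hM1 V => hp M hM hM1 V)
  set J := ∫ x, ((Xm u x * Xm u x * Xm u x).trace).re with hJ
  set T := ∑ c, ∑ i, ∫ x, ‖g i c x‖ ^ 2 with hT
  have hJ0 : 0 ≤ J := by
    refine integral_nonneg (fun x => ?_)
    have h1 : (Xm u x).PosSemidef := Matrix.posSemidef_self_mul_conjTranspose (Um u x)
    have h2 := (h1.pow 3).trace_nonneg
    have h3 : (Xm u x) ^ 3 = Xm u x * Xm u x * Xm u x := by rw [pow_succ, pow_two]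
    rw [h3] at h2
    exact (Complex.le_def.mp h2).1
  have e0 : Real.pi ^ 2 / 4 = (Real.pi / 2) ^ 2 := by ring
  rw [e0]
  by_contra hcon
  push Not at hcon
  rcases hJ0.eq_or_lt with h0 | h0
  · rw [← h0] at hcon key
    have := key 1 one_pos
    linarith
  · have := key (((Real.pi / 2) ^ 2 * J - T) / (2 * J)) (by
      apply div_pos <;> linarith)
    have e : ((Real.pi / 2) ^ 2 - ((Real.pi / 2) ^ 2 * J - T) / (2 * J)) * J =
        (Real.pi / 2) ^ 2 * J - ((Real.pi / 2) ^ 2 * J - T) / 2 := by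
      field_simp
    rw [e] at this
    linarith

end Vale.P371
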