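import Mathlib
import Vale.Agent.P371.GPath
import Vale.Agent.P371.GPow
import Vale.Agent.P371.GInc
import Vale.Agent.P371.GEsc
import Vale.Agent.P371.GDoubly
import Vale.Agent.P371.GLtup
import Vale.Agent.P371.GLtlow
import Vale.Agent.P371.GCst
import Vale.Agent.P371.MFinal
import Vale.Agent.P371.MatSpec
import Vale.Agent.P371G.Producer

/-!
# P371: the sharp Lieb-Thirring constants for `1 ≤ γ < 3/2`
-/

namespace LTG

open Matrix Set Filter MeasureTheory LTM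
open scoped ComplexOrder Topology ComplexConjugate ENNReal

theorem kinG (kin : S_KIN) {s : ℝ} (hs : 1 / 2 < s) (hs1 : s < 1) : KinG s := by
  refine kin s hs hs1 (fun n => ?_) (path inc tpc pow (CST.Bs_pos (by linarith)) hs hs1)
  exact Vale.P371G.the_iface s n hs hs1

/-- The sharp constants for `1 < γ < 3/2`. -/
theorem LT_eq_gt (kin : S_KIN) {γ : ℝ} (h1 : 1 < γ) (h2 : γ < 3 / 2) {m : ℕ} (hm : 1 ≤ m) :
    LT γ m = LTone γ ∧
      LT γ m = ENNReal.ofReal (2 * ((γ - 1 / 2) / (γ + 1 / 2)) ^ (γ - 1 / 2) * Lcl γ) := by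
  have hs : 1 / 2 < γ - 1 / 2 := by linarith
  have hs1 : γ - 1 / 2 < 1 := by linarith
  have e : γ - 1 / 2 + 1 / 2 = γ := by ring
  have hup := fun m => ltup (γ - 1 / 2) hs hs1 (kinG kin hs hs1) m
  obtain ⟨l1, l2⟩ := ltlow (γ - 1 / 2) (by linarith) hs1
  have hc := cst (γ - 1 / 2) (by linarith) hs1
  rw [e] at hup l1 l2 hc
  have e2 : γ - 1 / 2 + 1 = γ + 1 / 2 := by ring
  rw [e2] at hc
  have a1 : LT γ m = ENNReal.ofReal (Kc (γ - 1 / 2)) := le_antisymm (hup m) (l2 m hm)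
  have a2 : LTone γ = ENNReal.ofReal (Kc (γ - 1 / 2)) :=
    le_antisymm ((LTone_le_LT γ).trans (hup 1)) l1
  exact ⟨a1.trans a2.symm, by rw [a1, hc]⟩

/-- The case `γ = 1`. -/
theorem LT_eq_one {m : ℕ} (hm : 1 ≤ m) :
    LT 1 m = LTone 1 ∧
      LT 1 m = ENNReal.ofReal (2 * ((1 - 1 / 2) / (1 + 1 / 2)) ^ ((1 : ℝ) - 1 / 2) * Lcl 1) := by
  obtain ⟨h1, -⟩ := final Vale.P371.kineticM
  obtain ⟨a, b⟩ := h1 m hm
  refine ⟨a, ?_⟩
  rw [b]
  congr 2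
  have e1 : ((1 : ℝ) - 1 / 2) / (1 + 1 / 2) = 1 / 3 := by norm_num
  have e2 : (1 : ℝ) - 1 / 2 = 1 / 2 := by norm_num
  rw [e1, e2, ← Real.sqrt_eq_rpow, Real.sqrt_div zero_le_one, Real.sqrt_one]
  ring

/-- The sharp constants for `1 ≤ γ < 3/2`. -/
theorem LT_eq_all (kin : S_KIN) {γ : ℝ} (h1 : 1 ≤ γ) (h2 : γ < 3 / 2) {m : ℕ} (hm : 1 ≤ m) :
    LT γ m = LTone γ ∧
      LT γ m = ENNReal.ofReal (2 * ((γ - 1 / 2) / (γ + 1 / 2)) ^ (γ - 1 / 2) * Lcl γ) := by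
  rcases h1.eq_or_lt with rfl | h1
  · exact LT_eq_one hm
  · exact LT_eq_gt kin h1 h2 hm

end LTG
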