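import Mathlib
import Vale.Agent.P371.GSad
import Vale.Agent.P371.GPow
import Vale.Agent.P371.GEsc
import Vale.Agent.P371.GDoubly
import Vale.Agent.P371.GCst

/-!
# P371, `γ ∈ (1, 3/2)`: the kinetic inequality from the path inequality
-/

namespace LTG

open Matrix Set Filter MeasureTheory
open scoped ComplexOrder Topology ComplexConjugate

namespace Kin25

lemma tp_nonneg {n : ℕ} {A : Matrix (Fin n) (Fin n) ℂ} (hA : A.PosSemidef) (p : ℝ) :
    0 ≤ tp p A := by
  rw [tp, dif_pos hA.isHermitian]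
  exact Finset.sum_nonneg fun i _ => Real.rpow_nonneg (hA.eigenvalues_nonneg i) _

/-- The end value. -/
lemma end_value {n : ℕ} {s : ℝ} (C : Fun s (Fin n)) {X M D Q : Matrix (Fin n) (Fin n) ℂ}
    {y : Fin n → ℝ} {e d η τ : ℝ} (hX : X.PosSemidef) (hQ : Q.PosSemidef) (hη : 0 < η)
    (hd : 0 < d)
    (hD : D = Matrix.diagonal fun j => (((s + 1 / 2) * Bs s * y j ^ (2 * s - 1) : ℝ) : ℂ))
    (hM : ((d : ℂ) • 1 + D - M).PosSemidef) (hXd : X.trace.re ≤ d)
    (hesc : ∀ j, ∀ x : ℝ, 0 ≤ x → -((s - 1 / 2) * Bs s * y j ^ (2 * s + 1)) - τ ≤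
      Bs s * x ^ (2 * s + 1) - η * x ^ (2 * s) - d * x ^ 2 - d * x
        - (s + 1 / 2) * Bs s * y j ^ (2 * s - 1) * x ^ 2) :
    -((s - 1 / 2) * Bs s * ∑ j, y j ^ (2 * s + 1)) - n * τ + e * (n * Real.log η)
      ≤ Sig C e X M Q ((1 / 2 : ℂ) • (Q + (η : ℂ) • 1)) := by
  have h1 := Sig_half_ge C (e := e) (M := M) hX hQ hη
  have hDm := dom_half hQ hη
  set k := (1 / 2 : ℂ) • (Q + (η : ℂ) • (1 : Matrix (Fin n) (Fin n) ℂ)) with hk
  have hkp := hDm.posDef.posSemidef
  obtain ⟨x, w, hx, hw, hw1, hw2, htp, htr, hdg⟩ := doubly n k hkp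
  have hkk := trace_kk_nonneg hkp.isHermitian
  have h2 : ((k * k * M).trace).re ≤ d * ∑ a, x a ^ 2
      + ∑ a, ∑ j, w a j * ((s + 1 / 2) * Bs s * y j ^ (2 * s - 1) * x a ^ 2) := by
    have a1 := tr_mul_nonneg hkk hM
    have a2 : ((k * k).trace).re = ∑ a, x a ^ 2 := by
      have := hdg fun _ => 1
      have e1 : (Matrix.diagonal fun _ : Fin n => ((1 : ℝ) : ℂ)) = 1 := by
        simp
      rw [e1, Matrix.mul_one] at this
      rw [this]
      refine Finset.sum_congr rfl fun a _ => ?_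
      simp only [one_mul]
      rw [← Finset.sum_mul, hw1, one_mul]
    have a3 := hdg fun j => (s + 1 / 2) * Bs s * y j ^ (2 * s - 1)
    rw [← hD] at a3
    rw [Matrix.mul_sub, Matrix.mul_add, Matrix.trace_sub, Matrix.trace_add, Matrix.mul_smul,
      Matrix.mul_one, Matrix.trace_smul, Complex.sub_re, Complex.add_re, smul_eq_mul,
      Complex.re_ofReal_mul, a2, a3] at a1
    linarith
  have h3 : X.trace.re * k.trace.re ≤ d * ∑ a, x a := by
    rw [← htr]
    exact mul_le_mul_of_nonneg_right hXd (re_nonneg_of_posSemidef hkp)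
  have h4 : ∑ a, ∑ j, w a j * (-((s - 1 / 2) * Bs s * y j ^ (2 * s + 1)) - τ) ≤
      ∑ a, ∑ j, w a j * (Bs s * x a ^ (2 * s + 1) - η * x a ^ (2 * s) - d * x a ^ 2 - d * x a
        - (s + 1 / 2) * Bs s * y j ^ (2 * s - 1) * x a ^ 2) :=
    Finset.sum_le_sum fun a _ => Finset.sum_le_sum fun j _ =>
      mul_le_mul_of_nonneg_left (hesc j (x a) (hx a)) (hw a j)
  have h5 : ∑ a, ∑ j, w a j * (-((s - 1 / 2) * Bs s * y j ^ (2 * s + 1)) - τ)
      = -((s - 1 / 2) * Bs s * ∑ j, y j ^ (2 * s + 1)) - n * τ := by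
    rw [Finset.sum_comm]
    simp only [← Finset.sum_mul, hw2, one_mul]
    rw [Finset.sum_sub_distrib, Finset.sum_neg_distrib, ← Finset.mul_sum]
    simp
  have h6 : ∑ a, ∑ j, w a j * (Bs s * x a ^ (2 * s + 1) - η * x a ^ (2 * s) - d * x a ^ 2
        - d * x a - (s + 1 / 2) * Bs s * y j ^ (2 * s - 1) * x a ^ 2)
      = Bs s * (∑ a, x a ^ (2 * s + 1)) - η * (∑ a, x a ^ (2 * s)) - d * (∑ a, x a ^ 2)
        - d * (∑ a, x a)
        - ∑ a, ∑ j, w a j * ((s + 1 / 2) * Bs s * y j ^ (2 * s - 1) * x a ^ 2) := by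
    simp only [mul_sub, Finset.sum_sub_distrib, ← Finset.sum_mul, hw1, one_mul, ← Finset.mul_sum]
  rw [h5, h6] at h4
  rw [htp, htp, Fintype.card_fin] at h1
  linarith

end Kin25

open Kin25 in
theorem kin25 : S_KIN := by
  intro s hs hs1 hC hP n m u g y hF hy hgram a b hab
  obtain ⟨C⟩ := hC n
  have hs0 : 0 < s := by linarith
  have hB := CST.Bs_pos hs0
  refine le_of_forall_pos_le_add fun τ hτ => ?_
  set τ' : ℝ := τ / (n + 1) with hτ'
  have hτ'0 : 0 < τ' := by positivity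
  -- the small parameters
  have hesc := fun j => (esc s hs hs1).2 (y j) τ' (hy j) hτ'0
  choose e1 he1 hesc1 using hesc
  obtain ⟨d, hd, hd2⟩ : ∃ d : ℝ, 0 < d ∧ ∀ j, d ≤ e1 j := by
    rcases isEmpty_or_nonempty (Fin n) with hα | hα
    · exact ⟨1, one_pos, fun i => (hα.false i).elim⟩
    · obtain ⟨i0, hi0⟩ := Finite.exists_min e1
      exact ⟨_, he1 i0, hi0⟩
  obtain ⟨T, hT⟩ := hP n m C u g d hd hF
  have ctr : Continuous fun A : Matrix (Fin n) (Fin n) ℂ => A.trace.re := by fun_prop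
  have hXpsd : ∀ x, (Vale.P371.Xm u x).PosSemidef := fun x =>
    Matrix.posSemidef_self_mul_conjTranspose _
  have hXtop : Tendsto (fun x => (Vale.P371.Xm u x).trace.re) atTop (𝓝 0) := by
    have := (ctr.tendsto 0).comp hF.tendsto_Xm_atTop
    rw [Matrix.trace_zero, Complex.zero_re] at this
    exact this
  have hXbot : Tendsto (fun x => (Vale.P371.Xm u x).trace.re) atBot (𝓝 0) := by
    have := (ctr.tendsto 0).comp hF.tendsto_Xm_atBot
    rw [Matrix.trace_zero, Complex.zero_re] at this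
    exact this
  obtain ⟨b', hb', hbb⟩ : ∃ b', b ≤ b' ∧ (Vale.P371.Xm u b').trace.re ≤ d :=
    ((eventually_ge_atTop b).and (hXtop.eventually_le_const hd)).exists
  have hXbot2 : Tendsto (fun x => (n : ℝ) * (Vale.P371.Xm u x).trace.re ^ 2 / (4 * d)) atBot
      (𝓝 0) := by
    have := ((hXbot.pow 2).const_mul (n : ℝ)).div_const (4 * d)
    simpa using this
  obtain ⟨a', ha', haa⟩ : ∃ a', a' ≤ a ∧
      (n : ℝ) * (Vale.P371.Xm u a').trace.re ^ 2 / (4 * d) ≤ τ' :=
    ((eventually_le_atBot a).and (hXbot2.eventually_le_const hτ'0)).exists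
  have hab' : a' ≤ b' := by linarith
  -- continuity and monotonicity of the integrals
  have hcX : Continuous fun x => Vale.P371.Xm u x :=
    continuous_pi fun i => continuous_pi fun j => (hF.primX i j).continuous
  have htpc : Continuous fun x => tp (1 + 1 / s) (Vale.P371.Xm u x) :=
    tpc n (1 + 1 / s) _ (by positivity) hcX hXpsd
  have hI1 : ∫ x in a..b, tp (1 + 1 / s) (Vale.P371.Xm u x)
      ≤ ∫ x in a'..b', tp (1 + 1 / s) (Vale.P371.Xm u x) := by
    refine intervalIntegral.integral_mono_interval ha' hab hb' ?_ (htpc.intervalIntegrable _ _)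
    exact Eventually.of_forall fun x => tp_nonneg (hXpsd x) _
  have hkd : Integrable fun x => ∑ c, ∑ i, ‖g i c x‖ ^ 2 :=
    integrable_finsetSum _ fun c _ => integrable_finsetSum _ fun i _ => hF.int_sq i c
  have hI2 : ∫ x in a'..b', ∑ c, ∑ i, ‖g i c x‖ ^ 2 ≤ ∑ c, ∑ i, ∫ x, ‖g i c x‖ ^ 2 := by
    rw [intervalIntegral.integral_of_le hab']
    refine (setIntegral_le_integral hkd (Eventually.of_forall fun x => by positivity)).trans ?_
    rw [integral_finsetSum _ fun c _ => integrable_finsetSum _ fun i _ => hF.int_sq i c]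
    refine le_of_eq (Finset.sum_congr rfl fun c _ => ?_)
    exact integral_finsetSum _ fun i _ => hF.int_sq i c
  -- the Gram matrix
  set D : Matrix (Fin n) (Fin n) ℂ :=
    Matrix.diagonal fun j => (((s + 1 / 2) * Bs s * y j ^ (2 * s - 1) : ℝ) : ℂ) with hD
  have hMD : ((d : ℂ) • 1 + D - ((d : ℂ) • 1 + Vale.P371.MS u (Iic b'))).PosSemidef := by
    have e2 : (d : ℂ) • 1 + D - ((d : ℂ) • 1 + Vale.P371.MS u (Iic b'))
        = Vale.P371.MS u (Ioi b') := by
      ext i j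
      have h1 := hgram i j
      rw [← intervalIntegral.integral_Iic_add_Ioi (b := b') (hF.intX i j).integrableOn
        (hF.intX i j).integrableOn] at h1
      have h2 : D i j = if i = j then (((s + 1 / 2) * Bs s * y j ^ (2 * s - 1) : ℝ) : ℂ)
          else 0 := by
        rw [hD, Matrix.diagonal_apply]
        by_cases hij : i = j
        · subst hij; simp
        · simp [hij]
      rw [← h2] at h1
      simp only [Matrix.sub_apply, Matrix.add_apply, Vale.P371.MS]
      rw [← h1]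
      ring
    rw [e2]
    exact hF.psd _
  -- the inequality for every `e`
  have hkey : ∀ e : ℝ, 0 < e → e ≤ 1 →
      ∫ x in a..b, tp (1 + 1 / s) (Vale.P371.Xm u x)
        ≤ (n * ((Vale.P371.Xm u a').trace.re + 2 * e * n) ^ 2 / (4 * d) + e * T * (b' - a')
          - e * (n * Real.log d)) + (∑ c, ∑ i, ∫ x, ‖g i c x‖ ^ 2)
          + (s - 1 / 2) * Bs s * (∑ j, y j ^ (2 * s + 1)) + n * τ' := by
    intro e he he1
    obtain ⟨Q, hQ, hQ2⟩ := hT e a' b' he he1 hab'
    have h1 := hQ2 d hd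
    have h2 := end_value C (e := e) (τ := τ') (hXpsd b') hQ hd hd hD hMD hbb
      fun j x hx => hesc1 j d d x hd.le (hd2 j) hd.le (hd2 j) hx
    linarith
  -- the limit `e → 0`
  have hlim : Tendsto (fun e : ℝ => (n * ((Vale.P371.Xm u a').trace.re + 2 * e * n) ^ 2 / (4 * d)
      + e * T * (b' - a') - e * (n * Real.log d)) + (∑ c, ∑ i, ∫ x, ‖g i c x‖ ^ 2)
          + (s - 1 / 2) * Bs s * (∑ j, y j ^ (2 * s + 1)) + n * τ') (𝓝[>] 0)
      (𝓝 ((n * ((Vale.P371.Xm u a').trace.re + 2 * 0 * n) ^ 2 / (4 * d)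
      + 0 * T * (b' - a') - 0 * (n * Real.log d)) + (∑ c, ∑ i, ∫ x, ‖g i c x‖ ^ 2)
          + (s - 1 / 2) * Bs s * (∑ j, y j ^ (2 * s + 1)) + n * τ')) := by
    refine tendsto_nhdsWithin_of_tendsto_nhds (Continuous.tendsto ?_ 0)
    fun_prop
  have hfin := ge_of_tendsto hlim (by
    have : Ioc (0 : ℝ) 1 ∈ 𝓝[>] (0 : ℝ) := Ioc_mem_nhdsGT one_pos
    filter_upwards [this] with e he
    exact hkey e he.1 he.2)
  simp only [mul_zero, zero_mul, add_zero, sub_zero] at hfin
  have hnτ : (n : ℝ) * τ' + τ' = τ := by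
    rw [hτ']; field_simp
  linarith

end LTG
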