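import Vale.Agent.P371.Bridge
import Vale.Agent.P371.Dual
import Vale.Agent.P371.Spec

/-!
# P371: the sharp kinetic inequality for scalar orthonormal families
-/

open MeasureTheory Set Filter Matrix Polynomial
open scoped Topology ComplexConjugate ComplexOrder

namespace Vale.P371

/-- The sharp kinetic inequality. -/
theorem kinetic : LT1.Kinetic := by
  intro n u g h ho
  set U : Fin n → Unit → ℝ → ℂ := fun j _ => u j with hU
  set G : Fin n → Unit → ℝ → ℂ := fun j _ => g j with hG
  have hF : Fam U G := ⟨fun i _ => (h i).memLp, fun i _ => (h i).memLp', fun i _ => (h i).ftc⟩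
  have hX : ∀ x, Xm U x = vecMulVec (fun j => u j x) (star (fun j => u j x)) := by
    intro x
    ext i j
    simp [Xm, Um, hU, Matrix.mul_apply, Matrix.vecMulVec_apply, Matrix.conjTranspose_apply]
  have ho' : ∀ i j, ∫ t, Xm U t i j = if i = j then 1 else 0 := by
    intro i j
    rw [← ho i j]
    congr 1
    funext t
    rw [hX]
    simp [Matrix.vecMulVec_apply]
  have hcube : ∀ x, ((Xm U x * Xm U x * Xm U x).trace).re = (∑ j, ‖u j x‖ ^ 2) ^ 3 := by
    intro x
    have e1 : Xm U x * Xm U x * Xm U x = (Xm U x) ^ 3 := by rw [pow_succ, pow_two]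
    rw [e1, hX, cube_vmv]
    have e2 : mo (1 : Matrix (Fin n) (Fin n) ℂ) (fun j => u j x) 0 =
        ((∑ j, ‖u j x‖ ^ 2 : ℝ) : ℂ) := by
      simp only [mo, pow_zero, Matrix.one_mulVec, dotProduct, Pi.star_apply]
      push_cast
      apply Finset.sum_congr rfl
      intro j _
      rw [Complex.star_def, ← Complex.normSq_eq_conj_mul_self, Complex.normSq_eq_norm_sq]
      push_cast
      rfl
    rw [e2, ← Complex.ofReal_pow, Complex.ofReal_re]
  have hkin : ∀ c : Unit, ∑ i, ∫ x, ‖G i c x‖ ^ 2 = ∑ j, ∫ x, ‖g j x‖ ^ 2 := fun _ => rfl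
  -- for every `d > 0`
  have key : ∀ d : ℝ, 0 < d → ((Real.pi / 2) ^ 2 - d) * ∫ x, (∑ j, ‖u j x‖ ^ 2) ^ 3 ≤
      ∑ j, ∫ x, ‖g j x‖ ^ 2 := by
    intro d hd
    obtain ⟨p, hp⟩ := exists_poly_kernel hd
    have := hF.kinetic_core ho' p p.natDegree ((Real.pi / 2) ^ 2 - d) (by
      intro M hM hM1 V
      have hV : V * Vᴴ = vecMulVec (fun j => V j ()) (star (fun j => V j ())) := by
        ext i j
        simp [Matrix.mul_apply, Matrix.vecMulVec_apply, Matrix.conjTranspose_apply]
      rw [hV]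
      exact bridge p p.natDegree _ hM.1 _ (spec M hM hM1 _ p p.natDegree le_rfl _ (hp _ le_rfl)))
    simp only [hcube] at this
    simpa [hkin] using this
  set J := ∫ x, (∑ j, ‖u j x‖ ^ 2) ^ 3 with hJ
  set T := ∑ j, ∫ x, ‖g j x‖ ^ 2 with hT
  have hJ0 : 0 ≤ J := integral_nonneg (fun x => by positivity)
  have e0 : Real.pi ^ 2 / 4 = (Real.pi / 2) ^ 2 := by ring
  rw [e0]
  by_contra hcon
  push Not at hcon
  rcases hJ0.eq_or_lt with h0 | h0
  · rw [← h0] at hcon key
    have := key 1 one_pos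
    linarith
  · have := key (((Real.pi / 2) ^ 2 * J - T) / (2 * J)) (by
      apply div_pos <;> linarith)
    have e : ((Real.pi / 2) ^ 2 - ((Real.pi / 2) ^ 2 * J - T) / (2 * J)) * J =
        (Real.pi / 2) ^ 2 * J - ((Real.pi / 2) ^ 2 * J - T) / 2 := by
      field_simp
    rw [e] at this
    linarith

end Vale.P371
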