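import Mathlib

/-!
# P371: primitives of locally integrable functions (absolutely continuous calculus on `ℝ`)
-/

open MeasureTheory Set Filter
open scoped Topology

namespace Vale.P371

variable {E E' : Type*} [NormedAddCommGroup E] [NormedSpace ℝ E]
  [NormedAddCommGroup E'] [NormedSpace ℝ E']

/-- `F` is a primitive of the locally integrable function `f`. -/
def Prim (F f : ℝ → E) : Prop :=
  ∀ a b : ℝ, IntervalIntegrable f volume a b ∧ F b - F a = ∫ x in a..b, f x

namespace Prim

theorem intervalIntegrable {F f : ℝ → E} (h : Prim F f) (a b : ℝ) :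
    IntervalIntegrable f volume a b := (h a b).1

theorem sub_eq {F f : ℝ → E} (h : Prim F f) (a b : ℝ) :
    F b - F a = ∫ x in a..b, f x := (h a b).2

theorem eq_add {F f : ℝ → E} (h : Prim F f) (a : ℝ) :
    F = fun x => F a + ∫ t in a..x, f t := by
  funext x
  rw [← h.sub_eq a x]; abel

theorem continuous {F f : ℝ → E} (h : Prim F f) : Continuous F := by
  rw [h.eq_add 0]
  exact continuous_const.add (intervalIntegral.continuous_primitive h.intervalIntegrable 0)

theorem locallyIntegrable {F f : ℝ → E} (h : Prim F f) : LocallyIntegrable f volume := by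
  intro x
  refine ⟨Icc (x - 1) (x + 1), Icc_mem_nhds (by linarith) (by linarith), ?_⟩
  have := h.intervalIntegrable (x - 1) (x + 1)
  rwa [intervalIntegrable_iff_integrableOn_Icc_of_le (by linarith)] at this

theorem clm {F f : ℝ → E} (h : Prim F f) (L : E →L[ℝ] E') [CompleteSpace E] [CompleteSpace E'] :
    Prim (fun x => L (F x)) (fun x => L (f x)) := by
  intro a b
  refine ⟨⟨L.integrable_comp (h a b).1.1, L.integrable_comp (h a b).1.2⟩, ?_⟩
  rw [← map_sub, (h a b).2, L.intervalIntegral_comp_comm (h a b).1]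

theorem add {F f G g : ℝ → E} (h : Prim F f) (h' : Prim G g) :
    Prim (fun x => F x + G x) (fun x => f x + g x) := by
  intro a b
  refine ⟨(h a b).1.add (h' a b).1, ?_⟩
  rw [intervalIntegral.integral_add (h a b).1 (h' a b).1, ← (h a b).2, ← (h' a b).2]
  exact add_sub_add_comm _ _ _ _

theorem neg {F f : ℝ → E} (h : Prim F f) : Prim (fun x => - F x) (fun x => - f x) := by
  intro a b
  refine ⟨(h a b).1.neg, ?_⟩
  rw [intervalIntegral.integral_neg, ← (h a b).2]
  exact (neg_sub_neg _ _).trans (neg_sub _ _).symm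

theorem sub {F f G g : ℝ → E} (h : Prim F f) (h' : Prim G g) :
    Prim (fun x => F x - G x) (fun x => f x - g x) := by
  simpa [sub_eq_add_neg] using h.add h'.neg

theorem const (c : E) : Prim (fun _ => c) (fun _ => (0 : E)) := by
  intro a b
  simp

theorem sum {ι : Type*} (s : Finset ι) {F f : ι → ℝ → E} (h : ∀ i ∈ s, Prim (F i) (f i)) :
    Prim (fun x => ∑ i ∈ s, F i x) (fun x => ∑ i ∈ s, f i x) := by
  classical
  induction s using Finset.induction_on with
  | empty => simpa using (const (0 : E))
  | insert i s hi ih =>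
    simp only [Finset.sum_insert hi]
    exact (h i (Finset.mem_insert_self i s)).add
      (ih (fun j hj => h j (Finset.mem_insert_of_mem hj)))

theorem const_mul {F f : ℝ → ℝ} (h : Prim F f) (c : ℝ) :
    Prim (fun x => c * F x) (fun x => c * f x) := by
  intro a b
  refine ⟨(h a b).1.const_mul c, ?_⟩
  rw [intervalIntegral.integral_const_mul, ← (h a b).2]
  ring

theorem congr_ae {F f g : ℝ → E} (h : Prim F f) (hfg : f =ᵐ[volume] g) : Prim F g := by
  intro a b
  refine ⟨(h a b).1.congr_ae (ae_restrict_of_ae hfg), ?_⟩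
  rw [(h a b).2]
  exact intervalIntegral.integral_congr_ae (hfg.mono (fun x hx _ => hx))

theorem ac {F f : ℝ → ℝ} (h : Prim F f) (a b : ℝ) : AbsolutelyContinuousOnInterval F a b := by
  rw [h.eq_add a]
  have h1 : AbsolutelyContinuousOnInterval (fun x => ∫ t in a..x, f t) a b :=
    (h.intervalIntegrable a b).absolutelyContinuousOnInterval_intervalIntegral (by simp)
  have h2 : AbsolutelyContinuousOnInterval (fun _ : ℝ => F a) a b := by
    have h0 : AbsolutelyContinuousOnInterval (fun x => ∫ t in a..x, (0:ℝ)) a b :=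
      (IntervalIntegrable.zero).absolutelyContinuousOnInterval_intervalIntegral (by simp)
    have : AbsolutelyContinuousOnInterval (fun _ : ℝ => (0:ℝ)) a b := by simpa using h0
    rw [absolutelyContinuousOnInterval_iff] at this ⊢
    intro ε hε
    obtain ⟨δ, hδ, H⟩ := this ε hε
    refine ⟨δ, hδ, fun E hE hE2 => ?_⟩
    simpa using hε
  exact h2.add h1

theorem ae_hasDerivAt [CompleteSpace E] {F f : ℝ → E} (h : Prim F f) :
    ∀ᵐ x, HasDerivAt F (f x) x := by
  filter_upwards [_root_.LocallyIntegrable.ae_hasDerivAt_integral h.locallyIntegrable] with x hx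
  rw [h.eq_add 0]
  exact (hx 0).const_add _

theorem mul {F f G g : ℝ → ℝ} (h : Prim F f) (h' : Prim G g) :
    Prim (fun x => F x * G x) (fun x => f x * G x + F x * g x) := by
  intro a b
  refine ⟨((h a b).1.mul_continuousOn h'.continuous.continuousOn).add
    ((h' a b).1.continuousOn_mul h.continuous.continuousOn), ?_⟩
  rw [← (h.ac a b).integral_deriv_mul_eq_sub (h'.ac a b)]
  apply intervalIntegral.integral_congr_ae
  filter_upwards [h.ae_hasDerivAt, h'.ae_hasDerivAt] with x hx hx' _
  rw [hx.deriv, hx'.deriv]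

/-- Product rule, complex version. -/
theorem mulC {F f G g : ℝ → ℂ} (h : Prim F f) (h' : Prim G g) :
    Prim (fun x => F x * G x) (fun x => f x * G x + F x * g x) := by
  have hr := h.clm Complex.reCLM
  have hi := h.clm Complex.imCLM
  have hr' := h'.clm Complex.reCLM
  have hi' := h'.clm Complex.imCLM
  have p1 := ((hr.mul hr').sub (hi.mul hi')).clm Complex.ofRealCLM
  have p2 := ((hr.mul hi').add (hi.mul hr')).clm Complex.ofRealCLM
  have p3 : Prim (fun x => (Complex.ofRealCLM ((Complex.reCLM (F x)) * (Complex.imCLM (G x))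
      + (Complex.imCLM (F x)) * (Complex.reCLM (G x))) : ℂ) * Complex.I)
      (fun x => (Complex.ofRealCLM ((Complex.reCLM (f x)) * (Complex.imCLM (G x))
        + (Complex.reCLM (F x)) * (Complex.imCLM (g x))
      + ((Complex.imCLM (f x)) * (Complex.reCLM (G x))
        + (Complex.imCLM (F x)) * (Complex.reCLM (g x)))) : ℂ) * Complex.I) :=
    p2.clm ((ContinuousLinearMap.mul ℝ ℂ).flip Complex.I)
  have p4 := p1.add p3
  convert p4 using 1
  · funext x
    apply Complex.ext <;> simp [Complex.mul_re, Complex.mul_im]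
  · funext x
    apply Complex.ext <;> simp [Complex.mul_re, Complex.mul_im] <;> ring

theorem conj {F f : ℝ → ℂ} (h : Prim F f) :
    Prim (fun x => (starRingEnd ℂ) (F x)) (fun x => (starRingEnd ℂ) (f x)) :=
  h.clm (Complex.conjCLE : ℂ →L[ℝ] ℂ)

/-- A function with integrable derivative and zero limits has derivative of integral zero. -/
theorem integral_eq_zero {Q q : ℝ → E} [CompleteSpace E] (h : Prim Q q) (hq : Integrable q)
    (h1 : Tendsto Q atTop (𝓝 0)) (h2 : Tendsto Q atBot (𝓝 0)) : ∫ x, q x = 0 := by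
  have t1 : Tendsto (fun n : ℝ => ∫ x in (-n)..n, q x) atTop (𝓝 (∫ x, q x)) :=
    intervalIntegral_tendsto_integral hq tendsto_neg_atTop_atBot tendsto_id
  have t2 : Tendsto (fun n : ℝ => ∫ x in (-n)..n, q x) atTop (𝓝 0) := by
    have : (fun n : ℝ => ∫ x in (-n)..n, q x) = fun n => Q n - Q (-n) := by
      funext n; rw [h.sub_eq]
    rw [this]
    simpa using h1.sub (h2.comp tendsto_neg_atTop_atBot)
  exact tendsto_nhds_unique t1 t2

/-- The primitive of an integrable function has limits at infinity. -/
theorem exists_tendsto_atTop {Q q : ℝ → E} [CompleteSpace E] (h : Prim Q q) (hq : Integrable q) :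
    Tendsto Q atTop (𝓝 (Q 0 + ∫ x in Ioi 0, q x)) := by
  have := intervalIntegral_tendsto_integral_Ioi 0 hq.integrableOn tendsto_id
  rw [h.eq_add 0]
  simpa using this.const_add (Q 0)

theorem exists_tendsto_atBot {Q q : ℝ → E} [CompleteSpace E] (h : Prim Q q) (hq : Integrable q) :
    Tendsto Q atBot (𝓝 (Q 0 - ∫ x in Iic 0, q x)) := by
  have := intervalIntegral_tendsto_integral_Iic 0 hq.integrableOn tendsto_id
  have e : Q = fun x => Q 0 - ∫ t in x..0, q t := by
    funext x
    rw [← h.sub_eq x 0]; simp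
  rw [e]
  simpa using this.const_sub (Q 0)

theorem ofReal_mul {F f : ℝ → ℂ} (h : Prim F f) (c : ℂ) :
    Prim (fun x => c * F x) (fun x => c * f x) :=
  h.clm (ContinuousLinearMap.mul ℝ ℂ c)

/-- A function with integrable derivative is bounded. -/
theorem norm_le {Q q : ℝ → E} (h : Prim Q q) (hq : Integrable q) (x : ℝ) :
    ‖Q x‖ ≤ ‖Q 0‖ + ∫ t, ‖q t‖ := by
  have e : Q x = Q 0 + ∫ t in (0:ℝ)..x, q t := by
    rw [← h.sub_eq 0 x]; abel
  have h1 : ‖∫ t in (0:ℝ)..x, q t‖ ≤ ∫ t, ‖q t‖ :=
    intervalIntegral.norm_integral_le_integral_norm_uIoc.trans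
      (setIntegral_le_integral hq.norm (Eventually.of_forall (fun t => norm_nonneg _)))
  rw [e]
  exact (norm_add_le _ _).trans (by linarith)

/-- The primitive `∫_{-∞}^x` of an integrable function. -/
theorem iic {q : ℝ → E} [CompleteSpace E] (hq : Integrable q) :
    Prim (fun x => ∫ t in Iic x, q t) q := by
  intro a b
  refine ⟨hq.intervalIntegrable, ?_⟩
  exact (intervalIntegral.integral_Iic_sub_Iic hq.integrableOn hq.integrableOn)

theorem iic_atTop {q : ℝ → E} [CompleteSpace E] (hq : Integrable q) :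
    Tendsto (fun x => ∫ t in Iic x, q t) atTop (𝓝 (∫ t, q t)) := by
  have h := (iic hq).exists_tendsto_atTop hq
  rwa [intervalIntegral.integral_Iic_add_Ioi hq.integrableOn hq.integrableOn] at h

theorem iic_atBot {q : ℝ → E} [CompleteSpace E] (hq : Integrable q) :
    Tendsto (fun x => ∫ t in Iic x, q t) atBot (𝓝 0) := by
  have h := (iic hq).exists_tendsto_atBot hq
  rwa [sub_self] at h

/-- An integrable function with integrable derivative tends to zero at `+∞`. -/
theorem tendsto_atTop_zero {Q q : ℝ → E} [CompleteSpace E] (h : Prim Q q) (hq : Integrable q)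
    (hQ : Integrable Q) : Tendsto Q atTop (𝓝 0) := by
  have h1 := h.exists_tendsto_atTop hq
  set L := Q 0 + ∫ x in Ioi 0, q x with hL
  by_contra hne
  have hL0 : L ≠ 0 := fun h0 => hne (by rw [h0] at h1; exact h1)
  have hpos : 0 < ‖L‖ := norm_pos_iff.mpr hL0
  have hev : ∀ᶠ x in atTop, ‖L‖ / 2 ≤ ‖Q x‖ := by
    have h2 : Tendsto (fun x => ‖Q x‖) atTop (𝓝 ‖L‖) := h1.norm
    exact h2.eventually (eventually_ge_nhds (by linarith))
  obtain ⟨a, ha⟩ := eventually_atTop.mp hev
  have hint : IntegrableOn (fun _ : ℝ => ‖L‖ / 2) (Ioi a) := by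
    have : IntegrableOn (fun x => ‖Q x‖) (Ioi a) := hQ.norm.integrableOn
    refine Integrable.mono' this aestronglyMeasurable_const ?_
    refine (ae_restrict_iff' measurableSet_Ioi).mpr (Eventually.of_forall (fun x hx => ?_))
    rw [Real.norm_of_nonneg (by positivity)]
    exact ha x (le_of_lt hx)
  rw [integrableOn_const_iff] at hint
  rcases hint with h3 | h3
  · have h4 : ‖L‖ / 2 ≠ 0 := by positivity
    rw [enorm_eq_zero] at h3
    exact h4 h3
  · simp at h3

theorem comp_neg {F f : ℝ → E} (h : Prim F f) : Prim (fun x => F (-x)) (fun x => - f (-x)) := by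
  intro a b
  constructor
  · have := ((h (-a) (-b)).1.comp_sub_left 0).neg
    simpa [Pi.neg_def] using this
  · rw [intervalIntegral.integral_neg, intervalIntegral.integral_comp_neg, h.sub_eq,
      intervalIntegral.integral_symm]

theorem tendsto_atBot_zero {Q q : ℝ → E} [CompleteSpace E] (h : Prim Q q) (hq : Integrable q)
    (hQ : Integrable Q) : Tendsto Q atBot (𝓝 0) := by
  have h1 := h.comp_neg.tendsto_atTop_zero hq.comp_neg.neg hQ.comp_neg
  have h2 := h1.comp tendsto_neg_atBot_atTop
  simpa [Function.comp_def] using h2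

end Prim

end Vale.P371
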